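import Vale.Agent.Lib.P137.Deriv2

namespace Vale.Agent.Lib.P137

open MeasureTheory Metric Set Filter Topology
open scoped ENNReal

set_option linter.unusedSectionVars false

variable {E : Type*} [NormedAddCommGroup E] [InnerProductSpace ℝ E] [FiniteDimensional ℝ E]
  [MeasurableSpace E] [BorelSpace E]

/-- a smoothing of the absolute value -/
lemma exists_smooth_abs {φ : E → ℝ} (hφ : ContDiff ℝ 1 φ) (hc : HasCompactSupport φ) {η : ℝ} (hη : 0 < η) :
    ∃ h : E → ℝ, ContDiff ℝ 1 h ∧ HasCompactSupport h ∧ (∀ y, 0 ≤ h y) ∧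
      (∫ y, ‖h y - |φ y|‖ ≤ η) ∧ ∀ y, ‖fderiv ℝ h y‖ ≤ ‖fderiv ℝ φ y‖ := by
  have hφc : Continuous φ := hφ.continuous
  obtain ⟨V, hV⟩ : ∃ V, V = (volume : Measure E).real (tsupport φ) := ⟨_, rfl⟩
  have hV0 : 0 ≤ V := by rw [hV]; exact measureReal_nonneg
  obtain ⟨ε, hε⟩ : ∃ ε, ε = η / (V + 1) := ⟨_, rfl⟩
  have hε0 : 0 < ε := by rw [hε]; positivity
  let S : E → ℝ := fun y => φ y ^ 2 + ε ^ 2
  have hSpos : ∀ y, 0 < S y := fun y => by
    have := sq_nonneg (φ y)
    have := pow_pos hε0 2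
    simp only [S]
    linarith
  have hSc : ContDiff ℝ 1 S := (hφ.pow 2).add contDiff_const
  let h : E → ℝ := fun y => √(S y) - ε
  have hsq : ∀ y, ε ≤ √(S y) := by
    intro y
    apply Real.le_sqrt_of_sq_le
    have := sq_nonneg (φ y)
    simp only [S]
    linarith
  have hsq2 : ∀ y, |φ y| ≤ √(S y) := by
    intro y
    apply Real.abs_le_sqrt
    have := pow_pos hε0 2
    simp only [S]
    linarith
  have hsq3 : ∀ y, √(S y) ≤ |φ y| + ε := by
    intro y
    apply Real.sqrt_le_iff.mpr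
    refine ⟨by positivity, ?_⟩
    have h1 := abs_nonneg (φ y)
    have h2 : φ y ^ 2 = |φ y| ^ 2 := (sq_abs _).symm
    simp only [S]
    rw [h2]
    nlinarith
  have hzero : ∀ y, φ y = 0 → h y = 0 := by
    intro y hy
    simp only [h, S, hy]
    rw [show (0 : ℝ) ^ 2 + ε ^ 2 = ε ^ 2 by ring, Real.sqrt_sq hε0.le, sub_self]
  have hcs : HasCompactSupport h := by
    apply hc.mono
    intro y hy hy2
    exact hy (hzero y hy2)
  have hC : ContDiff ℝ 1 h := (hSc.sqrt (fun y => (hSpos y).ne')).sub contDiff_const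
  refine ⟨h, hC, hcs, fun y => sub_nonneg.mpr (hsq y), ?_, ?_⟩
  · -- the mean distance
    have hb : ∀ y, ‖h y - |φ y|‖ ≤ (tsupport φ).indicator (fun _ => ε) y := by
      intro y
      by_cases hy : y ∈ tsupport φ
      · rw [indicator_of_mem hy, Real.norm_eq_abs, abs_le]
        have h1 := hsq2 y
        have h2 := hsq3 y
        simp only [h]
        constructor <;> linarith
      · rw [indicator_of_notMem hy]
        have h1 : φ y = 0 := image_eq_zero_of_notMem_tsupport hy
        rw [hzero y h1, h1]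
        simp
    have hm : MeasurableSet (tsupport φ) := hc.isCompact.measurableSet
    have hfin : (volume : Measure E) (tsupport φ) ≠ ⊤ := hc.isCompact.measure_lt_top.ne
    have hi2 : Integrable ((tsupport φ).indicator (fun _ => ε) : E → ℝ) :=
      (integrableOn_const hfin).integrable_indicator hm
    have h3 : ∫ y, ‖h y - |φ y|‖ ≤ ∫ y, (tsupport φ).indicator (fun _ => ε) y := by
      apply integral_mono_of_nonneg (Eventually.of_forall fun y => norm_nonneg _) hi2
      exact Eventually.of_forall hb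
    refine h3.trans ?_
    rw [integral_indicator hm, setIntegral_const, smul_eq_mul, ← hV, hε]
    have : V * (η / (V + 1)) = η * (V / (V + 1)) := by ring
    rw [this]
    have h4 : V / (V + 1) ≤ 1 := by
      rw [div_le_one (by positivity)]
      linarith
    nlinarith
  · intro y
    have hd : HasFDerivAt φ (fderiv ℝ φ y) y := (hφ.differentiable (by norm_num) y).hasFDerivAt
    have hS : HasFDerivAt S ((2 * φ y) • fderiv ℝ φ y) y := by
      have h0 := ((hd.pow 2).add_const (ε ^ 2))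
      have e0 : (2 • φ y ^ (2 - 1)) • fderiv ℝ φ y = (2 * φ y) • fderiv ℝ φ y := by
        congr 1
        simp
      exact h0.congr_fderiv e0
    have h1 : HasFDerivAt h ((1 / (2 * √(S y))) • ((2 * φ y) • fderiv ℝ φ y)) y :=
      (hS.sqrt (hSpos y).ne').sub_const ε
    rw [h1.fderiv, norm_smul, norm_smul]
    have hpos : 0 < √(S y) := Real.sqrt_pos.mpr (hSpos y)
    have h2 := hsq2 y
    rw [Real.norm_eq_abs, Real.norm_eq_abs, abs_of_pos (by positivity), abs_mul, abs_of_pos two_pos]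
    have h3 : 1 / (2 * √(S y)) * (2 * |φ y|) ≤ 1 := by
      rw [div_mul_eq_mul_div, one_mul, div_le_one (by positivity)]
      linarith
    calc _ = (1 / (2 * √(S y)) * (2 * |φ y|)) * ‖fderiv ℝ φ y‖ := by ring
      _ ≤ 1 * ‖fderiv ℝ φ y‖ := mul_le_mul_of_nonneg_right h3 (norm_nonneg _)
      _ = _ := one_mul _

section

variable {f : E → ℝ} {fk : ℕ → E → ℝ} {A : ℝ}

/-- the approximation of the absolute value of the input -/
lemma happ_of_seq (H : FastSeq f fk)
    (hgr : ∀ η > 0, ∃ k, ∫ y, ‖f y - fk k y‖ ≤ η ∧ ∫ y, ‖fderiv ℝ (fk k) y‖ ≤ A + η) :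
    ∀ η > 0, ∃ h : E → ℝ, ContDiff ℝ 1 h ∧ HasCompactSupport h ∧ (∀ y, 0 ≤ h y) ∧
      ∫ y, ‖h y - |f y|‖ ≤ η ∧ ∫ y, ‖fderiv ℝ h y‖ ≤ A + η := by
  intro η hη
  obtain ⟨k, hk1, hk2⟩ := hgr (η / 2) (by positivity)
  obtain ⟨h, h1, h2, h3, h4, h5⟩ := exists_smooth_abs (H.c1 k) (H.cs k) (η := η / 2) (by positivity)
  refine ⟨h, h1, h2, h3, ?_, ?_⟩
  · have hfki : Integrable (fk k) := (H.cont k).integrable_of_hasCompactSupport (H.cs k)
    have hhi : Integrable h := h1.continuous.integrable_of_hasCompactSupport h2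
    have i1 : Integrable (fun y => ‖h y - |fk k y|‖) := (hhi.sub hfki.abs).norm
    have i2 : Integrable (fun y => ‖f y - fk k y‖) := (H.int.sub hfki).norm
    have i3 : Integrable (fun y => ‖h y - |f y|‖) := (hhi.sub H.int.abs).norm
    have i4 : Integrable (fun y => ‖h y - |fk k y|‖ + ‖f y - fk k y‖) := i1.add i2
    have h6 : ∫ y, ‖h y - |f y|‖ ≤ ∫ y, (‖h y - |fk k y|‖ + ‖f y - fk k y‖) := by
      apply integral_mono i3 i4
      intro y
      simp only [Real.norm_eq_abs]
      have h7 := abs_sub_le (h y) (|fk k y|) (|f y|)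
      have h8 := abs_abs_sub_abs_le_abs_sub (f y) (fk k y)
      rw [abs_sub_comm (|fk k y|)] at h7
      linarith
    rw [integral_add i1 i2] at h6
    linarith
  · have hd : Continuous (fun y => ‖fderiv ℝ (fk k) y‖) :=
      ((H.c1 k).continuous_fderiv (by norm_num)).norm
    have hds : HasCompactSupport (fun y => ‖fderiv ℝ (fk k) y‖) :=
      ((H.cs k).fderiv (𝕜 := ℝ)).norm
    have hh : Continuous (fun y => ‖fderiv ℝ h y‖) := (h1.continuous_fderiv (by norm_num)).norm
    have hhs : HasCompactSupport (fun y => ‖fderiv ℝ h y‖) := (h2.fderiv (𝕜 := ℝ)).norm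
    have h6 : ∫ y, ‖fderiv ℝ h y‖ ≤ ∫ y, ‖fderiv ℝ (fk k) y‖ :=
      integral_mono (hh.integrable_of_hasCompactSupport hhs) (hd.integrable_of_hasCompactSupport hds) h5
    linarith

/-- a good line for the input gives a good line for the maximal function, given the translation bound -/
lemma line_good_of_fastSeq (H : FastSeq f fk) {e : E} (he : ‖e‖ = 1) [Nontrivial E] {B : ℝ}
    (hT : ∀ v : E, ∫⁻ x, ENNReal.ofReal ‖Mtil (fun y => |f y|) (x + v) - Mtil (fun y => |f y|) x‖ ≤
      ENNReal.ofReal (B * ‖v‖)) :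
    ∀ᵐ x : E, LineGood (Mtil (fun y => |f y|)) e x := by
  have hg0 : ∀ y, 0 ≤ |f y| := fun y => abs_nonneg _
  have hgi : Integrable (fun y => |f y|) := H.int.abs
  have hm : Measurable (Mtil (fun y => |f y|)) := measurable_Mtil hg0
  filter_upwards [H.ae_good he, ae_line_bv hm hT he] with x hx hbv
  obtain ⟨F, hF⟩ := H.lineData hx
  have hc := hF.continuous_U hg0 hgi he
  refine ⟨hc, ?_, hF.lusin_U hg0 hgi he⟩
  intro a b _ _
  rw [univ_inter]
  obtain ⟨T, hT⟩ := exists_nat_ge (max |a| |b|)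
  have h1 := hbv T hc
  apply ne_top_of_le_ne_top h1
  apply eVariationOn.mono
  intro t ht
  have h2 : |a| ≤ T := (le_max_left _ _).trans hT
  have h3 : |b| ≤ T := (le_max_right _ _).trans hT
  have h4 := (abs_le.mp h2).1
  have h5 := (abs_le.mp h3).2
  exact ⟨h4.trans ht.1, ht.2.trans h5⟩

/-- the maximal function is finite almost everywhere -/
lemma ae_bdd_of_fastSeq [Nontrivial E] (H : FastSeq f fk) :
    ∀ᵐ x : E, BddAbove (range (fun p : {p : E × ℝ // 0 < p.2 ∧ x ∈ ball p.1 p.2} =>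
      ballAv (fun y => |f y|) p.1.1 p.1.2)) := by
  obtain ⟨e, he⟩ := exists_norm_eq E (c := 1) zero_le_one
  have hg0 : ∀ y, 0 ≤ |f y| := fun y => abs_nonneg _
  have hgi : Integrable (fun y => |f y|) := H.int.abs
  filter_upwards [H.ae_good he] with x hx
  obtain ⟨F, hF⟩ := H.lineData hx
  have := hF.bdd hg0 hgi 0
  have e0 : x + (0 : ℝ) • e = x := by simp
  rw [e0] at this
  exact this

/-- the translation estimate for the maximal function of a function in the Sobolev space -/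
lemma translate_of_fastSeq [Nontrivial E] (H : FastSeq f fk)
    (hgr : ∀ η > 0, ∃ k, ∫ y, ‖f y - fk k y‖ ≤ η ∧ ∫ y, ‖fderiv ℝ (fk k) y‖ ≤ A + η) (v : E) :
    ∫⁻ x, ENNReal.ofReal ‖Mtil (fun y => |f y|) (x + v) - Mtil (fun y => |f y|) x‖ ≤
      ENNReal.ofReal ((4 * Module.finrank ℝ E * (K5 E * A)) * ‖v‖) := by
  have h1 := Mtil_translate_general (g := fun y => |f y|) (fun y => abs_nonneg _) H.int.abs
    (happ_of_seq H hgr) (ae_bdd_of_fastSeq H) v
  have e1 : 4 * (Module.finrank ℝ E : ℝ) * ‖v‖ * (K5 E * A) = (4 * Module.finrank ℝ E * (K5 E * A)) * ‖v‖ := by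
    ring
  rwa [e1] at h1

end

end Vale.Agent.Lib.P137
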