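import Vale.Agent.Lib.P137.Main1

namespace Vale.Agent.Lib.P137

open MeasureTheory Metric Set Filter Topology
open scoped ENNReal

set_option linter.unusedSectionVars false

variable {E : Type*} [NormedAddCommGroup E] [InnerProductSpace ℝ E] [FiniteDimensional ℝ E]
  [MeasurableSpace E] [BorelSpace E]

/-- the maximal function of an integrable function is finite almost everywhere -/
lemma ae_bdd_of_integrable [Nontrivial E] {f : E → ℝ} (hf : Integrable f) :
    ∀ᵐ x : E, BddAbove (range (fun p : {p : E × ℝ // 0 < p.2 ∧ x ∈ ball p.1 p.2} =>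
      ballAv (fun y => |f y|) p.1.1 p.1.2)) := by
  have hg0 : ∀ y, 0 ≤ |f y| := fun y => abs_nonneg _
  have hgi : Integrable (fun y => |f y|) := hf.abs
  have hm : AEMeasurable (fun y => ENNReal.ofReal |f y|) :=
    hgi.aestronglyMeasurable.aemeasurable.ennreal_ofReal
  obtain ⟨J, hJm, hJe⟩ : ∃ J : E → ℝ≥0∞, Measurable J ∧ (fun y => ENNReal.ofReal |f y|) =ᵐ[volume] J :=
    ⟨hm.mk _, hm.measurable_mk, hm.ae_eq_mk⟩
  have hI : ∫⁻ y, J y ≠ ⊤ := by
    rw [← lintegral_congr_ae hJe]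
    have := hgi.hasFiniteIntegral
    unfold HasFiniteIntegral at this
    simp_rw [← ofReal_norm, Real.norm_eq_abs, abs_abs] at this
    exact this.ne
  obtain ⟨K, hK⟩ : ∃ K, K = ENNReal.ofReal ((4 : ℝ) ^ Module.finrank ℝ E) := ⟨_, rfl⟩
  let S : ℕ → Set E := fun n => {x : E | ∃ c ρ, 0 < ρ ∧ ρ < 1 ∧ x ∈ ball c ρ ∧
    ((n : ℝ≥0∞) + 1) * volume (ball c ρ) < ∫⁻ y in ball c ρ, J y}
  have hS : ∀ n : ℕ, volume (S n) ≤ K / ((n : ℝ≥0∞) + 1) * ∫⁻ y, J y := by
    intro n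
    rw [hK]
    exact weak_type_balls hJm (by simp) (by simp)
  have hnull : volume (⋂ n, S n) = 0 := by
    have hlim : Tendsto (fun n : ℕ => K / ((n : ℝ≥0∞) + 1) * ∫⁻ y, J y) atTop (𝓝 (0 * ∫⁻ y, J y)) := by
      apply ENNReal.Tendsto.mul_const _ (Or.inr hI)
      have h1 : Tendsto (fun n : ℕ => ((n : ℝ≥0∞) + 1)) atTop (𝓝 ⊤) := by
        have h0 := ENNReal.tendsto_nat_nhds_top.comp (tendsto_add_atTop_nat 1)
        refine h0.congr (fun n => ?_)
        simp
      have h2 := ENNReal.Tendsto.const_div (a := K) h1 (Or.inr (by rw [hK]; exact ENNReal.ofReal_ne_top))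
      simpa using h2
    rw [zero_mul] at hlim
    apply nonpos_iff_eq_zero.mp
    apply ge_of_tendsto' hlim
    intro n
    exact (measure_mono (iInter_subset S n)).trans (hS n)
  have hae : ∀ᵐ x : E, x ∉ ⋂ n, S n := measure_eq_zero_iff_ae_notMem.mp hnull
  filter_upwards [hae] with x hx
  simp only [mem_iInter, not_forall] at hx
  obtain ⟨n, hn⟩ := hx
  refine ⟨max ((n : ℝ) + 1) ((vb E 1)⁻¹ * ∫ y, |f y|), ?_⟩
  rintro _ ⟨p, rfl⟩
  obtain ⟨⟨c, ρ⟩, hρ, hxb⟩ := p
  simp only at hρ hxb ⊢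
  by_cases h1 : ρ < 1
  · apply le_max_of_le_left
    have h2 : ∫⁻ y in ball c ρ, J y ≤ ((n : ℝ≥0∞) + 1) * volume (ball c ρ) := by
      by_contra hc
      exact hn ⟨c, ρ, hρ, h1, hxb, not_le.mp hc⟩
    have hv := vb_pos (E := E) hρ
    unfold ballAv
    rw [inv_mul_le_iff₀ hv]
    have h3 : ∫ y in ball c ρ, |f y| = (∫⁻ y in ball c ρ, ENNReal.ofReal |f y|).toReal := by
      rw [integral_eq_lintegral_of_nonneg_ae (Eventually.of_forall hg0) hgi.aestronglyMeasurable.restrict]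
    have h4 : ∫⁻ y in ball c ρ, ENNReal.ofReal |f y| = ∫⁻ y in ball c ρ, J y :=
      lintegral_congr_ae (ae_restrict_of_ae hJe)
    rw [h3, h4]
    have h5 : (((n : ℝ≥0∞) + 1) * volume (ball c ρ)).toReal = vb E ρ * ((n : ℝ) + 1) := by
      rw [ENNReal.toReal_mul, ← measureReal_def, real_ball_eq, ENNReal.toReal_add (by simp) (by simp)]
      simp [mul_comm]
    rw [← h5]
    apply ENNReal.toReal_mono _ h2
    exact ENNReal.mul_ne_top (by simp) (volume_ball_ne_top _ _)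
  · apply le_max_of_le_right
    exact ballAv_le_total hg0 hgi one_pos (not_lt.mp h1)

end Vale.Agent.Lib.P137
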