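import Mathlib

namespace Vale.Agent.Lib.P137

open MeasureTheory
open scoped ContDiff

variable {E : Type*} [NormedAddCommGroup E] [InnerProductSpace ℝ E] [FiniteDimensional ℝ E]
  [MeasurableSpace E] [BorelSpace E]

/-- the divergence of a vector field: the trace of its derivative -/
noncomputable def dvg (ψ : E → E) (x : E) : ℝ :=
  LinearMap.trace ℝ E (fderiv ℝ ψ x : E →ₗ[ℝ] E)

/-- the total variation of the distributional gradient of `f` is at most `V`:
the pairing of `f` with the divergence of a smooth compactly supported vector field of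
norm at most one never exceeds `V` -/
def VarLE (f : E → ℝ) (V : ℝ) : Prop :=
  ∀ ψ : E → E, ContDiff ℝ ∞ ψ → HasCompactSupport ψ → (∀ x, ‖ψ x‖ ≤ 1) →
    ∫ x, f x * dvg ψ x ≤ V

end Vale.Agent.Lib.P137
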