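import Vale.Agent.Lib.P137.BV1
import Vale.Agent.Lib.P137.Defs3

namespace Vale.Agent.Lib.P137

open MeasureTheory Metric Set Filter Topology ContinuousLinearMap
open scoped ENNReal Convolution ContDiff

set_option linter.unusedSectionVars false

variable {E : Type*} [NormedAddCommGroup E] [InnerProductSpace ℝ E] [FiniteDimensional ℝ E]
  [MeasurableSpace E] [BorelSpace E]

/-- the derivative of a mollified function -/
lemma fderiv_conv_apply {f : E → ℝ} (hf : Integrable f) (b : ContDiffBump (0 : E)) (y v : E) :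
    fderiv ℝ (b.normed volume ⋆[lsmul ℝ ℝ, volume] f) y v =
      ∫ t, fderiv ℝ (b.normed volume) (y - t) v * f t := by
  have hcs : HasCompactSupport (b.normed volume) := b.hasCompactSupport_normed
  have hΦ1 : ContDiff ℝ 1 (b.normed volume) := b.contDiff_normed
  have hD := hcs.hasFDerivAt_convolution_left (lsmul ℝ ℝ) hΦ1 hf.locallyIntegrable y
  rw [hD.fderiv]
  have hΦ' : Continuous (fderiv ℝ (b.normed volume)) := hΦ1.continuous_fderiv (by norm_num)
  have hexi := (hcs.fderiv (𝕜 := ℝ)).convolutionExists_left ((lsmul ℝ ℝ).precompL E) hΦ'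
    hf.locallyIntegrable y
  rw [convolution_def, ContinuousLinearMap.integral_apply hexi]
  simp only [precompL_apply, lsmul_apply, smul_eq_mul]
  have := integral_sub_left_eq_self (μ := (volume : Measure E))
    (fun t => fderiv ℝ (b.normed volume) (y - t) v * f t) y
  rw [← this]
  simp

/-- the derivative of the mollification of a vector field -/
lemma fderiv_conv_field_apply {ψ : E → E} (hψ : Continuous ψ) (b : ContDiffBump (0 : E)) (t v : E) :
    fderiv ℝ (b.normed volume ⋆[lsmul ℝ ℝ, volume] ψ) t v =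
      ∫ z, fderiv ℝ (b.normed volume) z v • ψ (t - z) := by
  have hcs : HasCompactSupport (b.normed volume) := b.hasCompactSupport_normed
  have hΦ1 : ContDiff ℝ 1 (b.normed volume) := b.contDiff_normed
  have hD := hcs.hasFDerivAt_convolution_left (lsmul ℝ ℝ) hΦ1 (hψ.locallyIntegrable (μ := volume)) t
  rw [hD.fderiv]
  have hΦ' : Continuous (fderiv ℝ (b.normed volume)) := hΦ1.continuous_fderiv (by norm_num)
  have hexi := (hcs.fderiv (𝕜 := ℝ)).convolutionExists_left ((lsmul ℝ ℝ).precompL E) hΦ'
    (hψ.locallyIntegrable (μ := volume)) t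
  rw [convolution_def, ContinuousLinearMap.integral_apply hexi]
  simp only [precompL_apply, lsmul_apply]

/-- the divergence of the mollification of a vector field -/
lemma dvg_conv_field {ψ : E → E} (hψ : Continuous ψ)
    (b : ContDiffBump (0 : E)) (t : E) :
    dvg (b.normed volume ⋆[lsmul ℝ ℝ, volume] ψ) t =
      ∫ z, fderiv ℝ (b.normed volume) z (ψ (t - z)) := by
  let w := stdOrthonormalBasis ℝ E
  unfold dvg
  rw [LinearMap.trace_eq_sum_inner _ w]
  have hcs : HasCompactSupport (b.normed volume) := b.hasCompactSupport_normed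
  have hΦ1 : ContDiff ℝ 1 (b.normed volume) := b.contDiff_normed
  have hΦ' : Continuous (fderiv ℝ (b.normed volume)) := hΦ1.continuous_fderiv (by norm_num)
  have hcs' : HasCompactSupport (fderiv ℝ (b.normed volume)) := hcs.fderiv (𝕜 := ℝ)
  have hint : ∀ i, Integrable (fun z => fderiv ℝ (b.normed volume) z (w i) • ψ (t - z)) := by
    intro i
    have h1 : Continuous (fun z => fderiv ℝ (b.normed volume) z (w i) • ψ (t - z)) :=
      (hΦ'.clm_apply continuous_const).smul (hψ.comp (by fun_prop))
    apply h1.integrable_of_hasCompactSupport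
    apply HasCompactSupport.smul_right
    exact hcs'.comp_left (g := fun L : E →L[ℝ] ℝ => L (w i)) rfl
  have e1 : ∀ i, inner ℝ (w i) ((fderiv ℝ (b.normed volume ⋆[lsmul ℝ ℝ, volume] ψ) t : E →ₗ[ℝ] E) (w i)) =
      ∫ z, fderiv ℝ (b.normed volume) z (w i) * inner ℝ (w i) (ψ (t - z)) := by
    intro i
    have e2 : ((fderiv ℝ (b.normed volume ⋆[lsmul ℝ ℝ, volume] ψ) t : E →ₗ[ℝ] E) (w i)) =
        fderiv ℝ (b.normed volume ⋆[lsmul ℝ ℝ, volume] ψ) t (w i) := rfl
    rw [e2, fderiv_conv_field_apply hψ b t (w i), ← integral_inner (hint i)]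
    congr 1
    ext z
    rw [inner_smul_right]
  simp_rw [e1]
  rw [← integral_finsetSum]
  · congr 1
    ext z
    conv_rhs => rw [← w.sum_repr' (ψ (t - z))]
    rw [map_sum]
    apply Finset.sum_congr rfl
    intro i _
    rw [map_smul, smul_eq_mul, mul_comm]
  · intro i _
    have h1 : Continuous (fun z => fderiv ℝ (b.normed volume) z (w i) * inner ℝ (w i) (ψ (t - z))) :=
      (hΦ'.clm_apply continuous_const).mul (continuous_const.inner (hψ.comp (by fun_prop)))
    apply h1.integrable_of_hasCompactSupport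
    apply HasCompactSupport.mul_right
    exact hcs'.comp_left (g := fun L : E →L[ℝ] ℝ => L (w i)) rfl

/-- the mollification of a test field is a test field -/
lemma conv_field_admissible {ψ : E → E} (hψ : ContDiff ℝ ∞ ψ) (hc : HasCompactSupport ψ)
    (h1 : ∀ x, ‖ψ x‖ ≤ 1) (b : ContDiffBump (0 : E)) :
    ContDiff ℝ ∞ (b.normed volume ⋆[lsmul ℝ ℝ, volume] ψ) ∧
    HasCompactSupport (b.normed volume ⋆[lsmul ℝ ℝ, volume] ψ) ∧
    ∀ x, ‖(b.normed volume ⋆[lsmul ℝ ℝ, volume] ψ) x‖ ≤ 1 := by
  have hcs : HasCompactSupport (b.normed volume) := b.hasCompactSupport_normed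
  refine ⟨hcs.contDiff_convolution_left (lsmul ℝ ℝ) b.contDiff_normed (hψ.continuous.locallyIntegrable (μ := volume)),
    hcs.convolution (lsmul ℝ ℝ) hc, ?_⟩
  intro x
  simp only [convolution_def, lsmul_apply]
  have hi : Integrable (b.normed volume) := b.integrable_normed
  calc ‖∫ t, b.normed volume t • ψ (x - t)‖ ≤ ∫ t, ‖b.normed volume t • ψ (x - t)‖ :=
        norm_integral_le_integral_norm _
    _ ≤ ∫ t, b.normed volume t := by
        apply integral_mono_of_nonneg (Eventually.of_forall fun t => norm_nonneg _) hi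
        refine Eventually.of_forall fun t => ?_
        change ‖b.normed volume t • ψ (x - t)‖ ≤ b.normed volume t
        rw [norm_smul, Real.norm_eq_abs, abs_of_nonneg (b.nonneg_normed t)]
        have := h1 (x - t)
        have := b.nonneg_normed (μ := volume) t
        nlinarith
    _ = 1 := b.integral_normed

section

variable {f : E → ℝ} {V : ℝ}

/-- the pairing of the gradient of a mollified function with a test field -/
lemma pairing_conv_le (hf : Integrable f) (hV : VarLE f V) (b : ContDiffBump (0 : E)) {ψ : E → E}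
    (hψ : ContDiff ℝ ∞ ψ) (hc : HasCompactSupport ψ) (h1 : ∀ x, ‖ψ x‖ ≤ 1) :
    ∫ y, fderiv ℝ (b.normed volume ⋆[lsmul ℝ ℝ, volume] f) y (ψ y) ≤ V := by
  have hΦ1 : ContDiff ℝ 1 (b.normed volume) := b.contDiff_normed
  have hΦ' : Continuous (fderiv ℝ (b.normed volume)) := hΦ1.continuous_fderiv (by norm_num)
  have hcs : HasCompactSupport (b.normed volume) := b.hasCompactSupport_normed
  have hcs' : HasCompactSupport (fderiv ℝ (b.normed volume)) := hcs.fderiv (𝕜 := ℝ)
  have hψc : Continuous ψ := hψ.continuous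
  -- the field entering the variation bound
  have hmψ : ContDiff ℝ ∞ (fun y => -ψ y) := hψ.neg
  have hmc : HasCompactSupport (fun y => -ψ y) := hc.neg
  have hm1 : ∀ x, ‖-ψ x‖ ≤ 1 := fun x => by rw [norm_neg]; exact h1 x
  obtain ⟨a1, a2, a3⟩ := conv_field_admissible hmψ hmc hm1 b
  have hbound := hV _ a1 a2 a3
  refine le_trans (le_of_eq ?_) hbound
  -- the Fubini computation
  have hd : ∀ t, dvg (b.normed volume ⋆[lsmul ℝ ℝ, volume] (fun y => -ψ y)) t =
      ∫ y, fderiv ℝ (b.normed volume) (y - t) (ψ y) := by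
    intro t
    rw [dvg_conv_field hmψ.continuous b t]
    have := integral_sub_left_eq_self (μ := (volume : Measure E))
      (fun z => fderiv ℝ (b.normed volume) z (-ψ (t - z))) t
    rw [← this]
    congr 1
    ext y
    rw [sub_sub_cancel, map_neg]
    have hneg : fderiv ℝ (b.normed volume) (y - t) = - fderiv ℝ (b.normed volume) (t - y) := by
      have h2 : HasFDerivAt (b.normed volume) (fderiv ℝ (b.normed volume) (t - y)) (-(y - t)) := by
        rw [neg_sub]
        exact (hΦ1.differentiable (by norm_num) _).hasFDerivAt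
      have h3 : HasFDerivAt (fun x : E => -x) (-ContinuousLinearMap.id ℝ E) (y - t) :=
        (hasFDerivAt_id (y - t)).neg
      have h4 := h2.comp (y - t) h3
      have h5 : (b.normed volume ∘ fun x : E => -x) = b.normed volume := by
        ext x
        exact b.normed_neg x
      rw [h5] at h4
      rw [h4.fderiv]
      ext v
      simp
    rw [hneg]
    simp
  simp_rw [hd]
  have hcomp : ∀ y, fderiv ℝ (b.normed volume ⋆[lsmul ℝ ℝ, volume] f) y (ψ y) =
      ∫ t, fderiv ℝ (b.normed volume) (y - t) (ψ y) * f t := fun y => fderiv_conv_apply hf b y (ψ y)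
  simp_rw [hcomp]
  obtain ⟨C, hC⟩ := hc.exists_bound_of_continuous hψc
  have hprod : Integrable (Function.uncurry (fun y t : E => fderiv ℝ (b.normed volume) (y - t) (ψ y) * f t))
      ((volume : Measure E).prod volume) := by
    have hdi : Integrable (fderiv ℝ (b.normed volume)) := hΦ'.integrable_of_hasCompactSupport hcs'
    have h2 := hf.convolution_integrand (lsmul ℝ ℝ) hdi
    have h3 : Integrable (fun p : E × E => C * ‖lsmul ℝ ℝ (f p.2) (fderiv ℝ (b.normed volume) (p.1 - p.2))‖)
        ((volume : Measure E).prod volume) := h2.norm.const_mul C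
    refine h3.mono' ?_ ?_
    · apply AEStronglyMeasurable.mul
      · have h4 : Continuous (fun p : E × E => fderiv ℝ (b.normed volume) (p.1 - p.2) (ψ p.1)) :=
          (hΦ'.comp (by fun_prop)).clm_apply (hψc.comp continuous_fst)
        exact h4.aestronglyMeasurable
      · exact hf.aestronglyMeasurable.comp_snd
    · refine Eventually.of_forall fun p => ?_
      simp only [Function.uncurry, lsmul_apply, norm_smul, norm_mul]
      have h5 := (fderiv ℝ (b.normed volume) (p.1 - p.2)).le_opNorm (ψ p.1)
      have h6 := hC p.1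
      have h7 := norm_nonneg (fderiv ℝ (b.normed volume) (p.1 - p.2))
      have h8 := norm_nonneg (f p.2)
      calc ‖fderiv ℝ (b.normed volume) (p.1 - p.2) (ψ p.1)‖ * ‖f p.2‖
          ≤ (‖fderiv ℝ (b.normed volume) (p.1 - p.2)‖ * ‖ψ p.1‖) * ‖f p.2‖ :=
            mul_le_mul_of_nonneg_right h5 h8
        _ ≤ (‖fderiv ℝ (b.normed volume) (p.1 - p.2)‖ * C) * ‖f p.2‖ := by gcongr
        _ = _ := by ring
  rw [integral_integral_swap hprod]
  congr 1
  ext t
  rw [integral_mul_const, mul_comm]

end

end Vale.Agent.Lib.P137
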