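import Vale.Agent.Lib.P137.BV2

namespace Vale.Agent.Lib.P137

open MeasureTheory Metric Set Filter Topology ContinuousLinearMap
open scoped ENNReal Convolution ContDiff

set_option linter.unusedSectionVars false

variable {E : Type*} [NormedAddCommGroup E] [InnerProductSpace ℝ E] [FiniteDimensional ℝ E]
  [MeasurableSpace E] [BorelSpace E]

/-- the vector representing a linear functional -/
noncomputable def gradOf (L : E →L[ℝ] ℝ) : E :=
  ∑ i, L (stdOrthonormalBasis ℝ E i) • stdOrthonormalBasis ℝ E i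

lemma inner_gradOf (L : E →L[ℝ] ℝ) (v : E) : inner ℝ (gradOf L) v = L v := by
  let w := stdOrthonormalBasis ℝ E
  change inner ℝ (∑ i, L (w i) • w i) v = L v
  rw [sum_inner]
  conv_rhs => rw [← w.sum_repr' v]
  rw [map_sum]
  apply Finset.sum_congr rfl
  intro i _
  rw [map_smul, smul_eq_mul, inner_smul_left, mul_comm]
  simp

lemma innerSL_gradOf (L : E →L[ℝ] ℝ) : innerSL ℝ (gradOf L) = L := by
  ext v
  exact inner_gradOf L v

lemma norm_gradOf (L : E →L[ℝ] ℝ) : ‖gradOf L‖ = ‖L‖ := by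
  rw [← innerSL_apply_norm (𝕜 := ℝ), innerSL_gradOf]

lemma contDiff_gradOf {F : E → ℝ} (hF : ContDiff ℝ ∞ F) :
    ContDiff ℝ ∞ (fun y => gradOf (fderiv ℝ F y)) := by
  have h1 : ContDiff ℝ ∞ (fderiv ℝ F) := hF.fderiv_right (m := ∞) (by norm_num)
  unfold gradOf
  apply ContDiff.sum
  intro i _
  exact (h1.clm_apply contDiff_const).smul contDiff_const

lemma chiR_smooth (R : ℝ) : ContDiff ℝ ∞ (chiR R : E → ℝ) :=
  (b0 E).contDiff.comp (contDiff_const_smul _)

/-- an elementary inequality -/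
lemma sq_div_sqrt_ge {a δ : ℝ} (ha : 0 ≤ a) (hδ : 0 < δ) : a - δ ≤ a ^ 2 / √(a ^ 2 + δ ^ 2) := by
  have hpos : 0 < √(a ^ 2 + δ ^ 2) := Real.sqrt_pos.mpr (by positivity)
  rw [le_div_iff₀ hpos]
  by_cases h : a ≤ δ
  · have := sq_nonneg a
    nlinarith
  · push Not at h
    have h1 : √(a ^ 2 + δ ^ 2) ≤ a + δ := by
      apply Real.sqrt_le_iff.mpr
      refine ⟨by positivity, ?_⟩
      nlinarith
    nlinarith

section

variable {f : E → ℝ} {V : ℝ}

/-- the local bound for the gradient of a mollified function -/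
lemma chi_grad_le (hf : Integrable f) (hV : VarLE f V) (b : ContDiffBump (0 : E)) {R : ℝ} (hR : 0 < R) :
    ∫ y, chiR R y * ‖fderiv ℝ (b.normed volume ⋆[lsmul ℝ ℝ, volume] f) y‖ ≤ V := by
  obtain ⟨F, hF⟩ : ∃ F, F = b.normed volume ⋆[lsmul ℝ ℝ, volume] f := ⟨_, rfl⟩
  rw [← hF]
  have hFc : ContDiff ℝ ∞ F := by
    rw [hF]
    exact b.hasCompactSupport_normed.contDiff_convolution_left (lsmul ℝ ℝ) b.contDiff_normed
      hf.locallyIntegrable
  have hF1 : ContDiff ℝ 1 F := hFc.of_le (by exact_mod_cast le_top)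
  have hdc : Continuous (fderiv ℝ F) := hF1.continuous_fderiv (by norm_num)
  let W : E → E := fun y => gradOf (fderiv ℝ F y)
  have hW : ContDiff ℝ ∞ W := contDiff_gradOf hFc
  have hχ : ContDiff ℝ ∞ (chiR R : E → ℝ) := chiR_smooth R
  have hχc : Continuous (chiR R : E → ℝ) := hχ.continuous
  have hχs : HasCompactSupport (chiR R : E → ℝ) := by
    apply HasCompactSupport.intro (isCompact_closedBall (0 : E) (2 * R))
    intro y hy
    have hy2 : 2 * R < ‖y‖ := by simpa using hy
    exact chiR_eq_zero hR hy2.le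
  have hχi : Integrable (chiR R : E → ℝ) := hχc.integrable_of_hasCompactSupport hχs
  have hi : Integrable (fun y => chiR R y * ‖fderiv ℝ F y‖) := by
    apply (hχc.mul hdc.norm).integrable_of_hasCompactSupport
    exact hχs.mul_right
  have key : ∀ δ > 0, ∫ y, chiR R y * ‖fderiv ℝ F y‖ ≤ V + δ * ∫ y : E, chiR R y := by
    intro δ hδ
    have hpos : ∀ y, 0 < ‖W y‖ ^ 2 + δ ^ 2 := fun y => by positivity
    have hsq : ContDiff ℝ ∞ (fun y => √(‖W y‖ ^ 2 + δ ^ 2)) :=
      ((hW.norm_sq ℝ).add contDiff_const).sqrt (fun y => (hpos y).ne')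
    have hsqpos : ∀ y, 0 < √(‖W y‖ ^ 2 + δ ^ 2) := fun y => Real.sqrt_pos.mpr (hpos y)
    let ψ : E → E := fun y => (chiR R y / √(‖W y‖ ^ 2 + δ ^ 2)) • W y
    have hψ : ContDiff ℝ ∞ ψ := (hχ.div hsq (fun y => (hsqpos y).ne')).smul hW
    have hψs : HasCompactSupport ψ := by
      apply HasCompactSupport.intro (isCompact_closedBall (0 : E) (2 * R))
      intro y hy
      have hy2 : 2 * R < ‖y‖ := by simpa using hy
      simp only [ψ]
      rw [chiR_eq_zero hR hy2.le]
      simp
    have hψ1 : ∀ y, ‖ψ y‖ ≤ 1 := by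
      intro y
      simp only [ψ]
      rw [norm_smul, Real.norm_eq_abs, abs_of_nonneg (div_nonneg (chiR_nonneg R y) (hsqpos y).le)]
      rw [div_mul_eq_mul_div, div_le_one (hsqpos y)]
      have h1 : ‖W y‖ ≤ √(‖W y‖ ^ 2 + δ ^ 2) := by
        apply Real.le_sqrt_of_sq_le
        have := pow_pos hδ 2
        linarith
      have h2 := chiR_le_one R y
      have h3 := chiR_nonneg R y
      have h4 := norm_nonneg (W y)
      nlinarith
    have hpair := pairing_conv_le hf hV b hψ hψs hψ1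
    rw [← hF] at hpair
    have hnW : ∀ y, ‖W y‖ = ‖fderiv ℝ F y‖ := fun y => norm_gradOf _
    have hval : ∀ y, fderiv ℝ F y (ψ y) = chiR R y * (‖W y‖ ^ 2 / √(‖W y‖ ^ 2 + δ ^ 2)) := by
      intro y
      simp only [ψ]
      rw [map_smul, smul_eq_mul, ← inner_gradOf (fderiv ℝ F y) (W y)]
      change chiR R y / √(‖W y‖ ^ 2 + δ ^ 2) * inner ℝ (W y) (W y) = _
      rw [real_inner_self_eq_norm_sq]
      ring
    have hψc : Continuous ψ := hψ.continuous
    have hi2 : Integrable (fun y => fderiv ℝ F y (ψ y)) := by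
      have h1 : Continuous (fun y => fderiv ℝ F y (ψ y)) := hdc.clm_apply hψc
      apply h1.integrable_of_hasCompactSupport
      apply HasCompactSupport.intro hψs.isCompact
      intro y hy
      rw [image_eq_zero_of_notMem_tsupport hy, map_zero]
    have hi3 : Integrable (fun y => chiR R y * ‖fderiv ℝ F y‖ - δ * chiR R y) :=
      hi.sub (hχi.const_mul δ)
    have hle : ∫ y, (chiR R y * ‖fderiv ℝ F y‖ - δ * chiR R y) ≤ ∫ y, fderiv ℝ F y (ψ y) := by
      apply integral_mono hi3 hi2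
      intro y
      change chiR R y * ‖fderiv ℝ F y‖ - δ * chiR R y ≤ fderiv ℝ F y (ψ y)
      rw [hval y, ← hnW y]
      have h1 := sq_div_sqrt_ge (norm_nonneg (W y)) hδ
      have h2 := chiR_nonneg R y
      nlinarith
    rw [integral_sub hi (hχi.const_mul δ), integral_const_mul] at hle
    linarith
  have hI : 0 ≤ ∫ y : E, chiR R y := integral_nonneg (chiR_nonneg R)
  apply le_of_forall_pos_le_add
  intro ε hε
  have h1 := key (ε / ((∫ y : E, chiR R y) + 1)) (by positivity)
  refine h1.trans (add_le_add_right ?_ V)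
  rw [div_mul_eq_mul_div, div_le_iff₀ (by positivity)]
  nlinarith

/-- the gradient of a mollified function has mean at most `V` -/
lemma conv_grad_le (hf : Integrable f) (hV : VarLE f V) (b : ContDiffBump (0 : E)) :
    Integrable (fun y => ‖fderiv ℝ (b.normed volume ⋆[lsmul ℝ ℝ, volume] f) y‖) ∧
      ∫ y, ‖fderiv ℝ (b.normed volume ⋆[lsmul ℝ ℝ, volume] f) y‖ ≤ V := by
  obtain ⟨F, hF⟩ : ∃ F, F = b.normed volume ⋆[lsmul ℝ ℝ, volume] f := ⟨_, rfl⟩
  rw [← hF]
  have hF1 : ContDiff ℝ 1 F := by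
    rw [hF]
    exact b.hasCompactSupport_normed.contDiff_convolution_left (lsmul ℝ ℝ) b.contDiff_normed
      hf.locallyIntegrable
  have hdc : Continuous (fun y => ‖fderiv ℝ F y‖) := (hF1.continuous_fderiv (by norm_num)).norm
  have hb : ∀ n : ℕ, ∫ y, chiR ((n : ℝ) + 1) y * ‖fderiv ℝ F y‖ ≤ V := by
    intro n
    have := chi_grad_le hf hV b (R := (n : ℝ) + 1) (by positivity)
    rwa [← hF] at this
  have hV0 : 0 ≤ V := by
    refine le_trans ?_ (hb 0)
    exact integral_nonneg fun y => mul_nonneg (chiR_nonneg _ y) (norm_nonneg _)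
  let g : ℕ → E → ℝ≥0∞ := fun n y => ENNReal.ofReal (chiR ((n : ℝ) + 1) y * ‖fderiv ℝ F y‖)
  have hgm : ∀ n, Measurable (g n) := by
    intro n
    apply ENNReal.measurable_ofReal.comp
    exact (((chiR_smooth (E := E) ((n : ℝ) + 1)).continuous).mul hdc).measurable
  have hgb : ∀ n, ∫⁻ y, g n y ≤ ENNReal.ofReal V := by
    intro n
    simp only [g]
    have hχc : Continuous (chiR ((n : ℝ) + 1) : E → ℝ) := (chiR_smooth _).continuous
    have hχs : HasCompactSupport (chiR ((n : ℝ) + 1) : E → ℝ) := by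
      apply HasCompactSupport.intro (isCompact_closedBall (0 : E) (2 * ((n : ℝ) + 1)))
      intro y hy
      have hy2 : 2 * ((n : ℝ) + 1) < ‖y‖ := by simpa using hy
      exact chiR_eq_zero (by positivity) hy2.le
    have hi : Integrable (fun y => chiR ((n : ℝ) + 1) y * ‖fderiv ℝ F y‖) := by
      apply (hχc.mul hdc).integrable_of_hasCompactSupport
      exact hχs.mul_right
    rw [← ofReal_integral_eq_lintegral_ofReal hi (Eventually.of_forall fun y =>
      mul_nonneg (chiR_nonneg _ y) (norm_nonneg _))]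
    exact ENNReal.ofReal_le_ofReal (hb n)
  have hlim : ∀ y, Tendsto (fun n => g n y) atTop (𝓝 (ENNReal.ofReal ‖fderiv ℝ F y‖)) := by
    intro y
    apply tendsto_const_nhds.congr'
    obtain ⟨N, hN⟩ := exists_nat_ge ‖y‖
    filter_upwards [eventually_ge_atTop N] with n hn
    have h1 : (N : ℝ) ≤ n := by exact_mod_cast hn
    have h2 : ‖y‖ ≤ (n : ℝ) + 1 := by linarith
    simp only [g]
    rw [chiR_eq_one (by positivity) h2, one_mul]
  have hfat : ∫⁻ y, ENNReal.ofReal ‖fderiv ℝ F y‖ ≤ ENNReal.ofReal V := by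
    calc ∫⁻ y, ENNReal.ofReal ‖fderiv ℝ F y‖ = ∫⁻ y, liminf (fun n => g n y) atTop := by
          apply lintegral_congr
          intro y
          exact (hlim y).liminf_eq.symm
      _ ≤ liminf (fun n => ∫⁻ y, g n y) atTop := lintegral_liminf_le hgm
      _ ≤ ENNReal.ofReal V := by
          refine (liminf_le_liminf (Eventually.of_forall hgb)).trans ?_
          simp
  have hint : Integrable (fun y => ‖fderiv ℝ F y‖) := by
    refine ⟨hdc.aestronglyMeasurable, ?_⟩
    unfold HasFiniteIntegral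
    have e : ∀ y, ‖‖fderiv ℝ F y‖‖ₑ = ENNReal.ofReal ‖fderiv ℝ F y‖ := fun y => by
      rw [← ofReal_norm, norm_norm]
    simp_rw [e]
    exact hfat.trans_lt ENNReal.ofReal_lt_top
  refine ⟨hint, ?_⟩
  rw [integral_eq_lintegral_of_nonneg_ae (Eventually.of_forall fun y => norm_nonneg _)
    hdc.aestronglyMeasurable]
  apply ENNReal.toReal_le_of_le_ofReal hV0 hfat

/-- approximation for a function of finite variation -/
lemma happ_of_var (hf : Integrable f) (hV : VarLE f V) :
    ∀ η > 0, ∃ h : E → ℝ, ContDiff ℝ 1 h ∧ HasCompactSupport h ∧ (∀ y, 0 ≤ h y) ∧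
      ∫ y, ‖h y - |f y|‖ ≤ η ∧ ∫ y, ‖fderiv ℝ h y‖ ≤ V + η := by
  intro η hη
  obtain ⟨ε, hε, hb⟩ := conv_close hf (δ := η / 4) (by positivity)
  let b : ContDiffBump (0 : E) := ⟨ε / 4, ε / 2, by positivity, by linarith⟩
  have hbr : b.rOut < ε := by
    change ε / 2 < ε
    linarith
  obtain ⟨F, hF⟩ : ∃ F, F = b.normed volume ⋆[lsmul ℝ ℝ, volume] f := ⟨_, rfl⟩
  have hFf : ∫ y, ‖F y - f y‖ ≤ η / 4 := by rw [hF]; exact hb b hbr
  obtain ⟨hgi, hgb⟩ := conv_grad_le hf hV b
  rw [← hF] at hgi hgb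
  have hFi : Integrable F := by
    rw [hF]
    exact b.integrable_normed.integrable_convolution (lsmul ℝ ℝ) hf
  have hFc : ContDiff ℝ ∞ F := by
    rw [hF]
    exact b.hasCompactSupport_normed.contDiff_convolution_left (lsmul ℝ ℝ) b.contDiff_normed
      hf.locallyIntegrable
  have hF1 : ContDiff ℝ 1 F := hFc.of_le (by exact_mod_cast le_top)
  have hdc : Continuous (fderiv ℝ F) := hF1.continuous_fderiv (by norm_num)
  let W : E → E := fun y => gradOf (fderiv ℝ F y)
  have hWc : Continuous W := (contDiff_gradOf hFc).continuous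
  have hnW : ∀ y, ‖W y‖ = ‖fderiv ℝ F y‖ := fun y => norm_gradOf _
  have hWi : Integrable W := by
    refine ⟨hWc.aestronglyMeasurable, ?_⟩
    have h1 := hgi.hasFiniteIntegral
    unfold HasFiniteIntegral at h1 ⊢
    simp_rw [← ofReal_norm, norm_norm] at h1 ⊢
    simp_rw [hnW]
    exact h1
  have hWk : IsWeakGradient F W := by
    intro φ hφ hφc v
    have hφ1 : ContDiff ℝ 1 φ := hφ.of_le (by exact_mod_cast le_top)
    have hder : Continuous (fun y => fderiv ℝ φ y v) :=
      (hφ1.continuous_fderiv (by norm_num)).clm_apply continuous_const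
    have hders : HasCompactSupport (fun y => fderiv ℝ φ y v) :=
      (hφc.fderiv (𝕜 := ℝ)).comp_left (g := fun L : E →L[ℝ] ℝ => L v) rfl
    have i1 : Integrable (fun x => fderiv ℝ F x v * φ x) :=
      ((hdc.clm_apply continuous_const).mul hφ1.continuous).integrable_of_hasCompactSupport hφc.mul_left
    have i2 : Integrable (fun x => F x * fderiv ℝ φ x v) :=
      (hF1.continuous.mul hder).integrable_of_hasCompactSupport hders.mul_left
    have i3 : Integrable (fun x => F x * φ x) :=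
      (hF1.continuous.mul hφ1.continuous).integrable_of_hasCompactSupport hφc.mul_left
    have h1 := integral_mul_fderiv_eq_neg_fderiv_mul_of_integrable (μ := volume) (f := F) (g := φ) (v := v)
      i1 i2 i3 (fun x _ => hF1.differentiable (by norm_num) x)
      (fun x _ => hφ1.differentiable (by norm_num) x)
    rw [h1]
    congr 2
    ext x
    rw [inner_gradOf]
  obtain ⟨φ, h1, h2, h3, h4⟩ := exists_approx hFi hWi hWk (η := η / 4) (by positivity)
  obtain ⟨h, h5, h6, h7, h8, h9⟩ := exists_smooth_abs h1 h2 (η := η / 4) (by positivity)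
  have hφi : Integrable φ := h1.continuous.integrable_of_hasCompactSupport h2
  have hhi : Integrable h := h5.continuous.integrable_of_hasCompactSupport h6
  refine ⟨h, h5, h6, h7, ?_, ?_⟩
  · have i1 : Integrable (fun y => ‖h y - |φ y|‖) := (hhi.sub hφi.abs).norm
    have i2 : Integrable (fun y => ‖F y - φ y‖) := (hFi.sub hφi).norm
    have i3 : Integrable (fun y => ‖F y - f y‖) := (hFi.sub hf).norm
    have i4 : Integrable (fun y => ‖h y - |f y|‖) := (hhi.sub hf.abs).norm
    have i12 : Integrable (fun y => ‖h y - |φ y|‖ + ‖F y - φ y‖) := i1.add i2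
    have i5 : Integrable (fun y => ‖h y - |φ y|‖ + ‖F y - φ y‖ + ‖F y - f y‖) := i12.add i3
    have h10 : ∫ y, ‖h y - |f y|‖ ≤ ∫ y, (‖h y - |φ y|‖ + ‖F y - φ y‖ + ‖F y - f y‖) := by
      apply integral_mono i4 i5
      intro y
      simp only [Real.norm_eq_abs]
      have h11 := abs_sub_le (h y) (|φ y|) (|f y|)
      have h12 := abs_abs_sub_abs_le_abs_sub (φ y) (f y)
      have h13 := abs_sub_le (φ y) (F y) (f y)
      rw [abs_sub_comm (φ y) (F y)] at h13
      linarith
    rw [integral_add i12 i3, integral_add i1 i2] at h10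
    linarith
  · have hdφ : Continuous (fun y => ‖fderiv ℝ φ y‖) := (h1.continuous_fderiv (by norm_num)).norm
    have hdφs : HasCompactSupport (fun y => ‖fderiv ℝ φ y‖) := (h2.fderiv (𝕜 := ℝ)).norm
    have hdh : Continuous (fun y => ‖fderiv ℝ h y‖) := (h5.continuous_fderiv (by norm_num)).norm
    have hdhs : HasCompactSupport (fun y => ‖fderiv ℝ h y‖) := (h6.fderiv (𝕜 := ℝ)).norm
    have h10 : ∫ y, ‖fderiv ℝ h y‖ ≤ ∫ y, ‖fderiv ℝ φ y‖ :=
      integral_mono (hdh.integrable_of_hasCompactSupport hdhs) (hdφ.integrable_of_hasCompactSupport hdφs) h9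
    have hGf : Integrable (fun y => innerSL ℝ (W y)) := (innerSL ℝ).integrable_comp hWi
    have hdi : Integrable (fderiv ℝ φ) :=
      (h1.continuous_fderiv (by norm_num)).integrable_of_hasCompactSupport (h2.fderiv (𝕜 := ℝ))
    have i2 : Integrable (fun y => ‖fderiv ℝ φ y - innerSL ℝ (W y)‖) := (hdi.sub hGf).norm
    have i3 : Integrable (fun y => ‖fderiv ℝ φ y - innerSL ℝ (W y)‖ + ‖fderiv ℝ F y‖) := i2.add hgi
    have h11 : ∫ y, ‖fderiv ℝ φ y‖ ≤ ∫ y, (‖fderiv ℝ φ y - innerSL ℝ (W y)‖ + ‖fderiv ℝ F y‖) := by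
      apply integral_mono_of_nonneg (Eventually.of_forall fun y => norm_nonneg _) i3
      refine Eventually.of_forall fun y => ?_
      have e1 : ‖fderiv ℝ φ y‖ ≤ ‖fderiv ℝ φ y - innerSL ℝ (W y)‖ + ‖innerSL ℝ (W y)‖ :=
        norm_le_norm_sub_add _ _
      rw [innerSL_apply_norm, hnW y] at e1
      exact e1
    rw [integral_add i2 hgi] at h11
    linarith

end

end Vale.Agent.Lib.P137
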