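import Mathlib

namespace Vale.Agent.Lib.P137

open MeasureTheory Metric

/-- The uncentered Hardy-Littlewood maximal function over open Euclidean balls of positive radius,
as a real number: the supremum of the averages of `|f|` over all balls containing `x`.
For bounded `f` the supremum is over a bounded family. -/
noncomputable def uncenteredMaximal {d : ℕ} (f : EuclideanSpace ℝ (Fin d) → ℝ)
    (x : EuclideanSpace ℝ (Fin d)) : ℝ :=
  ⨆ p : {p : EuclideanSpace ℝ (Fin d) × ℝ // 0 < p.2 ∧ x ∈ ball p.1 p.2},
    ⨍ y in ball p.1.1 p.1.2, |f y|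

end Vale.Agent.Lib.P137
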