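import Vale.Agent.Lib.P137.Final3
import Vale.Agent.Lib.P137.Defs

namespace Vale.Agent.Lib.P137

open MeasureTheory Metric Set Filter Topology
open scoped ENNReal

lemma setAverage_eq_ballAv {E : Type*} [NormedAddCommGroup E] [InnerProductSpace ℝ E]
    [FiniteDimensional ℝ E] [MeasurableSpace E] [BorelSpace E] (f : E → ℝ) (c : E) (ρ : ℝ) :
    ⨍ y in ball c ρ, f y = ballAv f c ρ := by
  rw [setAverage_eq, ballAv, real_ball_eq, smul_eq_mul]

lemma uncenteredMaximal_eq_Mtil {d : ℕ} (f : EuclideanSpace ℝ (Fin d) → ℝ) :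
    uncenteredMaximal f = Mtil (fun y => |f y|) := by
  ext x
  unfold uncenteredMaximal Mtil
  congr 1
  ext p
  exact setAverage_eq_ballAv _ _ _

/-- the gradient bound for nonnegative smooth input on Euclidean space -/
theorem euclidean_nonneg (d : ℕ) (hd : 1 ≤ d) : ∃ C : ℝ, ∀ f : EuclideanSpace ℝ (Fin d) → ℝ,
    ContDiff ℝ 1 f → HasCompactSupport f → (∀ x, 0 ≤ f x) →
    (∃ L : NNReal, LipschitzWith L (uncenteredMaximal f)) ∧
    Integrable (fun x => ‖fderiv ℝ (uncenteredMaximal f) x‖) ∧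
    ∫ x, ‖fderiv ℝ (uncenteredMaximal f) x‖ ≤ C * ∫ x, ‖fderiv ℝ f x‖ := by
  have : Nonempty (Fin d) := ⟨⟨0, hd⟩⟩
  refine ⟨Module.finrank ℝ (EuclideanSpace ℝ (Fin d)) *
    (4 * Module.finrank ℝ (EuclideanSpace ℝ (Fin d)) * K5 (EuclideanSpace ℝ (Fin d))), ?_⟩
  intro f hf hc hf0
  have e : uncenteredMaximal f = Mtil f := by
    rw [uncenteredMaximal_eq_Mtil]
    congr 1
    ext y
    exact abs_of_nonneg (hf0 y)
  rw [e]
  exact gradient_bound_nonneg hf hc hf0

end Vale.Agent.Lib.P137
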