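import Vale.Agent.Lib.P137.Main1
import Vale.Agent.Lib.P137.Bridge

namespace Vale.Agent.Lib.P137

open MeasureTheory Metric Set Filter Topology

/-- the main theorem on Euclidean space -/
theorem euclidean_sobolev (d : ℕ) (hd : 1 ≤ d) : ∃ C : ℝ, ∀ (f : EuclideanSpace ℝ (Fin d) → ℝ)
    (G : EuclideanSpace ℝ (Fin d) → EuclideanSpace ℝ (Fin d)),
    Integrable f → Integrable G → IsWeakGradient f G →
    (∀ᵐ x : EuclideanSpace ℝ (Fin d), BddAbove (range (fun p : {p : EuclideanSpace ℝ (Fin d) × ℝ //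
        0 < p.2 ∧ x ∈ ball p.1 p.2} => ⨍ y in ball p.1.1 p.1.2, |f y|))) ∧
    LocallyIntegrable (uncenteredMaximal f) ∧
    ∃ H : EuclideanSpace ℝ (Fin d) → EuclideanSpace ℝ (Fin d),
      Integrable H ∧ IsWeakGradient (uncenteredMaximal f) H ∧ ∫ x, ‖H x‖ ≤ C * ∫ x, ‖G x‖ := by
  have : Nonempty (Fin d) := ⟨⟨0, hd⟩⟩
  refine ⟨Module.finrank ℝ (EuclideanSpace ℝ (Fin d)) *
    (4 * Module.finrank ℝ (EuclideanSpace ℝ (Fin d)) * K5 (EuclideanSpace ℝ (Fin d))), ?_⟩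
  intro f G hf hG hW
  obtain ⟨h1, h2, h3⟩ := sobolev_generic hf hG hW
  rw [uncenteredMaximal_eq_Mtil]
  refine ⟨?_, h2, h3⟩
  filter_upwards [h1] with x hx
  have e : (fun p : {p : EuclideanSpace ℝ (Fin d) × ℝ // 0 < p.2 ∧ x ∈ ball p.1 p.2} =>
      ⨍ y in ball p.1.1 p.1.2, |f y|) =
      fun p => ballAv (fun y => |f y|) p.1.1 p.1.2 := by
    ext p
    exact setAverage_eq_ballAv _ _ _
  rw [e]
  exact hx

end Vale.Agent.Lib.P137
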