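import Vale.Agent.Lib.P137.BV3
import Vale.Agent.Lib.P137.Main2

namespace Vale.Agent.Lib.P137

open MeasureTheory Metric Set Filter Topology
open scoped ENNReal ContDiff

set_option linter.unusedSectionVars false

variable {E : Type*} [NormedAddCommGroup E] [InnerProductSpace ℝ E] [FiniteDimensional ℝ E]
  [MeasurableSpace E] [BorelSpace E]

section

variable {u : E → ℝ} {B : ℝ} {φ : E → ℝ} {e : E}

/-- the pairing of a derivative with a function of bounded translations -/
lemma abs_pairing_le (hLoc : LocallyIntegrable u) (hB : 0 ≤ B)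
    (hT : ∀ v : E, ∫⁻ x, ENNReal.ofReal ‖u (x + v) - u x‖ ≤ ENNReal.ofReal (B * ‖v‖))
    (hφ : ContDiff ℝ 1 φ) (hc : HasCompactSupport φ) (h1 : ∀ x, |φ x| ≤ 1) (he : ‖e‖ = 1) :
    |∫ y, fderiv ℝ φ y e * u y| ≤ B := by
  have hφc : Continuous φ := hφ.continuous
  have hlim := tendsto_pairing hLoc hφ hc e he
  have hb : ∀ n : ℕ, |(stp n)⁻¹ * ((∫ y, φ (y - stp n • e) * u y) - ∫ y, φ y * u y)| ≤ B := by
    intro n
    obtain ⟨s, hs⟩ : ∃ s, s = stp n := ⟨_, rfl⟩
    have hs0 : 0 < s := by rw [hs]; exact stp_pos n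
    rw [← hs]
    have i0 : Integrable (fun y => φ y * u y) := by
      simpa using integrable_shift_mul hLoc hφc hc (0 : E)
    have e1 : ∫ y, φ (y - s • e) * u y = ∫ x, φ x * u (x + s • e) := by
      have := integral_add_right_eq_self (μ := (volume : Measure E)) (fun y => φ (y - s • e) * u y) (s • e)
      simpa using this.symm
    have i1 : Integrable (fun x => φ x * u (x + s • e)) := by
      have := (integrable_shift_mul hLoc hφc hc (s • e)).comp_add_right (s • e)
      simpa using this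
    rw [e1, ← integral_sub i1 i0, abs_mul, abs_of_pos (inv_pos.mpr hs0), inv_mul_le_iff₀ hs0]
    have h2 : ENNReal.ofReal |∫ x, (φ x * u (x + s • e) - φ x * u x)| ≤ ENNReal.ofReal (s * B) := by
      calc ENNReal.ofReal |∫ x, (φ x * u (x + s • e) - φ x * u x)|
          = ‖∫ x, (φ x * u (x + s • e) - φ x * u x)‖ₑ := by
            rw [← ofReal_norm, Real.norm_eq_abs]
        _ ≤ ∫⁻ x, ‖φ x * u (x + s • e) - φ x * u x‖ₑ := enorm_integral_le_lintegral_enorm _
        _ ≤ ∫⁻ x, ENNReal.ofReal ‖u (x + s • e) - u x‖ := by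
            apply lintegral_mono
            intro x
            change ‖φ x * u (x + s • e) - φ x * u x‖ₑ ≤ ENNReal.ofReal ‖u (x + s • e) - u x‖
            rw [← ofReal_norm]
            apply ENNReal.ofReal_le_ofReal
            rw [← mul_sub, norm_mul, Real.norm_eq_abs (φ x)]
            have := h1 x
            have h3 := norm_nonneg (u (x + s • e) - u x)
            nlinarith
        _ ≤ ENNReal.ofReal (B * ‖s • e‖) := hT _
        _ = ENNReal.ofReal (s * B) := by
            rw [norm_smul, he, mul_one, Real.norm_eq_abs, abs_of_pos hs0, mul_comm]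
    exact (ENNReal.ofReal_le_ofReal_iff (by positivity)).mp h2
  have hlim2 := hlim.abs
  rw [abs_neg] at hlim2
  exact le_of_tendsto' hlim2 hb

/-- the variation bound from the translation estimate -/
lemma varLE_of_translate (hLoc : LocallyIntegrable u) (hB : 0 ≤ B)
    (hT : ∀ v : E, ∫⁻ x, ENNReal.ofReal ‖u (x + v) - u x‖ ≤ ENNReal.ofReal (B * ‖v‖)) :
    VarLE u (Module.finrank ℝ E * B) := by
  intro ψ hψ hc h1
  let w := stdOrthonormalBasis ℝ E
  have hw : ∀ i, ‖w i‖ = 1 := fun i => w.orthonormal.1 i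
  have hψ1 : ContDiff ℝ 1 ψ := hψ.of_le (by exact_mod_cast le_top)
  let φ : Fin (Module.finrank ℝ E) → E → ℝ := fun i y => inner ℝ (w i) (ψ y)
  have hφ : ∀ i, ContDiff ℝ 1 (φ i) := fun i => contDiff_const.inner ℝ hψ1
  have hφs : ∀ i, HasCompactSupport (φ i) := by
    intro i
    apply HasCompactSupport.intro hc.isCompact
    intro y hy
    simp only [φ]
    rw [image_eq_zero_of_notMem_tsupport hy, inner_zero_right]
  have hφb : ∀ i y, |φ i y| ≤ 1 := by
    intro i y
    have h2 := abs_real_inner_le_norm (w i) (ψ y)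
    rw [hw i, one_mul] at h2
    exact h2.trans (h1 y)
  have hd : ∀ i y v, fderiv ℝ (φ i) y v = inner ℝ (w i) (fderiv ℝ ψ y v) := by
    intro i y v
    have h2 : HasFDerivAt ψ (fderiv ℝ ψ y) y := (hψ1.differentiable (by norm_num) y).hasFDerivAt
    have h3 : HasFDerivAt (φ i) ((innerSL ℝ (w i)).comp (fderiv ℝ ψ y)) y :=
      (innerSL ℝ (w i)).hasFDerivAt.comp y h2
    rw [h3.fderiv]
    simp
  have hdiv : ∀ y, u y * dvg ψ y = ∑ i, fderiv ℝ (φ i) y (w i) * u y := by
    intro y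
    unfold dvg
    rw [LinearMap.trace_eq_sum_inner _ w, Finset.mul_sum]
    apply Finset.sum_congr rfl
    intro i _
    rw [hd i y (w i), mul_comm]
    rfl
  have hint : ∀ i, Integrable (fun y => fderiv ℝ (φ i) y (w i) * u y) := by
    intro i
    have hc1 : Continuous (fun y => fderiv ℝ (φ i) y (w i)) :=
      ((hφ i).continuous_fderiv (by norm_num)).clm_apply continuous_const
    have hc2 : HasCompactSupport (fun y => fderiv ℝ (φ i) y (w i)) :=
      ((hφs i).fderiv (𝕜 := ℝ)).comp_left (g := fun L : E →L[ℝ] ℝ => L (w i)) rfl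
    exact hLoc.integrable_smul_left_of_hasCompactSupport hc1 hc2
  simp_rw [hdiv]
  rw [integral_finsetSum _ (fun i _ => hint i)]
  have h2 : ∑ i, ∫ y, fderiv ℝ (φ i) y (w i) * u y ≤ ∑ _i : Fin (Module.finrank ℝ E), B := by
    apply Finset.sum_le_sum
    intro i _
    exact (le_abs_self _).trans (abs_pairing_le hLoc hB hT (hφ i) (hφs i) (hφb i) (hw i))
  rw [Finset.sum_const, Finset.card_univ, Fintype.card_fin, nsmul_eq_mul] at h2
  exact h2

end

section

variable {f : E → ℝ} {V : ℝ}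

lemma VarLE.nonneg (hV : VarLE f V) : 0 ≤ V := by
  have h1 := hV (fun _ => 0) contDiff_const HasCompactSupport.zero (by simp)
  have h2 : ∀ x, dvg (fun _ : E => (0 : E)) x = 0 := by
    intro x
    unfold dvg
    simp
  simpa [h2] using h1

/-- the variation bound for a general Euclidean space -/
theorem bv_generic [Nontrivial E] (hf : Integrable f) (hV : VarLE f V) :
    (∀ᵐ x : E, BddAbove (range (fun p : {p : E × ℝ // 0 < p.2 ∧ x ∈ ball p.1 p.2} =>
      ballAv (fun y => |f y|) p.1.1 p.1.2))) ∧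
    LocallyIntegrable (Mtil (fun y => |f y|)) ∧
    VarLE (Mtil (fun y => |f y|)) ((Module.finrank ℝ E * (4 * Module.finrank ℝ E * K5 E)) * V) := by
  have hg0 : ∀ y, 0 ≤ |f y| := fun y => abs_nonneg _
  have hV0 := hV.nonneg
  have hfin := ae_bdd_of_integrable hf
  obtain ⟨u, hu⟩ : ∃ u, u = Mtil (fun y => |f y|) := ⟨_, rfl⟩
  rw [← hu]
  have hm : Measurable u := by rw [hu]; exact measurable_Mtil hg0
  obtain ⟨B, hBdef⟩ : ∃ B, B = 4 * Module.finrank ℝ E * (K5 E * V) := ⟨_, rfl⟩
  have hK5 := K5_nonneg (E := E)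
  have hB : 0 ≤ B := by rw [hBdef]; positivity
  have hT : ∀ v : E, ∫⁻ x, ENNReal.ofReal ‖u (x + v) - u x‖ ≤ ENNReal.ofReal (B * ‖v‖) := by
    intro v
    have h1 := Mtil_translate_general (g := fun y => |f y|) hg0 hf.abs (happ_of_var hf hV) hfin v
    have e1 : 4 * (Module.finrank ℝ E : ℝ) * ‖v‖ * (K5 E * V) = B * ‖v‖ := by
      rw [hBdef]
      ring
    rw [e1, ← hu] at h1
    exact h1
  have hLoc : LocallyIntegrable u := locallyIntegrable_of_translate hm hB hT
  refine ⟨hfin, hLoc, ?_⟩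
  have h2 := varLE_of_translate hLoc hB hT
  have e2 : (Module.finrank ℝ E : ℝ) * B = (Module.finrank ℝ E * (4 * Module.finrank ℝ E * K5 E)) * V := by
    rw [hBdef]
    ring
  rwa [e2] at h2

end

/-- the variation bound on Euclidean space -/
theorem euclidean_bv (d : ℕ) (hd : 1 ≤ d) : ∃ C : ℝ, ∀ (f : EuclideanSpace ℝ (Fin d) → ℝ) (V : ℝ),
    Integrable f → VarLE f V →
    (∀ᵐ x : EuclideanSpace ℝ (Fin d), BddAbove (range (fun p : {p : EuclideanSpace ℝ (Fin d) × ℝ //
        0 < p.2 ∧ x ∈ ball p.1 p.2} => ⨍ y in ball p.1.1 p.1.2, |f y|))) ∧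
    LocallyIntegrable (uncenteredMaximal f) ∧
    VarLE (uncenteredMaximal f) (C * V) := by
  have : Nonempty (Fin d) := ⟨⟨0, hd⟩⟩
  refine ⟨Module.finrank ℝ (EuclideanSpace ℝ (Fin d)) *
    (4 * Module.finrank ℝ (EuclideanSpace ℝ (Fin d)) * K5 (EuclideanSpace ℝ (Fin d))), ?_⟩
  intro f V hf hV
  obtain ⟨h1, h2, h3⟩ := bv_generic hf hV
  rw [uncenteredMaximal_eq_Mtil]
  refine ⟨?_, h2, h3⟩
  filter_upwards [h1] with x hx
  have e : (fun p : {p : EuclideanSpace ℝ (Fin d) × ℝ // 0 < p.2 ∧ x ∈ ball p.1 p.2} =>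
      ⨍ y in ball p.1.1 p.1.2, |f y|) =
      fun p => ballAv (fun y => |f y|) p.1.1 p.1.2 := by
    ext p
    exact setAverage_eq_ballAv _ _ _
  rw [e]
  exact hx

end Vale.Agent.Lib.P137
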