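import Mathlib

namespace Vale.Agent.Lib.P137

open MeasureTheory Metric Set Filter Topology
open scoped ENNReal

variable {E : Type*} [NormedAddCommGroup E] [InnerProductSpace ℝ E] [FiniteDimensional ℝ E]
  [MeasurableSpace E] [BorelSpace E]

/-- volume of a ball of radius `s`, as a real number -/
noncomputable def vb (E : Type*) [NormedAddCommGroup E] [InnerProductSpace ℝ E]
    [FiniteDimensional ℝ E] [MeasurableSpace E] [BorelSpace E] (s : ℝ) : ℝ :=
  (volume : Measure E).real (ball (0 : E) s)

omit [FiniteDimensional ℝ E] in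
lemma vb_def (s : ℝ) [FiniteDimensional ℝ E] : vb E s = (volume : Measure E).real (ball (0 : E) s) := rfl

lemma real_ball_eq (x : E) (s : ℝ) : (volume : Measure E).real (ball x s) = vb E s := by
  unfold vb
  simp only [Measure.real]
  rw [Measure.addHaar_ball_center]

lemma vb_pos {s : ℝ} (hs : 0 < s) : 0 < vb E s := by
  unfold vb
  rw [measureReal_def]
  exact ENNReal.toReal_pos (measure_ball_pos _ _ hs).ne' measure_ball_lt_top.ne

lemma vb_nonneg (s : ℝ) : 0 ≤ vb E s := measureReal_nonneg

lemma vb_scale {s : ℝ} (hs : 0 < s) : vb E s = s ^ Module.finrank ℝ E * vb E 1 := by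
  unfold vb
  simp only [measureReal_def]
  rw [Measure.addHaar_ball_of_pos _ _ hs, ENNReal.toReal_mul, ENNReal.toReal_ofReal (by positivity)]

lemma volume_ball_ne_top (x : E) (s : ℝ) : (volume : Measure E) (ball x s) ≠ ⊤ :=
  measure_ball_lt_top.ne

/-- translation of a set integral over a ball -/
lemma setIntegral_ball_translate {F : Type*} [NormedAddCommGroup F] [NormedSpace ℝ F]
    (Φ : E → F) (y : E) (s : ℝ) :
    ∫ ξ in ball (0 : E) s, Φ (y + ξ) = ∫ z in ball y s, Φ z := by
  have h := (measurePreserving_add_left (volume : Measure E) y).setIntegral_preimage_emb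
    (measurableEmbedding_addLeft y) Φ (ball y s)
  rw [← h]
  congr 2
  · ext ξ
    simp [mem_ball, dist_eq_norm]

/-- scaling formula for an integral over a ball -/
lemma setIntegral_ball_scale {F : Type*} [NormedAddCommGroup F] [NormedSpace ℝ F]
    (Φ : E → F) (c : E) {ρ : ℝ} (hρ : 0 < ρ) :
    ∫ y in ball c ρ, Φ y =
      ρ ^ Module.finrank ℝ E • ∫ ζ in ball (0 : E) 1, Φ (c + ρ • ζ) := by
  have h1 := Measure.setIntegral_comp_smul_of_pos (μ := (volume : Measure E))
    (fun ζ => Φ (c + ζ)) (ball (0 : E) 1) hρ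
  rw [h1, smul_inv_smul₀ (by positivity)]
  rw [← setIntegral_ball_translate Φ c ρ]
  congr 2
  rw [smul_unitBall_of_pos hρ]

end Vale.Agent.Lib.P137
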