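import Mathlib

namespace Vale.Agent.Lib.P137

open MeasureTheory
open scoped ContDiff

/-- `G` is the weak gradient of `f`: integration by parts against smooth compactly supported
test functions, in every direction `v`. -/
def IsWeakGradient {E : Type*} [NormedAddCommGroup E] [InnerProductSpace ℝ E] [FiniteDimensional ℝ E]
    [MeasurableSpace E] [BorelSpace E] (f : E → ℝ) (G : E → E) : Prop :=
  ∀ φ : E → ℝ, ContDiff ℝ ∞ φ → HasCompactSupport φ → ∀ v : E,
    ∫ x, f x * fderiv ℝ φ x v = - ∫ x, inner ℝ (G x) v * φ x

end Vale.Agent.Lib.P137
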