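import Vale.Agent.Lib.P137.Trans2

namespace Vale.Agent.Lib.P137

open MeasureTheory Metric Set Filter Topology
open scoped ENNReal

set_option linter.unusedSectionVars false

variable {E : Type*} [NormedAddCommGroup E] [InnerProductSpace ℝ E] [FiniteDimensional ℝ E]
  [MeasurableSpace E] [BorelSpace E]

/-- the steps of the difference quotients -/
noncomputable def stp (n : ℕ) : ℝ := 1 / ((n : ℝ) + 1)

lemma stp_pos (n : ℕ) : 0 < stp n := by unfold stp; positivity

lemma stp_tendsto : Tendsto stp atTop (𝓝 0) := tendsto_one_div_add_atTop_nhds_zero_nat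

/-- difference quotient along a direction -/
noncomputable def quotS (u : E → ℝ) (e : E) (n : ℕ) (y : E) : ℝ :=
  (stp n)⁻¹ * (u (y + stp n • e) - u y)

/-- the derivative along a direction, defined everywhere -/
noncomputable def Du (u : E → ℝ) (e y : E) : ℝ := limsup (fun n => quotS u e n y) atTop

/-- the good properties of a line -/
structure LineGood (u : E → ℝ) (e x : E) : Prop where
  cont : Continuous (fun t : ℝ => u (x + t • e))
  bv : LocallyBoundedVariationOn (fun t : ℝ => u (x + t • e)) univ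
  lusin : LusinN (fun t : ℝ => u (x + t • e))

section

variable {u : E → ℝ} {e x : E} {B : ℝ}

lemma measurable_quotS (hu : Measurable u) (e : E) (n : ℕ) : Measurable (quotS u e n) :=
  ((hu.comp (measurable_add_const _)).sub hu).const_mul _

lemma measurable_Du (hu : Measurable u) (e : E) : Measurable (Du u e) :=
  Measurable.limsup (fun n => measurable_quotS hu e n)

lemma tendsto_quotS_of_hasDerivAt {t a : ℝ} (h : HasDerivAt (fun t : ℝ => u (x + t • e)) a t) :
    Tendsto (fun n => quotS u e n (x + t • e)) atTop (𝓝 a) := by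
  have h1 := hasDerivAt_iff_tendsto_slope_zero.mp h
  have h2 : Tendsto stp atTop (𝓝[≠] 0) :=
    tendsto_nhdsWithin_iff.mpr ⟨stp_tendsto, Eventually.of_forall (fun n => (stp_pos n).ne')⟩
  have h3 := h1.comp h2
  refine h3.congr (fun n => ?_)
  simp only [Function.comp, quotS, smul_eq_mul, add_smul, add_assoc]

lemma Du_of_hasDerivAt {t a : ℝ} (h : HasDerivAt (fun t : ℝ => u (x + t • e)) a t) :
    Du u e (x + t • e) = a :=
  (tendsto_quotS_of_hasDerivAt h).limsup_eq

/-- almost everywhere along a good line the derivative is given by `Du` -/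
lemma LineGood.ae_deriv (H : LineGood u e x) :
    ∀ᵐ t : ℝ, HasDerivAt (fun t : ℝ => u (x + t • e)) (Du u e (x + t • e)) t := by
  filter_upwards [H.bv.ae_differentiableAt] with t ht
  have h1 := ht.hasDerivAt
  rw [Du_of_hasDerivAt h1]
  exact h1

/-- the fundamental theorem of calculus along a good line -/
lemma LineGood.ftc (H : LineGood u e x) (a b : ℝ) :
    ∫ t in a..b, Du u e (x + t • e) = u (x + b • e) - u (x + a • e) := by
  have hac := ac_of_lusin H.cont H.bv H.lusin a b
  have h1 := hac.integral_deriv_eq_sub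
  rw [← h1]
  apply intervalIntegral.integral_congr_ae
  filter_upwards [H.ae_deriv] with t ht _
  exact ht.deriv.symm

/-- integrability of `Du` along a good line -/
lemma LineGood.intervalIntegrable (H : LineGood u e x) (a b : ℝ) :
    IntervalIntegrable (fun t => Du u e (x + t • e)) volume a b := by
  have hac := ac_of_lusin H.cont H.bv H.lusin a b
  have h1 := hac.intervalIntegrable_deriv
  apply h1.congr_ae
  have h2 := H.ae_deriv
  have : ∀ᵐ t : ℝ ∂(volume.restrict (uIoc a b)), deriv (fun t : ℝ => u (x + t • e)) t = Du u e (x + t • e) :=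
    ae_restrict_of_ae (h2.mono fun t ht => ht.deriv)
  exact this

/-- the difference quotients converge almost everywhere -/
lemma ae_tendsto_quotS (hu : Measurable u) (hG : ∀ᵐ x : E, LineGood u e x) :
    ∀ᵐ y : E, Tendsto (fun n => quotS u e n y) atTop (𝓝 (Du u e y)) := by
  let A : Set E := {y | ∃ c, Tendsto (fun n => quotS u e n y) atTop (𝓝 c)}
  have hA : MeasurableSet A := measurableSet_exists_tendsto (fun n => measurable_quotS hu e n)
  have h0 : volume Aᶜ = 0 := by
    apply null_of_ae_line hA.compl e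
    filter_upwards [hG] with x hx
    filter_upwards [hx.ae_deriv] with t ht hmem
    exact hmem ⟨_, tendsto_quotS_of_hasDerivAt ht⟩
  have h1 : ∀ᵐ y : E, y ∈ A := h0
  filter_upwards [h1] with y hy
  obtain ⟨c, hc⟩ := hy
  have : Du u e y = c := hc.limsup_eq
  rw [this]
  exact hc

/-- the mean of the difference quotients -/
lemma lintegral_quotS_le (he : ‖e‖ = 1)
    (hT : ∀ v : E, ∫⁻ x, ENNReal.ofReal ‖u (x + v) - u x‖ ≤ ENNReal.ofReal (B * ‖v‖)) (n : ℕ) :
    ∫⁻ y, ENNReal.ofReal |quotS u e n y| ≤ ENNReal.ofReal B := by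
  have hs := stp_pos n
  have h1 : ∀ y, ENNReal.ofReal |quotS u e n y| =
      ENNReal.ofReal (stp n)⁻¹ * ENNReal.ofReal ‖u (y + stp n • e) - u y‖ := by
    intro y
    unfold quotS
    rw [abs_mul, abs_of_pos (inv_pos.mpr hs), ENNReal.ofReal_mul (inv_pos.mpr hs).le, Real.norm_eq_abs]
  simp_rw [h1]
  rw [lintegral_const_mul']
  · have h2 := hT (stp n • e)
    have hn : ‖stp n • e‖ = stp n := by
      rw [norm_smul, he, mul_one, Real.norm_eq_abs, abs_of_pos hs]
    rw [hn] at h2
    calc _ ≤ ENNReal.ofReal (stp n)⁻¹ * ENNReal.ofReal (B * stp n) := by gcongr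
      _ = _ := by
        rw [← ENNReal.ofReal_mul (inv_pos.mpr hs).le]
        congr 1
        field_simp
  · exact ENNReal.ofReal_ne_top

/-- the mean of the derivative -/
lemma lintegral_Du_le (hu : Measurable u) (he : ‖e‖ = 1)
    (hT : ∀ v : E, ∫⁻ x, ENNReal.ofReal ‖u (x + v) - u x‖ ≤ ENNReal.ofReal (B * ‖v‖))
    (hG : ∀ᵐ x : E, LineGood u e x) :
    ∫⁻ y, ENNReal.ofReal |Du u e y| ≤ ENNReal.ofReal B := by
  have hm : ∀ n, Measurable (fun y => ENNReal.ofReal |quotS u e n y|) := fun n =>
    ENNReal.measurable_ofReal.comp (measurable_quotS hu e n).abs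
  calc ∫⁻ y, ENNReal.ofReal |Du u e y| = ∫⁻ y, liminf (fun n => ENNReal.ofReal |quotS u e n y|) atTop := by
        apply lintegral_congr_ae
        filter_upwards [ae_tendsto_quotS hu hG] with y hy
        have h1 : Tendsto (fun n => ENNReal.ofReal |quotS u e n y|) atTop (𝓝 (ENNReal.ofReal |Du u e y|)) :=
          ENNReal.tendsto_ofReal hy.abs
        exact h1.liminf_eq.symm
    _ ≤ liminf (fun n => ∫⁻ y, ENNReal.ofReal |quotS u e n y|) atTop := lintegral_liminf_le hm
    _ ≤ ENNReal.ofReal B := by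
        refine liminf_le_of_le (by isBoundedDefault) ?_
        intro b hb
        obtain ⟨n, hn⟩ := hb.exists
        exact hn.trans (lintegral_quotS_le he hT n)

lemma integrable_Du (hu : Measurable u) (he : ‖e‖ = 1) (hB : 0 ≤ B)
    (hT : ∀ v : E, ∫⁻ x, ENNReal.ofReal ‖u (x + v) - u x‖ ≤ ENNReal.ofReal (B * ‖v‖))
    (hG : ∀ᵐ x : E, LineGood u e x) : Integrable (Du u e) := by
  refine ⟨(measurable_Du hu e).aestronglyMeasurable, ?_⟩
  unfold HasFiniteIntegral
  simp_rw [← ofReal_norm, Real.norm_eq_abs]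
  exact (lintegral_Du_le hu he hT hG).trans_lt ENNReal.ofReal_lt_top

lemma integral_abs_Du_le (hu : Measurable u) (he : ‖e‖ = 1) (hB : 0 ≤ B)
    (hT : ∀ v : E, ∫⁻ x, ENNReal.ofReal ‖u (x + v) - u x‖ ≤ ENNReal.ofReal (B * ‖v‖))
    (hG : ∀ᵐ x : E, LineGood u e x) : ∫ y, |Du u e y| ≤ B := by
  have hi := (integrable_Du hu he hB hT hG).abs
  have h1 := lintegral_Du_le hu he hT hG
  rw [← ofReal_integral_eq_lintegral_ofReal hi (Eventually.of_forall fun y => abs_nonneg _)] at h1
  exact (ENNReal.ofReal_le_ofReal_iff hB).mp h1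

end

end Vale.Agent.Lib.P137
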