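import Vale.Agent.Lib.P137.Deriv1

namespace Vale.Agent.Lib.P137

open MeasureTheory Metric Set Filter Topology
open scoped ENNReal

set_option linter.unusedSectionVars false

variable {E : Type*} [NormedAddCommGroup E] [InnerProductSpace ℝ E] [FiniteDimensional ℝ E]
  [MeasurableSpace E] [BorelSpace E]

section

variable {u : E → ℝ} {e : E} {B : ℝ} {φ : E → ℝ}

lemma integrable_shift_mul (hLoc : LocallyIntegrable u) (hφ : Continuous φ) (hc : HasCompactSupport φ)
    (w : E) : Integrable (fun y => φ (y - w) * u y) := by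
  have h1 : Continuous (fun y => φ (y - w)) := hφ.comp (by fun_prop)
  have h2 : HasCompactSupport (fun y => φ (y - w)) := by
    have := hc.comp_homeomorph (Homeomorph.subRight w)
    exact this
  exact hLoc.integrable_smul_left_of_hasCompactSupport h1 h2

/-- the integral identity for a positive step -/
lemma step_identity (hu : Measurable u) (he : ‖e‖ = 1) (hB : 0 ≤ B)
    (hT : ∀ v : E, ∫⁻ x, ENNReal.ofReal ‖u (x + v) - u x‖ ≤ ENNReal.ofReal (B * ‖v‖))
    (hG : ∀ᵐ x : E, LineGood u e x) (hLoc : LocallyIntegrable u)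
    (hφ : Continuous φ) (hc : HasCompactSupport φ) {s : ℝ} (hs : 0 < s) :
    (∫ y, φ (y - s • e) * u y) - (∫ y, φ y * u y) =
      ∫ t in (0 : ℝ)..s, ∫ y, φ (y - t • e) * Du u e y := by
  obtain ⟨C, hC⟩ := hc.exists_bound_of_continuous hφ
  have hC0 : 0 ≤ C := (norm_nonneg _).trans (hC 0)
  have hDm := measurable_Du hu e
  have hDi := integrable_Du hu he hB hT hG
  -- the first integral after a change of variables
  have i0 : Integrable (fun y => φ y * u y) := by
    simpa using integrable_shift_mul hLoc hφ hc (0 : E)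
  have e1 : ∫ y, φ (y - s • e) * u y = ∫ x, φ x * u (x + s • e) := by
    have := integral_add_right_eq_self (μ := (volume : Measure E)) (fun y => φ (y - s • e) * u y) (s • e)
    simpa using this.symm
  have i1 : Integrable (fun x => φ x * u (x + s • e)) := by
    have := (integrable_shift_mul hLoc hφ hc (s • e)).comp_add_right (s • e)
    simpa using this
  rw [e1, ← integral_sub i1 i0]
  -- the fundamental theorem on lines
  have e2 : ∀ᵐ x : E, φ x * u (x + s • e) - φ x * u x = ∫ t in Icc (0 : ℝ) s, φ x * Du u e (x + t • e) := by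
    filter_upwards [hG] with x hx
    rw [integral_const_mul, integral_Icc_eq_integral_Ioc, ← intervalIntegral.integral_of_le hs.le,
      hx.ftc 0 s]
    simp only [zero_smul, add_zero]
    ring
  rw [integral_congr_ae e2]
  -- Fubini
  have hmeas : Measurable (fun p : E × ℝ => φ p.1 * Du u e (p.1 + p.2 • e)) :=
    (hφ.measurable.comp measurable_fst).mul (hDm.comp (measurable_line e))
  have hint : Integrable (fun p : E × ℝ => φ p.1 * Du u e (p.1 + p.2 • e))
      ((volume : Measure E).prod (volume.restrict (Icc (0 : ℝ) s))) := by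
    refine ⟨hmeas.aestronglyMeasurable, ?_⟩
    unfold HasFiniteIntegral
    have hΨ : Measurable (fun y => ‖Du u e y‖ₑ) := hDm.enorm
    have hmm : Measurable (fun p : E × ℝ => ‖φ p.1 * Du u e (p.1 + p.2 • e)‖ₑ) := hmeas.enorm
    rw [lintegral_prod _ hmm.aemeasurable]
    have h2 : ∀ x, ∫⁻ t in Icc (0 : ℝ) s, ‖φ x * Du u e (x + t • e)‖ₑ ≤
        ENNReal.ofReal C * ∫⁻ t in Icc (0 : ℝ) s, ‖Du u e (x + t • e)‖ₑ := by
      intro x
      rw [← lintegral_const_mul' _ _ ENNReal.ofReal_ne_top]
      apply lintegral_mono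
      intro t
      simp only [enorm_mul]
      gcongr
      rw [← ofReal_norm]
      exact ENNReal.ofReal_le_ofReal (hC x)
    refine (lintegral_mono h2).trans_lt ?_
    rw [lintegral_const_mul' _ _ ENNReal.ofReal_ne_top]
    apply ENNReal.mul_lt_top ENNReal.ofReal_lt_top
    have h3 := lintegral_set_Icc_le hΨ e 0 s univ
    rw [Measure.restrict_univ] at h3
    refine h3.trans_lt (ENNReal.mul_lt_top ENNReal.ofReal_lt_top hDi.hasFiniteIntegral)
  rw [integral_integral_swap (f := fun x t => φ x * Du u e (x + t • e)) hint]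
  rw [intervalIntegral.integral_of_le hs.le, ← integral_Icc_eq_integral_Ioc]
  apply integral_congr_ae
  refine Eventually.of_forall (fun t => ?_)
  have := integral_add_right_eq_self (μ := (volume : Measure E)) (fun y => φ (y - t • e) * Du u e y) (t • e)
  simpa using this

/-- continuity of the pairing with `Du` -/
lemma continuous_pairing (hDi : Integrable (Du u e)) (hφ : Continuous φ) (hc : HasCompactSupport φ) :
    Continuous (fun t : ℝ => ∫ y, φ (y - t • e) * Du u e y) := by
  obtain ⟨C, hC⟩ := hc.exists_bound_of_continuous hφ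
  apply continuous_of_dominated (bound := fun y => C * ‖Du u e y‖)
  · intro t
    have h1 : Continuous (fun y => φ (y - t • e)) := hφ.comp (by fun_prop)
    exact h1.aestronglyMeasurable.mul hDi.aestronglyMeasurable
  · intro t
    refine Eventually.of_forall (fun y => ?_)
    rw [norm_mul]
    exact mul_le_mul_of_nonneg_right (hC _) (norm_nonneg _)
  · exact hDi.norm.const_mul C
  · refine Eventually.of_forall (fun y => ?_)
    have h1 : Continuous (fun t : ℝ => φ (y - t • e)) := hφ.comp (by fun_prop)
    exact h1.mul continuous_const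

/-- the difference quotient of the pairing with `u` -/
lemma tendsto_pairing (hLoc : LocallyIntegrable u) (hφ : ContDiff ℝ 1 φ) (hc : HasCompactSupport φ) (e : E)
    (he : ‖e‖ = 1) :
    Tendsto (fun n : ℕ => (stp n)⁻¹ * ((∫ y, φ (y - stp n • e) * u y) - (∫ y, φ y * u y))) atTop
      (𝓝 (-∫ y, fderiv ℝ φ y e * u y)) := by
  have hφc : Continuous φ := hφ.continuous
  obtain ⟨L, hL⟩ := hφ.lipschitzWith_of_hasCompactSupport hc (by norm_num)
  obtain ⟨R, hR⟩ := hc.isCompact.isBounded.subset_ball (0 : E)
  have hzero : ∀ y : E, R ≤ ‖y‖ → φ y = 0 := by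
    intro y hy
    by_contra hne
    have := hR (subset_tsupport _ hne)
    rw [mem_ball_zero_iff] at this
    linarith
  have hi0 : Integrable (fun y => φ y * u y) := by
    simpa using integrable_shift_mul hLoc hφc hc (0 : E)
  have e1 : ∀ n : ℕ, (stp n)⁻¹ * ((∫ y, φ (y - stp n • e) * u y) - (∫ y, φ y * u y)) =
      ∫ y, (stp n)⁻¹ * (φ (y - stp n • e) - φ y) * u y := by
    intro n
    rw [← integral_sub (integrable_shift_mul hLoc hφc hc _) hi0, ← integral_const_mul]
    congr 1
    ext y
    ring
  simp_rw [e1]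
  rw [← integral_neg]
  have hKi : IntegrableOn u (closedBall (0 : E) (R + 1)) :=
    hLoc.integrableOn_isCompact (isCompact_closedBall _ _)
  apply tendsto_integral_of_dominated_convergence
    (fun y => (L : ℝ) * (closedBall (0 : E) (R + 1)).indicator (fun y => ‖u y‖) y)
  · intro n
    have h1 : Continuous (fun y => (stp n)⁻¹ * (φ (y - stp n • e) - φ y)) :=
      continuous_const.mul ((hφc.comp (by fun_prop)).sub hφc)
    exact h1.aestronglyMeasurable.mul hLoc.aestronglyMeasurable
  · have hKi2 : IntegrableOn (fun y => ‖u y‖) (closedBall (0 : E) (R + 1)) := hKi.norm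
    exact (hKi2.integrable_indicator measurableSet_closedBall).const_mul _
  · intro n
    refine Eventually.of_forall (fun y => ?_)
    have hs := stp_pos n
    have hs1 : stp n ≤ 1 := by
      unfold stp
      rw [div_le_one (by positivity)]
      have : (0 : ℝ) ≤ n := by positivity
      linarith
    have hn : ‖stp n • e‖ = stp n := by
      rw [norm_smul, he, mul_one, Real.norm_eq_abs, abs_of_pos hs]
    have hlip : |φ (y - stp n • e) - φ y| ≤ (L : ℝ) * stp n := by
      have := hL.dist_le_mul (y - stp n • e) y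
      rw [Real.dist_eq, dist_eq_norm] at this
      have e2 : y - stp n • e - y = -(stp n • e) := by abel
      rw [e2, norm_neg, hn] at this
      exact this
    rw [norm_mul, norm_mul, Real.norm_eq_abs, Real.norm_eq_abs, abs_of_pos (inv_pos.mpr hs)]
    by_cases hy : y ∈ closedBall (0 : E) (R + 1)
    · rw [indicator_of_mem hy]
      apply mul_le_mul_of_nonneg_right _ (norm_nonneg _)
      rw [inv_mul_le_iff₀ hs]
      linarith
    · have hy2 : R + 1 < ‖y‖ := by simpa using hy
      have h3 : φ y = 0 := hzero y (by linarith)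
      have h4 : φ (y - stp n • e) = 0 := by
        apply hzero
        have := norm_sub_norm_le y (stp n • e)
        rw [hn] at this
        linarith
      rw [h3, h4]
      have h5 : 0 ≤ (closedBall (0 : E) (R + 1)).indicator (fun y => ‖u y‖) y :=
        indicator_nonneg (fun _ _ => norm_nonneg _) _
      simp only [sub_self, abs_zero, mul_zero, zero_mul]
      exact mul_nonneg L.2 h5
  · refine Eventually.of_forall (fun y => ?_)
    have h1 := hasDerivAt_line hφ y (-e) 0
    simp only [zero_smul, add_zero, map_neg] at h1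
    have h2 := hasDerivAt_iff_tendsto_slope_zero.mp h1
    have h3 : Tendsto stp atTop (𝓝[≠] 0) :=
      tendsto_nhdsWithin_iff.mpr ⟨stp_tendsto, Eventually.of_forall (fun n => (stp_pos n).ne')⟩
    have h4 := (h2.comp h3).mul_const (u y)
    rw [neg_mul] at h4
    refine h4.congr (fun n => ?_)
    simp [sub_eq_add_neg, smul_neg]

/-- integration by parts along a direction -/
theorem ibp_dir (hu : Measurable u) (he : ‖e‖ = 1) (hB : 0 ≤ B)
    (hT : ∀ v : E, ∫⁻ x, ENNReal.ofReal ‖u (x + v) - u x‖ ≤ ENNReal.ofReal (B * ‖v‖))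
    (hG : ∀ᵐ x : E, LineGood u e x) (hLoc : LocallyIntegrable u)
    (hφ : ContDiff ℝ 1 φ) (hc : HasCompactSupport φ) :
    ∫ y, fderiv ℝ φ y e * u y = - ∫ y, φ y * Du u e y := by
  have hφc : Continuous φ := hφ.continuous
  have hDi := integrable_Du hu he hB hT hG
  have hcont := continuous_pairing hDi hφc hc (e := e)
  have h1 := tendsto_pairing hLoc hφ hc e he
  have h2 : HasDerivAt (fun s => ∫ t in (0 : ℝ)..s, ∫ y, φ (y - t • e) * Du u e y)
      (∫ y, φ (y - (0 : ℝ) • e) * Du u e y) 0 :=
    intervalIntegral.integral_hasDerivAt_right (hcont.intervalIntegrable _ _)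
      (hcont.stronglyMeasurableAtFilter _ _) hcont.continuousAt
  have h3 := hasDerivAt_iff_tendsto_slope_zero.mp h2
  have h4 : Tendsto stp atTop (𝓝[≠] 0) :=
    tendsto_nhdsWithin_iff.mpr ⟨stp_tendsto, Eventually.of_forall (fun n => (stp_pos n).ne')⟩
  have h5 := h3.comp h4
  have h6 : Tendsto (fun n : ℕ => (stp n)⁻¹ * ((∫ y, φ (y - stp n • e) * u y) - (∫ y, φ y * u y))) atTop
      (𝓝 (∫ y, φ (y - (0 : ℝ) • e) * Du u e y)) := by
    refine h5.congr (fun n => ?_)
    have := step_identity hu he hB hT hG hLoc hφc hc (stp_pos n)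
    simp only [Function.comp, zero_add, intervalIntegral.integral_same, sub_zero, smul_eq_mul]
    rw [this]
  have h7 := tendsto_nhds_unique h1 h6
  simp only [zero_smul, sub_zero] at h7
  linarith

end

end Vale.Agent.Lib.P137
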