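import Vale.Agent.Lib.P137.Meas2

namespace Vale.Agent.Lib.P137

open MeasureTheory Metric Set Filter Topology
open scoped ENNReal

set_option linter.unusedSectionVars false

variable {E : Type*} [NormedAddCommGroup E] [InnerProductSpace ℝ E] [FiniteDimensional ℝ E]
  [MeasurableSpace E] [BorelSpace E]

lemma measurableSet_dist_lt (s : ℝ) : MeasurableSet {p : E × E | dist p.2 p.1 < s} :=
  (isOpen_lt (by fun_prop) continuous_const).measurableSet

lemma integrable_kernel {W : E → ℝ} (hW : Continuous W) (c : E) (R R' s : ℝ) :
    Integrable (fun p : E × E => ({p : E × E | dist p.2 p.1 < s}).indicator (fun p => W p.2) p)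
      ((volume.restrict (ball c R)).prod (volume.restrict (ball c R'))) := by
  obtain ⟨C, hC⟩ := (isCompact_closedBall c R').exists_bound_of_continuousOn hW.continuousOn
  rw [Measure.prod_restrict]
  have hfin : (volume.prod volume) (ball c R ×ˢ ball c R') ≠ ⊤ := by
    rw [Measure.prod_prod]
    exact ENNReal.mul_ne_top (volume_ball_ne_top _ _) (volume_ball_ne_top _ _)
  refine Measure.integrableOn_of_bounded (M := C) hfin ?_ ?_
  · apply Measurable.aestronglyMeasurable
    exact (hW.measurable.comp measurable_snd).indicator (measurableSet_dist_lt s)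
  · have hm : MeasurableSet (ball c R ×ˢ ball c R') := measurableSet_ball.prod measurableSet_ball
    refine (ae_restrict_iff' hm).mpr (Eventually.of_forall fun p hp => ?_)
    have hp2 : p.2 ∈ closedBall c R' := ball_subset_closedBall hp.2
    have hC0 : 0 ≤ C := (norm_nonneg _).trans (hC _ hp2)
    by_cases h : p ∈ {p : E × E | dist p.2 p.1 < s}
    · rw [indicator_of_mem h]; exact hC _ hp2
    · rw [indicator_of_notMem h]; simpa using hC0

/-- Fubini for a ball average integrated over a ball -/
lemma integral_ball_av {W : E → ℝ} (hW : Continuous W) (c : E) (R : ℝ) {s : ℝ} (_hs : 0 < s) :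
    ∫ z in ball c R, (∫ y in ball z s, W y) =
      ∫ y in ball c (R + s), (∫ z in ball c R, ({p : E × E | dist p.2 p.1 < s}).indicator (fun p => W p.2) (z, y)) := by
  have h1 : ∀ z ∈ ball c R, ∫ y in ball z s, W y =
      ∫ y in ball c (R + s), ({p : E × E | dist p.2 p.1 < s}).indicator (fun p => W p.2) (z, y) := by
    intro z hz
    have hsub : ball z s ⊆ ball c (R + s) := by
      intro y hy
      rw [mem_ball] at hy hz ⊢
      have := dist_triangle y z c
      linarith
    have e : ∀ y, ({p : E × E | dist p.2 p.1 < s}).indicator (fun p => W p.2) (z, y) =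
        (ball z s).indicator W y := by
      intro y
      by_cases hy : y ∈ ball z s
      · have : (z, y) ∈ {p : E × E | dist p.2 p.1 < s} := hy
        rw [indicator_of_mem this, indicator_of_mem hy]
      · have : (z, y) ∉ {p : E × E | dist p.2 p.1 < s} := hy
        rw [indicator_of_notMem this, indicator_of_notMem hy]
    simp_rw [e]
    rw [setIntegral_indicator measurableSet_ball, inter_eq_right.mpr hsub]
  rw [setIntegral_congr_fun measurableSet_ball h1]
  exact integral_integral_swap (integrable_kernel hW c R (R + s) s)

/-- the duality step: passing from a ball to the average on a smaller ball -/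
lemma ball_avg_step {W Q : E → ℝ} (hW : Continuous W) (hQ : Continuous Q) (c : E) (R : ℝ) {s : ℝ}
    (hs : 0 < s) (hWQ : ∀ y ∈ ball c (R + s), W y ≤ Q y) (hQ0 : ∀ y ∈ ball c (R + s), 0 ≤ Q y) :
    (∫ y in ball c (R + s), W y) - ∫ z in ball c R, av s W z ≤
      ∫ y in ball c (R + s) \ ball c (R - s), Q y := by
  have hv := vb_pos (E := E) hs
  -- the overlap function
  set m : E → ℝ := fun y => ∫ z in ball c R, ({p : E × E | dist p.2 p.1 < s}).indicator (fun _ => (1 : ℝ)) (z, y)
    with hm
  have hkW : ∀ y, (∫ z in ball c R, ({p : E × E | dist p.2 p.1 < s}).indicator (fun p => W p.2) (z, y)) =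
      m y * W y := by
    intro y
    rw [hm]
    simp only
    rw [← integral_mul_const]
    congr 1
    ext z
    by_cases h : (z, y) ∈ {p : E × E | dist p.2 p.1 < s}
    · rw [indicator_of_mem h, indicator_of_mem h, one_mul]
    · rw [indicator_of_notMem h, indicator_of_notMem h, zero_mul]
  have hkQ : ∀ y, (∫ z in ball c R, ({p : E × E | dist p.2 p.1 < s}).indicator (fun p => Q p.2) (z, y)) =
      m y * Q y := by
    intro y
    rw [hm]
    simp only
    rw [← integral_mul_const]
    congr 1
    ext z
    by_cases h : (z, y) ∈ {p : E × E | dist p.2 p.1 < s}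
    · rw [indicator_of_mem h, indicator_of_mem h, one_mul]
    · rw [indicator_of_notMem h, indicator_of_notMem h, zero_mul]
  have imW : IntegrableOn (fun y => m y * W y) (ball c (R + s)) := by
    have := (integrable_kernel hW c R (R + s) s).integral_prod_right
    simp_rw [hkW] at this
    exact this
  have imQ : IntegrableOn (fun y => m y * Q y) (ball c (R + s)) := by
    have := (integrable_kernel hQ c R (R + s) s).integral_prod_right
    simp_rw [hkQ] at this
    exact this
  have iW : IntegrableOn W (ball c (R + s)) := integrableOn_ball_of_continuous hW _ _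
  have iQ : IntegrableOn Q (ball c (R + s)) := integrableOn_ball_of_continuous hQ _ _
  have hm0 : ∀ y, 0 ≤ m y := fun y => integral_nonneg (fun z => indicator_nonneg (fun _ _ => zero_le_one) _)
  have hme : ∀ y, m y = (volume : Measure E).real (ball c R ∩ ball y s) := by
    intro y
    have e : ∀ z, ({p : E × E | dist p.2 p.1 < s}).indicator (fun _ => (1 : ℝ)) (z, y) =
        (ball y s).indicator (fun _ => (1 : ℝ)) z := by
      intro z
      have hz : (z, y) ∈ {p : E × E | dist p.2 p.1 < s} ↔ z ∈ ball y s := by
        simp [mem_ball, dist_comm]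
      by_cases h : z ∈ ball y s
      · rw [indicator_of_mem (hz.mpr h), indicator_of_mem h]
      · rw [indicator_of_notMem (mt hz.mp h), indicator_of_notMem h]
    rw [hm]
    simp only
    simp_rw [e]
    rw [setIntegral_indicator measurableSet_ball, setIntegral_const, smul_eq_mul, mul_one]
  have hmle : ∀ y, m y ≤ vb E s := by
    intro y
    rw [hme, ← real_ball_eq y s]
    exact measureReal_mono inter_subset_right (volume_ball_ne_top _ _)
  have hmeq : ∀ y ∈ ball c (R - s), m y = vb E s := by
    intro y hy
    have hsub : ball y s ⊆ ball c R := by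
      intro z hz
      rw [mem_ball] at hy hz ⊢
      have := dist_triangle z y c
      linarith
    rw [hme, inter_eq_right.mpr hsub, real_ball_eq]
  have e1 : ∫ z in ball c R, av s W z = (vb E s)⁻¹ * ∫ y in ball c (R + s), m y * W y := by
    simp only [av, smul_eq_mul]
    rw [integral_const_mul, integral_ball_av hW c R hs]
    simp_rw [hkW]
  have iAW : IntegrableOn (fun y => (vb E s - m y) * W y) (ball c (R + s)) := by
    have : (fun y => (vb E s - m y) * W y) = fun y => vb E s * W y - m y * W y := by
      ext y; ring
    rw [this]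
    exact (iW.const_mul _).sub imW
  have iAQ : IntegrableOn (fun y => (vb E s - m y) * Q y) (ball c (R + s)) := by
    have : (fun y => (vb E s - m y) * Q y) = fun y => vb E s * Q y - m y * Q y := by
      ext y; ring
    rw [this]
    exact (iQ.const_mul _).sub imQ
  have e2 : (∫ y in ball c (R + s), W y) - (vb E s)⁻¹ * ∫ y in ball c (R + s), m y * W y =
      (vb E s)⁻¹ * ∫ y in ball c (R + s), (vb E s - m y) * W y := by
    have : (fun y => (vb E s - m y) * W y) = fun y => vb E s * W y - m y * W y := by
      ext y; ring
    rw [this, integral_sub (iW.const_mul _) imW, integral_const_mul]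
    field_simp
  have e3 : ∫ y in ball c (R + s), (vb E s - m y) * W y ≤ ∫ y in ball c (R + s), (vb E s - m y) * Q y := by
    apply setIntegral_mono_on iAW iAQ measurableSet_ball
    intro y hy
    exact mul_le_mul_of_nonneg_left (hWQ y hy) (sub_nonneg.mpr (hmle y))
  have iI : IntegrableOn ((ball c (R - s))ᶜ.indicator Q) (ball c (R + s)) :=
    iQ.indicator measurableSet_ball.compl
  have e4 : ∫ y in ball c (R + s), (vb E s - m y) * Q y ≤
      ∫ y in ball c (R + s), vb E s * (ball c (R - s))ᶜ.indicator Q y := by
    apply setIntegral_mono_on iAQ (iI.const_mul _) measurableSet_ball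
    intro y hy
    by_cases h : y ∈ ball c (R - s)
    · rw [hmeq y h, sub_self, zero_mul, indicator_of_notMem (by rw [mem_compl_iff, not_not]; exact h), mul_zero]
    · rw [indicator_of_mem (mem_compl h)]
      exact mul_le_mul_of_nonneg_right (by linarith [hm0 y]) (hQ0 y hy)
  have e5 : ∫ y in ball c (R + s), vb E s * (ball c (R - s))ᶜ.indicator Q y =
      vb E s * ∫ y in ball c (R + s) \ ball c (R - s), Q y := by
    rw [integral_const_mul, setIntegral_indicator measurableSet_ball.compl, sdiff_eq]
  rw [e1, e2]
  have e6 : (vb E s)⁻¹ * ∫ y in ball c (R + s), (vb E s - m y) * W y ≤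
      (vb E s)⁻¹ * (vb E s * ∫ y in ball c (R + s) \ ball c (R - s), Q y) :=
    mul_le_mul_of_nonneg_left (by rw [← e5]; exact e3.trans e4) (inv_nonneg.mpr hv.le)
  refine e6.trans (le_of_eq ?_)
  field_simp

end Vale.Agent.Lib.P137
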