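import Vale.Agent.Lib.P137.Sum5

namespace Vale.Agent.Lib.P137

open MeasureTheory Metric Set Filter Topology
open scoped ENNReal

set_option linter.unusedSectionVars false

variable {E : Type*} [NormedAddCommGroup E] [InnerProductSpace ℝ E] [FiniteDimensional ℝ E]
  [MeasurableSpace E] [BorelSpace E]

section

variable {f : E → ℝ} {M U R0 : ℝ}

lemma ballAv_le_mass {hfi : Integrable f} (hf0 : ∀ y, 0 ≤ f y) {lo ρ : ℝ} (hlo : 0 < lo) (h : lo ≤ ρ)
    (c : E) : ballAv f c ρ ≤ (vb E lo)⁻¹ * ∫ y, f y := by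
  unfold ballAv
  have h1 : ∫ y in ball c ρ, f y ≤ ∫ y, f y :=
    setIntegral_le_integral hfi (Eventually.of_forall hf0)
  have h2 : (vb E ρ)⁻¹ ≤ (vb E lo)⁻¹ := inv_anti₀ (vb_pos hlo) (vb_mono hlo h)
  have h3 : 0 ≤ ∫ y in ball c ρ, f y := integral_nonneg hf0
  exact mul_le_mul h2 h1 h3 (inv_nonneg.mpr (vb_nonneg _))

/-- bound for the top scale -/
lemma top_term (hfi : Integrable f) (hf0 : ∀ y, 0 ≤ f y) {lo : ℝ} (hlo : 0 < lo) (hUlo : U = 16 * lo)
    (hV : ValFn (ballAv f) M (R0 + 2 * U) U) (hR0U : R0 ≤ U) :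
    ∫ x, aSup (ballAv f) lo U x ≤ (48 : ℝ) ^ Module.finrank ℝ E * ∫ y, f y := by
  have hU0 : 0 < U := by rw [hUlo]; positivity
  have hv := vb_pos (E := E) hlo
  have hfint : 0 ≤ ∫ y, f y := integral_nonneg hf0
  set B : E → ℝ := (ball (0 : E) (R0 + 2 * U)).indicator (fun _ => (vb E lo)⁻¹ * ∫ y, f y) with hB
  have hle : ∀ x, aSup (ballAv f) lo U x ≤ B x := by
    intro x
    have hB0 : 0 ≤ B x := indicator_nonneg (fun _ _ => by positivity) x
    apply aSup_le hV hB0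
    intro c ρ h1 h2 hx
    by_cases hx0 : x ∈ ball (0 : E) (R0 + 2 * U)
    · rw [hB, indicator_of_mem hx0]
      exact @ballAv_le_mass _ _ _ _ _ _ _ hfi hf0 lo ρ hlo h1 c
    · rw [hB, indicator_of_notMem hx0]
      have hfar : R0 + 2 * U ≤ ‖x‖ := by simpa using hx0
      exact (hV.far c ρ x (hlo.trans_le h1) h2 hx hfar).le
  have iB : Integrable B :=
    (integrableOn_const (volume_ball_ne_top _ _)).integrable_indicator measurableSet_ball
  have h1 : ∫ x, aSup (ballAv f) lo U x ≤ ∫ x, B x :=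
    integral_mono (integrable_aSup hV hlo (by rw [hUlo]; linarith) le_rfl) iB hle
  refine h1.trans ?_
  rw [hB, integral_indicator measurableSet_ball, setIntegral_const, smul_eq_mul, real_ball_eq]
  have h2 : vb E (R0 + 2 * U) ≤ vb E (48 * lo) := by
    by_cases hR : 0 < R0 + 2 * U
    · apply vb_mono hR
      rw [hUlo] at hR0U ⊢
      linarith
    · have : ball (0 : E) (R0 + 2 * U) = ∅ := ball_eq_empty.mpr (not_lt.mp hR)
      unfold vb
      rw [this]
      simp only [measureReal_empty]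
      exact measureReal_nonneg
  rw [vb_mul (by norm_num) hlo] at h2
  calc vb E (R0 + 2 * U) * ((vb E lo)⁻¹ * ∫ y, f y)
      ≤ ((48 : ℝ) ^ Module.finrank ℝ E * vb E lo) * ((vb E lo)⁻¹ * ∫ y, f y) :=
        mul_le_mul_of_nonneg_right h2 (by positivity)
    _ = _ := by field_simp

/-- the constant of the final estimate -/
noncomputable def K5 (E : Type*) [NormedAddCommGroup E] [InnerProductSpace ℝ E]
    [FiniteDimensional ℝ E] : ℝ := K3 E * 30

lemma K5_nonneg : 0 ≤ K5 E := by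
  unfold K5
  have := K3_nonneg (E := E)
  positivity

/-- the translation estimate for a truncated maximal function -/
lemma trunc_translate [Nontrivial E] (hf : ContDiff ℝ 1 f) (hc : HasCompactSupport f) (hf0 : ∀ y, 0 ≤ f y)
    (hR0 : ∀ y, R0 ≤ ‖y‖ → f y = 0) {r0 : ℝ} (hr0 : 0 < r0) {K : ℕ} (hK : R0 ≤ r0 * 4 ^ (K + 2)) (v : E) :
    ∫ x, ‖aSup (ballAv f) r0 (r0 * 4 ^ (K + 2)) (x + v) - aSup (ballAv f) r0 (r0 * 4 ^ (K + 2)) x‖ ≤
      4 * Module.finrank ℝ E * ‖v‖ * ((1 / (r0 * 4 ^ K)) * ((48 : ℝ) ^ Module.finrank ℝ E * ∫ y, f y) +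
        K5 E * ∫ y, ‖fderiv ℝ f y‖) := by
  obtain ⟨U, hU⟩ : ∃ U, U = r0 * 4 ^ (K + 2) := ⟨_, rfl⟩
  rw [← hU] at hK ⊢
  have hfc : Continuous f := hf.continuous
  have hfi : Integrable f := hfc.integrable_of_hasCompactSupport hc
  obtain ⟨C, hC⟩ := hc.exists_bound_of_continuous hfc
  have hM : ∀ y, f y ≤ C := fun y => (le_abs_self _).trans (hC y)
  have hV : ValFn (ballAv f) C (R0 + 2 * U) U := valFn_ballAv hfc hc hf0 hM hR0
  by_cases hv : v = 0
  · subst hv
    simp only [add_zero, sub_self, norm_zero, integral_zero, mul_zero, zero_mul, le_refl]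
  have hvp : 0 < ‖v‖ := norm_pos_iff.mpr hv
  have hε : 0 < 2 * ‖v‖ := by positivity
  have h1 := shrink_translate hV hε hr0 hU (v := v) (by linarith)
  refine h1.trans ?_
  have hRK : 0 < r0 * 4 ^ K := by positivity
  have hUK : U = 16 * (r0 * 4 ^ K) := by
    rw [hU, pow_add]; ring
  have htop := top_term hfi hf0 hRK hUK (R0 := R0) (by rw [← hUK] at *; exact hV) hK
  have hscale := scale_sum hf hc hf0 hr0 hU hV
  have hd : (0 : ℝ) ≤ Module.finrank ℝ E := by positivity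
  have e : 4 * (Module.finrank ℝ E : ℝ) * ‖v‖ = 2 * Module.finrank ℝ E * (2 * ‖v‖) := by ring
  rw [e]
  apply mul_le_mul_of_nonneg_left _ (by positivity)
  apply add_le_add
  · exact mul_le_mul_of_nonneg_left htop (by positivity)
  · unfold K5
    calc _ ≤ K3 E * (30 * ∫ y, ‖fderiv ℝ f y‖) := hscale
      _ = _ := by ring

end

end Vale.Agent.Lib.P137
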