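import Vale.Agent.Lib.P137.Final1

namespace Vale.Agent.Lib.P137

open MeasureTheory Metric Set Filter Topology
open scoped ENNReal

set_option linter.unusedSectionVars false

variable {E : Type*} [NormedAddCommGroup E] [InnerProductSpace ℝ E] [FiniteDimensional ℝ E]
  [MeasurableSpace E] [BorelSpace E]

/-- the full maximal function built from the ball averages -/
noncomputable def Mtil (f : E → ℝ) (x : E) : ℝ :=
  ⨆ p : {p : E × ℝ // 0 < p.2 ∧ x ∈ ball p.1 p.2}, ballAv f p.1.1 p.1.2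

section

variable {f : E → ℝ} {C R0 : ℝ}

lemma Mtil_bdd (hfc : Continuous f) (hC : ∀ y, f y ≤ C) (x : E) :
    BddAbove (range (fun p : {p : E × ℝ // 0 < p.2 ∧ x ∈ ball p.1 p.2} => ballAv f p.1.1 p.1.2)) :=
  ⟨C, by rintro _ ⟨p, rfl⟩; exact ballAv_le hfc hC _ p.2.1⟩

lemma ballAv_le_Mtil (hfc : Continuous f) (hC : ∀ y, f y ≤ C) {x c : E} {ρ : ℝ} (hρ : 0 < ρ)
    (hx : x ∈ ball c ρ) : ballAv f c ρ ≤ Mtil f x :=
  le_ciSup (Mtil_bdd hfc hC x) (⟨(c, ρ), hρ, hx⟩ : {p : E × ℝ // 0 < p.2 ∧ x ∈ ball p.1 p.2})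

lemma Mtil_nonneg (hf0 : ∀ y, 0 ≤ f y) (x : E) : 0 ≤ Mtil f x :=
  Real.iSup_nonneg (fun _ => ballAv_nonneg hf0 _ _)

lemma Mtil_le (hC0 : 0 ≤ C) (hfc : Continuous f) (hC : ∀ y, f y ≤ C) (x : E) : Mtil f x ≤ C :=
  Real.iSup_le (fun p => ballAv_le hfc hC _ p.2.1) hC0

/-- truncated maximal functions exhausting the full one -/
noncomputable def gn (f : E → ℝ) (n : ℕ) : E → ℝ :=
  aSup (ballAv f) ((1 / 4 : ℝ) ^ n) ((1 / 4 : ℝ) ^ n * 4 ^ (2 * n + 2))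

lemma gn_top (n : ℕ) : (1 / 4 : ℝ) ^ n * 4 ^ (2 * n + 2) = 16 * 4 ^ n := by
  have h4 : (1 / 4 : ℝ) ^ n * 4 ^ n = 1 := by
    rw [← mul_pow]; norm_num
  have e : (4 : ℝ) ^ (2 * n + 2) = 4 ^ n * 4 ^ n * 16 := by
    rw [pow_add, two_mul, pow_add]; norm_num
  rw [e]
  calc (1 / 4 : ℝ) ^ n * (4 ^ n * 4 ^ n * 16) = ((1 / 4 : ℝ) ^ n * 4 ^ n) * (16 * 4 ^ n) := by ring
    _ = _ := by rw [h4, one_mul]

lemma gn_tendsto (hfc : Continuous f) (hf0 : ∀ y, 0 ≤ f y) (hC : ∀ y, f y ≤ C)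
    (hR0 : ∀ y, R0 ≤ ‖y‖ → f y = 0) (hc : HasCompactSupport f) (x : E) :
    Tendsto (fun n => gn f n x) atTop (𝓝 (Mtil f x)) := by
  have hC0 : 0 ≤ C := (hf0 0).trans (hC 0)
  have hlow : ∀ n, gn f n x ≤ Mtil f x := by
    intro n
    apply Real.iSup_le _ (Mtil_nonneg hf0 x)
    intro p
    exact ballAv_le_Mtil hfc hC ((by positivity : (0 : ℝ) < (1 / 4) ^ n).trans_le p.2.1) p.2.2.2
  rw [tendsto_order]
  constructor
  · intro a ha
    by_cases hne : Nonempty {p : E × ℝ // 0 < p.2 ∧ x ∈ ball p.1 p.2}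
    · obtain ⟨p, hp⟩ := exists_lt_of_lt_ciSup ha
      have h1 : ∀ᶠ n : ℕ in atTop, (1 / 4 : ℝ) ^ n < p.1.2 :=
        (tendsto_pow_atTop_nhds_zero_of_lt_one (by norm_num) (by norm_num)).eventually
          (gt_mem_nhds p.2.1)
      have h2 : ∀ᶠ n : ℕ in atTop, p.1.2 < (1 / 4 : ℝ) ^ n * 4 ^ (2 * n + 2) := by
        have h3 : Tendsto (fun n : ℕ => (4 : ℝ) ^ n) atTop atTop :=
          tendsto_pow_atTop_atTop_of_one_lt (by norm_num)
        have h4 := h3.eventually (eventually_gt_atTop p.1.2)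
        filter_upwards [h4] with n hn
        rw [gn_top]
        have : 0 < (4 : ℝ) ^ n := by positivity
        linarith
      filter_upwards [h1, h2] with n hn1 hn2
      have hV : ValFn (ballAv f) C (R0 + 2 * ((1 / 4 : ℝ) ^ n * 4 ^ (2 * n + 2))) ((1 / 4 : ℝ) ^ n * 4 ^ (2 * n + 2)) :=
        valFn_ballAv hfc hc hf0 hC hR0
      exact hp.trans_le (le_aSup hV (by positivity) hn1.le hn2 p.2.2)
    · exfalso
      apply hne
      exact ⟨⟨(x, 1), one_pos, mem_ball_self one_pos⟩⟩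
  · intro a ha
    exact Eventually.of_forall (fun n => (hlow n).trans_lt ha)

lemma gn_measurable (hfc : Continuous f) (hf0 : ∀ y, 0 ≤ f y) (hC : ∀ y, f y ≤ C)
    (hR0 : ∀ y, R0 ≤ ‖y‖ → f y = 0) (hc : HasCompactSupport f) (n : ℕ) :
    Measurable (gn f n) := by
  have hV : ValFn (ballAv f) C (R0 + 2 * ((1 / 4 : ℝ) ^ n * 4 ^ (2 * n + 2))) ((1 / 4 : ℝ) ^ n * 4 ^ (2 * n + 2)) :=
    valFn_ballAv hfc hc hf0 hC hR0
  apply measurable_aSup hV (by positivity)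
  rw [gn_top]
  have h1 : (1 / 4 : ℝ) ^ n * 4 ^ n = 1 := by
    rw [← mul_pow]; norm_num
  have h2 : (1 : ℝ) ≤ 4 ^ n := one_le_pow₀ (by norm_num)
  have h3 : (1 / 4 : ℝ) ^ n ≤ 1 := pow_le_one₀ (by norm_num) (by norm_num)
  linarith

lemma gn_integrable (hfc : Continuous f) (hf0 : ∀ y, 0 ≤ f y) (hC : ∀ y, f y ≤ C)
    (hR0 : ∀ y, R0 ≤ ‖y‖ → f y = 0) (hc : HasCompactSupport f) (n : ℕ) :
    Integrable (gn f n) := by
  have hV : ValFn (ballAv f) C (R0 + 2 * ((1 / 4 : ℝ) ^ n * 4 ^ (2 * n + 2))) ((1 / 4 : ℝ) ^ n * 4 ^ (2 * n + 2)) :=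
    valFn_ballAv hfc hc hf0 hC hR0
  apply integrable_aSup hV (by positivity) _ le_rfl
  rw [gn_top]
  have h2 : (1 : ℝ) ≤ 4 ^ n := one_le_pow₀ (by norm_num)
  have h3 : (1 / 4 : ℝ) ^ n ≤ 1 := pow_le_one₀ (by norm_num) (by norm_num)
  linarith

lemma Mtil_measurable (hfc : Continuous f) (hf0 : ∀ y, 0 ≤ f y) (hC : ∀ y, f y ≤ C)
    (hR0 : ∀ y, R0 ≤ ‖y‖ → f y = 0) (hc : HasCompactSupport f) : Measurable (Mtil f) :=
  measurable_of_tendsto_metrizable (gn_measurable hfc hf0 hC hR0 hc)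
    (tendsto_pi_nhds.mpr (gn_tendsto hfc hf0 hC hR0 hc))

/-- the translation estimate for the full maximal function, nonnegative input -/
lemma Mtil_translate [Nontrivial E] (hf : ContDiff ℝ 1 f) (hc : HasCompactSupport f) (hf0 : ∀ y, 0 ≤ f y)
    (v : E) :
    ∫⁻ x, ENNReal.ofReal ‖Mtil f (x + v) - Mtil f x‖ ≤
      ENNReal.ofReal (4 * Module.finrank ℝ E * ‖v‖ * (K5 E * ∫ y, ‖fderiv ℝ f y‖)) := by
  have hfc : Continuous f := hf.continuous
  obtain ⟨C, hC'⟩ := hc.exists_bound_of_continuous hfc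
  have hC : ∀ y, f y ≤ C := fun y => (le_abs_self _).trans (hC' y)
  obtain ⟨R0, hR0'⟩ := hc.isCompact.isBounded.subset_closedBall (0 : E)
  have hR0 : ∀ y, R0 + 1 ≤ ‖y‖ → f y = 0 := by
    intro y hy
    by_contra hne
    have := hR0' (subset_tsupport _ hne)
    rw [mem_closedBall, dist_zero_right] at this
    linarith
  set F : ℕ → E → ℝ≥0∞ := fun n x => ENNReal.ofReal ‖gn f n (x + v) - gn f n x‖ with hF
  have hFm : ∀ n, Measurable (F n) := by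
    intro n
    apply ENNReal.measurable_ofReal.comp
    apply Measurable.norm
    exact ((gn_measurable hfc hf0 hC hR0 hc n).comp (measurable_add_const v)).sub
      (gn_measurable hfc hf0 hC hR0 hc n)
  have hlim : ∀ x, Tendsto (fun n => F n x) atTop (𝓝 (ENNReal.ofReal ‖Mtil f (x + v) - Mtil f x‖)) := by
    intro x
    apply ENNReal.continuous_ofReal.continuousAt.tendsto.comp
    exact ((gn_tendsto hfc hf0 hC hR0 hc (x + v)).sub (gn_tendsto hfc hf0 hC hR0 hc x)).norm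
  set c : ℕ → ℝ := fun n => 4 * Module.finrank ℝ E * ‖v‖ * ((1 / 4 : ℝ) ^ n * ((48 : ℝ) ^ Module.finrank ℝ E * ∫ y, f y) +
        K5 E * ∫ y, ‖fderiv ℝ f y‖) with hc'
  have hcl : Tendsto c atTop (𝓝 (4 * Module.finrank ℝ E * ‖v‖ * (K5 E * ∫ y, ‖fderiv ℝ f y‖))) := by
    have h0 : Tendsto (fun n : ℕ => (1 / 4 : ℝ) ^ n) atTop (𝓝 0) :=
      tendsto_pow_atTop_nhds_zero_of_lt_one (by norm_num) (by norm_num)
    have h1 := ((h0.mul_const ((48 : ℝ) ^ Module.finrank ℝ E * ∫ y, f y)).add_const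
      (K5 E * ∫ y, ‖fderiv ℝ f y‖)).const_mul (4 * (Module.finrank ℝ E : ℝ) * ‖v‖)
    rw [zero_mul, zero_add] at h1
    exact h1
  have hev : ∀ᶠ n : ℕ in atTop, ∫⁻ x, F n x ≤ ENNReal.ofReal (c n) := by
    have h3 : Tendsto (fun n : ℕ => (4 : ℝ) ^ n) atTop atTop :=
      tendsto_pow_atTop_atTop_of_one_lt (by norm_num)
    filter_upwards [h3.eventually (eventually_gt_atTop (R0 + 1))] with n hn
    have hr0 : (0 : ℝ) < (1 / 4) ^ n := by positivity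
    have hK : R0 + 1 ≤ (1 / 4 : ℝ) ^ n * 4 ^ (2 * n + 2) := by
      rw [gn_top]
      have : 0 < (4 : ℝ) ^ n := by positivity
      linarith
    have h4 := trunc_translate (K := 2 * n) hf hc hf0 hR0 hr0 hK v
    have e5 : 1 / ((1 / 4 : ℝ) ^ n * 4 ^ (2 * n)) = (1 / 4 : ℝ) ^ n := by
      have h6 : (4 : ℝ) ^ (2 * n) = 4 ^ n * 4 ^ n := by rw [two_mul, pow_add]
      have h7 : (1 / 4 : ℝ) ^ n * 4 ^ n = 1 := by
        rw [← mul_pow]; norm_num
      rw [h6]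
      have h8 : (1 / 4 : ℝ) ^ n * (4 ^ n * 4 ^ n) = 4 ^ n := by
        rw [← mul_assoc, h7, one_mul]
      rw [h8, one_div, one_div, inv_pow]
    rw [e5] at h4
    have i1 : Integrable (fun x => ‖gn f n (x + v) - gn f n x‖) :=
      (((gn_integrable hfc hf0 hC hR0 hc n).comp_add_right v).sub
        (gn_integrable hfc hf0 hC hR0 hc n)).norm
    calc ∫⁻ x, F n x = ENNReal.ofReal (∫ x, ‖gn f n (x + v) - gn f n x‖) :=
          (ofReal_integral_eq_lintegral_ofReal i1 (Eventually.of_forall fun x => norm_nonneg _)).symm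
      _ ≤ ENNReal.ofReal (c n) := ENNReal.ofReal_le_ofReal h4
  calc ∫⁻ x, ENNReal.ofReal ‖Mtil f (x + v) - Mtil f x‖
      = ∫⁻ x, liminf (fun n => F n x) atTop := by
        apply lintegral_congr
        intro x
        exact (hlim x).liminf_eq.symm
    _ ≤ liminf (fun n => ∫⁻ x, F n x) atTop := lintegral_liminf_le hFm
    _ ≤ liminf (fun n => ENNReal.ofReal (c n)) atTop := liminf_le_liminf hev
    _ = _ := (ENNReal.continuous_ofReal.continuousAt.tendsto.comp hcl).liminf_eq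

end

end Vale.Agent.Lib.P137
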