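import Vale.Agent.Lib.P137.Final2

namespace Vale.Agent.Lib.P137

open MeasureTheory Metric Set Filter Topology
open scoped ENNReal

set_option linter.unusedSectionVars false

variable {E : Type*} [NormedAddCommGroup E] [InnerProductSpace ℝ E] [FiniteDimensional ℝ E]
  [MeasurableSpace E] [BorelSpace E]

/-- directional derivative in L1 from a translation estimate -/
lemma lintegral_dir_le {h : E → ℝ} {A : ℝ} (hA : 0 ≤ A) {L : NNReal} (hL : LipschitzWith L h)
    (htr : ∀ v : E, ∫⁻ x, ENNReal.ofReal ‖h (x + v) - h x‖ ≤ ENNReal.ofReal (A * ‖v‖))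
    {u : E} (hu : ‖u‖ = 1) :
    ∫⁻ x, ENNReal.ofReal ‖fderiv ℝ h x u‖ ≤ ENNReal.ofReal A := by
  set c : ℕ → ℝ := fun n => (n : ℝ) + 1 with hc
  have hc0 : ∀ n, 0 < c n := fun n => by rw [hc]; positivity
  set F : ℕ → E → ℝ≥0∞ := fun n x => ENNReal.ofReal ‖c n • (h (x + (c n)⁻¹ • u) - h x)‖ with hF
  have hcont : Continuous h := hL.continuous
  have hFm : ∀ n, Measurable (F n) := by
    intro n
    apply ENNReal.measurable_ofReal.comp
    apply Measurable.norm
    apply Continuous.measurable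
    fun_prop
  have hlim : ∀ᵐ x, Tendsto (fun n => F n x) atTop (𝓝 (ENNReal.ofReal ‖fderiv ℝ h x u‖)) := by
    filter_upwards [hL.ae_differentiableAt (μ := (volume : Measure E))] with x hx
    apply ENNReal.continuous_ofReal.continuousAt.tendsto.comp
    apply Tendsto.norm
    apply hx.hasFDerivAt.lim u
    have : Tendsto (fun n : ℕ => (n : ℝ) + 1) atTop atTop :=
      tendsto_atTop_add_const_right _ _ tendsto_natCast_atTop_atTop
    refine this.congr (fun n => ?_)
    rw [Real.norm_eq_abs, abs_of_pos (hc0 n)]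
  have hbound : ∀ n, ∫⁻ x, F n x ≤ ENNReal.ofReal A := by
    intro n
    have e : ∀ x, F n x = ENNReal.ofReal (c n) * ENNReal.ofReal ‖h (x + (c n)⁻¹ • u) - h x‖ := by
      intro x
      simp only [hF]
      rw [norm_smul, Real.norm_eq_abs, abs_of_pos (hc0 n), ENNReal.ofReal_mul (hc0 n).le]
    simp_rw [e]
    rw [lintegral_const_mul' _ _ ENNReal.ofReal_ne_top]
    have h1 := htr ((c n)⁻¹ • u)
    rw [norm_smul, hu, mul_one, Real.norm_eq_abs, abs_of_pos (inv_pos.mpr (hc0 n))] at h1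
    calc ENNReal.ofReal (c n) * ∫⁻ x, ENNReal.ofReal ‖h (x + (c n)⁻¹ • u) - h x‖
        ≤ ENNReal.ofReal (c n) * ENNReal.ofReal (A * (c n)⁻¹) := mul_le_mul' le_rfl h1
      _ = ENNReal.ofReal A := by
          rw [← ENNReal.ofReal_mul (hc0 n).le]
          congr 1
          have := (hc0 n).ne'
          field_simp
  calc ∫⁻ x, ENNReal.ofReal ‖fderiv ℝ h x u‖
      = ∫⁻ x, liminf (fun n => F n x) atTop := by
        apply lintegral_congr_ae
        filter_upwards [hlim] with x hx
        exact hx.liminf_eq.symm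
    _ ≤ liminf (fun n => ∫⁻ x, F n x) atTop := lintegral_liminf_le hFm
    _ ≤ ENNReal.ofReal A := by
        refine le_trans (liminf_le_liminf (Eventually.of_forall hbound)) ?_
        rw [liminf_const]

/-- the operator norm of a linear form is controlled on an orthonormal basis -/
lemma opNorm_le_sum_basis {ι : Type*} [Fintype ι] (b : OrthonormalBasis ι ℝ E) (L : E →L[ℝ] ℝ) :
    ‖L‖ ≤ ∑ i, ‖L (b i)‖ := by
  apply ContinuousLinearMap.opNorm_le_bound _ (Finset.sum_nonneg fun i _ => norm_nonneg _)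
  intro w
  have e : L w = ∑ i, inner ℝ (b i) w * L (b i) := by
    conv_lhs => rw [← b.sum_repr' w]
    rw [map_sum]
    apply Finset.sum_congr rfl
    intro i _
    rw [map_smul, smul_eq_mul]
  rw [e, Finset.sum_mul]
  refine (norm_sum_le _ _).trans (Finset.sum_le_sum fun i _ => ?_)
  rw [norm_mul, mul_comm]
  apply mul_le_mul_of_nonneg_left _ (norm_nonneg _)
  have := abs_real_inner_le_norm (b i) w
  rw [b.norm_eq_one i, one_mul] at this
  exact this

/-- gradient in L1 from a translation estimate -/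
lemma gradient_of_translate {h : E → ℝ} {A : ℝ} (hA : 0 ≤ A) {L : NNReal} (hL : LipschitzWith L h)
    (htr : ∀ v : E, ∫⁻ x, ENNReal.ofReal ‖h (x + v) - h x‖ ≤ ENNReal.ofReal (A * ‖v‖)) :
    Integrable (fun x => ‖fderiv ℝ h x‖) ∧
      ∫ x, ‖fderiv ℝ h x‖ ≤ Module.finrank ℝ E * A := by
  classical
  set b := stdOrthonormalBasis ℝ E with hb
  have hcard : (Fintype.card (Fin (Module.finrank ℝ E)) : ℝ) = Module.finrank ℝ E := by simp
  have hmeas : Measurable (fun x => ‖fderiv ℝ h x‖) := (measurable_fderiv ℝ h).norm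
  have hlin : ∫⁻ x, ENNReal.ofReal ‖fderiv ℝ h x‖ ≤ ENNReal.ofReal (Module.finrank ℝ E * A) := by
    have h1 : ∀ x, ENNReal.ofReal ‖fderiv ℝ h x‖ ≤
        ∑ i, ENNReal.ofReal ‖fderiv ℝ h x (b i)‖ := by
      intro x
      rw [← ENNReal.ofReal_sum_of_nonneg (fun i _ => norm_nonneg _)]
      exact ENNReal.ofReal_le_ofReal (opNorm_le_sum_basis b _)
    calc ∫⁻ x, ENNReal.ofReal ‖fderiv ℝ h x‖
        ≤ ∫⁻ x, ∑ i, ENNReal.ofReal ‖fderiv ℝ h x (b i)‖ := lintegral_mono h1
      _ = ∑ i, ∫⁻ x, ENNReal.ofReal ‖fderiv ℝ h x (b i)‖ := by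
          rw [lintegral_finsetSum]
          intro i _
          apply ENNReal.measurable_ofReal.comp
          apply Measurable.norm
          exact (measurable_fderiv_apply_const ℝ h (b i))
      _ ≤ ∑ _i : Fin (Module.finrank ℝ E), ENNReal.ofReal A :=
          Finset.sum_le_sum fun i _ => lintegral_dir_le hA hL htr (b.norm_eq_one i)
      _ = ENNReal.ofReal (Module.finrank ℝ E * A) := by
          simp only [Finset.sum_const, Finset.card_univ, Fintype.card_fin, nsmul_eq_mul]
          rw [ENNReal.ofReal_mul (by positivity)]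
          simp
  have hfin : HasFiniteIntegral (fun x => ‖fderiv ℝ h x‖) := by
    rw [hasFiniteIntegral_iff_ofReal (Eventually.of_forall fun x => norm_nonneg _)]
    exact hlin.trans_lt ENNReal.ofReal_lt_top
  have hi : Integrable (fun x => ‖fderiv ℝ h x‖) := ⟨hmeas.aestronglyMeasurable, hfin⟩
  refine ⟨hi, ?_⟩
  have h2 := (ofReal_integral_eq_lintegral_ofReal hi (Eventually.of_forall fun x => norm_nonneg _)).le.trans hlin
  exact (ENNReal.ofReal_le_ofReal_iff (by positivity)).mp h2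

section

variable {f : E → ℝ}

/-- the maximal function of a Lipschitz function is Lipschitz -/
lemma Mtil_lipschitz {C : ℝ} {L : NNReal} (hL : LipschitzWith L f) (hC : ∀ y, f y ≤ C)
    (hC0 : 0 ≤ C) (hf0 : ∀ y, 0 ≤ f y) : LipschitzWith L (Mtil f) := by
  apply LipschitzWith.of_le_add_mul
  intro x y
  have hfc : Continuous f := hL.continuous
  have hnn : 0 ≤ Mtil f y + L * dist x y := add_nonneg (Mtil_nonneg hf0 y) (by positivity)
  apply Real.iSup_le _ hnn
  intro p
  obtain ⟨⟨c, ρ⟩, hρ, hx⟩ := p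
  simp only at hρ hx ⊢
  have hy : y ∈ ball (c + (y - x)) ρ := by
    rw [mem_ball, dist_eq_norm] at hx ⊢
    have : y - (c + (y - x)) = x - c := by abel
    rwa [this]
  have h1 := ballAv_le_Mtil hfc hC hρ hy
  have h2 : ballAv f c ρ ≤ ballAv f (c + (y - x)) ρ + L * dist x y := by
    rw [ballAv_eq_unit f _ hρ, ballAv_eq_unit f _ hρ]
    have hv := vb_pos (E := E) (s := 1) one_pos
    have hc1 : Continuous (fun ζ : E => f (c + ρ • ζ)) := hfc.comp (by fun_prop)
    have hc2 : Continuous (fun ζ : E => f (c + (y - x) + ρ • ζ)) := hfc.comp (by fun_prop)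
    have h3 : ∫ ζ in ball (0 : E) 1, f (c + ρ • ζ) ≤
        ∫ ζ in ball (0 : E) 1, (f (c + (y - x) + ρ • ζ) + L * dist x y) := by
      apply setIntegral_mono_on (integrableOn_ball_of_continuous hc1 _ _)
      · exact (integrableOn_ball_of_continuous hc2 _ _).add
          (integrableOn_const (volume_ball_ne_top _ _))
      · exact measurableSet_ball
      · intro ζ _
        have h4 := hL.dist_le_mul (c + ρ • ζ) (c + (y - x) + ρ • ζ)
        have h5 : dist (c + ρ • ζ) (c + (y - x) + ρ • ζ) = dist x y := by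
          rw [dist_eq_norm, dist_eq_norm]
          have : c + ρ • ζ - (c + (y - x) + ρ • ζ) = x - y := by abel
          rw [this]
        rw [h5] at h4
        have h6 := (abs_le.mp ((Real.dist_eq _ _).symm.le.trans h4)).2
        linarith
    rw [integral_add (integrableOn_ball_of_continuous hc2 _ _)
      (integrableOn_const (volume_ball_ne_top _ _)), setIntegral_const, smul_eq_mul] at h3
    have e : (volume : Measure E).real (ball (0 : E) 1) = vb E 1 := rfl
    rw [e] at h3
    calc (vb E 1)⁻¹ * ∫ ζ in ball (0 : E) 1, f (c + ρ • ζ)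
        ≤ (vb E 1)⁻¹ * ((∫ ζ in ball (0 : E) 1, f (c + (y - x) + ρ • ζ)) + vb E 1 * (L * dist x y)) :=
          mul_le_mul_of_nonneg_left h3 (inv_nonneg.mpr hv.le)
      _ = _ := by field_simp
  linarith

/-- the gradient bound, nonnegative input -/
theorem gradient_bound_nonneg [Nontrivial E] (hf : ContDiff ℝ 1 f) (hc : HasCompactSupport f) (hf0 : ∀ y, 0 ≤ f y) :
    (∃ L : NNReal, LipschitzWith L (Mtil f)) ∧ Integrable (fun x => ‖fderiv ℝ (Mtil f) x‖) ∧
      ∫ x, ‖fderiv ℝ (Mtil f) x‖ ≤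
        (Module.finrank ℝ E * (4 * Module.finrank ℝ E * K5 E)) * ∫ y, ‖fderiv ℝ f y‖ := by
  obtain ⟨L, hL⟩ := hf.lipschitzWith_of_hasCompactSupport hc one_ne_zero
  obtain ⟨C, hC'⟩ := hc.exists_bound_of_continuous hf.continuous
  have hC : ∀ y, f y ≤ C := fun y => (le_abs_self _).trans (hC' y)
  have hC0 : 0 ≤ C := (hf0 0).trans (hC 0)
  have hML := Mtil_lipschitz hL hC hC0 hf0
  have hV : 0 ≤ ∫ y, ‖fderiv ℝ f y‖ := integral_nonneg (fun y => norm_nonneg _)
  have hA : 0 ≤ 4 * Module.finrank ℝ E * K5 E * ∫ y, ‖fderiv ℝ f y‖ :=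
    mul_nonneg (mul_nonneg (by positivity) K5_nonneg) hV
  have htr : ∀ v : E, ∫⁻ x, ENNReal.ofReal ‖Mtil f (x + v) - Mtil f x‖ ≤
      ENNReal.ofReal ((4 * Module.finrank ℝ E * K5 E * ∫ y, ‖fderiv ℝ f y‖) * ‖v‖) := by
    intro v
    refine (Mtil_translate hf hc hf0 v).trans (ENNReal.ofReal_le_ofReal (le_of_eq ?_))
    ring
  obtain ⟨h1, h2⟩ := gradient_of_translate hA hML htr
  refine ⟨⟨L, hML⟩, h1, h2.trans (le_of_eq ?_)⟩
  ring

end

end Vale.Agent.Lib.P137
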