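import Vale.Agent.Lib.P137.Final3

namespace Vale.Agent.Lib.P137

open MeasureTheory Metric Set Filter Topology
open scoped ENNReal

set_option linter.unusedSectionVars false

variable {E : Type*} [NormedAddCommGroup E] [InnerProductSpace ℝ E] [FiniteDimensional ℝ E]
  [MeasurableSpace E] [BorelSpace E]

section

variable {f : E → ℝ} {M U R1 : ℝ}

/-- bound for the top scale, independent of the support of `f` -/
lemma top_term' (hfi : Integrable f) (hf0 : ∀ y, 0 ≤ f y) {lo : ℝ} (hlo : 0 < lo) (hUlo : U = 16 * lo)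
    (hV : ValFn (ballAv f) M R1 U) :
    ∫ x, aSup (ballAv f) lo U x ≤ (32 : ℝ) ^ Module.finrank ℝ E * ∫ y, f y := by
  have hU0 : 0 < U := by rw [hUlo]; positivity
  have hv := vb_pos (E := E) hlo
  have hfint : 0 ≤ ∫ y, f y := integral_nonneg hf0
  have hle : ∀ x, aSup (ballAv f) lo U x ≤ (vb E lo)⁻¹ * ∫ y in ball x (2 * U), f y := by
    intro x
    have hB0 : 0 ≤ (vb E lo)⁻¹ * ∫ y in ball x (2 * U), f y :=
      mul_nonneg (inv_nonneg.mpr hv.le) (integral_nonneg hf0)
    apply aSup_le hV hB0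
    intro c ρ h1 h2 hx
    have hsub : ball c ρ ⊆ ball x (2 * U) := by
      intro y hy
      rw [mem_ball] at hy hx ⊢
      have := dist_triangle y c x
      rw [dist_comm c x] at this
      linarith
    have h3 : ∫ y in ball c ρ, f y ≤ ∫ y in ball x (2 * U), f y :=
      setIntegral_mono_set hfi.integrableOn (Eventually.of_forall hf0) hsub.eventuallyLE
    have h4 : (vb E ρ)⁻¹ ≤ (vb E lo)⁻¹ := inv_anti₀ hv (vb_mono hlo h1)
    exact mul_le_mul h4 h3 (integral_nonneg hf0) (inv_nonneg.mpr hv.le)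
  have i1 : Integrable (fun x => (vb E lo)⁻¹ * ∫ y in ball x (2 * U), f y) :=
    (integrable_mass hfi _).const_mul _
  have h1 := integral_mono (integrable_aSup hV hlo (by rw [hUlo]; linarith) le_rfl) i1 hle
  refine h1.trans ?_
  rw [integral_const_mul, integral_mass hfi]
  have e : 2 * U = 32 * lo := by rw [hUlo]; ring
  rw [e, vb_mul (by norm_num) hlo]
  apply le_of_eq
  field_simp

/-- the translation estimate for a truncated maximal function, with no condition on the support -/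
lemma trunc_translate' [Nontrivial E] (hf : ContDiff ℝ 1 f) (hc : HasCompactSupport f) (hf0 : ∀ y, 0 ≤ f y)
    {r0 : ℝ} (hr0 : 0 < r0) (K : ℕ) (v : E) :
    ∫ x, ‖aSup (ballAv f) r0 (r0 * 4 ^ (K + 2)) (x + v) - aSup (ballAv f) r0 (r0 * 4 ^ (K + 2)) x‖ ≤
      4 * Module.finrank ℝ E * ‖v‖ * ((1 / (r0 * 4 ^ K)) * ((32 : ℝ) ^ Module.finrank ℝ E * ∫ y, f y) +
        K5 E * ∫ y, ‖fderiv ℝ f y‖) := by
  obtain ⟨U, hU⟩ : ∃ U, U = r0 * 4 ^ (K + 2) := ⟨_, rfl⟩
  rw [← hU]
  have hfc : Continuous f := hf.continuous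
  have hfi : Integrable f := hfc.integrable_of_hasCompactSupport hc
  obtain ⟨C, hC⟩ := hc.exists_bound_of_continuous hfc
  have hM : ∀ y, f y ≤ C := fun y => (le_abs_self _).trans (hC y)
  obtain ⟨R0, hR0'⟩ := hc.isCompact.isBounded.subset_closedBall (0 : E)
  have hR0 : ∀ y, R0 + 1 ≤ ‖y‖ → f y = 0 := by
    intro y hy
    by_contra hne
    have := hR0' (subset_tsupport _ hne)
    rw [mem_closedBall, dist_zero_right] at this
    linarith
  have hV : ValFn (ballAv f) C (R0 + 1 + 2 * U) U := valFn_ballAv hfc hc hf0 hM hR0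
  by_cases hv : v = 0
  · subst hv
    simp only [add_zero, sub_self, norm_zero, integral_zero, mul_zero, zero_mul, le_refl]
  have hvp : 0 < ‖v‖ := norm_pos_iff.mpr hv
  have hε : 0 < 2 * ‖v‖ := by positivity
  have h1 := shrink_translate hV hε hr0 hU (v := v) (by linarith)
  refine h1.trans ?_
  have hRK : 0 < r0 * 4 ^ K := by positivity
  have hUK : U = 16 * (r0 * 4 ^ K) := by
    rw [hU, pow_add]; ring
  have htop := top_term' hfi hf0 hRK hUK hV
  have hscale := scale_sum hf hc hf0 hr0 hU hV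
  have e : 4 * (Module.finrank ℝ E : ℝ) * ‖v‖ = 2 * Module.finrank ℝ E * (2 * ‖v‖) := by ring
  rw [e]
  apply mul_le_mul_of_nonneg_left _ (by positivity)
  apply add_le_add
  · exact mul_le_mul_of_nonneg_left htop (by positivity)
  · unfold K5
    calc _ ≤ K3 E * (30 * ∫ y, ‖fderiv ℝ f y‖) := hscale
      _ = _ := by ring

end

end Vale.Agent.Lib.P137
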