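import Mathlib

namespace Vale.Agent.Lib.P137

set_option linter.unusedSectionVars false

/-- coefficient bounds for a quadratic small at three separated points -/
lemma quad_coeffs {A B D ε g t1 t2 t3 : ℝ} (hg : 0 < g) (ht1 : 0 ≤ t1) (h12 : t1 + g ≤ t2)
    (h23 : t2 + g ≤ t3) (ht3 : t3 ≤ 1)
    (p1 : |D + B * t1 + A * t1 ^ 2| ≤ ε) (p2 : |D + B * t2 + A * t2 ^ 2| ≤ ε)
    (p3 : |D + B * t3 + A * t3 ^ 2| ≤ ε) :
    |A| * g ^ 2 ≤ 2 * ε ∧ |B| * g ^ 2 ≤ 6 * ε ∧ |D| * g ^ 2 ≤ 9 * ε := by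
  have hε : 0 ≤ ε := (abs_nonneg _).trans p1
  have hg2 : g ≤ 1 / 2 := by linarith
  set P1 := D + B * t1 + A * t1 ^ 2 with hP1
  set P2 := D + B * t2 + A * t2 ^ 2 with hP2
  set P3 := D + B * t3 + A * t3 ^ 2 with hP3
  have d12 : 0 < t2 - t1 := by linarith
  have d23 : 0 < t3 - t2 := by linarith
  have d13 : 0 < t3 - t1 := by linarith
  have eA : A * ((t2 - t1) * (t3 - t2) * (t3 - t1)) =
      (t3 - t2) * P1 - (t3 - t1) * P2 + (t2 - t1) * P3 := by
    rw [hP1, hP2, hP3]; ring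
  have hA : |A| * g ^ 2 ≤ 2 * ε := by
    have h1 : |(t3 - t2) * P1 - (t3 - t1) * P2 + (t2 - t1) * P3| ≤
        (t3 - t2) * ε + (t3 - t1) * ε + (t2 - t1) * ε := by
      have a1 : |(t3 - t2) * P1| ≤ (t3 - t2) * ε := by
        rw [abs_mul, abs_of_pos d23]; exact mul_le_mul_of_nonneg_left p1 d23.le
      have a2 : |(t3 - t1) * P2| ≤ (t3 - t1) * ε := by
        rw [abs_mul, abs_of_pos d13]; exact mul_le_mul_of_nonneg_left p2 d13.le
      have a3 : |(t2 - t1) * P3| ≤ (t2 - t1) * ε := by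
        rw [abs_mul, abs_of_pos d12]; exact mul_le_mul_of_nonneg_left p3 d12.le
      calc _ ≤ |(t3 - t2) * P1 - (t3 - t1) * P2| + |(t2 - t1) * P3| := abs_add_le _ _
        _ ≤ |(t3 - t2) * P1| + |(t3 - t1) * P2| + |(t2 - t1) * P3| := by
            gcongr; exact abs_sub _ _
        _ ≤ _ := by linarith
    rw [← eA, abs_mul, abs_of_pos (by positivity : 0 < (t2 - t1) * (t3 - t2) * (t3 - t1))] at h1
    have h2 : |A| * ((t2 - t1) * (t3 - t2)) * (t3 - t1) ≤ (2 * ε) * (t3 - t1) := by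
      nlinarith
    have h3 : |A| * ((t2 - t1) * (t3 - t2)) ≤ 2 * ε := le_of_mul_le_mul_right h2 d13
    have h4 : g ^ 2 ≤ (t2 - t1) * (t3 - t2) := by
      have : g * g ≤ (t2 - t1) * (t3 - t2) :=
        mul_le_mul (by linarith) (by linarith) hg.le d12.le
      nlinarith
    calc |A| * g ^ 2 ≤ |A| * ((t2 - t1) * (t3 - t2)) :=
          mul_le_mul_of_nonneg_left h4 (abs_nonneg _)
      _ ≤ 2 * ε := h3
  have eB : P2 - P1 = (t2 - t1) * (B + A * (t1 + t2)) := by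
    rw [hP1, hP2]; ring
  have hB : |B| * g ^ 2 ≤ 6 * ε := by
    have h1 : |t2 - t1| * |B + A * (t1 + t2)| ≤ 2 * ε := by
      rw [← abs_mul, ← eB]
      have := abs_sub P2 P1
      linarith
    rw [abs_of_pos d12] at h1
    have h2 : g * |B + A * (t1 + t2)| ≤ 2 * ε :=
      (mul_le_mul_of_nonneg_right (by linarith) (abs_nonneg _)).trans h1
    have h3 : |B| ≤ |B + A * (t1 + t2)| + |A| * 2 := by
      have e : B = (B + A * (t1 + t2)) - A * (t1 + t2) := by ring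
      have h4 : |A * (t1 + t2)| ≤ |A| * 2 := by
        rw [abs_mul, abs_of_nonneg (by linarith : 0 ≤ t1 + t2)]
        apply mul_le_mul_of_nonneg_left _ (abs_nonneg _)
        linarith
      calc |B| = |(B + A * (t1 + t2)) - A * (t1 + t2)| := by rw [← e]
        _ ≤ |B + A * (t1 + t2)| + |A * (t1 + t2)| := abs_sub _ _
        _ ≤ _ := by linarith
    have h5 : g * (g * |B + A * (t1 + t2)|) ≤ g * (2 * ε) :=
      mul_le_mul_of_nonneg_left h2 hg.le
    have h6 : g * (2 * ε) ≤ ε := by nlinarith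
    have h7 : |B| * g ^ 2 ≤ (|B + A * (t1 + t2)| + |A| * 2) * g ^ 2 :=
      mul_le_mul_of_nonneg_right h3 (by positivity)
    nlinarith
  have hD : |D| * g ^ 2 ≤ 9 * ε := by
    have e : D = P1 - B * t1 - A * t1 ^ 2 := by rw [hP1]; ring
    have ht : t1 ≤ 1 := by linarith
    have ht' : t1 ^ 2 ≤ 1 := by nlinarith
    have h3 : |D| ≤ |P1| + |B| + |A| := by
      have b1 : |B * t1| ≤ |B| := by
        rw [abs_mul, abs_of_nonneg ht1]
        nlinarith [abs_nonneg B]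
      have b2 : |A * t1 ^ 2| ≤ |A| := by
        rw [abs_mul, abs_of_nonneg (by positivity : 0 ≤ t1 ^ 2)]
        nlinarith [abs_nonneg A]
      calc |D| = |P1 - B * t1 - A * t1 ^ 2| := by rw [← e]
        _ ≤ |P1 - B * t1| + |A * t1 ^ 2| := abs_sub _ _
        _ ≤ |P1| + |B * t1| + |A * t1 ^ 2| := by
            gcongr; exact abs_sub _ _
        _ ≤ _ := by linarith
    have h4 : g ^ 2 ≤ 1 := by nlinarith
    have h5 : |P1| * g ^ 2 ≤ ε := by
      have : |P1| * g ^ 2 ≤ ε * 1 := mul_le_mul p1 h4 (by positivity) hε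
      linarith
    have h7 : |D| * g ^ 2 ≤ (|P1| + |B| + |A|) * g ^ 2 :=
      mul_le_mul_of_nonneg_right h3 (by positivity)
    nlinarith
  exact ⟨hA, hB, hD⟩

end Vale.Agent.Lib.P137
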