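import Vale.Agent.Lib.P137.Geom1

namespace Vale.Agent.Lib.P137

set_option linter.unusedSectionVars false

variable {E : Type*} [NormedAddCommGroup E] [InnerProductSpace ℝ E]

lemma P_bound {u e ξ : E} {a t ρ' s : ℝ} (he : ‖e‖ = 1) (hξ : ‖ξ‖ ≤ s) (ht0 : 0 ≤ t) (ht1 : t ≤ 1)
    (hρ' : 0 ≤ ρ') (hs : 0 ≤ s)
    (H : |‖u - t • (a • e + ξ)‖ - (1 + 3 * t) * ρ'| ≤ (1 + 3 * t) * s) :
    |(‖u‖ ^ 2 - ρ' ^ 2) + (-2 * a * inner ℝ u e - 6 * ρ' ^ 2) * t + (a ^ 2 - 9 * ρ' ^ 2) * t ^ 2| ≤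
      5 * s * (8 * ρ' + 5 * s) := by
  set N := ‖u - t • a • e‖ with hN
  have e1 : u - t • (a • e + ξ) = (u - t • a • e) - t • ξ := by
    rw [smul_add]; abel
  have h1 : |N - ‖u - t • (a • e + ξ)‖| ≤ s := by
    rw [e1]
    have h2 := abs_norm_sub_norm_le (u - t • a • e) ((u - t • a • e) - t • ξ)
    have h3 : (u - t • a • e) - ((u - t • a • e) - t • ξ) = t • ξ := by abel
    rw [h3, norm_smul, Real.norm_eq_abs, abs_of_nonneg ht0] at h2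
    have h4 : t * ‖ξ‖ ≤ 1 * s := mul_le_mul ht1 hξ (norm_nonneg _) zero_le_one
    linarith
  set Q := (1 + 3 * t) * ρ' with hQ
  have hQ0 : 0 ≤ Q := by positivity
  have hQ4 : Q ≤ 4 * ρ' := by
    have : (1 + 3 * t) * ρ' ≤ 4 * ρ' := mul_le_mul_of_nonneg_right (by linarith) hρ'
    exact this
  have h5 : |N - Q| ≤ 5 * s := by
    have h6 : |N - Q| ≤ |N - ‖u - t • (a • e + ξ)‖| + |‖u - t • (a • e + ξ)‖ - Q| := abs_sub_le _ _ _
    have h7 : (1 + 3 * t) * s ≤ 4 * s := mul_le_mul_of_nonneg_right (by linarith) hs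
    linarith
  have eN : N ^ 2 = ‖u‖ ^ 2 - 2 * t * a * inner ℝ u e + t ^ 2 * a ^ 2 := by
    rw [hN, norm_sub_sq_real, inner_smul_right, inner_smul_right, norm_smul, norm_smul, he,
      mul_one, mul_pow, Real.norm_eq_abs, Real.norm_eq_abs, sq_abs, sq_abs]
    ring
  have e2 : (‖u‖ ^ 2 - ρ' ^ 2) + (-2 * a * inner ℝ u e - 6 * ρ' ^ 2) * t + (a ^ 2 - 9 * ρ' ^ 2) * t ^ 2 =
      (N - Q) * (N + Q) := by
    have : (N - Q) * (N + Q) = N ^ 2 - Q ^ 2 := by ring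
    rw [this, eN, hQ]
    ring
  rw [e2, abs_mul]
  have hN0 : 0 ≤ N := norm_nonneg _
  have h8 : |N + Q| ≤ 8 * ρ' + 5 * s := by
    rw [abs_of_nonneg (by linarith)]
    have := (abs_le.mp h5).2
    linarith
  exact mul_le_mul h5 h8 (abs_nonneg _) (by positivity)

/-- the real inequality behind the three point lemma -/
lemma geom_real {a ρ ρ' η s w ε A B D Wx Wz : ℝ}
    (hρ : 0 < ρ) (hρ' : 0 < ρ') (hs : 0 < s) (hw : 0 < w) (hε : 0 < ε) (hη : 0 < η)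
    (ha3 : a - 3 * ρ' = η + 4 * s) (haρ : 3 * ρ ≤ a)
    (eA : A = (a - 3 * ρ') * (a + 3 * ρ')) (hAw : A * w ≤ 2 * ε) (hBw : |B| * w ≤ 6 * ε)
    (hDw : |D| * w ≤ 9 * ε) (hWx : Wx ≤ 4 * ρ * η)
    (hun : a * Wz = a * D - ρ * B + a * (ρ - ρ') ^ 2 + 2 * ρ * ρ' * (a - 3 * ρ'))
    (hdiff : (ρ - ρ') ^ 2 ≤ 2 * s ^ 2) (hs2 : s ^ 2 * w ≤ ε / 100) :
    (2 * Wz + 2 * Wx) * w ≤ 29 * ε := by
  have ha3' : 3 * ρ' ≤ a := by linarith
  have ha0 : 0 < a := by linarith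
  have hxw : Wx * w ≤ 8 / 3 * ε := by
    have h1 : Wx * w ≤ 4 * ρ * η * w := mul_le_mul_of_nonneg_right hWx hw.le
    have h2 : 3 * ρ * η ≤ A := by
      rw [eA, ha3]
      have h3 : 3 * ρ ≤ a + 3 * ρ' := by linarith
      have h4 : η ≤ η + 4 * s := by linarith
      calc 3 * ρ * η ≤ (a + 3 * ρ') * (η + 4 * s) :=
            mul_le_mul h3 h4 hη.le (by linarith)
        _ = _ := by ring
    have h5 : 3 * ρ * η * w ≤ A * w := mul_le_mul_of_nonneg_right h2 hw.le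
    have e : 4 * ρ * η * w = 4 / 3 * (3 * ρ * η * w) := by ring
    rw [e] at h1
    linarith
  have hzw : Wz * w ≤ 23 / 2 * ε := by
    have e1 : a * (Wz * w) = a * (D * w) + ρ * (-(B * w)) + a * ((ρ - ρ') ^ 2 * w) +
        (2 * ρ * ρ' * (a - 3 * ρ')) * w := by
      have : a * (Wz * w) = (a * Wz) * w := by ring
      rw [this, hun]; ring
    have b1 : a * (D * w) ≤ a * (9 * ε) :=
      mul_le_mul_of_nonneg_left
        ((mul_le_mul_of_nonneg_right (le_abs_self D) hw.le).trans hDw) ha0.le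
    have b2 : ρ * (-(B * w)) ≤ a * (2 * ε) := by
      have h1 : -(B * w) ≤ 6 * ε := by
        have := (mul_le_mul_of_nonneg_right (neg_le_abs B) hw.le).trans hBw
        linarith
      have h2 : ρ * (-(B * w)) ≤ ρ * (6 * ε) := mul_le_mul_of_nonneg_left h1 hρ.le
      have h3 : ρ * (6 * ε) ≤ (a / 3) * (6 * ε) :=
        mul_le_mul_of_nonneg_right (by linarith) (by positivity)
      have e : (a / 3) * (6 * ε) = a * (2 * ε) := by ring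
      linarith
    have b3 : a * ((ρ - ρ') ^ 2 * w) ≤ a * (ε / 50) := by
      apply mul_le_mul_of_nonneg_left _ ha0.le
      have h1 : (ρ - ρ') ^ 2 * w ≤ 2 * s ^ 2 * w := mul_le_mul_of_nonneg_right hdiff hw.le
      have e : 2 * s ^ 2 * w = 2 * (s ^ 2 * w) := by ring
      linarith
    have b4 : (2 * ρ * ρ' * (a - 3 * ρ')) * w ≤ a * (4 / 9 * ε) := by
      have h1 : 9 * (ρ * ρ') ≤ a * (a + 3 * ρ') := by
        have h2 : (3 * ρ) * (3 * ρ') ≤ a * a := mul_le_mul haρ ha3' (by positivity) ha0.le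
        have h3 : 0 ≤ a * (3 * ρ') := by positivity
        nlinarith
      have h4 : 0 ≤ a - 3 * ρ' := by linarith
      have h5 : (9 * (ρ * ρ')) * ((a - 3 * ρ') * w) ≤ (a * (a + 3 * ρ')) * ((a - 3 * ρ') * w) :=
        mul_le_mul_of_nonneg_right h1 (by positivity)
      have h6 : (a * (a + 3 * ρ')) * ((a - 3 * ρ') * w) = a * (A * w) := by rw [eA]; ring
      have h7 : a * (A * w) ≤ a * (2 * ε) := mul_le_mul_of_nonneg_left hAw ha0.le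
      have e : (2 * ρ * ρ' * (a - 3 * ρ')) * w = 2 / 9 * ((9 * (ρ * ρ')) * ((a - 3 * ρ') * w)) := by
        ring
      rw [e]
      have e2 : a * (4 / 9 * ε) = 2 / 9 * (a * (2 * ε)) := by ring
      rw [e2]
      linarith
    have h1 : a * (Wz * w) ≤ a * (23 / 2 * ε) := by
      rw [e1]
      have e2 : a * (23 / 2 * ε) = a * (9 * ε) + a * (2 * ε) + a * (ε / 50) + a * (4 / 9 * ε) +
          a * ((23 / 2 - 9 - 2 - 1 / 50 - 4 / 9) * ε) := by ring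
      rw [e2]
      have b5 : 0 ≤ a * ((23 / 2 - 9 - 2 - 1 / 50 - 4 / 9) * ε) := by
        apply mul_nonneg ha0.le
        apply mul_nonneg _ hε.le
        norm_num
      linarith
    exact le_of_mul_le_mul_left h1 ha0
  have e : (2 * Wz + 2 * Wx) * w = 2 * (Wz * w) + 2 * (Wx * w) := by ring
  rw [e]
  linarith

/-- the three point lemma -/
lemma three_point {x c z e ξ : E} {ρ δ s g t1 t2 t3 a ρ' : ℝ}
    (he : ‖e‖ = 1) (hx : ‖x - c‖ < ρ) (hδ : 0 < δ) (hδs : δ ≤ s) (hs : 16 * s ≤ ρ) (hξ : ‖ξ‖ ≤ s)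
    (hg : 0 < g) (ht1 : 0 ≤ t1) (h12 : t1 + g ≤ t2) (h23 : t2 + g ≤ t3) (ht3 : t3 ≤ 1)
    (ha : a = 3 * (ρ + 7 / 3 * δ) + (inner ℝ (x - c) e + ρ) / 2)
    (hρ' : ρ' = ρ + 7 / 3 * δ - 4 / 3 * s)
    (H1 : |‖z - c - t1 • (a • e + ξ)‖ - (1 + 3 * t1) * ρ'| ≤ (1 + 3 * t1) * s)
    (H2 : |‖z - c - t2 • (a • e + ξ)‖ - (1 + 3 * t2) * ρ'| ≤ (1 + 3 * t2) * s)
    (H3 : |‖z - c - t3 • (a • e + ξ)‖ - (1 + 3 * t3) * ρ'| ≤ (1 + 3 * t3) * s) :
    ‖z - x‖ ^ 2 * g ^ 2 ≤ 1400 * s * ρ := by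
  have hs0 : 0 < s := hδ.trans_le hδs
  have hρ0 : 0 < ρ := by linarith
  have hρ'0 : 0 < ρ' := by rw [hρ']; linarith
  have hε0 : 0 < 5 * s * (8 * ρ' + 5 * s) := by positivity
  have p1 := P_bound he hξ ht1 (by linarith) hρ'0.le hs0.le H1
  have p2 := P_bound he hξ (by linarith) (by linarith) hρ'0.le hs0.le H2
  have p3 := P_bound he hξ (by linarith) ht3 hρ'0.le hs0.le H3
  obtain ⟨hA, hB, hD⟩ := quad_coeffs hg ht1 h12 h23 ht3 p1 p2 p3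
  have hinner : |inner ℝ (x - c) e| ≤ ‖x - c‖ := by
    have := abs_real_inner_le_norm (x - c) e
    rwa [he, mul_one] at this
  obtain ⟨η, hη⟩ : ∃ η, η = (inner ℝ (x - c) e + ρ) / 2 := ⟨_, rfl⟩
  rw [← hη] at ha
  have hη0 : 0 < η := by
    have := (abs_le.mp hinner).1
    rw [hη]; linarith
  have ha3 : a - 3 * ρ' = η + 4 * s := by rw [ha, hρ']; ring
  have haρ : 3 * ρ ≤ a := by rw [ha]; linarith
  have ha3' : 3 * ρ' ≤ a := by linarith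
  have hg2 : g ≤ 1 / 2 := by linarith
  have hw4 : g ^ 2 ≤ 1 / 4 := by nlinarith only [hg, hg2]
  have hw0 : 0 < g ^ 2 := by positivity
  have eA : a ^ 2 - 9 * ρ' ^ 2 = (a - 3 * ρ') * (a + 3 * ρ') := by ring
  have hA0 : 0 ≤ a ^ 2 - 9 * ρ' ^ 2 := by
    rw [eA]
    exact mul_nonneg (by linarith) (by linarith)
  rw [abs_of_nonneg hA0] at hA
  have hWx : ‖(x - c) + ρ • e‖ ^ 2 ≤ 4 * ρ * η := by
    have e3 : ‖(x - c) + ρ • e‖ ^ 2 = ‖x - c‖ ^ 2 + 2 * ρ * inner ℝ (x - c) e + ρ ^ 2 := by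
      rw [norm_add_sq_real, inner_smul_right, norm_smul, he, mul_one, Real.norm_eq_abs, sq_abs]
      ring
    have e4 : inner ℝ (x - c) e = 2 * η - ρ := by rw [hη]; ring
    rw [e3, e4]
    have : ‖x - c‖ ^ 2 ≤ ρ ^ 2 := pow_le_pow_left₀ (norm_nonneg _) hx.le 2
    linarith
  have hun : a * ‖(z - c) + ρ • e‖ ^ 2 =
      a * (‖z - c‖ ^ 2 - ρ' ^ 2) - ρ * (-2 * a * inner ℝ (z - c) e - 6 * ρ' ^ 2) +
        a * (ρ - ρ') ^ 2 + 2 * ρ * ρ' * (a - 3 * ρ') := by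
    have e3 : ‖(z - c) + ρ • e‖ ^ 2 = ‖z - c‖ ^ 2 + 2 * ρ * inner ℝ (z - c) e + ρ ^ 2 := by
      rw [norm_add_sq_real, inner_smul_right, norm_smul, he, mul_one, Real.norm_eq_abs, sq_abs]
      ring
    rw [e3]
    ring
  have hdiff : (ρ - ρ') ^ 2 ≤ 2 * s ^ 2 := by
    rw [hρ']
    have h1 : ρ - (ρ + 7 / 3 * δ - 4 / 3 * s) = 4 / 3 * s - 7 / 3 * δ := by ring
    rw [h1]
    nlinarith only [hδ, hδs, hs0]
  have hs2 : s ^ 2 * g ^ 2 ≤ 5 * s * (8 * ρ' + 5 * s) / 100 := by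
    have h1 : 25 * s ^ 2 ≤ 5 * s * (8 * ρ' + 5 * s) := by nlinarith only [hs0, hρ'0]
    have h2 : s ^ 2 * g ^ 2 ≤ s ^ 2 * (1 / 4) := mul_le_mul_of_nonneg_left hw4 (by positivity)
    linarith
  have hmain := geom_real hρ0 hρ'0 hs0 hw0 hε0 hη0 ha3 haρ eA hA hB hD hWx hun hdiff hs2
  have hnorm : ‖z - x‖ ^ 2 ≤ 2 * ‖(z - c) + ρ • e‖ ^ 2 + 2 * ‖(x - c) + ρ • e‖ ^ 2 := by
    have e5 : z - x = ((z - c) + ρ • e) - ((x - c) + ρ • e) := by abel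
    rw [e5]
    have h1 := norm_sub_le ((z - c) + ρ • e) ((x - c) + ρ • e)
    have h2 := norm_nonneg (((z - c) + ρ • e) - ((x - c) + ρ • e))
    have h3 := norm_nonneg ((z - c) + ρ • e)
    have h4 := norm_nonneg ((x - c) + ρ • e)
    have h5 := sq_nonneg (‖(z - c) + ρ • e‖ - ‖(x - c) + ρ • e‖)
    have h6 : ‖((z - c) + ρ • e) - ((x - c) + ρ • e)‖ ^ 2 ≤
        (‖(z - c) + ρ • e‖ + ‖(x - c) + ρ • e‖) ^ 2 := pow_le_pow_left₀ h2 h1 2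
    nlinarith only [h5, h6]
  have h7 : ‖z - x‖ ^ 2 * g ^ 2 ≤ 29 * (5 * s * (8 * ρ' + 5 * s)) :=
    (mul_le_mul_of_nonneg_right hnorm hw0.le).trans hmain
  refine h7.trans ?_
  have h8 : 8 * ρ' + 5 * s ≤ 9 * ρ := by rw [hρ']; linarith
  have h9 : s * (8 * ρ' + 5 * s) ≤ s * (9 * ρ) := mul_le_mul_of_nonneg_left h8 hs0.le
  have h10 : 0 ≤ s * ρ := by positivity
  nlinarith only [h9, h10]

end Vale.Agent.Lib.P137
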