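import Vale.Agent.Lib.P137.Line3

namespace Vale.Agent.Lib.P137

open MeasureTheory Metric Set Filter Topology
open scoped ENNReal

set_option linter.unusedSectionVars false

variable {E : Type*} [NormedAddCommGroup E] [InnerProductSpace ℝ E] [FiniteDimensional ℝ E]
  [MeasurableSpace E] [BorelSpace E]

/-- weak type estimate for balls of bounded radius -/
lemma weak_type_balls [Nontrivial E] {J : E → ℝ≥0∞} (hJ : Measurable J) {lam : ℝ≥0∞} (h0 : lam ≠ 0) (hT : lam ≠ ⊤) :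
    volume {x : E | ∃ c ρ, 0 < ρ ∧ ρ < 1 ∧ x ∈ ball c ρ ∧
        lam * volume (ball c ρ) < ∫⁻ y in ball c ρ, J y} ≤
      ENNReal.ofReal ((4 : ℝ) ^ Module.finrank ℝ E) / lam * ∫⁻ y, J y := by
  let t : Set (E × ℝ) := {p | 0 < p.2 ∧ p.2 < 1 ∧ lam * volume (ball p.1 p.2) < ∫⁻ y in ball p.1 p.2, J y}
  obtain ⟨u, hut, hud, huc⟩ := Vitali.exists_disjoint_subfamily_covering_enlargement_closedBall
    t (fun p : E × ℝ => p.1) (fun p : E × ℝ => p.2) 1 (fun p hp => hp.2.1.le) 4 (by norm_num)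
  have hcount : u.Countable := by
    apply hud.countable_of_nonempty_interior
    intro p hp
    have hpos : 0 < p.2 := (hut hp).1
    rw [interior_closedBall _ hpos.ne']
    exact ⟨p.1, mem_ball_self hpos⟩
  have hdisj : u.PairwiseDisjoint (fun p : E × ℝ => ball p.1 p.2) :=
    hud.mono (fun p => ball_subset_closedBall)
  have hsub : {x : E | ∃ c ρ, 0 < ρ ∧ ρ < 1 ∧ x ∈ ball c ρ ∧
        lam * volume (ball c ρ) < ∫⁻ y in ball c ρ, J y} ⊆ ⋃ p ∈ u, closedBall p.1 (4 * p.2) := by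
    rintro x ⟨c, ρ, h1, h2, hx, h3⟩
    obtain ⟨b, hb, hsb⟩ := huc (c, ρ) ⟨h1, h2, h3⟩
    simp only [mem_iUnion, exists_prop]
    exact ⟨b, hb, hsb (ball_subset_closedBall hx)⟩
  have hvol : ∀ p ∈ u, volume (closedBall p.1 (4 * p.2)) ≤
      ENNReal.ofReal ((4 : ℝ) ^ Module.finrank ℝ E) / lam * ∫⁻ y in ball p.1 p.2, J y := by
    intro p hp
    have hpt := hut hp
    have h1 : volume (closedBall p.1 (4 * p.2)) =
        ENNReal.ofReal ((4 : ℝ) ^ Module.finrank ℝ E) * volume (ball p.1 p.2) := by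
      rw [Measure.addHaar_closedBall_eq_addHaar_ball, Measure.addHaar_ball_mul _ _ (by norm_num) _,
        Measure.addHaar_ball_center _ p.1 p.2]
    rw [h1, div_eq_mul_inv, mul_assoc]
    apply mul_le_mul_right
    have h2 : lam * volume (ball p.1 p.2) ≤ ∫⁻ y in ball p.1 p.2, J y := hpt.2.2.le
    calc volume (ball p.1 p.2) = lam⁻¹ * (lam * volume (ball p.1 p.2)) := by
          rw [← mul_assoc, ENNReal.inv_mul_cancel h0 hT, one_mul]
      _ ≤ lam⁻¹ * ∫⁻ y in ball p.1 p.2, J y := mul_le_mul_right h2 _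
  calc _ ≤ volume (⋃ p ∈ u, closedBall p.1 (4 * p.2)) := measure_mono hsub
    _ ≤ ∑' p : u, volume (closedBall p.1.1 (4 * p.1.2)) := measure_biUnion_le _ hcount _
    _ ≤ ∑' p : u, ENNReal.ofReal ((4 : ℝ) ^ Module.finrank ℝ E) / lam * ∫⁻ y in ball p.1.1 p.1.2, J y :=
        ENNReal.tsum_le_tsum (fun p => hvol p.1 p.2)
    _ = ENNReal.ofReal ((4 : ℝ) ^ Module.finrank ℝ E) / lam * ∑' p : u, ∫⁻ y in ball p.1.1 p.1.2, J y :=
        ENNReal.tsum_mul_left
    _ = ENNReal.ofReal ((4 : ℝ) ^ Module.finrank ℝ E) / lam * ∫⁻ y in ⋃ p ∈ u, ball p.1 p.2, J y := by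
        rw [lintegral_biUnion hcount (fun p _ => measurableSet_ball) hdisj]
    _ ≤ _ := mul_le_mul_right (setLIntegral_le_lintegral _ _) _

end Vale.Agent.Lib.P137
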