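import Vale.Agent.Lib.P137.Gen1
import Vale.Agent.Lib.P137.Weak1

namespace Vale.Agent.Lib.P137

open MeasureTheory Metric Set Filter Topology
open scoped ENNReal

set_option linter.unusedSectionVars false

variable {E : Type*} [NormedAddCommGroup E] [InnerProductSpace ℝ E] [FiniteDimensional ℝ E]
  [MeasurableSpace E] [BorelSpace E]

/-- domination of a function with continuous derivative -/
lemma ofReal_abs_sub_le_of_deriv {φ φ' : ℝ → ℝ} (hφ : ∀ t, HasDerivAt φ (φ' t) t) (hc : Continuous φ')
    {a b : ℝ} (hab : a ≤ b) :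
    ENNReal.ofReal |φ b - φ a| ≤ ∫⁻ t in Ioc a b, ‖φ' t‖ₑ := by
  have h1 : φ b - φ a = ∫ s in a..b, φ' s :=
    (intervalIntegral.integral_eq_sub_of_hasDerivAt (fun t _ => hφ t) (hc.intervalIntegrable _ _)).symm
  have h2 : |∫ s in a..b, φ' s| ≤ ∫ s in a..b, |φ' s| := intervalIntegral.abs_integral_le_integral_abs hab
  rw [h1]
  refine (ENNReal.ofReal_le_ofReal h2).trans ?_
  rw [intervalIntegral.integral_of_le hab, ofReal_integral_eq_lintegral_ofReal]
  · apply le_of_eq
    apply lintegral_congr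
    intro t
    rw [← Real.norm_eq_abs, ofReal_norm]
  · exact (hc.abs.continuousOn.integrableOn_compact isCompact_Icc).mono_set Ioc_subset_Icc_self
  · exact Eventually.of_forall (fun t => abs_nonneg _)

lemma hasDerivAt_line {h : E → ℝ} (hf : ContDiff ℝ 1 h) (x e : E) (t : ℝ) :
    HasDerivAt (fun τ : ℝ => h (x + τ • e)) (fderiv ℝ h (x + t • e) e) t := by
  have h1 : HasFDerivAt h (fderiv ℝ h (x + t • e)) (x + t • e) :=
    (hf.differentiable (by norm_num) _).hasFDerivAt
  have h2 : HasDerivAt (fun τ : ℝ => x + τ • e) e t := by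
    simpa using ((hasDerivAt_id t).smul_const e).const_add x
  exact h1.comp_hasDerivAt t h2

lemma continuous_line_deriv {h : E → ℝ} (hf : ContDiff ℝ 1 h) (x e : E) :
    Continuous (fun τ : ℝ => fderiv ℝ h (x + τ • e) e) := by
  have h1 : Continuous (fderiv ℝ h) := hf.continuous_fderiv (by norm_num)
  have h2 : Continuous (fun τ : ℝ => x + τ • e) := by fun_prop
  exact (h1.comp h2).clm_apply continuous_const

/-- a compactly supported function is bounded by its line integral -/
lemma abs_le_lineInt {h : E → ℝ} (hf : ContDiff ℝ 1 h) (hc : HasCompactSupport h) {e : E} (he : ‖e‖ = 1)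
    (x : E) (t : ℝ) :
    ENNReal.ofReal |h (x + t • e)| ≤ lineInt (fun y => ‖fderiv ℝ h y e‖ₑ) e x := by
  obtain ⟨R, hR⟩ := hc.isCompact.isBounded.subset_ball (0 : E)
  have hzero : ∀ y : E, R ≤ ‖y‖ → h y = 0 := by
    intro y hy
    by_contra hne
    have := hR (subset_tsupport _ hne)
    rw [mem_ball_zero_iff] at this
    linarith
  obtain ⟨T, hT⟩ : ∃ T : ℝ, T = |R| + ‖x‖ + |t| + 1 := ⟨_, rfl⟩
  have hT1 : -T ≤ t := by
    have := neg_abs_le t
    have h1 := abs_nonneg R
    have h2 := norm_nonneg x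
    linarith
  have h0 : h (x + (-T) • e) = 0 := by
    apply hzero
    have h1 : ‖(-T) • e‖ = T := by
      rw [norm_smul, he, mul_one, Real.norm_eq_abs, abs_neg, abs_of_nonneg]
      have h2 := abs_nonneg R
      have h3 := norm_nonneg x
      have h4 := abs_nonneg t
      linarith
    have h5 : ‖(-T) • e‖ ≤ ‖x + (-T) • e‖ + ‖x‖ := by
      have := norm_sub_le (x + (-T) • e) x
      simpa using this
    have h6 := le_abs_self R
    have h7 := abs_nonneg t
    linarith
  have h1 := ofReal_abs_sub_le_of_deriv (hasDerivAt_line hf x e) (continuous_line_deriv hf x e) hT1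
  rw [h0, sub_zero] at h1
  exact h1.trans (setLIntegral_le_lintegral _ _)

/-- the union of all lines through balls with a large average -/
def Sk (h : E → ℝ) (lam : ℝ) (e : E) : Set E :=
  {x | ∃ c ρ t, 0 < ρ ∧ ρ < 1 ∧ x + (t : ℝ) • e ∈ ball c ρ ∧ lam < ballAv (fun y => |h y|) c ρ}

lemma Sk_translate {h : E → ℝ} {lam : ℝ} {e x : E} (τ : ℝ) (hx : x + τ • e ∈ Sk h lam e) : x ∈ Sk h lam e := by
  obtain ⟨c, ρ, t, h1, h2, h3, h4⟩ := hx
  refine ⟨c, ρ, τ + t, h1, h2, ?_, h4⟩
  rw [add_smul, ← add_assoc]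
  exact h3

lemma Sk_translate' {h : E → ℝ} {lam : ℝ} {e x : E} (τ : ℝ) (hx : x ∈ Sk h lam e) : x + τ • e ∈ Sk h lam e := by
  obtain ⟨c, ρ, t, h1, h2, h3, h4⟩ := hx
  refine ⟨c, ρ, t - τ, h1, h2, ?_, h4⟩
  have : x + τ • e + (t - τ) • e = x + t • e := by
    rw [sub_smul]; abel
  rw [this]
  exact h3

/-- the measure of the union of lines, in a ball -/
lemma Sk_measure [Nontrivial E] {h : E → ℝ} (hf : ContDiff ℝ 1 h) (hc : HasCompactSupport h) {e : E}
    (he : ‖e‖ = 1) {lam : ℝ} (hlam : 0 < lam) (R : ℝ) :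
    volume (Sk h lam e ∩ ball (0 : E) R) ≤
      ENNReal.ofReal ((4 : ℝ) ^ Module.finrank ℝ E) / ENNReal.ofReal lam *
        (ENNReal.ofReal (2 * (R + 2)) * ∫⁻ y, ‖fderiv ℝ h y e‖ₑ) := by
  have hΨ : Measurable (fun y => ‖fderiv ℝ h y e‖ₑ) := by
    have h1 : Continuous (fderiv ℝ h) := hf.continuous_fderiv (by norm_num)
    have h2 : Continuous (fun y => fderiv ℝ h y e) := h1.clm_apply continuous_const
    exact h2.enorm.measurable
  let J : E → ℝ≥0∞ := (ball (0 : E) (R + 2)).indicator (lineInt (fun y => ‖fderiv ℝ h y e‖ₑ) e)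
  have hJ : Measurable J := (measurable_lineInt hΨ e).indicator measurableSet_ball
  have hsub : Sk h lam e ∩ ball (0 : E) R ⊆ {x : E | ∃ c ρ, 0 < ρ ∧ ρ < 1 ∧ x ∈ ball c ρ ∧
      ENNReal.ofReal lam * volume (ball c ρ) < ∫⁻ y in ball c ρ, J y} := by
    rintro x ⟨⟨c, ρ, t, h1, h2, h3, h4⟩, hx⟩
    refine ⟨c - t • e, ρ, h1, h2, ?_, ?_⟩
    · rw [mem_ball, dist_eq_norm] at h3 ⊢
      have : x - (c - t • e) = x + t • e - c := by abel
      rw [this]
      exact h3
    · have hv := vb_pos (E := E) h1
      have hhc : Continuous (fun y => |h y|) := hf.continuous.abs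
      have hvol : volume (ball (c - t • e) ρ) = ENNReal.ofReal (vb E ρ) := by
        have := real_ball_eq (E := E) (c - t • e) ρ
        rw [← this, measureReal_def, ENNReal.ofReal_toReal (volume_ball_ne_top _ _)]
      rw [hvol, ← ENNReal.ofReal_mul hlam.le]
      have h5 : lam * vb E ρ < ∫ y in ball c ρ, |h y| := by
        unfold ballAv at h4
        rwa [inv_mul_eq_div, lt_div_iff₀ hv] at h4
      refine (ENNReal.ofReal_lt_ofReal_iff_of_nonneg (by positivity)).mpr h5 |>.trans_le ?_
      rw [ofReal_integral_eq_lintegral_ofReal (integrableOn_ball_of_continuous hhc _ _)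
        (Eventually.of_forall fun y => abs_nonneg _)]
      have htr : ∫⁻ y in ball c ρ, ENNReal.ofReal |h y| =
          ∫⁻ y in ball (c - t • e) ρ, ENNReal.ofReal |h (y + t • e)| := by
        have hpre : (fun y => y + t • e) ⁻¹' ball c ρ = ball (c - t • e) ρ := by
          ext y
          simp only [mem_preimage, mem_ball, dist_eq_norm]
          have : y + t • e - c = y - (c - t • e) := by abel
          rw [this]
        rw [← hpre]
        exact ((measurePreserving_add_right (volume : Measure E) (t • e)).setLIntegral_comp_preimage_emb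
          (measurableEmbedding_addRight (t • e)) _ _).symm
      rw [htr]
      apply setLIntegral_mono hJ
      intro y hy
      have hy2 : y ∈ ball (0 : E) (R + 2) := by
        rw [mem_ball, dist_eq_norm] at hy
        rw [mem_ball_zero_iff]
        rw [mem_ball_zero_iff] at hx
        have h6 : x + t • e ∈ ball c ρ := h3
        rw [mem_ball, dist_eq_norm] at h6
        have h7 : y = (y - (c - t • e)) - (x + t • e - c) + x := by abel
        rw [h7]
        have h8 := norm_add_le ((y - (c - t • e)) - (x + t • e - c)) x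
        have h9 := norm_sub_le (y - (c - t • e)) (x + t • e - c)
        linarith
      simp only [J]
      rw [indicator_of_mem hy2]
      exact abs_le_lineInt hf hc he y t
  have hlam0 : ENNReal.ofReal lam ≠ 0 := (ENNReal.ofReal_pos.mpr hlam).ne'
  calc volume (Sk h lam e ∩ ball (0 : E) R) ≤ _ := measure_mono hsub
    _ ≤ _ := weak_type_balls hJ hlam0 ENNReal.ofReal_ne_top
    _ ≤ _ := by
        apply mul_le_mul_right
        rw [lintegral_indicator measurableSet_ball]
        exact lintegral_ball_lineInt_le hΨ he _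

end Vale.Agent.Lib.P137
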