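import Vale.Agent.Lib.P137.Good1

namespace Vale.Agent.Lib.P137

open MeasureTheory Metric Set Filter Topology
open scoped ENNReal

set_option linter.unusedSectionVars false

variable {E : Type*} [NormedAddCommGroup E] [InnerProductSpace ℝ E] [FiniteDimensional ℝ E]
  [MeasurableSpace E] [BorelSpace E]

section calculus

variable {a b : E → ℝ} {c : E} {ρ : ℝ}

lemma ballAv_const (w : ℝ) (c : E) (hρ : 0 < ρ) : ballAv (fun _ => w) c ρ = w := by
  have hv := vb_pos (E := E) hρ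
  unfold ballAv
  rw [setIntegral_const, real_ball_eq, smul_eq_mul]
  field_simp

lemma ballAv_mono (ha : IntegrableOn a (ball c ρ)) (hb : IntegrableOn b (ball c ρ)) (hρ : 0 < ρ)
    (h : ∀ z ∈ ball c ρ, a z ≤ b z) : ballAv a c ρ ≤ ballAv b c ρ := by
  have hv := vb_pos (E := E) hρ
  unfold ballAv
  apply mul_le_mul_of_nonneg_left _ (inv_nonneg.mpr hv.le)
  exact setIntegral_mono_on ha hb measurableSet_ball h

lemma ballAv_add (ha : IntegrableOn a (ball c ρ)) (hb : IntegrableOn b (ball c ρ)) :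
    ballAv (fun z => a z + b z) c ρ = ballAv a c ρ + ballAv b c ρ := by
  unfold ballAv
  rw [integral_add ha hb, mul_add]

lemma ballAv_sub (ha : IntegrableOn a (ball c ρ)) (hb : IntegrableOn b (ball c ρ)) :
    ballAv (fun z => a z - b z) c ρ = ballAv a c ρ - ballAv b c ρ := by
  unfold ballAv
  rw [integral_sub ha hb, mul_sub]

lemma integrableOn_const_ball (w : ℝ) : IntegrableOn (fun _ : E => w) (ball c ρ) :=
  integrableOn_const (volume_ball_ne_top _ _)

/-- comparing the average of an absolute value with a constant -/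
lemma abs_ballAv_abs_sub_le (ha : IntegrableOn a (ball c ρ)) (hρ : 0 < ρ) (w : ℝ) :
    |ballAv (fun z => |a z|) c ρ - (|w|)| ≤ ballAv (fun z => |a z - w|) c ρ := by
  have i1 : IntegrableOn (fun z => |a z|) (ball c ρ) := ha.abs
  have i2 : IntegrableOn (fun z => |a z - w|) (ball c ρ) := (ha.sub (integrableOn_const_ball w)).abs
  have e : ballAv (fun z => |a z|) c ρ - |w| = ballAv (fun z => |a z| - |w|) c ρ := by
    rw [ballAv_sub i1 (integrableOn_const_ball _), ballAv_const _ _ hρ]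
  have i3 : IntegrableOn (fun z => -|a z - w|) (ball c ρ) := i2.neg
  have i4 : IntegrableOn (fun z => |a z| - (|w|)) (ball c ρ) := i1.sub (integrableOn_const_ball _)
  rw [abs_le]
  constructor
  · have h1 : ballAv (fun z => -|a z - w|) c ρ ≤ ballAv (fun z => |a z| - |w|) c ρ := by
      apply ballAv_mono i3 i4 hρ
      intro z _
      have := abs_abs_sub_abs_le_abs_sub (a z) w
      have h3 := abs_le.mp this
      linarith [h3.1]
    have h2 : ballAv (fun z => -|a z - w|) c ρ = - ballAv (fun z => |a z - w|) c ρ := by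
      unfold ballAv
      rw [integral_neg, mul_neg]
    rw [e]
    linarith
  · rw [e]
    apply ballAv_mono i4 i2 hρ
    intro z _
    have := abs_abs_sub_abs_le_abs_sub (a z) w
    exact (abs_le.mp this).2

/-- a pointwise bound for a continuous function from bounds on the averages -/
lemma abs_le_of_ballAv {h : E → ℝ} (hc : Continuous h) {lam : ℝ} {y : E}
    (hb : ∀ c ρ, 0 < ρ → ρ < 1 → y ∈ ball c ρ → ballAv (fun z => |h z|) c ρ ≤ lam) : |h y| ≤ lam := by
  by_contra hcon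
  push Not at hcon
  obtain ⟨η, hη⟩ : ∃ η, η = (|h y| - lam) / 2 := ⟨_, rfl⟩
  have hη0 : 0 < η := by rw [hη]; linarith
  have hcc : Continuous (fun z => |h z|) := hc.abs
  obtain ⟨δ, hδ, hδ2⟩ := Metric.continuous_iff.mp hcc y η hη0
  obtain ⟨ρ, hρ⟩ : ∃ ρ, ρ = min δ (1 / 2) := ⟨_, rfl⟩
  have hρ0 : 0 < ρ := by rw [hρ]; positivity
  have hρ1 : ρ < 1 := by
    have : ρ ≤ 1 / 2 := by rw [hρ]; exact min_le_right _ _
    linarith
  have hρ2 : ρ ≤ δ := by rw [hρ]; exact min_le_left _ _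
  have h1 := hb y ρ hρ0 hρ1 (mem_ball_self hρ0)
  have h2 : ballAv (fun _ => |h y| - η) y ρ ≤ ballAv (fun z => |h z|) y ρ := by
    apply ballAv_mono (integrableOn_const_ball _) (integrableOn_ball_of_continuous hcc _ _) hρ0
    intro z hz
    have h3 := hδ2 z (lt_of_lt_of_le hz hρ2)
    rw [Real.dist_eq] at h3
    have := (abs_lt.mp h3).1
    linarith
  rw [ballAv_const _ _ hρ0] at h2
  rw [hη] at h2
  linarith

end calculus

/-- a fast approximating sequence -/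
structure FastSeq (f : E → ℝ) (fk : ℕ → E → ℝ) : Prop where
  c1 : ∀ k, ContDiff ℝ 1 (fk k)
  cs : ∀ k, HasCompactSupport (fk k)
  int : Integrable f
  lim : Tendsto (fun k => ∫ y, ‖f y - fk k y‖) atTop (𝓝 0)
  grad : ∀ k, ∫ y, ‖fderiv ℝ (fk (k + 1)) y - fderiv ℝ (fk k) y‖ ≤ (1 / 8 : ℝ) ^ k

/-- the line density controlling all the approximants -/
noncomputable def PsiLine (fk : ℕ → E → ℝ) (e y : E) : ℝ≥0∞ :=
  ‖fderiv ℝ (fk 0) y e‖ₑ + ∑' j, ‖fderiv ℝ (fk (j + 1)) y e - fderiv ℝ (fk j) y e‖ₑ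

/-- goodness of a line -/
def GoodLine (fk : ℕ → E → ℝ) (e x : E) : Prop :=
  (∀ᶠ k in atTop, x ∉ Sk (fun y => fk (k + 1) y - fk k y) ((1 / 2 : ℝ) ^ k) e) ∧
    lineInt (PsiLine fk e) e x ≠ ⊤

section seq

variable {f : E → ℝ} {fk : ℕ → E → ℝ} {e : E}

lemma FastSeq.cont (H : FastSeq f fk) (k : ℕ) : Continuous (fk k) := (H.c1 k).continuous

lemma FastSeq.dc1 (H : FastSeq f fk) (k : ℕ) : ContDiff ℝ 1 (fun y => fk (k + 1) y - fk k y) :=
  (H.c1 (k + 1)).sub (H.c1 k)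

lemma FastSeq.dcs (H : FastSeq f fk) (k : ℕ) : HasCompactSupport (fun y => fk (k + 1) y - fk k y) :=
  (H.cs (k + 1)).sub (H.cs k)

lemma FastSeq.dfderiv (H : FastSeq f fk) (k : ℕ) (y e : E) :
    fderiv ℝ (fun y => fk (k + 1) y - fk k y) y e = fderiv ℝ (fk (k + 1)) y e - fderiv ℝ (fk k) y e := by
  rw [fderiv_fun_sub ((H.c1 (k + 1)).differentiable (by norm_num) y)
    ((H.c1 k).differentiable (by norm_num) y)]
  rfl

lemma FastSeq.meas_dir (H : FastSeq f fk) (k : ℕ) (e : E) :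
    Measurable (fun y => ‖fderiv ℝ (fk k) y e‖ₑ) := by
  have h1 : Continuous (fderiv ℝ (fk k)) := (H.c1 k).continuous_fderiv (by norm_num)
  exact (h1.clm_apply continuous_const).enorm.measurable

lemma FastSeq.meas_ddir (H : FastSeq f fk) (k : ℕ) (e : E) :
    Measurable (fun y => ‖fderiv ℝ (fk (k + 1)) y e - fderiv ℝ (fk k) y e‖ₑ) := by
  have h1 : Continuous (fderiv ℝ (fk k)) := (H.c1 k).continuous_fderiv (by norm_num)
  have h2 : Continuous (fderiv ℝ (fk (k + 1))) := (H.c1 (k + 1)).continuous_fderiv (by norm_num)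
  exact ((h2.clm_apply continuous_const).sub (h1.clm_apply continuous_const)).enorm.measurable

lemma FastSeq.measurable_psi (H : FastSeq f fk) (e : E) : Measurable (PsiLine fk e) :=
  (H.meas_dir 0 e).add (Measurable.tsum (fun j => H.meas_ddir j e))

lemma FastSeq.ddir_int (H : FastSeq f fk) (he : ‖e‖ = 1) (k : ℕ) :
    ∫⁻ y, ‖fderiv ℝ (fk (k + 1)) y e - fderiv ℝ (fk k) y e‖ₑ ≤ ENNReal.ofReal ((1 / 8 : ℝ) ^ k) := by
  have h1 : Continuous (fderiv ℝ (fk k)) := (H.c1 k).continuous_fderiv (by norm_num)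
  have h2 : Continuous (fderiv ℝ (fk (k + 1))) := (H.c1 (k + 1)).continuous_fderiv (by norm_num)
  have hc : Continuous (fun y => ‖fderiv ℝ (fk (k + 1)) y - fderiv ℝ (fk k) y‖) := (h2.sub h1).norm
  have hcs : HasCompactSupport (fun y => ‖fderiv ℝ (fk (k + 1)) y - fderiv ℝ (fk k) y‖) :=
    (((H.cs (k + 1)).fderiv (𝕜 := ℝ)).sub ((H.cs k).fderiv (𝕜 := ℝ))).norm
  have hi : Integrable (fun y => ‖fderiv ℝ (fk (k + 1)) y - fderiv ℝ (fk k) y‖) :=
    hc.integrable_of_hasCompactSupport hcs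
  calc ∫⁻ y, ‖fderiv ℝ (fk (k + 1)) y e - fderiv ℝ (fk k) y e‖ₑ
      ≤ ∫⁻ y, ENNReal.ofReal ‖fderiv ℝ (fk (k + 1)) y - fderiv ℝ (fk k) y‖ := by
        apply lintegral_mono
        intro y
        change ‖fderiv ℝ (fk (k + 1)) y e - fderiv ℝ (fk k) y e‖ₑ ≤ _
        rw [← ofReal_norm]
        apply ENNReal.ofReal_le_ofReal
        have := (fderiv ℝ (fk (k + 1)) y - fderiv ℝ (fk k) y).le_opNorm e
        rw [he, mul_one] at this
        exact this
    _ = ENNReal.ofReal (∫ y, ‖fderiv ℝ (fk (k + 1)) y - fderiv ℝ (fk k) y‖) :=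
        (ofReal_integral_eq_lintegral_ofReal hi (Eventually.of_forall fun y => norm_nonneg _)).symm
    _ ≤ _ := ENNReal.ofReal_le_ofReal (H.grad k)

lemma tsum_ofReal_geom_lt_top {r : ℝ} (h0 : 0 ≤ r) (h1 : r < 1) :
    ∑' k : ℕ, ENNReal.ofReal (r ^ k) ≠ ⊤ := by
  rw [← ENNReal.ofReal_tsum_of_nonneg (fun k => by positivity) (summable_geometric_of_lt_one h0 h1)]
  exact ENNReal.ofReal_ne_top

lemma FastSeq.psi_int (H : FastSeq f fk) (he : ‖e‖ = 1) : ∫⁻ y, PsiLine fk e y ≠ ⊤ := by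
  unfold PsiLine
  rw [lintegral_add_left (H.meas_dir 0 e), lintegral_tsum (fun j => (H.meas_ddir j e).aemeasurable)]
  apply ENNReal.add_ne_top.mpr
  constructor
  · have h1 : Continuous (fderiv ℝ (fk 0)) := (H.c1 0).continuous_fderiv (by norm_num)
    have h2 : Continuous (fun y => fderiv ℝ (fk 0) y e) := h1.clm_apply continuous_const
    have h3 : HasCompactSupport (fun y => fderiv ℝ (fk 0) y e) :=
      ((H.cs 0).fderiv (𝕜 := ℝ)).comp_left (g := fun L : E →L[ℝ] ℝ => L e) rfl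
    have h4 : Integrable (fun y => fderiv ℝ (fk 0) y e) := h2.integrable_of_hasCompactSupport h3
    exact h4.hasFiniteIntegral.ne
  · apply ne_top_of_le_ne_top (tsum_ofReal_geom_lt_top (r := 1 / 8) (by norm_num) (by norm_num))
    exact ENNReal.tsum_le_tsum (fun k => H.ddir_int he k)

lemma dir_le_psi (k : ℕ) (e y : E) :
    ‖fderiv ℝ (fk k) y e‖ₑ ≤ PsiLine fk e y := by
  have h1 : ∀ k, ‖fderiv ℝ (fk k) y e‖ₑ ≤ ‖fderiv ℝ (fk 0) y e‖ₑ +
      ∑ j ∈ Finset.range k, ‖fderiv ℝ (fk (j + 1)) y e - fderiv ℝ (fk j) y e‖ₑ := by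
    intro k
    induction k with
    | zero => simp
    | succ k ih =>
      rw [Finset.sum_range_succ, ← add_assoc]
      have e1 : fderiv ℝ (fk (k + 1)) y e = fderiv ℝ (fk k) y e +
          (fderiv ℝ (fk (k + 1)) y e - fderiv ℝ (fk k) y e) := by ring
      calc ‖fderiv ℝ (fk (k + 1)) y e‖ₑ
          = ‖fderiv ℝ (fk k) y e + (fderiv ℝ (fk (k + 1)) y e - fderiv ℝ (fk k) y e)‖ₑ := by rw [← e1]
        _ ≤ _ := enorm_add_le _ _
        _ ≤ _ := by gcongr
  refine (h1 k).trans ?_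
  unfold PsiLine
  gcongr
  exact ENNReal.sum_le_tsum _

/-- a finite integral gives finite line integrals almost everywhere -/
lemma ae_lineInt_ne_top {Ψ : E → ℝ≥0∞} (hΨ : Measurable Ψ) (hfin : ∫⁻ y, Ψ y ≠ ⊤) (he : ‖e‖ = 1) :
    ∀ᵐ x : E, lineInt Ψ e x ≠ ⊤ := by
  have h1 : ∀ R : ℕ, ∀ᵐ x : E, x ∈ ball (0 : E) R → lineInt Ψ e x ≠ ⊤ := by
    intro R
    have h2 := lintegral_ball_lineInt_le hΨ he (R : ℝ)
    have h3 : ∫⁻ x in ball (0 : E) R, lineInt Ψ e x ≠ ⊤ :=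
      ne_top_of_le_ne_top (ENNReal.mul_ne_top ENNReal.ofReal_ne_top hfin) h2
    have h4 := ae_lt_top (measurable_lineInt hΨ e) h3
    rw [ae_restrict_iff' measurableSet_ball] at h4
    filter_upwards [h4] with x hx hxb
    exact (hx hxb).ne
  filter_upwards [ae_all_iff.mpr h1] with x hx
  obtain ⟨R, hR⟩ := exists_nat_gt ‖x‖
  exact hx R (by simpa using hR)

/-- almost every line is good -/
lemma FastSeq.ae_good [Nontrivial E] (H : FastSeq f fk) (he : ‖e‖ = 1) : ∀ᵐ x : E, GoodLine fk e x := by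
  have h2 := ae_lineInt_ne_top (H.measurable_psi e) (H.psi_int he) he
  have h1 : ∀ R : ℕ, ∀ᵐ x : E, ∀ᶠ k in atTop,
      x ∉ Sk (fun y => fk (k + 1) y - fk k y) ((1 / 2 : ℝ) ^ k) e ∩ ball (0 : E) R := by
    intro R
    apply ae_eventually_notMem
    have hb : ∀ k : ℕ, volume (Sk (fun y => fk (k + 1) y - fk k y) ((1 / 2 : ℝ) ^ k) e ∩ ball (0 : E) R) ≤
        (ENNReal.ofReal ((4 : ℝ) ^ Module.finrank ℝ E) * ENNReal.ofReal (2 * ((R : ℝ) + 2))) *
          ENNReal.ofReal ((1 / 4 : ℝ) ^ k) := by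
      intro k
      have h3 := Sk_measure (H.dc1 k) (H.dcs k) he (lam := (1 / 2 : ℝ) ^ k) (by positivity) (R : ℝ)
      refine h3.trans ?_
      have h4 : ∫⁻ y, ‖fderiv ℝ (fun y => fk (k + 1) y - fk k y) y e‖ₑ ≤ ENNReal.ofReal ((1 / 8 : ℝ) ^ k) := by
        simp_rw [H.dfderiv k _ e]
        exact H.ddir_int he k
      have e1 : ENNReal.ofReal ((1 / 4 : ℝ) ^ k) =
          (ENNReal.ofReal ((1 / 2 : ℝ) ^ k))⁻¹ * ENNReal.ofReal ((1 / 8 : ℝ) ^ k) := by
        rw [← ENNReal.ofReal_inv_of_pos (by positivity), ← ENNReal.ofReal_mul (by positivity)]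
        congr 1
        have : ((1 / 2 : ℝ) ^ k)⁻¹ * (1 / 8 : ℝ) ^ k = ((1 / 2 : ℝ)⁻¹ * (1 / 8)) ^ k := by
          rw [mul_pow, inv_pow]
        rw [this]
        norm_num
      rw [e1, div_eq_mul_inv]
      calc _ ≤ ENNReal.ofReal ((4 : ℝ) ^ Module.finrank ℝ E) * (ENNReal.ofReal ((1 / 2 : ℝ) ^ k))⁻¹ *
            (ENNReal.ofReal (2 * ((R : ℝ) + 2)) * ENNReal.ofReal ((1 / 8 : ℝ) ^ k)) := by gcongr
        _ = _ := by ring
    apply ne_top_of_le_ne_top _ (ENNReal.tsum_le_tsum hb)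
    rw [ENNReal.tsum_mul_left]
    exact ENNReal.mul_ne_top (ENNReal.mul_ne_top ENNReal.ofReal_ne_top ENNReal.ofReal_ne_top)
      (tsum_ofReal_geom_lt_top (by norm_num) (by norm_num))
  filter_upwards [ae_all_iff.mpr h1, h2] with x hx hx2
  refine ⟨?_, hx2⟩
  obtain ⟨R, hR⟩ := exists_nat_gt ‖x‖
  filter_upwards [hx R] with k hk hS
  exact hk ⟨hS, by simpa using hR⟩

lemma GoodLine.translate {x : E} (h : GoodLine fk e x) (τ : ℝ) : GoodLine fk e (x + τ • e) := by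
  refine ⟨?_, ?_⟩
  · filter_upwards [h.1] with k hk hS
    exact hk (Sk_translate τ hS)
  · rw [lineInt_translate]
    exact h.2

end seq

end Vale.Agent.Lib.P137
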