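import Vale.Agent.Lib.P137.Good2

namespace Vale.Agent.Lib.P137

open MeasureTheory Metric Set Filter Topology
open scoped ENNReal

set_option linter.unusedSectionVars false

variable {E : Type*} [NormedAddCommGroup E] [InnerProductSpace ℝ E] [FiniteDimensional ℝ E]
  [MeasurableSpace E] [BorelSpace E]

/-- the properties of the input on a good line -/
structure LineData (g : E → ℝ) (x e : E) (F : ℝ → ℝ) : Prop where
  cont : Continuous F
  lusin : LusinN F
  small : ∀ ε > 0, ∃ ρ0 > 0, ∀ (t : ℝ) (c : E) (ρ : ℝ), 0 < ρ → ρ < ρ0 → x + t • e ∈ ball c ρ →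
    |ballAv g c ρ - F t| ≤ ε

section

variable {f : E → ℝ} {fk : ℕ → E → ℝ} {e x : E}

lemma FastSeq.ballAv_abs_tail (H : FastSeq f fk) {K : ℕ} {c : E} {ρ : ℝ} (hρ : 0 < ρ)
    (hK : ∀ k ≥ K, ballAv (fun y => |fk (k + 1) y - fk k y|) c ρ ≤ (1 / 2 : ℝ) ^ k) {k : ℕ} (hk : K ≤ k) :
    ballAv (fun y => |f y - fk k y|) c ρ ≤ 2 * (1 / 2 : ℝ) ^ k := by
  have hi : ∀ j, IntegrableOn (fun y => |fk j y - fk k y|) (ball c ρ) := fun j =>
    integrableOn_ball_of_continuous ((H.cont j).sub (H.cont k)).abs _ _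
  have h1 : ∀ j, k ≤ j → ballAv (fun y => |fk j y - fk k y|) c ρ ≤
      2 * (1 / 2 : ℝ) ^ k - 2 * (1 / 2 : ℝ) ^ j := by
    intro j hj
    induction j, hj using Nat.le_induction with
    | base =>
      have : (fun y => |fk k y - fk k y|) = fun _ : E => (0 : ℝ) := by
        ext y; simp
      rw [this, ballAv_const _ _ hρ]
      simp
    | succ j hj ih =>
      have hd : IntegrableOn (fun y => |fk (j + 1) y - fk j y|) (ball c ρ) :=
        integrableOn_ball_of_continuous ((H.cont (j + 1)).sub (H.cont j)).abs _ _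
      have h2 : ballAv (fun y => |fk (j + 1) y - fk k y|) c ρ ≤
          ballAv (fun y => |fk (j + 1) y - fk j y| + |fk j y - fk k y|) c ρ := by
        apply ballAv_mono (hi _) (hd.add (hi j)) hρ
        intro z _
        exact abs_sub_le _ _ _
      rw [ballAv_add hd (hi j)] at h2
      have h3 := hK j (hk.trans hj)
      have h4 : (1 / 2 : ℝ) ^ (j + 1) = (1 / 2 : ℝ) ^ j / 2 := by
        rw [pow_succ]; ring
      rw [h4]
      linarith
  have hfj : ∀ j, IntegrableOn (fun y => |f y - fk j y|) (ball c ρ) := fun j =>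
    (H.int.integrableOn.sub (integrableOn_ball_of_continuous (H.cont j) _ _)).abs
  have hv := vb_pos (E := E) hρ
  have h5 : ∀ j, k ≤ j → ballAv (fun y => |f y - fk k y|) c ρ ≤
      (vb E ρ)⁻¹ * (∫ y, ‖f y - fk j y‖) + 2 * (1 / 2 : ℝ) ^ k := by
    intro j hj
    have h6 : ballAv (fun y => |f y - fk k y|) c ρ ≤
        ballAv (fun y => |f y - fk j y| + |fk j y - fk k y|) c ρ := by
      apply ballAv_mono (hfj k) ((hfj j).add (hi j)) hρ
      intro z _
      exact abs_sub_le _ _ _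
    rw [ballAv_add (hfj j) (hi j)] at h6
    have h7 := h1 j hj
    have h8 : ballAv (fun y => |f y - fk j y|) c ρ ≤ (vb E ρ)⁻¹ * ∫ y, ‖f y - fk j y‖ := by
      unfold ballAv
      apply mul_le_mul_of_nonneg_left _ (inv_nonneg.mpr hv.le)
      have hint : Integrable (fun y => ‖f y - fk j y‖) :=
        (H.int.sub ((H.cont j).integrable_of_hasCompactSupport (H.cs j))).norm
      change ∫ y in ball c ρ, ‖f y - fk j y‖ ≤ _
      exact setIntegral_le_integral hint (Eventually.of_forall fun y => norm_nonneg (f y - fk j y))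
    have : 0 ≤ (1 / 2 : ℝ) ^ j := by positivity
    linarith
  have hlim : Tendsto (fun j => (vb E ρ)⁻¹ * (∫ y, ‖f y - fk j y‖) + 2 * (1 / 2 : ℝ) ^ k) atTop
      (𝓝 ((vb E ρ)⁻¹ * 0 + 2 * (1 / 2 : ℝ) ^ k)) :=
    (H.lim.const_mul _).add_const _
  rw [mul_zero, zero_add] at hlim
  exact ge_of_tendsto hlim (by filter_upwards [eventually_ge_atTop k] with j hj using h5 j hj)

/-- the limit function on a good line -/
lemma FastSeq.lineData (H : FastSeq f fk) (hG : GoodLine fk e x) :
    ∃ F : ℝ → ℝ, LineData (fun y => |f y|) x e F := by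
  obtain ⟨K, hK⟩ := eventually_atTop.mp hG.1
  have hav : ∀ k ≥ K, ∀ (c : E) (ρ : ℝ) (t : ℝ), 0 < ρ → ρ < 1 → x + t • e ∈ ball c ρ →
      ballAv (fun y => |fk (k + 1) y - fk k y|) c ρ ≤ (1 / 2 : ℝ) ^ k := by
    intro k hk c ρ t h1 h2 h3
    by_contra hcon
    push Not at hcon
    exact hK k hk ⟨c, ρ, t, h1, h2, h3, hcon⟩
  have hpt : ∀ k ≥ K, ∀ t : ℝ, |fk (k + 1) (x + t • e) - fk k (x + t • e)| ≤ (1 / 2 : ℝ) ^ k := by
    intro k hk t
    exact abs_le_of_ballAv (h := fun y => fk (k + 1) y - fk k y) ((H.cont (k + 1)).sub (H.cont k))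
      (fun c ρ h1 h2 h3 => hav k hk c ρ t h1 h2 h3)
  have hdist : ∀ k ≥ K, ∀ t : ℝ, ∀ j : ℕ, dist (fk (k + j) (x + t • e)) (fk (k + j + 1) (x + t • e)) ≤
      (2 * (1 / 2 : ℝ) ^ k) / 2 / 2 ^ j := by
    intro k hk t j
    rw [dist_comm, Real.dist_eq]
    refine (hpt (k + j) (by omega) t).trans (le_of_eq ?_)
    have h2 : (1 / 2 : ℝ) ^ j = 1 / 2 ^ j := one_div_pow _ _
    rw [pow_add, h2]
    ring
  have hex : ∀ t : ℝ, ∃ a, Tendsto (fun k => fk k (x + t • e)) atTop (𝓝 a) := by
    intro t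
    have hc : CauchySeq (fun j => fk (K + j) (x + t • e)) :=
      cauchySeq_of_le_geometric_two (C := 2 * (1 / 2 : ℝ) ^ K) (hdist K le_rfl t)
    obtain ⟨a, ha⟩ := cauchySeq_tendsto_of_complete hc
    refine ⟨a, ?_⟩
    have h1 : Tendsto (fun j => fk (j + K) (x + t • e)) atTop (𝓝 a) := by
      simpa only [add_comm] using ha
    exact (tendsto_add_atTop_iff_nat K).mp h1
  choose Fs hFs using hex
  have hbd : ∀ k ≥ K, ∀ t : ℝ, |fk k (x + t • e) - Fs t| ≤ 2 * (1 / 2 : ℝ) ^ k := by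
    intro k hk t
    have h1 : Tendsto (fun j => fk (k + j) (x + t • e)) atTop (𝓝 (Fs t)) := by
      have h2 : Tendsto (fun j => fk (j + k) (x + t • e)) atTop (𝓝 (Fs t)) :=
        (tendsto_add_atTop_iff_nat k).mpr (hFs t)
      simpa only [add_comm] using h2
    have h3 := dist_le_of_le_geometric_two_of_tendsto (C := 2 * (1 / 2 : ℝ) ^ k) (hdist k hk t) h1 0
    simpa [Real.dist_eq] using h3
  -- continuity
  have hFsc : Continuous Fs := by
    have hu : TendstoUniformly (fun k t => fk k (x + t • e)) Fs atTop := by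
      rw [Metric.tendstoUniformly_iff]
      intro ε hε
      obtain ⟨n, hn⟩ := exists_pow_lt_of_lt_one (by positivity : 0 < ε / 4) (by norm_num : (1 / 2 : ℝ) < 1)
      filter_upwards [eventually_ge_atTop (max n K)] with k hk t
      have hk1 : n ≤ k := (le_max_left _ _).trans hk
      have hk2 : K ≤ k := (le_max_right _ _).trans hk
      have h1 := hbd k hk2 t
      have h2 : (1 / 2 : ℝ) ^ k ≤ (1 / 2 : ℝ) ^ n :=
        pow_le_pow_of_le_one (by norm_num) (by norm_num) hk1
      rw [dist_comm, Real.dist_eq]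
      linarith
    apply hu.continuous
    apply Frequently.of_forall
    intro k
    exact (H.cont k).comp (by fun_prop)
  -- domination
  have hdom : ∀ a b, a ≤ b → ENNReal.ofReal |(|Fs b|) - (|Fs a|)| ≤
      ∫⁻ t in Ioc a b, PsiLine fk e (x + t • e) := by
    intro a b hab
    have h1 : ∀ k, ENNReal.ofReal |fk k (x + b • e) - fk k (x + a • e)| ≤
        ∫⁻ t in Ioc a b, PsiLine fk e (x + t • e) := by
      intro k
      refine (ofReal_abs_sub_le_of_deriv (hasDerivAt_line (H.c1 k) x e)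
        (continuous_line_deriv (H.c1 k) x e) hab).trans ?_
      exact lintegral_mono (fun t => dir_le_psi k e _)
    have h2 : Tendsto (fun k => ENNReal.ofReal |fk k (x + b • e) - fk k (x + a • e)|) atTop
        (𝓝 (ENNReal.ofReal |Fs b - Fs a|)) :=
      ENNReal.tendsto_ofReal (((hFs b).sub (hFs a)).abs)
    have h3 := le_of_tendsto' h2 h1
    exact (ENNReal.ofReal_le_ofReal (abs_abs_sub_abs_le_abs_sub _ _)).trans h3
  refine ⟨fun t => |Fs t|, hFsc.abs, lusin_of_dominated hG.2 hdom, ?_⟩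
  intro ε hε
  obtain ⟨n, hn⟩ := exists_pow_lt_of_lt_one (by positivity : 0 < ε / 8) (by norm_num : (1 / 2 : ℝ) < 1)
  obtain ⟨k, hk⟩ : ∃ k, k = max n K := ⟨_, rfl⟩
  have hk1 : n ≤ k := by rw [hk]; exact le_max_left _ _
  have hk2 : K ≤ k := by rw [hk]; exact le_max_right _ _
  have hp : (1 / 2 : ℝ) ^ k < ε / 8 :=
    (pow_le_pow_of_le_one (by norm_num) (by norm_num) hk1).trans_lt hn
  have huc : UniformContinuous (fk k) := (H.cs k).uniformContinuous_of_continuous (H.cont k)
  obtain ⟨δ, hδ, hδ2⟩ := Metric.uniformContinuous_iff.mp huc (ε / 2) (by positivity)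
  refine ⟨min 1 (δ / 2), by positivity, ?_⟩
  intro t c ρ hρ hρ2 hxt
  have hρ3 : ρ < 1 := hρ2.trans_le (min_le_left _ _)
  have hρ4 : ρ < δ / 2 := hρ2.trans_le (min_le_right _ _)
  have h1 := abs_ballAv_abs_sub_le (a := f) (c := c) (ρ := ρ) H.int.integrableOn hρ (Fs t)
  refine h1.trans ?_
  have hfk : IntegrableOn (fun y => |f y - fk k y|) (ball c ρ) :=
    (H.int.integrableOn.sub (integrableOn_ball_of_continuous (H.cont k) _ _)).abs
  have hfs : IntegrableOn (fun y => |f y - Fs t|) (ball c ρ) :=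
    (H.int.integrableOn.sub (integrableOn_const_ball _)).abs
  have h2 : ballAv (fun y => |f y - Fs t|) c ρ ≤
      ballAv (fun y => |f y - fk k y| + (ε / 2 + 2 * (1 / 2 : ℝ) ^ k)) c ρ := by
    have hadd : IntegrableOn (fun y => |f y - fk k y| + (ε / 2 + 2 * (1 / 2 : ℝ) ^ k)) (ball c ρ) :=
      hfk.add (integrableOn_const_ball _)
    apply ballAv_mono hfs hadd hρ
    intro z hz
    have h3 : dist z (x + t • e) < δ := by
      have h4 : z ∈ ball c ρ := hz
      rw [mem_ball] at h4 hxt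
      have h5 := dist_triangle_right z (x + t • e) c
      linarith
    have h6 := (hδ2 h3).le
    rw [Real.dist_eq] at h6
    have h7 := hbd k hk2 t
    have h8 : |f z - Fs t| ≤ |f z - fk k z| + |fk k z - fk k (x + t • e)| + |fk k (x + t • e) - Fs t| := by
      have h10 := abs_sub_le (f z) (fk k z) (Fs t)
      have h11 := abs_sub_le (fk k z) (fk k (x + t • e)) (Fs t)
      linarith
    linarith
  rw [ballAv_add hfk (integrableOn_const_ball _), ballAv_const _ _ hρ] at h2
  have h9 := H.ballAv_abs_tail (K := K) (c := c) hρ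
    (fun j hj => hav j hj c ρ t hρ hρ3 hxt) hk2
  linarith

end

end Vale.Agent.Lib.P137
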