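import Vale.Agent.Lib.P137.Good3

namespace Vale.Agent.Lib.P137

open MeasureTheory Metric Set Filter Topology
open scoped ENNReal

set_option linter.unusedSectionVars false

variable {E : Type*} [NormedAddCommGroup E] [InnerProductSpace ℝ E] [FiniteDimensional ℝ E]
  [MeasurableSpace E] [BorelSpace E]

/-- the supremum over balls of radius at least `r` -/
noncomputable def Mlarge (g : E → ℝ) (r : ℝ) (y : E) : ℝ :=
  ⨆ p : {p : E × ℝ // r ≤ p.2 ∧ y ∈ ball p.1 p.2}, ballAv g p.1.1 p.1.2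

lemma lusin_of_lipschitz {U : ℝ → ℝ} {K : NNReal} (h : LipschitzWith K U) : LusinN U := by
  intro S hS
  have h1 := h.hausdorffMeasure_image_le (d := 1) (by norm_num) (s := S)
  rw [hausdorffMeasure_real] at h1
  rw [hS, mul_zero] at h1
  exact le_antisymm h1 zero_le

section

variable {g : E → ℝ} {c : E} {ρ : ℝ}

/-- upper bound for an average, from the mass -/
lemma ballAv_le_total (hg0 : ∀ y, 0 ≤ g y) (hgi : Integrable g) {r : ℝ} (hr : 0 < r) (hρ : r ≤ ρ) :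
    ballAv g c ρ ≤ (vb E r)⁻¹ * ∫ y, g y := by
  have hv := vb_pos (E := E) hr
  unfold ballAv
  apply mul_le_mul (inv_anti₀ hv (vb_mono hr hρ))
    (setIntegral_le_integral hgi (Eventually.of_forall hg0))
    (setIntegral_nonneg measurableSet_ball (fun y _ => hg0 y)) (inv_nonneg.mpr hv.le)

/-- enlarging a ball -/
lemma ballAv_enlarge (hg0 : ∀ y, 0 ≤ g y) (hgi : Integrable g) (hρ : 0 < ρ) {η : ℝ} (hη : 0 ≤ η) :
    (ρ / (ρ + η)) ^ Module.finrank ℝ E * ballAv g c ρ ≤ ballAv g c (ρ + η) := by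
  have hρ' : 0 < ρ + η := by linarith
  have hv := vb_pos (E := E) hρ
  have hv' := vb_pos (E := E) hρ'
  have h1 : (ρ / (ρ + η)) ^ Module.finrank ℝ E = (vb E (ρ + η))⁻¹ * vb E ρ := (vb_ratio hρ' hρ).symm
  rw [h1]
  unfold ballAv
  have h2 : ∫ y in ball c ρ, g y ≤ ∫ y in ball c (ρ + η), g y :=
    setIntegral_mono_set hgi.integrableOn (Eventually.of_forall hg0)
      (ball_subset_ball (by linarith)).eventuallyLE
  calc (vb E (ρ + η))⁻¹ * vb E ρ * ((vb E ρ)⁻¹ * ∫ y in ball c ρ, g y)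
      = (vb E (ρ + η))⁻¹ * ∫ y in ball c ρ, g y := by field_simp
    _ ≤ _ := mul_le_mul_of_nonneg_left h2 (inv_nonneg.mpr hv'.le)

lemma Mlarge_bdd (hg0 : ∀ y, 0 ≤ g y) (hgi : Integrable g) {r : ℝ} (hr : 0 < r) (y : E) :
    BddAbove (range (fun p : {p : E × ℝ // r ≤ p.2 ∧ y ∈ ball p.1 p.2} => ballAv g p.1.1 p.1.2)) :=
  ⟨(vb E r)⁻¹ * ∫ y, g y, by
    rintro _ ⟨p, rfl⟩
    exact ballAv_le_total hg0 hgi hr p.2.1⟩

lemma le_Mlarge (hg0 : ∀ y, 0 ≤ g y) (hgi : Integrable g) {r : ℝ} (hr : 0 < r) {y : E}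
    (h1 : r ≤ ρ) (h2 : y ∈ ball c ρ) : ballAv g c ρ ≤ Mlarge g r y :=
  le_ciSup (Mlarge_bdd hg0 hgi hr y) (⟨(c, ρ), h1, h2⟩ : {p : E × ℝ // r ≤ p.2 ∧ y ∈ ball p.1 p.2})

/-- the large balls give a Lipschitz function -/
lemma Mlarge_sub_le (hg0 : ∀ y, 0 ≤ g y) (hgi : Integrable g) {r : ℝ} (hr : 0 < r) (y y' : E) :
    Mlarge g r y ≤ Mlarge g r y' +
      (Module.finrank ℝ E / r * ((vb E r)⁻¹ * ∫ y, g y)) * ‖y - y'‖ := by
  have hv := vb_pos (E := E) hr
  have hI : 0 ≤ ∫ y, g y := integral_nonneg hg0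
  have hM : 0 ≤ (vb E r)⁻¹ * ∫ y, g y := by positivity
  obtain ⟨η, hη⟩ : ∃ η, η = ‖y - y'‖ := ⟨_, rfl⟩
  have hη0 : 0 ≤ η := by rw [hη]; exact norm_nonneg _
  have hnon : Nonempty {p : E × ℝ // r ≤ p.2 ∧ y ∈ ball p.1 p.2} :=
    ⟨⟨(y, r), le_rfl, mem_ball_self hr⟩⟩
  apply ciSup_le
  rintro ⟨⟨c, ρ⟩, h1, h2⟩
  simp only at h1 h2 ⊢
  have hρ : 0 < ρ := hr.trans_le h1
  have hρ' : 0 < ρ + η := by linarith
  have h3 : y' ∈ ball c (ρ + η) := by
    rw [mem_ball] at h2 ⊢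
    have := dist_triangle y' y c
    rw [dist_comm y' y, dist_eq_norm y y', ← hη] at this
    linarith
  have h4 := le_Mlarge hg0 hgi hr (c := c) (ρ := ρ + η) (by linarith) h3
  have h5 := ballAv_enlarge (c := c) hg0 hgi hρ hη0
  have hA : 0 ≤ ballAv g c ρ := ballAv_nonneg hg0 _ _
  have hA2 : ballAv g c ρ ≤ (vb E r)⁻¹ * ∫ y, g y := ballAv_le_total hg0 hgi hr h1
  rw [← hη]
  -- Bernoulli
  have hB : 1 - Module.finrank ℝ E * (η / (ρ + η)) ≤ (ρ / (ρ + η)) ^ Module.finrank ℝ E := by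
    have h6 : 1 + (Module.finrank ℝ E : ℝ) * (-(η / (ρ + η))) ≤ (1 + (-(η / (ρ + η)))) ^ Module.finrank ℝ E := by
      apply one_add_mul_le_pow
      have : η / (ρ + η) ≤ 1 := (div_le_one hρ').mpr (by linarith)
      linarith
    have e1 : 1 + (-(η / (ρ + η))) = ρ / (ρ + η) := by field_simp; ring
    rw [e1] at h6
    linarith
  have h7 : (1 - Module.finrank ℝ E * (η / (ρ + η))) * ballAv g c ρ ≤ Mlarge g r y' :=
    (mul_le_mul_of_nonneg_right hB hA).trans (h5.trans h4)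
  have h8 : η / (ρ + η) ≤ η / r := div_le_div_of_nonneg_left hη0 hr (by linarith)
  have hd : (0 : ℝ) ≤ Module.finrank ℝ E := by positivity
  have h9 : Module.finrank ℝ E * (η / (ρ + η)) * ballAv g c ρ ≤
      Module.finrank ℝ E / r * ((vb E r)⁻¹ * ∫ y, g y) * η := by
    have h10 : Module.finrank ℝ E * (η / (ρ + η)) ≤ Module.finrank ℝ E * (η / r) :=
      mul_le_mul_of_nonneg_left h8 hd
    calc _ ≤ Module.finrank ℝ E * (η / r) * ((vb E r)⁻¹ * ∫ y, g y) :=
          mul_le_mul h10 hA2 hA (by positivity)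
      _ = _ := by ring
  nlinarith

/-- the Lipschitz bound along a line -/
lemma Mlarge_lipschitz (hg0 : ∀ y, 0 ≤ g y) (hgi : Integrable g) {r : ℝ} (hr : 0 < r) {x e : E}
    (he : ‖e‖ = 1) : ∃ K : NNReal, LipschitzWith K (fun t : ℝ => Mlarge g r (x + t • e)) := by
  have hv := vb_pos (E := E) hr
  have hI : 0 ≤ ∫ y, g y := integral_nonneg hg0
  have hL : 0 ≤ Module.finrank ℝ E / r * ((vb E r)⁻¹ * ∫ y, g y) := by positivity
  refine ⟨Real.toNNReal (Module.finrank ℝ E / r * ((vb E r)⁻¹ * ∫ y, g y)), LipschitzWith.of_dist_le_mul ?_⟩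
  intro a b
  rw [Real.dist_eq, Real.dist_eq, Real.coe_toNNReal _ hL]
  have hn : ‖(x + a • e) - (x + b • e)‖ = |a - b| := by
    have : (x + a • e) - (x + b • e) = (a - b) • e := by rw [sub_smul]; abel
    rw [this, norm_smul, he, mul_one, Real.norm_eq_abs]
  have h1 := Mlarge_sub_le hg0 hgi hr (x + a • e) (x + b • e)
  have h2 := Mlarge_sub_le hg0 hgi hr (x + b • e) (x + a • e)
  rw [hn] at h1
  rw [norm_sub_rev, hn] at h2
  rw [abs_le]
  constructor <;> linarith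

end

section line

variable {g : E → ℝ} {x e : E} {F : ℝ → ℝ}

lemma LineData.bdd (D : LineData g x e F) (hg0 : ∀ y, 0 ≤ g y) (hgi : Integrable g) (t : ℝ) :
    BddAbove (range (fun p : {p : E × ℝ // 0 < p.2 ∧ x + t • e ∈ ball p.1 p.2} => ballAv g p.1.1 p.1.2)) := by
  obtain ⟨ρ0, hρ0, h⟩ := D.small 1 one_pos
  refine ⟨max (F t + 1) ((vb E ρ0)⁻¹ * ∫ y, g y), ?_⟩
  rintro _ ⟨⟨⟨c, ρ⟩, h1, h2⟩, rfl⟩
  simp only at h1 h2 ⊢
  by_cases hρ : ρ < ρ0
  · have := abs_le.mp (h t c ρ h1 hρ h2)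
    exact le_max_of_le_left (by linarith [this.2])
  · exact le_max_of_le_right (ballAv_le_total hg0 hgi hρ0 (not_lt.mp hρ))

lemma LineData.le_Mtil (D : LineData g x e F) (hg0 : ∀ y, 0 ≤ g y) (hgi : Integrable g) {t : ℝ} {c : E}
    {ρ : ℝ} (h1 : 0 < ρ) (h2 : x + t • e ∈ ball c ρ) : ballAv g c ρ ≤ Mtil g (x + t • e) :=
  le_ciSup (D.bdd hg0 hgi t) (⟨(c, ρ), h1, h2⟩ : {p : E × ℝ // 0 < p.2 ∧ x + t • e ∈ ball p.1 p.2})

lemma LineData.F_le (D : LineData g x e F) (hg0 : ∀ y, 0 ≤ g y) (hgi : Integrable g) (t : ℝ) :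
    F t ≤ Mtil g (x + t • e) := by
  apply le_of_forall_pos_le_add
  intro ε hε
  obtain ⟨ρ0, hρ0, h⟩ := D.small ε hε
  have h1 := abs_le.mp (h t (x + t • e) (ρ0 / 2) (by positivity) (by linarith) (mem_ball_self (by positivity)))
  have h2 := D.le_Mtil hg0 hgi (t := t) (c := x + t • e) (ρ := ρ0 / 2) (by positivity)
    (mem_ball_self (by positivity))
  linarith [h1.1]

lemma line_dist (he : ‖e‖ = 1) (x : E) (a b : ℝ) : dist (x + a • e) (x + b • e) = |a - b| := by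
  rw [dist_eq_norm]
  have : (x + a • e) - (x + b • e) = (a - b) • e := by rw [sub_smul]; abel
  rw [this, norm_smul, he, mul_one, Real.norm_eq_abs]

/-- the maximal function is continuous along a good line -/
lemma LineData.continuous_U (D : LineData g x e F) (hg0 : ∀ y, 0 ≤ g y) (hgi : Integrable g) (he : ‖e‖ = 1) :
    Continuous (fun t : ℝ => Mtil g (x + t • e)) := by
  rw [Metric.continuous_iff]
  intro t ε hε
  obtain ⟨U0, hU0⟩ : ∃ U0, U0 = Mtil g (x + t • e) := ⟨_, rfl⟩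
  have hne : Nonempty {p : E × ℝ // 0 < p.2 ∧ x + t • e ∈ ball p.1 p.2} :=
    ⟨⟨(x + t • e, 1), one_pos, mem_ball_self one_pos⟩⟩
  -- the lower bound
  have hlow : U0 - ε / 2 < Mtil g (x + t • e) := by rw [← hU0]; linarith
  obtain ⟨⟨⟨c1, ρ1⟩, h11, h12⟩, h13⟩ := exists_lt_of_lt_ciSup hlow
  simp only at h11 h12 h13
  have hδ1 : 0 < ρ1 - dist (x + t • e) c1 := sub_pos.mpr h12
  -- the upper bound
  obtain ⟨ρ0, hρ0, hsm⟩ := D.small (ε / 4) (by positivity)
  obtain ⟨δ2, hδ2, hF⟩ := Metric.continuous_iff.mp D.cont t (ε / 4) (by positivity)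
  have hφ : Continuous (fun s : ℝ => (1 + s / ρ0) ^ Module.finrank ℝ E * U0) := by fun_prop
  obtain ⟨δ3, hδ3, hφ2⟩ := Metric.continuous_iff.mp hφ 0 (ε / 2) (by positivity)
  refine ⟨min (ρ1 - dist (x + t • e) c1) (min δ2 δ3), by positivity, ?_⟩
  intro t' ht'
  rw [Real.dist_eq] at ht' ⊢
  have h1 : |t' - t| < ρ1 - dist (x + t • e) c1 := ht'.trans_le (min_le_left _ _)
  have h2 : |t' - t| < δ2 := ht'.trans_le ((min_le_right _ _).trans (min_le_left _ _))
  have h3 : |t' - t| < δ3 := ht'.trans_le ((min_le_right _ _).trans (min_le_right _ _))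
  -- lower
  have hmem : x + t' • e ∈ ball c1 ρ1 := by
    rw [mem_ball]
    have := dist_triangle (x + t' • e) (x + t • e) c1
    rw [line_dist he] at this
    linarith
  have hL : U0 - ε / 2 < Mtil g (x + t' • e) :=
    h13.trans_le (D.le_Mtil hg0 hgi h11 hmem)
  -- upper
  have hU0nn : 0 ≤ U0 := by rw [hU0]; exact Mtil_nonneg hg0 _
  have hFt : F t ≤ U0 := by rw [hU0]; exact D.F_le hg0 hgi t
  have hU : Mtil g (x + t' • e) ≤ U0 + ε / 2 := by
    apply Real.iSup_le _ (by positivity)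
    rintro ⟨⟨c, ρ⟩, h4, h5⟩
    simp only at h4 h5 ⊢
    by_cases hρ : ρ < ρ0
    · have h6 := abs_le.mp (hsm t' c ρ h4 hρ h5)
      have h7 := hF t' (by rw [Real.dist_eq]; exact h2)
      rw [Real.dist_eq] at h7
      have h8 := abs_lt.mp h7
      linarith [h6.2, h8.2]
    · have hρ' : ρ0 ≤ ρ := not_lt.mp hρ
      obtain ⟨η, hη⟩ : ∃ η, η = |t' - t| := ⟨_, rfl⟩
      have hη0 : 0 ≤ η := by rw [hη]; exact abs_nonneg _
      have hm2 : x + t • e ∈ ball c (ρ + η) := by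
        rw [mem_ball] at h5 ⊢
        have := dist_triangle (x + t • e) (x + t' • e) c
        rw [line_dist he, abs_sub_comm, ← hη] at this
        linarith
      have h9 := D.le_Mtil hg0 hgi (t := t) (c := c) (ρ := ρ + η) (by linarith) hm2
      rw [← hU0] at h9
      have h10 := ballAv_enlarge (c := c) hg0 hgi h4 hη0
      have hκ : 0 < ρ / (ρ + η) := by positivity
      have hA : 0 ≤ ballAv g c ρ := ballAv_nonneg hg0 _ _
      have h11' : ballAv g c ρ ≤ ((ρ + η) / ρ) ^ Module.finrank ℝ E * U0 := by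
        have h12' : (ρ / (ρ + η)) ^ Module.finrank ℝ E * ((ρ + η) / ρ) ^ Module.finrank ℝ E = 1 := by
          rw [← mul_pow]
          have : ρ / (ρ + η) * ((ρ + η) / ρ) = 1 := by field_simp
          rw [this, one_pow]
        calc ballAv g c ρ = ((ρ + η) / ρ) ^ Module.finrank ℝ E *
              ((ρ / (ρ + η)) ^ Module.finrank ℝ E * ballAv g c ρ) := by
              rw [← mul_assoc, mul_comm (((ρ + η) / ρ) ^ _), h12', one_mul]
          _ ≤ _ := mul_le_mul_of_nonneg_left (h10.trans h9) (by positivity)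
      have h13' : ((ρ + η) / ρ) ^ Module.finrank ℝ E ≤ (1 + η / ρ0) ^ Module.finrank ℝ E := by
        apply pow_le_pow_left₀ (by positivity)
        have e1 : (ρ + η) / ρ = 1 + η / ρ := by field_simp
        rw [e1]
        have : η / ρ ≤ η / ρ0 := div_le_div_of_nonneg_left hη0 hρ0 hρ'
        linarith
      have h14 := hφ2 η (by rw [Real.dist_eq, sub_zero, abs_of_nonneg hη0, hη]; exact h3)
      rw [Real.dist_eq] at h14
      have h15 := abs_lt.mp h14
      simp only [zero_div, add_zero, one_pow, one_mul] at h15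
      have h16 := mul_le_mul_of_nonneg_right h13' hU0nn
      linarith [h15.2]
  rw [← hU0]
  rw [abs_lt]
  constructor <;> linarith

/-- the dichotomy between large balls and small balls -/
lemma U_le_max (hg0 : ∀ y, 0 ≤ g y) (hgi : Integrable g)
    {ε ρ0 r : ℝ} (hr : 0 < r) (hrρ : r ≤ ρ0)
    (hsm : ∀ (t : ℝ) (c : E) (ρ : ℝ), 0 < ρ → ρ < ρ0 → x + t • e ∈ ball c ρ → |ballAv g c ρ - F t| ≤ ε)
    (t : ℝ) : Mtil g (x + t • e) ≤ max (Mlarge g r (x + t • e)) (F t + ε) := by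
  have hnn : 0 ≤ Mlarge g r (x + t • e) :=
    Real.iSup_nonneg (fun p => ballAv_nonneg hg0 _ _)
  apply Real.iSup_le _ (le_max_of_le_left hnn)
  rintro ⟨⟨c, ρ⟩, h1, h2⟩
  simp only at h1 h2 ⊢
  by_cases hρ : r ≤ ρ
  · exact le_max_of_le_left (le_Mlarge hg0 hgi hr hρ h2)
  · have h3 := abs_le.mp (hsm t c ρ h1 ((not_le.mp hρ).trans_le hrρ) h2)
    exact le_max_of_le_right (by linarith [h3.2])

/-- the maximal function has the Lusin property along a good line -/
lemma LineData.lusin_U (D : LineData g x e F) (hg0 : ∀ y, 0 ≤ g y) (hgi : Integrable g) (he : ‖e‖ = 1) :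
    LusinN (fun t : ℝ => Mtil g (x + t • e)) := by
  intro S hS
  let r : ℕ → ℝ := fun n => 1 / ((n : ℝ) + 1)
  have hr : ∀ n, 0 < r n := fun n => by positivity
  have hsub : (fun t : ℝ => Mtil g (x + t • e)) '' S ⊆
      (⋃ n, (fun t : ℝ => Mlarge g (r n) (x + t • e)) '' S) ∪ F '' S := by
    rintro _ ⟨t, ht, rfl⟩
    by_cases hex : ∃ n, Mtil g (x + t • e) = Mlarge g (r n) (x + t • e)
    · obtain ⟨n, hn⟩ := hex
      left
      simp only [mem_iUnion]
      exact ⟨n, t, ht, hn.symm⟩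
    · right
      push Not at hex
      refine ⟨t, ht, ?_⟩
      apply le_antisymm (D.F_le hg0 hgi t)
      apply le_of_forall_pos_le_add
      intro ε hε
      obtain ⟨ρ0, hρ0, hsm⟩ := D.small ε hε
      obtain ⟨n, hn⟩ := exists_nat_one_div_lt hρ0
      have h1 := U_le_max hg0 hgi (hr n) hn.le hsm t
      rcases le_max_iff.mp h1 with h2 | h2
      · -- the large balls cannot dominate
        have h3 : Mlarge g (r n) (x + t • e) ≤ Mtil g (x + t • e) := by
          apply Real.iSup_le _ (Mtil_nonneg hg0 _)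
          rintro ⟨⟨c, ρ⟩, h4, h5⟩
          exact D.le_Mtil hg0 hgi ((hr n).trans_le h4) h5
        exact absurd (le_antisymm h2 h3) (hex n)
      · exact h2
  apply measure_mono_null hsub
  apply measure_union_null
  · apply measure_iUnion_null
    intro n
    obtain ⟨K, hK⟩ := Mlarge_lipschitz hg0 hgi (hr n) (x := x) he
    exact lusin_of_lipschitz hK S hS
  · exact D.lusin S hS

end line

end Vale.Agent.Lib.P137
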