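import Vale.Agent.Lib.P137.Basic

namespace Vale.Agent.Lib.P137

open MeasureTheory Metric Set Filter Topology
open scoped ENNReal Pointwise

set_option linter.unusedSectionVars false

variable {E : Type*} [NormedAddCommGroup E] [InnerProductSpace ℝ E] [FiniteDimensional ℝ E]
  [MeasurableSpace E] [BorelSpace E]
variable {F : Type*} [NormedAddCommGroup F] [NormedSpace ℝ F]

/-- average over the ball around `y` of radius `s` -/
noncomputable def av (s : ℝ) (Φ : E → F) (y : E) : F :=
  (vb E s)⁻¹ • ∫ z in ball y s, Φ z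

lemma av_eq (s : ℝ) (Φ : E → F) (y : E) :
    av s Φ y = (vb E s)⁻¹ • ∫ ξ in ball (0 : E) s, Φ (y + ξ) := by
  rw [av, setIntegral_ball_translate]

lemma integrableOn_ball_of_continuous {Φ : E → F} (hΦ : Continuous Φ) (y : E) (s : ℝ) :
    IntegrableOn Φ (ball y s) :=
  (hΦ.continuousOn.integrableOn_compact (isCompact_closedBall y s)).mono_set ball_subset_closedBall

lemma continuous_av {Φ : E → F} (hΦ : Continuous Φ) (hc : HasCompactSupport Φ) (s : ℝ) :
    Continuous (av s Φ) := by
  obtain ⟨C, hC⟩ := hc.exists_bound_of_continuous hΦ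
  have : Continuous (fun y : E => ∫ ξ in ball (0 : E) s, Φ (y + ξ)) := by
    apply continuous_of_dominated (bound := fun _ => C)
    · intro y
      have : Continuous (fun ξ : E => Φ (y + ξ)) := by fun_prop
      exact this.aestronglyMeasurable
    · intro y
      exact Eventually.of_forall (fun ξ => hC _)
    · exact integrableOn_const (volume_ball_ne_top _ _)
    · exact Eventually.of_forall (fun ξ => by fun_prop)
  have e : av s Φ = fun y => (vb E s)⁻¹ • ∫ ξ in ball (0 : E) s, Φ (y + ξ) := by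
    ext y
    exact av_eq s Φ y
  rw [e]
  exact this.const_smul _

lemma hasCompactSupport_av {Φ : E → F} (hc : HasCompactSupport Φ) {s : ℝ} :
    HasCompactSupport (av s Φ) := by
  have hK : IsCompact (tsupport Φ + closedBall (0 : E) s) :=
    hc.isCompact.add (isCompact_closedBall _ _)
  apply HasCompactSupport.intro hK
  intro y hy
  have : ∀ z ∈ ball y s, Φ z = 0 := by
    intro z hz
    by_contra hne
    apply hy
    refine ⟨z, subset_tsupport _ hne, y - z, ?_, add_sub_cancel z y⟩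
    rw [mem_closedBall, dist_zero_right, ← dist_eq_norm, dist_comm]
    exact (mem_ball.mp hz).le
  rw [av, setIntegral_congr_fun measurableSet_ball (g := fun _ => (0 : F)) this]
  simp

/-- differentiation of a ball average -/
lemma hasFDerivAt_av {Φ : E → ℝ} (hΦ : ContDiff ℝ 1 Φ) (hc : HasCompactSupport Φ) (s : ℝ) (y : E) :
    HasFDerivAt (av s Φ) (av s (fderiv ℝ Φ) y) y := by
  have hcont : Continuous (fderiv ℝ Φ) := hΦ.continuous_fderiv one_ne_zero
  obtain ⟨C, hC⟩ := hc.fderiv (𝕜 := ℝ) |>.exists_bound_of_continuous hcont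
  have hd : ∀ z, HasFDerivAt Φ (fderiv ℝ Φ z) z := fun z =>
    (hΦ.differentiable (by norm_num) z).hasFDerivAt
  have h1 : HasFDerivAt (fun y : E => ∫ ξ in ball (0 : E) s, Φ (y + ξ))
      (∫ ξ in ball (0 : E) s, fderiv ℝ Φ (y + ξ)) y := by
    refine hasFDerivAt_integral_of_dominated_of_fderiv_le (s := univ)
      (F := fun y ξ => Φ (y + ξ)) (F' := fun y ξ => fderiv ℝ Φ (y + ξ))
      (bound := fun _ => C) univ_mem ?_ ?_ ?_ ?_ ?_ ?_
    · refine Eventually.of_forall fun w => ?_
      have : Continuous (fun ξ : E => Φ (w + ξ)) := hΦ.continuous.comp (by fun_prop)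
      exact this.aestronglyMeasurable
    · exact integrableOn_ball_of_continuous (hΦ.continuous.comp (by fun_prop)) 0 s
    · have : Continuous (fun ξ : E => fderiv ℝ Φ (y + ξ)) := hcont.comp (by fun_prop)
      exact this.aestronglyMeasurable
    · exact Eventually.of_forall fun ξ w _ => hC _
    · exact integrableOn_const (volume_ball_ne_top _ _)
    · refine Eventually.of_forall fun ξ w _ => ?_
      have := (hd (w + ξ)).comp w ((hasFDerivAt_id w).add_const ξ)
      simpa [Function.comp_def, add_comm] using this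
  have e : av s Φ = fun y => (vb E s)⁻¹ • ∫ ξ in ball (0 : E) s, Φ (y + ξ) := by
    ext y
    exact av_eq s Φ y
  rw [e, av_eq]
  exact h1.const_smul ((vb E s)⁻¹)

lemma contDiff_av {Φ : E → ℝ} (hΦ : ContDiff ℝ 1 Φ) (hc : HasCompactSupport Φ) (s : ℝ) :
    ContDiff ℝ 1 (av s Φ) := by
  have hd : ∀ y, HasFDerivAt (av s Φ) (av s (fderiv ℝ Φ) y) y := hasFDerivAt_av hΦ hc s
  have e : fderiv ℝ (av s Φ) = av s (fderiv ℝ Φ) := by
    ext1 y
    exact (hd y).fderiv
  rw [contDiff_one_iff_fderiv]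
  refine ⟨fun y => (hd y).differentiableAt, ?_⟩
  rw [e]
  exact continuous_av (hΦ.continuous_fderiv one_ne_zero) (hc.fderiv (𝕜 := ℝ)) s

/-- the level functions -/
noncomputable def lev (f : E → ℝ) (δ : ℝ) : ℕ → E → ℝ
  | 0 => f
  | j + 1 => av (δ * 4 ^ j) (lev f δ j)

lemma lev_zero (f : E → ℝ) (δ : ℝ) : lev f δ 0 = f := rfl

lemma lev_succ (f : E → ℝ) (δ : ℝ) (j : ℕ) : lev f δ (j + 1) = av (δ * 4 ^ j) (lev f δ j) := rfl

section levels

variable {f : E → ℝ} {δ : ℝ}

lemma lev_contDiff (hf : ContDiff ℝ 1 f) (hc : HasCompactSupport f) (j : ℕ) :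
    ContDiff ℝ 1 (lev f δ j) ∧ HasCompactSupport (lev f δ j) := by
  induction j with
  | zero => exact ⟨hf, hc⟩
  | succ j ih =>
    exact ⟨contDiff_av ih.1 ih.2 _, hasCompactSupport_av ih.2⟩

/-- gradient at level `j` -/
noncomputable def grd (f : E → ℝ) (δ : ℝ) (j : ℕ) : E → (E →L[ℝ] ℝ) := fderiv ℝ (lev f δ j)

lemma grd_continuous (hf : ContDiff ℝ 1 f) (hc : HasCompactSupport f) (j : ℕ) :
    Continuous (grd f δ j) :=
  (lev_contDiff (δ := δ) hf hc j).1.continuous_fderiv one_ne_zero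

lemma grd_compact (hf : ContDiff ℝ 1 f) (hc : HasCompactSupport f) (j : ℕ) :
    HasCompactSupport (grd f δ j) :=
  (lev_contDiff (δ := δ) hf hc j).2.fderiv (𝕜 := ℝ)

lemma grd_succ (hf : ContDiff ℝ 1 f) (hc : HasCompactSupport f) (j : ℕ) :
    grd f δ (j + 1) = av (δ * 4 ^ j) (grd f δ j) := by
  ext1 y
  have h := lev_contDiff (δ := δ) hf hc j
  exact (hasFDerivAt_av h.1 h.2 _ y).fderiv

lemma lev_hasFDerivAt (hf : ContDiff ℝ 1 f) (hc : HasCompactSupport f) (j : ℕ) (y : E) :
    HasFDerivAt (lev f δ j) (grd f δ j y) y :=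
  ((lev_contDiff (δ := δ) hf hc j).1.differentiable (by norm_num) y).hasFDerivAt

end levels

end Vale.Agent.Lib.P137
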