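import Vale.Agent.Lib.P137.Levels1

namespace Vale.Agent.Lib.P137

open MeasureTheory Metric Set Filter Topology
open scoped ENNReal Convolution

set_option linter.unusedSectionVars false

variable {E : Type*} [NormedAddCommGroup E] [InnerProductSpace ℝ E] [FiniteDimensional ℝ E]
  [MeasurableSpace E] [BorelSpace E]

lemma mass_eq_conv (Φ : E → ℝ) (R : ℝ) (z : E) :
    ∫ y in ball z R, Φ y =
      (Φ ⋆[ContinuousLinearMap.mul ℝ ℝ, (volume : Measure E)]
        ((ball (0 : E) R).indicator (fun _ => (1 : ℝ)))) z := by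
  rw [convolution_def, ← integral_indicator measurableSet_ball]
  congr 1
  ext t
  have hmem : z - t ∈ ball (0 : E) R ↔ t ∈ ball z R := by
    simp [mem_ball, dist_eq_norm, norm_sub_rev]
  by_cases h : t ∈ ball z R
  · simp [indicator_of_mem h, indicator_of_mem (hmem.mpr h)]
  · simp [indicator_of_notMem h, indicator_of_notMem (mt hmem.mp h)]

lemma integrable_ball_indicator (R : ℝ) :
    Integrable ((ball (0 : E) R).indicator (fun _ => (1 : ℝ))) :=
  (integrableOn_const (volume_ball_ne_top _ _)).integrable_indicator measurableSet_ball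

/-- integrability of the local mass -/
lemma integrable_mass {Φ : E → ℝ} (hΦ : Integrable Φ) (R : ℝ) :
    Integrable (fun z => ∫ y in ball z R, Φ y) := by
  have := hΦ.integrable_convolution (ContinuousLinearMap.mul ℝ ℝ) (integrable_ball_indicator (E := E) R)
  convert this using 1
  ext z
  exact mass_eq_conv Φ R z

/-- integral of the local mass -/
lemma integral_mass {Φ : E → ℝ} (hΦ : Integrable Φ) (R : ℝ) :
    ∫ z, (∫ y in ball z R, Φ y) = vb E R * ∫ y, Φ y := by
  simp_rw [mass_eq_conv Φ R]
  rw [integral_convolution (ContinuousLinearMap.mul ℝ ℝ) hΦ (integrable_ball_indicator (E := E) R)]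
  simp only [ContinuousLinearMap.mul_apply']
  rw [integral_indicator measurableSet_ball, setIntegral_const, smul_eq_mul, mul_one, mul_comm]
  rfl

/-- mass bound after averaging over a ball of centres -/
lemma integral_ball_mass_le {Ψ : E → ℝ} (hΨ : Integrable Ψ) (hΨ0 : ∀ y, 0 ≤ Ψ y) (z0 : E)
    (r R : ℝ) :
    ∫ x in ball z0 r, (∫ y in ball x R, Ψ y) ≤ vb E R * ∫ y in ball z0 (r + R), Ψ y := by
  set Ψ' : E → ℝ := (ball z0 (r + R)).indicator Ψ with hΨ'
  have i' : Integrable Ψ' := hΨ.indicator measurableSet_ball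
  have h0' : ∀ y, 0 ≤ Ψ' y := fun y => indicator_nonneg (fun y _ => hΨ0 y) y
  have e1 : ∫ y in ball z0 (r + R), Ψ y = ∫ y, Ψ' y := by
    rw [hΨ', integral_indicator measurableSet_ball]
  rw [e1, ← integral_mass i' R]
  have hnn : ∀ z, 0 ≤ ∫ y in ball z R, Ψ' y := fun z => integral_nonneg (fun y => h0' y)
  calc ∫ x in ball z0 r, (∫ y in ball x R, Ψ y)
      = ∫ x in ball z0 r, (∫ y in ball x R, Ψ' y) := by
        apply setIntegral_congr_fun measurableSet_ball
        intro x hx
        apply setIntegral_congr_fun measurableSet_ball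
        intro y hy
        have : y ∈ ball z0 (r + R) := by
          rw [mem_ball] at hx hy ⊢
          have := dist_triangle y x z0
          linarith
        simp only [hΨ', indicator_of_mem this]
    _ ≤ ∫ z, (∫ y in ball z R, Ψ' y) := by
        apply setIntegral_le_integral (integrable_mass i' R)
        exact Eventually.of_forall hnn

/-- enlarging a ball when passing to the average -/
lemma mass_le_mass_av {Φ : E → ℝ} (hΦ : Continuous Φ) (hc : HasCompactSupport Φ)
    (hΦ0 : ∀ y, 0 ≤ Φ y) (z : E) (R : ℝ) {s : ℝ} (hs : 0 < s) :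
    ∫ y in ball z R, Φ y ≤ ∫ y in ball z (R + s), av s Φ y := by
  have iΦ : Integrable Φ := hΦ.integrable_of_hasCompactSupport hc
  set Φ' : E → ℝ := (ball z R).indicator Φ with hΦ'
  have i' : Integrable Φ' := iΦ.indicator measurableSet_ball
  have h0' : ∀ y, 0 ≤ Φ' y := fun y => indicator_nonneg (fun y _ => hΦ0 y) y
  have hv := vb_pos (E := E) hs
  have e1 : ∫ y in ball z R, Φ y = ∫ y, Φ' y := by
    rw [hΦ', integral_indicator measurableSet_ball]
  have e2 : ∫ y, Φ' y = (vb E s)⁻¹ * ∫ w, (∫ y in ball w s, Φ' y) := by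
    rw [integral_mass i' s]
    field_simp
  have e3 : ∫ w, (∫ y in ball w s, Φ' y) = ∫ w in ball z (R + s), (∫ y in ball w s, Φ' y) := by
    symm
    apply setIntegral_eq_integral_of_forall_compl_eq_zero
    intro w hw
    have : ∀ y ∈ ball w s, Φ' y = 0 := by
      intro y hy
      apply indicator_of_notMem
      intro hyz
      apply hw
      rw [mem_ball] at hy hyz ⊢
      have := dist_triangle w y z
      rw [dist_comm w y] at this
      linarith
    rw [setIntegral_congr_fun measurableSet_ball this]
    simp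
  have hΦ1 : Continuous (av s Φ) := continuous_av hΦ hc s
  rw [e1, e2, e3]
  simp only [av, smul_eq_mul]
  rw [integral_const_mul]
  apply mul_le_mul_of_nonneg_left _ (inv_nonneg.mpr hv.le)
  apply setIntegral_mono_on ((integrable_mass i' s).integrableOn)
    ((integrable_mass iΦ s).integrableOn) measurableSet_ball
  intro w _
  apply setIntegral_mono_on (i'.integrableOn) (iΦ.integrableOn) measurableSet_ball
  intro y _
  by_cases hy : y ∈ ball z R
  · simp only [hΦ', indicator_of_mem hy]; exact le_rfl
  · simp only [hΦ', indicator_of_notMem hy]; exact hΦ0 y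

lemma integral_av {Φ : E → ℝ} (hΦ : Integrable Φ) {s : ℝ} (hs : 0 < s) :
    ∫ y, av s Φ y = ∫ y, Φ y := by
  have hv := vb_pos (E := E) hs
  simp only [av, smul_eq_mul]
  rw [integral_const_mul, integral_mass hΦ s]
  field_simp

end Vale.Agent.Lib.P137
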