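import Vale.Agent.Lib.P137.Levels2

namespace Vale.Agent.Lib.P137

open MeasureTheory Metric Set Filter Topology
open scoped ENNReal

set_option linter.unusedSectionVars false

variable {E : Type*} [NormedAddCommGroup E] [InnerProductSpace ℝ E] [FiniteDimensional ℝ E]
  [MeasurableSpace E] [BorelSpace E]

/-- defect in the triangle inequality at level `l` -/
noncomputable def Tf (f : E → ℝ) (δ : ℝ) (l : ℕ) (y : E) : ℝ :=
  av (δ * 4 ^ l) (fun z => ‖grd f δ l z‖) y - ‖grd f δ (l + 1) y‖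

/-- directional defect at level `j` -/
noncomputable def Psi (f : E → ℝ) (δ : ℝ) (e : E) (j : ℕ) (y : E) : ℝ :=
  ‖grd f δ j y‖ - grd f δ j y e

section

variable {f : E → ℝ} {δ : ℝ}

lemma norm_av_le {F : Type*} [NormedAddCommGroup F] [NormedSpace ℝ F] {s : ℝ} (hs : 0 < s)
    (Φ : E → F) (y : E) : ‖av s Φ y‖ ≤ av s (fun z => ‖Φ z‖) y := by
  have hv := vb_pos (E := E) hs
  simp only [av]
  rw [norm_smul, smul_eq_mul, Real.norm_eq_abs, abs_of_pos (inv_pos.mpr hv)]
  exact mul_le_mul_of_nonneg_left (norm_integral_le_integral_norm _) (inv_nonneg.mpr hv.le)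

lemma Tf_nonneg (hf : ContDiff ℝ 1 f) (hc : HasCompactSupport f) (hδ : 0 < δ) (l : ℕ) (y : E) :
    0 ≤ Tf f δ l y := by
  unfold Tf
  rw [grd_succ hf hc]
  exact sub_nonneg.mpr (norm_av_le (by positivity) _ _)

lemma norm_grd_continuous (hf : ContDiff ℝ 1 f) (hc : HasCompactSupport f) (l : ℕ) :
    Continuous (fun z => ‖grd f δ l z‖) := (grd_continuous hf hc l).norm

lemma norm_grd_compact (hf : ContDiff ℝ 1 f) (hc : HasCompactSupport f) (l : ℕ) :
    HasCompactSupport (fun z => ‖grd f δ l z‖) := (grd_compact hf hc l).norm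

lemma Tf_continuous (hf : ContDiff ℝ 1 f) (hc : HasCompactSupport f) (l : ℕ) :
    Continuous (Tf f δ l) :=
  (continuous_av (norm_grd_continuous hf hc l) (norm_grd_compact hf hc l) _).sub
    (norm_grd_continuous hf hc (l + 1))

lemma Tf_compact (hf : ContDiff ℝ 1 f) (hc : HasCompactSupport f) (l : ℕ) :
    HasCompactSupport (Tf f δ l) :=
  (hasCompactSupport_av (norm_grd_compact hf hc l)).sub (norm_grd_compact hf hc (l + 1))

lemma Tf_integrable (hf : ContDiff ℝ 1 f) (hc : HasCompactSupport f) (l : ℕ) :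
    Integrable (Tf f δ l) :=
  (Tf_continuous hf hc l).integrable_of_hasCompactSupport (Tf_compact hf hc l)

lemma Psi_nonneg {e : E} (he : ‖e‖ ≤ 1) (j : ℕ)
    (y : E) : 0 ≤ Psi f δ e j y := by
  unfold Psi
  have h1 := (grd f δ j y).le_opNorm e
  have h2 := le_abs_self (grd f δ j y e)
  rw [Real.norm_eq_abs] at h1
  have h3 : ‖grd f δ j y‖ * ‖e‖ ≤ ‖grd f δ j y‖ := by
    have := norm_nonneg (grd f δ j y)
    nlinarith
  linarith

lemma Psi_continuous (hf : ContDiff ℝ 1 f) (hc : HasCompactSupport f) (e : E) (j : ℕ) :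
    Continuous (Psi f δ e j) := by
  unfold Psi
  exact (norm_grd_continuous hf hc j).sub ((grd_continuous hf hc j).clm_apply continuous_const)

lemma Psi_compact (hf : ContDiff ℝ 1 f) (hc : HasCompactSupport f) (e : E) (j : ℕ) :
    HasCompactSupport (Psi f δ e j) := by
  have h1 : HasCompactSupport (fun y => grd f δ j y e) :=
    (grd_compact hf hc j).comp_left (g := fun L : E →L[ℝ] ℝ => L e) rfl
  exact (norm_grd_compact hf hc j).sub h1

lemma Psi_integrable (hf : ContDiff ℝ 1 f) (hc : HasCompactSupport f) (e : E) (j : ℕ) :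
    Integrable (Psi f δ e j) :=
  (Psi_continuous hf hc e j).integrable_of_hasCompactSupport (Psi_compact hf hc e j)

lemma av_Psi (hf : ContDiff ℝ 1 f) (hc : HasCompactSupport f) (e : E) (l : ℕ) (y : E) :
    av (δ * 4 ^ l) (Psi f δ e l) y = Tf f δ l y + Psi f δ e (l + 1) y := by
  set s := δ * 4 ^ l with hs
  have hG : grd f δ (l + 1) y = av s (grd f δ l) y := by rw [grd_succ hf hc]
  have i1 : IntegrableOn (fun z => ‖grd f δ l z‖) (ball y s) :=
    integrableOn_ball_of_continuous (norm_grd_continuous hf hc l) y s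
  have i2 : IntegrableOn (grd f δ l) (ball y s) :=
    integrableOn_ball_of_continuous (grd_continuous hf hc l) y s
  have e1 : ∫ z in ball y s, Psi f δ e l z =
      (∫ z in ball y s, ‖grd f δ l z‖) - (∫ z in ball y s, grd f δ l z) e := by
    unfold Psi
    have i3 : IntegrableOn (fun z => grd f δ l z e) (ball y s) :=
      integrableOn_ball_of_continuous ((grd_continuous hf hc l).clm_apply continuous_const) y s
    rw [integral_sub i1 i3, ContinuousLinearMap.integral_apply i2]
  unfold Tf Psi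
  rw [hG, av, av, av, ]
  simp only [smul_apply, smul_eq_mul]
  unfold Psi at e1
  rw [e1]
  ring

lemma integral_Tf (hf : ContDiff ℝ 1 f) (hc : HasCompactSupport f) (hδ : 0 < δ) (l : ℕ) :
    ∫ y, Tf f δ l y = (∫ y, ‖grd f δ l y‖) - ∫ y, ‖grd f δ (l + 1) y‖ := by
  have i1 : Integrable (fun z => ‖grd f δ l z‖) :=
    (norm_grd_continuous hf hc l).integrable_of_hasCompactSupport (norm_grd_compact hf hc l)
  have i2 : Integrable (fun z => ‖grd f δ (l + 1) z‖) :=
    (norm_grd_continuous hf hc (l + 1)).integrable_of_hasCompactSupport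
      (norm_grd_compact hf hc (l + 1))
  have i3 : Integrable (av (δ * 4 ^ l) (fun z => ‖grd f δ l z‖)) :=
    (continuous_av (norm_grd_continuous hf hc l) (norm_grd_compact hf hc l) _).integrable_of_hasCompactSupport
      (hasCompactSupport_av (norm_grd_compact hf hc l))
  unfold Tf
  rw [integral_sub i3 i2, integral_av i1 (by positivity)]

lemma sum_integral_Tf_le (hf : ContDiff ℝ 1 f) (hc : HasCompactSupport f) (hδ : 0 < δ) (L : ℕ) :
    ∑ l ∈ Finset.range L, ∫ y, Tf f δ l y ≤ ∫ y, ‖fderiv ℝ f y‖ := by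
  simp_rw [integral_Tf hf hc hδ]
  rw [Finset.sum_range_sub']
  have h0 : 0 ≤ ∫ y, ‖grd f δ L y‖ := integral_nonneg (fun y => norm_nonneg _)
  have e0 : grd f δ 0 = fderiv ℝ f := rfl
  rw [e0] at *
  linarith

lemma mass_Psi_step (hf : ContDiff ℝ 1 f) (hc : HasCompactSupport f) (hδ : 0 < δ) {e : E}
    (he : ‖e‖ ≤ 1) (l : ℕ) (z : E) (R : ℝ) :
    ∫ y in ball z R, Psi f δ e l y ≤
      (∫ y in ball z (R + δ * 4 ^ l), Tf f δ l y) +
        ∫ y in ball z (R + δ * 4 ^ l), Psi f δ e (l + 1) y := by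
  have h1 := mass_le_mass_av (Psi_continuous (δ := δ) hf hc e l) (Psi_compact hf hc e l)
    (Psi_nonneg he l) z R (s := δ * 4 ^ l) (by positivity)
  rw [← integral_add (integrableOn_ball_of_continuous (Tf_continuous hf hc l) _ _)
    (integrableOn_ball_of_continuous (Psi_continuous hf hc e (l + 1)) _ _)]
  refine h1.trans (le_of_eq ?_)
  congr 1
  ext y
  exact av_Psi hf hc e l y

lemma mass_mono {Φ : E → ℝ} (hΦ : Continuous Φ) (hΦ0 : ∀ y, 0 ≤ Φ y) (z : E) {R S : ℝ}
    (hRS : R ≤ S) : ∫ y in ball z R, Φ y ≤ ∫ y in ball z S, Φ y :=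
  setIntegral_mono_set (integrableOn_ball_of_continuous hΦ z S)
    (Eventually.of_forall hΦ0) (ball_subset_ball hRS).eventuallyLE

lemma mass_subset {Φ : E → ℝ} (hΦ : Continuous Φ) (hΦ0 : ∀ y, 0 ≤ Φ y) {z w : E} {R S : ℝ}
    (h : ball z R ⊆ ball w S) : ∫ y in ball z R, Φ y ≤ ∫ y in ball w S, Φ y :=
  setIntegral_mono_set (integrableOn_ball_of_continuous hΦ w S)
    (Eventually.of_forall hΦ0) h.eventuallyLE

/-- chain of directional defects -/
lemma mass_Psi_chain (hf : ContDiff ℝ 1 f) (hc : HasCompactSupport f) (hδ : 0 < δ) {e : E}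
    (he : ‖e‖ ≤ 1) (z : E) (j L : ℕ) (hjL : j ≤ L) :
    ∀ R S : ℝ, R + ∑ l ∈ Finset.Ico j L, δ * 4 ^ l ≤ S →
    ∫ y in ball z R, Psi f δ e j y ≤
      (∑ l ∈ Finset.Ico j L, ∫ y in ball z S, Tf f δ l y) + ∫ y in ball z S, Psi f δ e L y := by
  induction L, hjL using Nat.le_induction with
  | base =>
    intro R S h
    simp only [Finset.Ico_self, Finset.sum_empty, add_zero, zero_add] at h ⊢
    exact mass_mono (Psi_continuous hf hc e j) (Psi_nonneg he j) z h
  | succ L hL ih =>
    intro R S h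
    rw [Finset.sum_Ico_succ_top hL] at h ⊢
    have h1 := ih R (S - δ * 4 ^ L) (by linarith)
    have h2 := mass_Psi_step hf hc hδ he L z (S - δ * 4 ^ L)
    rw [sub_add_cancel] at h2
    have h3 : ∑ l ∈ Finset.Ico j L, ∫ y in ball z (S - δ * 4 ^ L), Tf f δ l y ≤
        ∑ l ∈ Finset.Ico j L, ∫ y in ball z S, Tf f δ l y := by
      apply Finset.sum_le_sum
      intro l _
      have hp : 0 < δ * 4 ^ L := by positivity
      exact mass_mono (Tf_continuous hf hc l) (Tf_nonneg hf hc hδ l) z (by linarith)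
    linarith

lemma sum_scales_le (hδ : 0 < δ) (j L : ℕ) :
    ∑ l ∈ Finset.Ico j L, δ * 4 ^ l ≤ (δ * 4 ^ L) / 3 := by
  induction L with
  | zero => simp; positivity
  | succ L ih =>
    by_cases h : j ≤ L
    · rw [Finset.sum_Ico_succ_top h, pow_succ]
      linarith
    · have : Finset.Ico j (L + 1) = ∅ := by
        apply Finset.Ico_eq_empty
        omega
      rw [this]
      simp
      positivity

/-- top of the chain -/
lemma mass_Psi_top (hf : ContDiff ℝ 1 f) (hc : HasCompactSupport f) (hδ : 0 < δ) (e z : E) (L : ℕ)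
    (htop : grd f δ (L + 1) z e = ‖grd f δ (L + 1) z‖) :
    ∫ y in ball z (δ * 4 ^ L), Psi f δ e L y = vb E (δ * 4 ^ L) * Tf f δ L z := by
  have h1 := av_Psi (δ := δ) hf hc e L z
  have h2 : Psi f δ e (L + 1) z = 0 := by
    unfold Psi
    rw [htop, sub_self]
  rw [h2, add_zero] at h1
  have hv := vb_pos (E := E) (s := δ * 4 ^ L) (by positivity)
  rw [← h1, av, smul_eq_mul]
  field_simp

lemma exists_unit_norming [Nontrivial E] (L : E →L[ℝ] ℝ) : ∃ e : E, ‖e‖ = 1 ∧ L e = ‖L‖ := by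
  obtain ⟨w, hw⟩ := exists_ne (0 : E)
  by_cases hL : L = 0
  · refine ⟨(‖w‖⁻¹ : ℝ) • w, ?_, ?_⟩
    · rw [norm_smul, norm_inv, norm_norm]
      exact inv_mul_cancel₀ (norm_ne_zero_iff.mpr hw)
    · simp [hL]
  · set a := (InnerProductSpace.toDual ℝ E).symm L with ha
    have hna : ‖a‖ = ‖L‖ := by
      rw [ha]; simp
    have ha0 : a ≠ 0 := by
      intro h
      apply hL
      have : L = InnerProductSpace.toDual ℝ E a := by rw [ha]; simp
      rw [this, h]; simp
    have hna0 : ‖a‖ ≠ 0 := norm_ne_zero_iff.mpr ha0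
    refine ⟨(‖a‖⁻¹ : ℝ) • a, ?_, ?_⟩
    · rw [norm_smul, norm_inv, norm_norm]
      exact inv_mul_cancel₀ hna0
    · have h1 : L a = ‖a‖ ^ 2 := by
        have : L a = inner ℝ a a := by
          have h2 : L = InnerProductSpace.toDual ℝ E a := by rw [ha]; simp
          conv_lhs => rw [h2]
          simp
        rw [this, real_inner_self_eq_norm_sq]
      rw [map_smul, h1, ← hna, smul_eq_mul]
      field_simp

end

end Vale.Agent.Lib.P137
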