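import Mathlib

namespace Vale.Agent.Lib.P137

open MeasureTheory Set Filter Topology
open scoped ENNReal

/-- maps null sets to null sets -/
def LusinN (F : ℝ → ℝ) : Prop := ∀ S : Set ℝ, volume S = 0 → volume (F '' S) = 0

/-- the image of an open set under a function dominated by an integral -/
lemma volume_image_open_le {F : ℝ → ℝ} {Ψ : ℝ → ℝ≥0∞}
    (h : ∀ a b, a ≤ b → ENNReal.ofReal |F b - F a| ≤ ∫⁻ t in Ioc a b, Ψ t)
    {O : Set ℝ} (hO : IsOpen O) : volume (F '' O) ≤ ∫⁻ t in O, Ψ t := by
  classical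
  -- the connected components
  let C : ℝ → Set ℝ := fun x => connectedComponentIn O x
  have hCo : ∀ x, IsOpen (C x) := fun x => hO.connectedComponentIn
  have hCs : ∀ x, C x ⊆ O := fun x => connectedComponentIn_subset O x
  have hCc : ∀ x, IsPreconnected (C x) := fun x => isPreconnected_connectedComponentIn
  have hself : ∀ x ∈ O, x ∈ C x := fun x hx => mem_connectedComponentIn hx
  let 𝒞 : Set (Set ℝ) := C '' O
  have hdisj : 𝒞.PairwiseDisjoint id := by
    rintro _ ⟨x, hx, rfl⟩ _ ⟨y, hy, rfl⟩ hne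
    by_contra hnd
    apply hne
    have hnd' : ¬ Disjoint (C x) (C y) := hnd
    obtain ⟨z, hz1, hz2⟩ := not_disjoint_iff.mp hnd'
    have e1 : C x = connectedComponentIn O z := connectedComponentIn_eq hz1
    have e2 : C y = connectedComponentIn O z := connectedComponentIn_eq hz2
    change C x = C y
    rw [e1, e2]
  have hcount : 𝒞.Countable := by
    apply Set.PairwiseDisjoint.countable_of_isOpen hdisj
    · rintro _ ⟨x, _, rfl⟩
      exact hCo x
    · rintro _ ⟨x, hx, rfl⟩
      exact ⟨x, hself x hx⟩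
  have hcover : O = ⋃ s ∈ 𝒞, s := by
    ext x
    simp only [mem_iUnion, exists_prop]
    constructor
    · intro hx
      exact ⟨C x, ⟨x, hx, rfl⟩, hself x hx⟩
    · rintro ⟨_, ⟨y, _, rfl⟩, hxy⟩
      exact hCs y hxy
  have hpiece : ∀ s ∈ 𝒞, volume (F '' s) ≤ ∫⁻ t in s, Ψ t := by
    rintro _ ⟨y, _, rfl⟩
    refine (Real.volume_le_diam _).trans ?_
    apply Metric.ediam_le
    rintro _ ⟨a, ha, rfl⟩ _ ⟨b, hb, rfl⟩
    have hord : ∀ a b, a ∈ C y → b ∈ C y → a ≤ b →
        edist (F a) (F b) ≤ ∫⁻ t in C y, Ψ t := by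
      intro a b ha hb hab
      rw [edist_comm, edist_dist, Real.dist_eq]
      refine (h a b hab).trans ?_
      apply lintegral_mono_set
      have hsub : Icc a b ⊆ C y := (hCc y).Icc_subset ha hb
      exact Ioc_subset_Icc_self.trans hsub
    rcases le_total a b with hab | hab
    · exact hord a b ha hb hab
    · rw [edist_comm]; exact hord b a hb ha hab
  calc volume (F '' O) = volume (⋃ s ∈ 𝒞, F '' s) := by
        rw [hcover, image_iUnion₂]
    _ ≤ ∑' s : 𝒞, volume (F '' s.1) := measure_biUnion_le _ hcount _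
    _ ≤ ∑' s : 𝒞, ∫⁻ t in s.1, Ψ t := ENNReal.tsum_le_tsum (fun s => hpiece s.1 s.2)
    _ = ∫⁻ t in ⋃ s ∈ 𝒞, s, Ψ t := by
        rw [lintegral_biUnion hcount]
        · rintro _ ⟨x, _, rfl⟩
          exact (hCo x).measurableSet
        · exact hdisj
    _ = ∫⁻ t in O, Ψ t := by rw [← hcover]

/-- a function dominated by an integral maps null sets to null sets -/
lemma lusin_of_dominated {F : ℝ → ℝ} {Ψ : ℝ → ℝ≥0∞} (hfin : ∫⁻ t, Ψ t ≠ ⊤)
    (h : ∀ a b, a ≤ b → ENNReal.ofReal |F b - F a| ≤ ∫⁻ t in Ioc a b, Ψ t) : LusinN F := by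
  intro S hS
  apply le_antisymm _ zero_le
  apply ENNReal.le_of_forall_pos_le_add
  intro ε hε _
  obtain ⟨δ, hδ, hδ2⟩ := exists_pos_setLIntegral_lt_of_measure_lt hfin
    (ε := (ε : ℝ≥0∞)) (by exact_mod_cast hε.ne')
  have hSδ : volume S < δ := by rw [hS]; exact_mod_cast hδ
  obtain ⟨O, hSO, hOo, hOδ⟩ := S.exists_isOpen_lt_of_lt δ hSδ
  calc volume (F '' S) ≤ volume (F '' O) := measure_mono (image_mono hSO)
    _ ≤ ∫⁻ t in O, Ψ t := volume_image_open_le h hOo
    _ ≤ ε := (hδ2 O hOδ).le
    _ = 0 + ε := by simp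

/-- the main one dimensional estimate -/
lemma abs_sub_le_of_lusin {U : ℝ → ℝ} (hc : Continuous U)
    (hbv : LocallyBoundedVariationOn U univ) (hN : LusinN U) {c d : ℝ} (hcd : c ≤ d) :
    ENNReal.ofReal |U d - U c| ≤ ∫⁻ t in Icc c d, ENNReal.ofReal |deriv U t| := by
  have hdiff := hbv.ae_differentiableAt
  let D : Set ℝ := {t | DifferentiableAt ℝ U t}
  have hDm : MeasurableSet D := measurableSet_of_differentiableAt ℝ U
  have hDc : volume Dᶜ = 0 := by
    have : ∀ᵐ t, t ∈ D := hdiff
    exact this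
  let S : Set ℝ := Icc c d ∩ D
  have hSm : MeasurableSet S := measurableSet_Icc.inter hDm
  have h1 : volume (U '' S) ≤ ∫⁻ t in S, ENNReal.ofReal |deriv U t| := by
    have := addHaar_image_le_lintegral_abs_det_fderiv (volume : Measure ℝ) hSm (f := U)
      (f' := fun t => ContinuousLinearMap.toSpanSingleton ℝ (deriv U t)) ?_
    · simpa only [ContinuousLinearMap.det_toSpanSingleton] using this
    · intro t ht
      have ht2 : DifferentiableAt ℝ U t := ht.2
      exact ht2.hasDerivAt.hasFDerivAt.hasFDerivWithinAt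
  have h2 : volume (U '' (Icc c d \ D)) = 0 := by
    apply hN
    exact measure_mono_null (fun t ht => ht.2) hDc
  have h3 : uIcc (U c) (U d) ⊆ U '' Icc c d := by
    have := intermediate_value_uIcc (a := c) (b := d) (f := U) hc.continuousOn
    rwa [uIcc_of_le hcd] at this
  calc ENNReal.ofReal |U d - U c| = volume (uIcc (U c) (U d)) := by
        rw [Real.volume_interval]
    _ ≤ volume (U '' Icc c d) := measure_mono h3
    _ ≤ volume (U '' S ∪ U '' (Icc c d \ D)) := by
        apply measure_mono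
        rw [← image_union]
        apply image_mono
        intro t ht
        by_cases hD : t ∈ D
        · exact Or.inl ⟨ht, hD⟩
        · exact Or.inr ⟨ht, hD⟩
    _ ≤ volume (U '' S) + volume (U '' (Icc c d \ D)) := measure_union_le _ _
    _ = volume (U '' S) := by rw [h2, add_zero]
    _ ≤ ∫⁻ t in S, ENNReal.ofReal |deriv U t| := h1
    _ ≤ ∫⁻ t in Icc c d, ENNReal.ofReal |deriv U t| :=
        lintegral_mono_set inter_subset_left

/-- continuity, bounded variation and the Lusin property give absolute continuity -/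
theorem ac_of_lusin {U : ℝ → ℝ} (hc : Continuous U)
    (hbv : LocallyBoundedVariationOn U univ) (hN : LusinN U) (a b : ℝ) :
    AbsolutelyContinuousOnInterval U a b := by
  have hbv2 : BoundedVariationOn U (uIcc a b) := by
    have := hbv (min a b) (max a b) (mem_univ _) (mem_univ _)
    rwa [univ_inter] at this
  have hint : IntervalIntegrable (deriv U) volume a b := hbv2.intervalIntegrable_deriv
  have hint2 : IntervalIntegrable (fun t => |deriv U t|) volume a b := hint.abs
  have hP := hint2.absolutelyContinuousOnInterval_intervalIntegral (c := a) (by simp)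
  rw [absolutelyContinuousOnInterval_iff] at hP ⊢
  intro ε hε
  obtain ⟨δ, hδ, hδ2⟩ := hP ε hε
  refine ⟨δ, hδ, fun E hE hsum => ?_⟩
  refine lt_of_le_of_lt (Finset.sum_le_sum ?_) (hδ2 E hE hsum)
  intro i hi
  obtain ⟨h1, h2⟩ := hE.1 i hi
  rw [Real.dist_eq, Real.dist_eq]
  -- it suffices to treat ordered points
  have hord : ∀ c d : ℝ, c ∈ uIcc a b → d ∈ uIcc a b → c ≤ d →
      |U c - U d| ≤ |(∫ v in a..c, |deriv U v|) - (∫ v in a..d, |deriv U v|)| := by
    intro c d hc' hd' hcd
    have hii : IntervalIntegrable (fun t => |deriv U t|) volume c d :=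
      hint2.mono_set (uIcc_subset_uIcc hc' hd')
    have hi1 : IntervalIntegrable (fun t => |deriv U t|) volume a c :=
      hint2.mono_set (uIcc_subset_uIcc left_mem_uIcc hc')
    have e : (∫ v in a..d, |deriv U v|) - ∫ v in a..c, |deriv U v| = ∫ v in c..d, |deriv U v| := by
      rw [intervalIntegral.integral_interval_sub_left]
      · exact hi1.trans hii
      · exact hi1
    rw [abs_sub_comm ((∫ v in a..c, |deriv U v|)), e, abs_sub_comm]
    have h3 := abs_sub_le_of_lusin hc hbv hN hcd
    rw [intervalIntegral.integral_of_le hcd]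
    have hI : IntegrableOn (fun t => |deriv U t|) (Ioc c d) := by
      have := hii.1
      simpa [hcd] using this
    have h4 : ∫⁻ t in Icc c d, ENNReal.ofReal |deriv U t| = ENNReal.ofReal (∫ t in Ioc c d, |deriv U t|) := by
      rw [ofReal_integral_eq_lintegral_ofReal hI (Eventually.of_forall fun t => abs_nonneg _)]
      rw [lintegral_congr_ae (g := _) (by rfl)]
      exact setLIntegral_congr Ioc_ae_eq_Icc.symm
    rw [h4] at h3
    have h5 : 0 ≤ ∫ t in Ioc c d, |deriv U t| := integral_nonneg (fun t => abs_nonneg _)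
    rw [abs_of_nonneg h5]
    exact (ENNReal.ofReal_le_ofReal_iff h5).mp h3
  rcases le_total (E.2 i).1 (E.2 i).2 with hle | hle
  · exact hord _ _ h1 h2 hle
  · rw [abs_sub_comm (U (E.2 i).1), abs_sub_comm (∫ v in a..(E.2 i).1, |deriv U v|)]
    exact hord _ _ h2 h1 hle

end Vale.Agent.Lib.P137
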