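import Vale.Agent.Lib.P137.Line1

namespace Vale.Agent.Lib.P137

open MeasureTheory Set Filter Topology
open scoped ENNReal

/-- variation of a function with continuous derivative -/
lemma eVariationOn_le_of_deriv {W W' : ℝ → ℝ} (hW : ∀ t, HasDerivAt W (W' t) t)
    (hW' : Continuous W') {a b : ℝ} (hab : a ≤ b) :
    eVariationOn W (Icc a b) ≤ ∫⁻ t in Icc a b, ENNReal.ofReal |W' t| := by
  have hA : Continuous (fun t => |W' t|) := hW'.abs
  let V : ℝ → ℝ := fun t => ∫ s in a..t, |W' s|
  have hV : ∀ c d, V d - V c = ∫ s in c..d, |W' s| := fun c d =>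
    intervalIntegral.integral_interval_sub_left (hA.intervalIntegrable _ _) (hA.intervalIntegrable _ _)
  have hstep : ∀ c d, c ≤ d → edist (W d) (W c) ≤ ENNReal.ofReal (V d - V c) := by
    intro c d hcd
    rw [edist_dist, Real.dist_eq]
    apply ENNReal.ofReal_le_ofReal
    have h1 : W d - W c = ∫ s in c..d, W' s :=
      (intervalIntegral.integral_eq_sub_of_hasDerivAt (fun t _ => hW t)
        (hW'.intervalIntegrable _ _)).symm
    rw [h1, hV]
    exact intervalIntegral.abs_integral_le_integral_abs hcd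
  have hmono : ∀ c d, c ≤ d → V c ≤ V d := by
    intro c d hcd
    have := hV c d
    have h2 : 0 ≤ ∫ s in c..d, |W' s| :=
      intervalIntegral.integral_nonneg hcd (fun t _ => abs_nonneg _)
    linarith
  have hfin : ENNReal.ofReal (V b - V a) = ∫⁻ t in Icc a b, ENNReal.ofReal |W' t| := by
    rw [hV, intervalIntegral.integral_of_le hab, ← integral_Icc_eq_integral_Ioc,
      ofReal_integral_eq_lintegral_ofReal]
    · exact hA.continuousOn.integrableOn_compact isCompact_Icc
    · exact Eventually.of_forall (fun t => abs_nonneg _)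
  rw [← hfin]
  unfold eVariationOn
  apply iSup_le
  rintro ⟨n, u, hu, hus⟩
  simp only
  calc ∑ i ∈ Finset.range n, edist (W (u (i + 1))) (W (u i))
      ≤ ∑ i ∈ Finset.range n, ENNReal.ofReal (V (u (i + 1)) - V (u i)) :=
        Finset.sum_le_sum (fun i _ => hstep _ _ (hu (Nat.le_succ i)))
    _ = ENNReal.ofReal (∑ i ∈ Finset.range n, (V (u (i + 1)) - V (u i))) := by
        rw [ENNReal.ofReal_sum_of_nonneg]
        intro i _
        exact sub_nonneg.mpr (hmono _ _ (hu (Nat.le_succ i)))
    _ = ENNReal.ofReal (V (u n) - V (u 0)) := by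
        rw [Finset.sum_range_sub (fun i => V (u i))]
    _ ≤ ENNReal.ofReal (V b - V a) := by
        apply ENNReal.ofReal_le_ofReal
        have h1 := hmono _ _ (hus n).2
        have h2 := hmono _ _ (hus 0).1
        linarith

/-- variation bound from difference quotients, for a continuous function -/
lemma eVariationOn_le_of_quot {U : ℝ → ℝ} (hU : Continuous U) {s : ℕ → ℝ} (hs : ∀ n, 0 < s n)
    (hs0 : Tendsto s atTop (𝓝 0)) {a b : ℝ} (hab : a ≤ b) {L : ℝ≥0∞}
    (hL : ∃ᶠ n in atTop, ENNReal.ofReal (s n)⁻¹ *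
      ∫⁻ t in Icc a b, ENNReal.ofReal |U (t + s n) - U t| ≤ L) :
    eVariationOn U (Icc a b) ≤ L := by
  by_contra hcon
  push Not at hcon
  let P : ℝ → ℝ := fun t => ∫ τ in (0 : ℝ)..t, U τ
  have hP : ∀ t, HasDerivAt P (U t) t := fun t =>
    intervalIntegral.integral_hasDerivAt_right (hU.intervalIntegrable _ _)
      (hU.stronglyMeasurableAtFilter _ _) hU.continuousAt
  let W : ℕ → ℝ → ℝ := fun n t => (s n)⁻¹ * (P (t + s n) - P t)
  have hlim : ∀ t ∈ Icc a b, Tendsto (fun n => W n t) atTop (𝓝 (U t)) := by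
    intro t _
    have h1 := hasDerivAt_iff_tendsto_slope_zero.mp (hP t)
    have h2 : Tendsto s atTop (𝓝[≠] 0) :=
      tendsto_nhdsWithin_iff.mpr ⟨hs0, Eventually.of_forall (fun n => (hs n).ne')⟩
    exact h1.comp h2
  have hev := eVariationOn.lowerSemicontinuous_aux hlim hcon
  obtain ⟨n, hn1, hn2⟩ := (hL.and_eventually hev).exists
  have hsn := hs n
  have hW : ∀ t, HasDerivAt (W n) ((s n)⁻¹ * (U (t + s n) - U t)) t := by
    intro t
    have h1 : HasDerivAt (fun t => P (t + s n)) (U (t + s n)) t := by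
      have := (hP (t + s n)).comp_add_const t (s n)
      simpa using this
    exact (h1.sub (hP t)).const_mul _
  have hW' : Continuous (fun t => (s n)⁻¹ * (U (t + s n) - U t)) := by fun_prop
  have h3 := eVariationOn_le_of_deriv hW hW' hab
  have h4 : ∫⁻ t in Icc a b, ENNReal.ofReal |(s n)⁻¹ * (U (t + s n) - U t)| =
      ENNReal.ofReal (s n)⁻¹ * ∫⁻ t in Icc a b, ENNReal.ofReal |U (t + s n) - U t| := by
    rw [← lintegral_const_mul' _ _ ENNReal.ofReal_ne_top]
    apply lintegral_congr
    intro t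
    rw [abs_mul, abs_of_pos (inv_pos.mpr hsn), ENNReal.ofReal_mul (inv_pos.mpr hsn).le]
  rw [h4] at h3
  exact absurd (hn2.trans_le (h3.trans hn1)) (lt_irrefl _)

end Vale.Agent.Lib.P137
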