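import Vale.Agent.Lib.P137.Line2

namespace Vale.Agent.Lib.P137

open MeasureTheory Metric Set Filter Topology
open scoped ENNReal

set_option linter.unusedSectionVars false

variable {E : Type*} [NormedAddCommGroup E] [InnerProductSpace ℝ E] [FiniteDimensional ℝ E]
  [MeasurableSpace E] [BorelSpace E]

/-- integral along a line -/
noncomputable def lineInt (Ψ : E → ℝ≥0∞) (e x : E) : ℝ≥0∞ := ∫⁻ t : ℝ, Ψ (x + t • e)

lemma measurable_line (e : E) : Measurable (fun p : E × ℝ => p.1 + p.2 • e) := by fun_prop

lemma measurable_lineInt {Ψ : E → ℝ≥0∞} (hΨ : Measurable Ψ) (e : E) : Measurable (lineInt Ψ e) :=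
  (hΨ.comp (measurable_line e)).lintegral_prod_right'

lemma lineInt_translate (Ψ : E → ℝ≥0∞) (e x : E) (τ : ℝ) : lineInt Ψ e (x + τ • e) = lineInt Ψ e x := by
  unfold lineInt
  have : ∀ t : ℝ, x + τ • e + t • e = x + (τ + t) • e := fun t => by rw [add_smul, add_assoc]
  simp_rw [this]
  exact lintegral_add_left_eq_self (fun t => Ψ (x + t • e)) τ

/-- the time a line spends in a ball -/
lemma volume_line_ball_le {e : E} (he : ‖e‖ = 1) (y : E) (R : ℝ) :
    volume {t : ℝ | y - t • e ∈ ball (0 : E) R} ≤ ENNReal.ofReal (2 * R) := by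
  refine (Real.volume_le_diam _).trans ?_
  apply Metric.ediam_le
  intro a ha b hb
  simp only [mem_ofPred_eq, mem_ball_zero_iff] at ha hb
  rw [edist_dist, Real.dist_eq]
  apply ENNReal.ofReal_le_ofReal
  have h1 : (a - b) • e = (y - b • e) - (y - a • e) := by
    rw [sub_smul]; abel
  have h2 : ‖(a - b) • e‖ = |a - b| := by
    rw [norm_smul, he, mul_one, Real.norm_eq_abs]
  rw [← h2, h1]
  have := norm_sub_le (y - b • e) (y - a • e)
  linarith

/-- Tonelli for lines -/
lemma lintegral_ball_lineInt_le {Ψ : E → ℝ≥0∞} (hΨ : Measurable Ψ) {e : E} (he : ‖e‖ = 1) (R : ℝ) :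
    ∫⁻ x in ball (0 : E) R, lineInt Ψ e x ≤ ENNReal.ofReal (2 * R) * ∫⁻ y, Ψ y := by
  let I : E → ℝ≥0∞ := (ball (0 : E) R).indicator (fun _ => (1 : ℝ≥0∞))
  have hI : Measurable I := measurable_const.indicator measurableSet_ball
  have hm : Measurable (fun p : E × ℝ => I p.1 * Ψ (p.1 + p.2 • e)) :=
    (hI.comp measurable_fst).mul (hΨ.comp (measurable_line e))
  have hm2 : Measurable (fun p : ℝ × E => I (p.2 - p.1 • e) * Ψ p.2) := by
    apply Measurable.mul _ (hΨ.comp measurable_snd)
    apply hI.comp
    fun_prop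
  calc ∫⁻ x in ball (0 : E) R, lineInt Ψ e x
      = ∫⁻ x, ∫⁻ t : ℝ, I x * Ψ (x + t • e) := by
        rw [← lintegral_indicator measurableSet_ball]
        apply lintegral_congr
        intro x
        by_cases hx : x ∈ ball (0 : E) R
        · simp [hx, lineInt, I]
        · simp [hx, I]
    _ = ∫⁻ t : ℝ, ∫⁻ x, I x * Ψ (x + t • e) :=
        lintegral_lintegral_swap (f := fun x t => I x * Ψ (x + t • e)) hm.aemeasurable
    _ = ∫⁻ t : ℝ, ∫⁻ y, I (y - t • e) * Ψ y := by
        apply lintegral_congr
        intro t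
        have := lintegral_add_right_eq_self (μ := (volume : Measure E))
          (fun y => I (y - t • e) * Ψ y) (t • e)
        simpa using this
    _ = ∫⁻ y, ∫⁻ t : ℝ, I (y - t • e) * Ψ y :=
        lintegral_lintegral_swap (f := fun t y => I (y - t • e) * Ψ y) hm2.aemeasurable
    _ ≤ ∫⁻ y, ENNReal.ofReal (2 * R) * Ψ y := by
        apply lintegral_mono
        intro y
        have hmt : Measurable (fun t : ℝ => I (y - t • e)) := by
          apply hI.comp
          fun_prop
        change ∫⁻ t : ℝ, I (y - t • e) * Ψ y ≤ ENNReal.ofReal (2 * R) * Ψ y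
        rw [lintegral_mul_const _ hmt]
        apply mul_le_mul_left
        have e1 : (fun t : ℝ => I (y - t • e)) =
            {t : ℝ | y - t • e ∈ ball (0 : E) R}.indicator (fun _ => (1 : ℝ≥0∞)) := by
          ext t
          have hmem : t ∈ {t : ℝ | y - t • e ∈ ball (0 : E) R} ↔ y - t • e ∈ ball (0 : E) R := Iff.rfl
          by_cases ht : y - t • e ∈ ball (0 : E) R
          · rw [indicator_of_mem (hmem.mpr ht)]
            simp only [I]
            rw [indicator_of_mem ht]
          · rw [indicator_of_notMem (fun h => ht (hmem.mp h))]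
            simp only [I]
            rw [indicator_of_notMem ht]
        have hms : MeasurableSet {t : ℝ | y - t • e ∈ ball (0 : E) R} :=
          measurableSet_ball.preimage (by fun_prop)
        rw [e1, lintegral_indicator hms, setLIntegral_const, one_mul]
        exact volume_line_ball_le he y R
    _ = _ := lintegral_const_mul _ hΨ

/-- Tonelli on a bounded piece of the line -/
lemma lintegral_set_Icc_le {Ψ : E → ℝ≥0∞} (hΨ : Measurable Ψ) (e : E) (a b : ℝ) (S : Set E) :
    ∫⁻ x in S, ∫⁻ t in Icc a b, Ψ (x + t • e) ≤ ENNReal.ofReal (b - a) * ∫⁻ y, Ψ y := by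
  have hm : Measurable (fun p : E × ℝ => Ψ (p.1 + p.2 • e)) := hΨ.comp (measurable_line e)
  calc ∫⁻ x in S, ∫⁻ t in Icc a b, Ψ (x + t • e)
      = ∫⁻ t in Icc a b, ∫⁻ x in S, Ψ (x + t • e) :=
        lintegral_lintegral_swap (f := fun x t => Ψ (x + t • e)) hm.aemeasurable
    _ ≤ ∫⁻ t in Icc a b, ∫⁻ x, Ψ (x + t • e) := by
        apply lintegral_mono
        intro t
        exact setLIntegral_le_lintegral _ _
    _ = ∫⁻ t in Icc a b, ∫⁻ y, Ψ y := by
        apply lintegral_congr
        intro t
        exact lintegral_add_right_eq_self Ψ (t • e)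
    _ = _ := by
        rw [setLIntegral_const, Real.volume_Icc, mul_comm]

/-- a null set is missed by almost every line, at almost every time -/
lemma ae_line_of_null {N : Set E} (hN : volume N = 0) (e : E) :
    ∀ᵐ x : E, ∀ᵐ t : ℝ, x + t • e ∉ N := by
  let N' := toMeasurable volume N
  have hN'm : MeasurableSet N' := measurableSet_toMeasurable _ _
  have hN'0 : volume N' = 0 := by rw [measure_toMeasurable]; exact hN
  let H : E → ℝ≥0∞ := N'.indicator (fun _ => (1 : ℝ≥0∞))
  have hH : Measurable H := measurable_const.indicator hN'm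
  have hm : Measurable (fun p : E × ℝ => H (p.1 + p.2 • e)) := hH.comp (measurable_line e)
  have h0 : ∫⁻ x, ∫⁻ t : ℝ, H (x + t • e) = 0 := by
    rw [lintegral_lintegral_swap (f := fun x t => H (x + t • e)) hm.aemeasurable]
    have : ∀ t : ℝ, ∫⁻ x, H (x + t • e) = 0 := by
      intro t
      rw [lintegral_add_right_eq_self H (t • e), lintegral_indicator hN'm, setLIntegral_const, hN'0]
      simp
    simp [this]
  have h1 := (lintegral_eq_zero_iff (measurable_lineInt hH e)).mp h0
  filter_upwards [h1] with x hx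
  have h2 : ∫⁻ t : ℝ, H (x + t • e) = 0 := hx
  have h3 := (lintegral_eq_zero_iff (hH.comp ((measurable_line e).comp (measurable_prodMk_left (x := x))))).mp h2
  filter_upwards [h3] with t ht hxt
  have hmem : x + t • e ∈ N' := subset_toMeasurable _ _ hxt
  have : H (x + t • e) = 1 := by simp [H, hmem]
  have h4 : H (x + t • e) = 0 := ht
  rw [this] at h4
  exact one_ne_zero h4

/-- a measurable set missed by almost every line is null -/
lemma null_of_ae_line {N : Set E} (hN : MeasurableSet N) (e : E)
    (h : ∀ᵐ x : E, ∀ᵐ t : ℝ, x + t • e ∉ N) : volume N = 0 := by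
  let H : E → ℝ≥0∞ := N.indicator (fun _ => (1 : ℝ≥0∞))
  have hH : Measurable H := measurable_const.indicator hN
  have hm : Measurable (fun p : E × ℝ => H (p.1 + p.2 • e)) := hH.comp (measurable_line e)
  have h0 : ∫⁻ x, ∫⁻ t : ℝ, H (x + t • e) = 0 := by
    have e0 := (lintegral_eq_zero_iff (μ := (volume : Measure E)) (measurable_lineInt hH e))
    apply e0.mpr
    filter_upwards [h] with x hx
    have : ∫⁻ t : ℝ, H (x + t • e) = 0 := by
      apply (lintegral_eq_zero_iff (hH.comp ((measurable_line e).comp (measurable_prodMk_left (x := x))))).mpr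
      filter_upwards [hx] with t ht
      simp [H, ht]
    exact this
  rw [lintegral_lintegral_swap (f := fun x t => H (x + t • e)) hm.aemeasurable] at h0
  have h1 : ∀ t : ℝ, ∫⁻ x, H (x + t • e) = volume N := by
    intro t
    rw [lintegral_add_right_eq_self H (t • e), lintegral_indicator hN, setLIntegral_const, one_mul]
  simp only [h1, lintegral_const] at h0
  have h2 : volume (univ : Set ℝ) = ⊤ := Real.volume_univ
  rw [h2] at h0
  by_contra hne
  rw [ENNReal.mul_top hne] at h0
  exact ENNReal.top_ne_zero h0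

end Vale.Agent.Lib.P137
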