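import Vale.Agent.Lib.P137.Moll3

namespace Vale.Agent.Lib.P137

open MeasureTheory Metric Set Filter Topology
open scoped ENNReal ContDiff

set_option linter.unusedSectionVars false

variable {E : Type*} [NormedAddCommGroup E] [InnerProductSpace ℝ E] [FiniteDimensional ℝ E]
  [MeasurableSpace E] [BorelSpace E]

section

variable {f : E → ℝ} {G : E → E}

/-- the main theorem for a general Euclidean space -/
theorem sobolev_generic [Nontrivial E] (hf : Integrable f) (hG : Integrable G) (hW : IsWeakGradient f G) :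
    (∀ᵐ x : E, BddAbove (range (fun p : {p : E × ℝ // 0 < p.2 ∧ x ∈ ball p.1 p.2} =>
      ballAv (fun y => |f y|) p.1.1 p.1.2))) ∧
    LocallyIntegrable (Mtil (fun y => |f y|)) ∧
    ∃ H : E → E, Integrable H ∧ IsWeakGradient (Mtil (fun y => |f y|)) H ∧
      ∫ x, ‖H x‖ ≤ (Module.finrank ℝ E * (4 * Module.finrank ℝ E * K5 E)) * ∫ x, ‖G x‖ := by
  obtain ⟨fk, hS, hgr⟩ := exists_fastSeq hf hG hW
  obtain ⟨A, hA⟩ : ∃ A, A = ∫ x, ‖G x‖ := ⟨_, rfl⟩
  rw [← hA] at hgr ⊢
  have hA0 : 0 ≤ A := by rw [hA]; exact integral_nonneg fun y => norm_nonneg _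
  obtain ⟨u, hu⟩ : ∃ u, u = Mtil (fun y => |f y|) := ⟨_, rfl⟩
  rw [← hu]
  have hg0 : ∀ y, 0 ≤ |f y| := fun y => abs_nonneg _
  have hm : Measurable u := by rw [hu]; exact measurable_Mtil hg0
  obtain ⟨B, hBdef⟩ : ∃ B, B = 4 * Module.finrank ℝ E * (K5 E * A) := ⟨_, rfl⟩
  have hK5 := K5_nonneg (E := E)
  have hB : 0 ≤ B := by rw [hBdef]; positivity
  have hT : ∀ v : E, ∫⁻ x, ENNReal.ofReal ‖u (x + v) - u x‖ ≤ ENNReal.ofReal (B * ‖v‖) := by
    intro v
    rw [hu, hBdef]
    exact translate_of_fastSeq hS hgr v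
  have hLoc : LocallyIntegrable u := locallyIntegrable_of_translate hm hB hT
  have hL : ∀ e : E, ‖e‖ = 1 → ∀ᵐ x : E, LineGood u e x := by
    intro e he
    rw [hu]
    exact line_good_of_fastSeq hS he (by rw [← hu]; exact hT)
  refine ⟨ae_bdd_of_fastSeq hS, hLoc, ?_⟩
  let b := stdOrthonormalBasis ℝ E
  have hbn : ∀ i, ‖b i‖ = 1 := fun i => b.orthonormal.1 i
  have hDi : ∀ i, Integrable (Du u (b i)) := fun i => integrable_Du hm (hbn i) hB hT (hL _ (hbn i))
  have hDb : ∀ i, ∫ y, |Du u (b i) y| ≤ B := fun i => integral_abs_Du_le hm (hbn i) hB hT (hL _ (hbn i))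
  let H : E → E := fun y => ∑ i, Du u (b i) y • b i
  have hHi : Integrable H := by
    apply integrable_finsetSum
    intro i _
    exact (hDi i).smul_const _
  have hHn : ∀ y, ‖H y‖ ≤ ∑ i, |Du u (b i) y| := by
    intro y
    refine (norm_sum_le _ _).trans (Finset.sum_le_sum fun i _ => ?_)
    rw [norm_smul, hbn i, mul_one, Real.norm_eq_abs]
  refine ⟨H, hHi, ?_, ?_⟩
  · intro φ hφ hc v
    have hφ1 : ContDiff ℝ 1 φ := hφ.of_le (by exact_mod_cast le_top)
    have hφc : Continuous φ := hφ1.continuous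
    have hder : Continuous (fderiv ℝ φ) := hφ1.continuous_fderiv (by norm_num)
    have hvs : ∀ y, fderiv ℝ φ y v = ∑ i, inner ℝ (b i) v * fderiv ℝ φ y (b i) := by
      intro y
      conv_lhs => rw [← b.sum_repr' v]
      rw [map_sum]
      apply Finset.sum_congr rfl
      intro i _
      rw [map_smul, smul_eq_mul]
    have hin : ∀ y, inner ℝ (H y) v = ∑ i, inner ℝ (b i) v * Du u (b i) y := by
      intro y
      simp only [H]
      rw [sum_inner]
      apply Finset.sum_congr rfl
      intro i _
      rw [inner_smul_left]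
      simp [mul_comm]
    have i1 : ∀ i, Integrable (fun y => fderiv ℝ φ y (b i) * u y) := by
      intro i
      have hc1 : Continuous (fun y => fderiv ℝ φ y (b i)) := hder.clm_apply continuous_const
      have hc2 : HasCompactSupport (fun y => fderiv ℝ φ y (b i)) :=
        (hc.fderiv (𝕜 := ℝ)).comp_left (g := fun L : E →L[ℝ] ℝ => L (b i)) rfl
      exact hLoc.integrable_smul_left_of_hasCompactSupport hc1 hc2
    have i2 : ∀ i, Integrable (fun y => φ y * Du u (b i) y) := by
      intro i
      exact (hDi i).locallyIntegrable.integrable_smul_left_of_hasCompactSupport hφc hc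
    have e1 : ∫ x, u x * fderiv ℝ φ x v = ∑ i, inner ℝ (b i) v * ∫ y, fderiv ℝ φ y (b i) * u y := by
      simp_rw [← integral_const_mul]
      rw [← integral_finsetSum]
      · apply integral_congr_ae
        refine Eventually.of_forall fun y => ?_
        change u y * fderiv ℝ φ y v = _
        rw [hvs y, Finset.mul_sum]
        apply Finset.sum_congr rfl
        intro i _
        ring
      · intro i _
        exact (i1 i).const_mul _
    have e2 : ∫ x, inner ℝ (H x) v * φ x = ∑ i, inner ℝ (b i) v * ∫ y, φ y * Du u (b i) y := by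
      simp_rw [← integral_const_mul]
      rw [← integral_finsetSum]
      · apply integral_congr_ae
        refine Eventually.of_forall fun y => ?_
        change inner ℝ (H y) v * φ y = _
        rw [hin y, Finset.sum_mul]
        apply Finset.sum_congr rfl
        intro i _
        ring
      · intro i _
        exact (i2 i).const_mul _
    rw [e1, e2, ← Finset.sum_neg_distrib]
    apply Finset.sum_congr rfl
    intro i _
    rw [ibp_dir hm (hbn i) hB hT (hL _ (hbn i)) hLoc hφ1 hc]
    ring
  · have i3 : Integrable (fun y => ∑ i, |Du u (b i) y|) := by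
      apply integrable_finsetSum
      intro i _
      exact (hDi i).abs
    have h1 : ∫ x, ‖H x‖ ≤ ∫ y, ∑ i, |Du u (b i) y| := integral_mono hHi.norm i3 hHn
    rw [integral_finsetSum _ (fun i _ => (hDi i).abs)] at h1
    have h2 : ∑ i, ∫ y, |Du u (b i) y| ≤ ∑ _i : Fin (Module.finrank ℝ E), B :=
      Finset.sum_le_sum (fun i _ => hDb i)
    rw [Finset.sum_const, Finset.card_univ, Fintype.card_fin, nsmul_eq_mul] at h2
    refine h1.trans (h2.trans (le_of_eq ?_))
    rw [hBdef]
    ring

end

end Vale.Agent.Lib.P137
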