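import Vale.Agent.Lib.P137.Levels3

namespace Vale.Agent.Lib.P137

open MeasureTheory Metric Set Filter Topology
open scoped ENNReal

set_option linter.unusedSectionVars false

variable {E : Type*} [NormedAddCommGroup E] [InnerProductSpace ℝ E] [FiniteDimensional ℝ E]
  [MeasurableSpace E] [BorelSpace E]

/-- a subset of the unit interval with no three separated points is small -/
lemma volume_le_of_no_three {S : Set ℝ} (hS : S ⊆ Icc 0 1) {g : ℝ} (hg : 0 < g)
    (h : ∀ t1 ∈ S, ∀ t2 ∈ S, ∀ t3 ∈ S, t1 + g ≤ t2 → t2 + g ≤ t3 → False) :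
    volume S ≤ ENNReal.ofReal (4 * g) := by
  rcases S.eq_empty_or_nonempty with rfl | hne
  · simp
  have hbdd : BddBelow S := ⟨0, fun t ht => (hS ht).1⟩
  set a := sInf S with ha
  have ha_le : ∀ t ∈ S, a ≤ t := fun t ht => csInf_le hbdd ht
  obtain ⟨t1, ht1, ht1a⟩ := exists_lt_of_csInf_lt hne (show sInf S < a + g by linarith)
  by_cases hS2 : (S ∩ Ici (a + 2 * g)).Nonempty
  · have hbdd2 : BddBelow (S ∩ Ici (a + 2 * g)) := hbdd.mono inter_subset_left
    set b := sInf (S ∩ Ici (a + 2 * g)) with hb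
    obtain ⟨t2, ht2, ht2b⟩ := exists_lt_of_csInf_lt hS2 (show sInf (S ∩ Ici (a + 2 * g)) < b + g by linarith)
    have hsub : S ⊆ Icc a (a + 2 * g) ∪ Icc b (b + 2 * g) := by
      intro t ht
      by_cases hta : t ≤ a + 2 * g
      · exact Or.inl ⟨ha_le t ht, hta⟩
      · push Not at hta
        have htS2 : t ∈ S ∩ Ici (a + 2 * g) := ⟨ht, hta.le⟩
        refine Or.inr ⟨csInf_le hbdd2 htS2, ?_⟩
        by_contra hcon
        push Not at hcon
        exact h t1 ht1 t2 ht2.1 t ht (by have := ht2.2; simp only [mem_Ici] at this; linarith)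
          (by linarith)
    calc volume S ≤ volume (Icc a (a + 2 * g) ∪ Icc b (b + 2 * g)) := measure_mono hsub
      _ ≤ volume (Icc a (a + 2 * g)) + volume (Icc b (b + 2 * g)) := measure_union_le _ _
      _ = ENNReal.ofReal (4 * g) := by
          rw [Real.volume_Icc, Real.volume_Icc, ← ENNReal.ofReal_add (by linarith) (by linarith)]
          congr 1
          ring
  · have hsub : S ⊆ Icc a (a + 2 * g) := by
      intro t ht
      refine ⟨ha_le t ht, ?_⟩
      by_contra hcon
      push Not at hcon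
      exact hS2 ⟨t, ht, hcon.le⟩
    calc volume S ≤ volume (Icc a (a + 2 * g)) := measure_mono hsub
      _ = ENNReal.ofReal (2 * g) := by rw [Real.volume_Icc]; congr 1; ring
      _ ≤ ENNReal.ofReal (4 * g) := ENNReal.ofReal_le_ofReal (by linarith)

/-- affine change of variables, with expansion factor at least one -/
lemma lintegral_comp_affine_le {κ : ℝ} (hκ : 1 ≤ κ) (b : E) {F : E → ℝ≥0∞} (hF : Measurable F) :
    ∫⁻ y, F (κ • y + b) ≤ ∫⁻ z, F z := by
  have hκ0 : κ ≠ 0 := by linarith
  have hG : Measurable (fun z => F (z + b)) := hF.comp (measurable_add_const b)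
  have h1 : ∫⁻ y, F (κ • y + b) =
      ∫⁻ z, F (z + b) ∂(Measure.map (fun y : E => κ • y) volume) := by
    rw [lintegral_map hG (measurable_const_smul κ)]
  rw [h1, Measure.map_addHaar_smul _ hκ0, lintegral_smul_measure,
    lintegral_add_right_eq_self F b]
  have h2 : ENNReal.ofReal |(κ ^ Module.finrank ℝ E)⁻¹| ≤ 1 := by
    rw [ENNReal.ofReal_le_one, abs_of_pos (by positivity)]
    exact inv_le_one_of_one_le₀ (one_le_pow₀ hκ)
  rw [smul_eq_mul]
  exact (mul_le_mul' h2 le_rfl).trans (by rw [one_mul])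

/-- fundamental theorem of calculus with the tangent inequality -/
lemma ftc_tangent {g : E → ℝ} (hg : ContDiff ℝ 1 g) {y v e : E} {a : ℝ}
    (hv : ‖v - a • e‖ ≤ a) :
    g y - g (y + v) ≤
      a * ∫ t in (0 : ℝ)..1, (‖fderiv ℝ g (y + t • v)‖ - fderiv ℝ g (y + t • v) e) := by
  have hcont : Continuous (fderiv ℝ g) := hg.continuous_fderiv one_ne_zero
  have hd : ∀ t : ℝ, HasDerivAt (fun t : ℝ => g (y + t • v)) (fderiv ℝ g (y + t • v) v) t := by
    intro t
    have h1 : HasFDerivAt g (fderiv ℝ g (y + t • v)) (y + t • v) :=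
      (hg.differentiable (by norm_num) _).hasFDerivAt
    have h2 : HasDerivAt (fun t : ℝ => y + t • v) v t := by
      simpa using ((hasDerivAt_id t).smul_const v).const_add y
    exact h1.comp_hasDerivAt t h2
  have hc1 : Continuous (fun t : ℝ => fderiv ℝ g (y + t • v) v) :=
    (hcont.comp (by fun_prop)).clm_apply continuous_const
  have hc2 : Continuous (fun t : ℝ => ‖fderiv ℝ g (y + t • v)‖ - fderiv ℝ g (y + t • v) e) :=
    (hcont.comp (by fun_prop : Continuous (fun t : ℝ => y + t • v))).norm.sub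
      ((hcont.comp (by fun_prop)).clm_apply continuous_const)
  have hftc := intervalIntegral.integral_eq_sub_of_hasDerivAt (a := 0) (b := 1)
    (fun t _ => hd t) (hc1.intervalIntegrable 0 1)
  simp only [zero_smul, add_zero, one_smul] at hftc
  have hle : (∫ t in (0 : ℝ)..1, -(fderiv ℝ g (y + t • v) v)) ≤
      ∫ t in (0 : ℝ)..1, a * (‖fderiv ℝ g (y + t • v)‖ - fderiv ℝ g (y + t • v) e) := by
    apply intervalIntegral.integral_mono_on (by norm_num) (hc1.neg.intervalIntegrable 0 1)
      ((hc2.const_mul a).intervalIntegrable 0 1)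
    intro t _
    set L := fderiv ℝ g (y + t • v) with hL
    have h1 : L v = L (v - a • e) + a * L e := by
      rw [map_sub, map_smul, smul_eq_mul]; ring
    have h2 : |L (v - a • e)| ≤ ‖L‖ * ‖v - a • e‖ := L.le_opNorm _
    have h3 : ‖L‖ * ‖v - a • e‖ ≤ ‖L‖ * a := mul_le_mul_of_nonneg_left hv (norm_nonneg _)
    have h4 := (abs_le.mp h2).1
    change -(L v) ≤ a * (‖L‖ - L e)
    rw [h1]
    nlinarith
  rw [intervalIntegral.integral_neg, hftc, intervalIntegral.integral_const_mul] at hle
  linarith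

end Vale.Agent.Lib.P137
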