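import Vale.Agent.Lib.P137.Meas1

namespace Vale.Agent.Lib.P137

open MeasureTheory Metric Set Filter Topology
open scoped ENNReal

set_option linter.unusedSectionVars false

variable {E : Type*} [NormedAddCommGroup E] [InnerProductSpace ℝ E] [FiniteDimensional ℝ E]
  [MeasurableSpace E] [BorelSpace E]

/-- inverse of the affine map along the segment -/
noncomputable def LamInv (c w : E) (t : ℝ) (z : E) : E := c + (1 + 3 * t)⁻¹ • (z - c - t • w)

lemma LamInv_apply (c w : E) {t : ℝ} (ht : 0 ≤ t) (y : E) :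
    LamInv c w t (y + t • (w + (3 : ℝ) • (y - c))) = y := by
  have h0 : (1 + 3 * t) ≠ 0 := by positivity
  unfold LamInv
  have e : y + t • (w + (3 : ℝ) • (y - c)) - c - t • w = (1 + 3 * t) • (y - c) := by
    module
  rw [e, smul_smul, inv_mul_cancel₀ h0, one_smul]
  abel

lemma measurable_LamInv (c w : E) : Measurable (fun p : ℝ × E => LamInv c w p.1 p.2) := by
  unfold LamInv
  fun_prop

lemma lintegral_Y_le {ψ : E → ℝ≥0∞} (hψ : Measurable ψ) {S : Set E} (hS : MeasurableSet S)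
    (c w : E) :
    ∫⁻ y in S, ∫⁻ t in Ioc (0 : ℝ) 1, ψ (y + t • (w + (3 : ℝ) • (y - c))) ≤
      ∫⁻ z, ψ z * volume (Ioc (0 : ℝ) 1 ∩ {t | LamInv c w t z ∈ S}) := by
  have hm1 : Measurable (fun p : E × ℝ => ψ (p.1 + p.2 • (w + (3 : ℝ) • (p.1 - c)))) := by
    apply hψ.comp
    fun_prop
  have hm2 : Measurable (fun p : ℝ × E => S.indicator (fun _ => (1 : ℝ≥0∞)) (LamInv c w p.1 p.2) * ψ p.2) := by
    apply Measurable.mul
    · exact (measurable_const.indicator hS).comp (measurable_LamInv c w)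
    · exact hψ.comp measurable_snd
  rw [lintegral_lintegral_swap hm1.aemeasurable]
  have hstep : ∀ t ∈ Ioc (0 : ℝ) 1,
      ∫⁻ y in S, ψ (y + t • (w + (3 : ℝ) • (y - c))) ≤
        ∫⁻ z, S.indicator (fun _ => (1 : ℝ≥0∞)) (LamInv c w t z) * ψ z := by
    intro t ht
    have ht0 : 0 ≤ t := ht.1.le
    set F : E → ℝ≥0∞ := fun z => S.indicator (fun _ => (1 : ℝ≥0∞)) (LamInv c w t z) * ψ z with hF
    have hFm : Measurable F := by
      have := hm2.comp (measurable_prodMk_left (x := t))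
      exact this
    have h1 := lintegral_comp_affine_le (κ := 1 + 3 * t) (by linarith) (t • w - (3 * t) • c) hFm
    refine le_trans (le_of_eq ?_) h1
    rw [← lintegral_indicator hS]
    apply lintegral_congr
    intro y
    have e : (1 + 3 * t) • y + (t • w - (3 * t) • c) = y + t • (w + (3 : ℝ) • (y - c)) := by
      module
    simp only [hF]
    rw [e, LamInv_apply c w ht0]
    by_cases hy : y ∈ S
    · simp [indicator_of_mem hy]
    · simp [indicator_of_notMem hy]
  calc ∫⁻ t in Ioc (0 : ℝ) 1, ∫⁻ y in S, ψ (y + t • (w + (3 : ℝ) • (y - c)))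
      ≤ ∫⁻ t in Ioc (0 : ℝ) 1, ∫⁻ z, S.indicator (fun _ => (1 : ℝ≥0∞)) (LamInv c w t z) * ψ z :=
        setLIntegral_mono' measurableSet_Ioc hstep
    _ = ∫⁻ z, ∫⁻ t in Ioc (0 : ℝ) 1, S.indicator (fun _ => (1 : ℝ≥0∞)) (LamInv c w t z) * ψ z :=
        lintegral_lintegral_swap hm2.aemeasurable
    _ = ∫⁻ z, ψ z * volume (Ioc (0 : ℝ) 1 ∩ {t | LamInv c w t z ∈ S}) := by
        apply lintegral_congr
        intro z
        have hmeas : MeasurableSet {t : ℝ | LamInv c w t z ∈ S} := by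
          have : Measurable (fun t : ℝ => LamInv c w t z) :=
            (measurable_LamInv c w).comp (measurable_id.prodMk measurable_const)
          exact this hS
        have e : ∀ t : ℝ, S.indicator (fun _ => (1 : ℝ≥0∞)) (LamInv c w t z) * ψ z =
            ψ z * {t : ℝ | LamInv c w t z ∈ S}.indicator (fun _ => (1 : ℝ≥0∞)) t := by
          intro t
          by_cases ht : LamInv c w t z ∈ S
          · simp [ht, mul_comm]
          · simp [ht]
        simp_rw [e]
        rw [lintegral_const_mul _ (measurable_const.indicator hmeas), lintegral_indicator hmeas]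
        simp only [lintegral_const, MeasurableSet.univ, Measure.restrict_apply, univ_inter]
        rw [Measure.restrict_apply hmeas, inter_comm, one_mul]

lemma continuous_Y {Ψ : E → ℝ} (hΨ : Continuous Ψ) (c w : E) :
    Continuous (fun y => ∫ t in (0 : ℝ)..1, Ψ (y + t • (w + (3 : ℝ) • (y - c)))) := by
  apply intervalIntegral.continuous_parametric_intervalIntegral_of_continuous'
  exact hΨ.comp (by fun_prop)

/-- bound for the segment integral through multiplicities -/
lemma integral_Y_le {Ψ : E → ℝ} (hΨ : Continuous Ψ) (hc : HasCompactSupport Ψ) (hΨ0 : ∀ y, 0 ≤ Ψ y)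
    {S : Set E} (hS : MeasurableSet S) {c0 : E} {R0 : ℝ} (hSb : S ⊆ ball c0 R0) (c w : E)
    {lam : ℝ} (hlam : 0 ≤ lam) {B1 B2 : Set E} (hB1 : MeasurableSet B1) (hB2 : MeasurableSet B2)
    (hm : ∀ z, volume (Ioc (0 : ℝ) 1 ∩ {t | LamInv c w t z ∈ S}) ≤
      ENNReal.ofReal lam * B1.indicator (fun _ => 1) z + B2.indicator (fun _ => 1) z) :
    ∫ y in S, (∫ t in (0 : ℝ)..1, Ψ (y + t • (w + (3 : ℝ) • (y - c)))) ≤
      lam * (∫ z in B1, Ψ z) + ∫ z in B2, Ψ z := by
  have iΨ : Integrable Ψ := hΨ.integrable_of_hasCompactSupport hc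
  have hψ : Measurable (fun z => ENNReal.ofReal (Ψ z)) :=
    ENNReal.measurable_ofReal.comp hΨ.measurable
  have hY := continuous_Y hΨ c w
  have hiS : IntegrableOn (fun y => ∫ t in (0 : ℝ)..1, Ψ (y + t • (w + (3 : ℝ) • (y - c)))) S :=
    (integrableOn_ball_of_continuous hY c0 R0).mono_set hSb
  have hY0 : ∀ y, 0 ≤ ∫ t in (0 : ℝ)..1, Ψ (y + t • (w + (3 : ℝ) • (y - c))) := fun y =>
    intervalIntegral.integral_nonneg (by norm_num) (fun t _ => hΨ0 _)
  have h1 : ∀ y, ENNReal.ofReal (∫ t in (0 : ℝ)..1, Ψ (y + t • (w + (3 : ℝ) • (y - c)))) =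
      ∫⁻ t in Ioc (0 : ℝ) 1, ENNReal.ofReal (Ψ (y + t • (w + (3 : ℝ) • (y - c)))) := by
    intro y
    have hcont : Continuous (fun t : ℝ => Ψ (y + t • (w + (3 : ℝ) • (y - c)))) :=
      hΨ.comp (by fun_prop)
    rw [intervalIntegral.integral_of_le (by norm_num)]
    apply ofReal_integral_eq_lintegral_ofReal
    · exact (hcont.integrableOn_Icc (a := 0) (b := 1)).mono_set Ioc_subset_Icc_self
    · exact Eventually.of_forall (fun t => hΨ0 _)
  have h2 : ∫⁻ z, ENNReal.ofReal (Ψ z) * (ENNReal.ofReal lam * B1.indicator (fun _ => 1) z +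
      B2.indicator (fun _ => 1) z) =
      ENNReal.ofReal lam * ENNReal.ofReal (∫ z in B1, Ψ z) + ENNReal.ofReal (∫ z in B2, Ψ z) := by
    have e : ∀ z, ENNReal.ofReal (Ψ z) * (ENNReal.ofReal lam * B1.indicator (fun _ => 1) z +
        B2.indicator (fun _ => 1) z) =
        ENNReal.ofReal lam * B1.indicator (fun z => ENNReal.ofReal (Ψ z)) z +
          B2.indicator (fun z => ENNReal.ofReal (Ψ z)) z := by
      intro z
      by_cases h1 : z ∈ B1 <;> by_cases h2 : z ∈ B2 <;> simp [h1, h2, mul_add, mul_comm]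
    simp_rw [e]
    rw [lintegral_add_left ((hψ.indicator hB1).const_mul _),
      lintegral_const_mul _ (hψ.indicator hB1), lintegral_indicator hB1, lintegral_indicator hB2,
      ofReal_integral_eq_lintegral_ofReal iΨ.integrableOn (Eventually.of_forall hΨ0),
      ofReal_integral_eq_lintegral_ofReal iΨ.integrableOn (Eventually.of_forall hΨ0)]
  have h3 : ENNReal.ofReal (∫ y in S, (∫ t in (0 : ℝ)..1, Ψ (y + t • (w + (3 : ℝ) • (y - c))))) ≤
      ENNReal.ofReal (lam * (∫ z in B1, Ψ z) + ∫ z in B2, Ψ z) := by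
    rw [ofReal_integral_eq_lintegral_ofReal hiS (Eventually.of_forall hY0)]
    simp_rw [h1]
    refine (lintegral_Y_le hψ hS c w).trans ?_
    have hB1n : 0 ≤ ∫ z in B1, Ψ z := integral_nonneg hΨ0
    have hB2n : 0 ≤ ∫ z in B2, Ψ z := integral_nonneg hΨ0
    rw [ENNReal.ofReal_add (by positivity) hB2n, ENNReal.ofReal_mul hlam, ← h2]
    apply lintegral_mono
    intro z
    exact mul_le_mul' le_rfl (hm z)
  have hB1n : 0 ≤ ∫ z in B1, Ψ z := integral_nonneg hΨ0
  have hB2n : 0 ≤ ∫ z in B2, Ψ z := integral_nonneg hΨ0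
  exact (ENNReal.ofReal_le_ofReal_iff (by positivity)).mp h3

end Vale.Agent.Lib.P137
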