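import Vale.Agent.Lib.P137.Assemble1

namespace Vale.Agent.Lib.P137

open MeasureTheory Metric Set Filter Topology ContinuousLinearMap
open scoped ENNReal Convolution

set_option linter.unusedSectionVars false

variable {E : Type*} [NormedAddCommGroup E] [InnerProductSpace ℝ E] [FiniteDimensional ℝ E]
  [MeasurableSpace E] [BorelSpace E]
variable {V : Type*} [NormedAddCommGroup V] [NormedSpace ℝ V] [CompleteSpace V]

/-- mollification does not increase the mean -/
lemma norm_conv_le (b : ContDiffBump (0 : E)) {a : E → V} (ha : Integrable a) :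
    ∫ x, ‖(b.normed volume ⋆[lsmul ℝ ℝ, volume] a) x‖ ≤ ∫ x, ‖a x‖ := by
  have hΦ : Integrable (b.normed volume) := b.integrable_normed
  have i1 : Integrable (b.normed volume ⋆[lsmul ℝ ℝ, volume] a) :=
    hΦ.integrable_convolution (lsmul ℝ ℝ) ha
  have i2 : Integrable (b.normed volume ⋆[lsmul ℝ ℝ, volume] (fun x => ‖a x‖)) :=
    hΦ.integrable_convolution (lsmul ℝ ℝ) ha.norm
  have h1 : ∀ x, ‖(b.normed volume ⋆[lsmul ℝ ℝ, volume] a) x‖ ≤
      (b.normed volume ⋆[lsmul ℝ ℝ, volume] (fun x => ‖a x‖)) x := by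
    intro x
    simp only [convolution_def, lsmul_apply]
    refine (norm_integral_le_integral_norm _).trans (le_of_eq ?_)
    congr 1
    ext t
    rw [norm_smul, Real.norm_eq_abs, abs_of_nonneg (b.nonneg_normed t), smul_eq_mul]
  refine (integral_mono i1.norm i2 h1).trans (le_of_eq ?_)
  rw [integral_convolution (lsmul ℝ ℝ) hΦ ha.norm, b.integral_normed]
  simp

/-- mollification of a continuous function with compact support -/
lemma conv_close_cont {c : E → V} (hc : Continuous c) (hcs : HasCompactSupport c) {δ : ℝ} (hδ : 0 < δ) :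
    ∃ ε0 > 0, ∀ b : ContDiffBump (0 : E), b.rOut < ε0 →
      ∫ x, ‖(b.normed volume ⋆[lsmul ℝ ℝ, volume] c) x - c x‖ ≤ δ := by
  obtain ⟨R, hR⟩ := hcs.isCompact.isBounded.subset_ball (0 : E)
  have hzero : ∀ y : E, R ≤ ‖y‖ → c y = 0 := by
    intro y hy
    by_contra hne
    have := hR (subset_tsupport _ hne)
    rw [mem_ball_zero_iff] at this
    linarith
  obtain ⟨W, hW⟩ : ∃ W, W = vb E (R + 1) := ⟨_, rfl⟩
  have hW0 : 0 ≤ W := by rw [hW]; exact vb_nonneg _
  obtain ⟨δ', hδ'⟩ : ∃ δ', δ' = δ / (W + 1) := ⟨_, rfl⟩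
  have hδ'0 : 0 < δ' := by rw [hδ']; positivity
  have huc : UniformContinuous c := hcs.uniformContinuous_of_continuous hc
  obtain ⟨ε1, hε1, hu⟩ := Metric.uniformContinuous_iff.mp huc δ' hδ'0
  refine ⟨min ε1 1, by positivity, ?_⟩
  intro b hb
  have hb1 : b.rOut < ε1 := hb.trans_le (min_le_left _ _)
  have hb2 : b.rOut < 1 := hb.trans_le (min_le_right _ _)
  have hpt : ∀ x, ‖(b.normed volume ⋆[lsmul ℝ ℝ, volume] c) x - c x‖ ≤
      (ball (0 : E) (R + 1)).indicator (fun _ => δ') x := by
    intro x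
    rw [← dist_eq_norm]
    by_cases hx : x ∈ ball (0 : E) (R + 1)
    · rw [indicator_of_mem hx]
      apply b.dist_normed_convolution_le hc.aestronglyMeasurable
      intro y hy
      apply (hu _).le
      exact lt_of_lt_of_le hy hb1.le
    · rw [indicator_of_notMem hx]
      apply b.dist_normed_convolution_le hc.aestronglyMeasurable
      intro y hy
      have hx2 : R + 1 ≤ ‖x‖ := by simpa using hx
      have hy2 : dist y x < 1 := lt_trans hy hb2
      rw [dist_eq_norm] at hy2
      have h1 : R ≤ ‖y‖ := by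
        have := norm_sub_norm_le x y
        rw [norm_sub_rev] at this
        linarith
      rw [hzero y h1, hzero x (by linarith)]
      simp
  have hfin : (volume : Measure E) (ball (0 : E) (R + 1)) ≠ ⊤ := volume_ball_ne_top _ _
  have hi2 : Integrable ((ball (0 : E) (R + 1)).indicator (fun _ => δ') : E → ℝ) :=
    (integrableOn_const hfin).integrable_indicator measurableSet_ball
  have h3 : ∫ x, ‖(b.normed volume ⋆[lsmul ℝ ℝ, volume] c) x - c x‖ ≤
      ∫ x, (ball (0 : E) (R + 1)).indicator (fun _ => δ') x :=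
    integral_mono_of_nonneg (Eventually.of_forall fun x => norm_nonneg _) hi2 (Eventually.of_forall hpt)
  refine h3.trans ?_
  rw [integral_indicator measurableSet_ball, setIntegral_const, smul_eq_mul, real_ball_eq, ← hW, hδ']
  have : W * (δ / (W + 1)) = δ * (W / (W + 1)) := by ring
  rw [this]
  have h4 : W / (W + 1) ≤ 1 := by
    rw [div_le_one (by positivity)]
    linarith
  nlinarith

/-- mollification of an integrable function converges in the mean -/
lemma conv_close {a : E → V} (ha : Integrable a) {δ : ℝ} (hδ : 0 < δ) :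
    ∃ ε0 > 0, ∀ b : ContDiffBump (0 : E), b.rOut < ε0 →
      ∫ x, ‖(b.normed volume ⋆[lsmul ℝ ℝ, volume] a) x - a x‖ ≤ δ := by
  obtain ⟨c, hcs, hc1, hc2, hc3⟩ := ha.exists_hasCompactSupport_integral_sub_le (ε := δ / 3) (by positivity)
  obtain ⟨ε0, hε0, h⟩ := conv_close_cont hc2 hcs (δ := δ / 3) (by positivity)
  refine ⟨ε0, hε0, fun b hb => ?_⟩
  have h1 := h b hb
  have hΦ : Integrable (b.normed volume) := b.integrable_normed
  have hac : Integrable (fun x => a x - c x) := ha.sub hc3
  have h2 := norm_conv_le b hac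
  have hex1 : ConvolutionExists (b.normed volume) c (lsmul ℝ ℝ) volume :=
    b.hasCompactSupport_normed.convolutionExists_left _ b.continuous_normed hc3.locallyIntegrable
  have hex2 : ConvolutionExists (b.normed volume) (fun x => a x - c x) (lsmul ℝ ℝ) volume :=
    b.hasCompactSupport_normed.convolutionExists_left _ b.continuous_normed hac.locallyIntegrable
  have hadd : ∀ x, (b.normed volume ⋆[lsmul ℝ ℝ, volume] a) x =
      (b.normed volume ⋆[lsmul ℝ ℝ, volume] c) x +
        (b.normed volume ⋆[lsmul ℝ ℝ, volume] (fun x => a x - c x)) x := by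
    intro x
    have := (hex1 x).distrib_add (hex2 x)
    rw [← this]
    congr 1
    ext y
    simp
  have i1 : Integrable (fun x => (b.normed volume ⋆[lsmul ℝ ℝ, volume] a) x - a x) :=
    (hΦ.integrable_convolution (lsmul ℝ ℝ) ha).sub ha
  have i2 : Integrable (fun x => (b.normed volume ⋆[lsmul ℝ ℝ, volume] c) x - c x) :=
    (hΦ.integrable_convolution (lsmul ℝ ℝ) hc3).sub hc3
  have i3 : Integrable (fun x => ‖(b.normed volume ⋆[lsmul ℝ ℝ, volume] (fun x => a x - c x)) x‖) :=
    (hΦ.integrable_convolution (lsmul ℝ ℝ) hac).norm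
  have i4 : Integrable (fun x => ‖(b.normed volume ⋆[lsmul ℝ ℝ, volume] c) x - c x‖ +
      ‖(b.normed volume ⋆[lsmul ℝ ℝ, volume] (fun x => a x - c x)) x‖ + ‖a x - c x‖) :=
    (i2.norm.add i3).add hac.norm
  have h3 : ∫ x, ‖(b.normed volume ⋆[lsmul ℝ ℝ, volume] a) x - a x‖ ≤
      ∫ x, (‖(b.normed volume ⋆[lsmul ℝ ℝ, volume] c) x - c x‖ +
      ‖(b.normed volume ⋆[lsmul ℝ ℝ, volume] (fun x => a x - c x)) x‖ + ‖a x - c x‖) := by
    apply integral_mono i1.norm i4
    intro x
    simp only
    rw [hadd x]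
    have e : (b.normed volume ⋆[lsmul ℝ ℝ, volume] c) x +
        (b.normed volume ⋆[lsmul ℝ ℝ, volume] (fun x => a x - c x)) x - a x =
        ((b.normed volume ⋆[lsmul ℝ ℝ, volume] c) x - c x) +
        (b.normed volume ⋆[lsmul ℝ ℝ, volume] (fun x => a x - c x)) x - (a x - c x) := by abel
    rw [e]
    refine (norm_sub_le _ _).trans ?_
    gcongr
    exact norm_add_le _ _
  have i5 : Integrable (fun x => ‖(b.normed volume ⋆[lsmul ℝ ℝ, volume] c) x - c x‖ +
      ‖(b.normed volume ⋆[lsmul ℝ ℝ, volume] (fun x => a x - c x)) x‖) := i2.norm.add i3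
  have i6 : Integrable (fun x => ‖(b.normed volume ⋆[lsmul ℝ ℝ, volume] c) x - c x‖) := i2.norm
  rw [integral_add i5 hac.norm, integral_add i6 i3] at h3
  linarith

end Vale.Agent.Lib.P137
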