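import Vale.Agent.Lib.P137.Moll1
import Vale.Agent.Lib.P137.Defs2

namespace Vale.Agent.Lib.P137

open MeasureTheory Metric Set Filter Topology ContinuousLinearMap
open scoped ENNReal Convolution ContDiff

set_option linter.unusedSectionVars false

variable {E : Type*} [NormedAddCommGroup E] [InnerProductSpace ℝ E] [FiniteDimensional ℝ E]
  [MeasurableSpace E] [BorelSpace E]

section

variable {f : E → ℝ} {G : E → E}

lemma conv_contDiff (hf : Integrable f) (b : ContDiffBump (0 : E)) :
    ContDiff ℝ 1 (b.normed volume ⋆[lsmul ℝ ℝ, volume] f) :=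
  b.hasCompactSupport_normed.contDiff_convolution_left (lsmul ℝ ℝ) b.contDiff_normed hf.locallyIntegrable

/-- the gradient of the mollified function is the mollified gradient -/
lemma fderiv_conv (hf : Integrable f) (hG : Integrable G) (hW : IsWeakGradient f G)
    (b : ContDiffBump (0 : E)) (x : E) :
    fderiv ℝ (b.normed volume ⋆[lsmul ℝ ℝ, volume] f) x =
      innerSL ℝ ((b.normed volume ⋆[lsmul ℝ ℝ, volume] G) x) := by
  have hcs : HasCompactSupport (b.normed volume) := b.hasCompactSupport_normed
  have hΦ1 : ContDiff ℝ 1 (b.normed volume) := b.contDiff_normed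
  have hD := hcs.hasFDerivAt_convolution_left (lsmul ℝ ℝ) hΦ1 hf.locallyIntegrable x
  rw [hD.fderiv]
  ext v
  have hΦ' : Continuous (fderiv ℝ (b.normed volume)) := hΦ1.continuous_fderiv (by norm_num)
  have hexi := (hcs.fderiv (𝕜 := ℝ)).convolutionExists_left ((lsmul ℝ ℝ).precompL E) hΦ'
    hf.locallyIntegrable x
  rw [convolution_def, ContinuousLinearMap.integral_apply hexi]
  simp only [precompL_apply, lsmul_apply, smul_eq_mul, innerSL_apply_apply]
  -- the test function
  let ψ : E → ℝ := fun y => b.normed volume (x - y)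
  have hψ : ContDiff ℝ ∞ ψ := b.contDiff_normed.comp (contDiff_const.sub contDiff_id)
  have hψc : HasCompactSupport ψ := hcs.comp_homeomorph (Homeomorph.subLeft x)
  have hψd : ∀ y, fderiv ℝ ψ y v = - fderiv ℝ (b.normed volume) (x - y) v := by
    intro y
    have h1 : HasFDerivAt (b.normed volume) (fderiv ℝ (b.normed volume) (x - y)) (x - y) :=
      (hΦ1.differentiable (by norm_num) _).hasFDerivAt
    have h2 : HasFDerivAt (fun y : E => x - y) (-ContinuousLinearMap.id ℝ E) y :=
      (hasFDerivAt_id y).const_sub x
    have h3 := h1.comp y h2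
    have h4 : fderiv ℝ ψ y = (fderiv ℝ (b.normed volume) (x - y)).comp (-ContinuousLinearMap.id ℝ E) :=
      h3.fderiv
    rw [h4]
    simp
  have hw := hW ψ hψ hψc v
  simp_rw [hψd] at hw
  have e1 : ∫ t, fderiv ℝ (b.normed volume) t v * f (x - t) = ∫ y, f y * fderiv ℝ (b.normed volume) (x - y) v := by
    have := integral_sub_left_eq_self (μ := (volume : Measure E))
      (fun y => f y * fderiv ℝ (b.normed volume) (x - y) v) x
    rw [← this]
    congr 1
    ext t
    simp [mul_comm]
  have e2 : ∫ y, f y * -fderiv ℝ (b.normed volume) (x - y) v = - ∫ y, f y * fderiv ℝ (b.normed volume) (x - y) v := by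
    rw [← integral_neg]
    congr 1
    ext y
    ring
  rw [e2] at hw
  have e3 : ∫ y, f y * fderiv ℝ (b.normed volume) (x - y) v = ∫ y, inner ℝ (G y) v * ψ y := by linarith
  rw [e1, e3, real_inner_comm, convolution_def]
  simp only [lsmul_apply]
  have hexG : Integrable (fun t => b.normed volume t • G (x - t)) :=
    hcs.convolutionExists_left (lsmul ℝ ℝ) b.continuous_normed hG.locallyIntegrable x
  rw [← integral_inner hexG]
  have := integral_sub_left_eq_self (μ := (volume : Measure E))
    (fun y => inner ℝ (G y) v * ψ y) x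
  rw [← this]
  congr 1
  ext t
  simp only [ψ, sub_sub_cancel]
  rw [inner_smul_right, real_inner_comm v, mul_comm]

end

end Vale.Agent.Lib.P137
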