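import Vale.Agent.Lib.P137.Moll2

namespace Vale.Agent.Lib.P137

open MeasureTheory Metric Set Filter Topology ContinuousLinearMap
open scoped ENNReal Convolution ContDiff

set_option linter.unusedSectionVars false

variable {E : Type*} [NormedAddCommGroup E] [InnerProductSpace ℝ E] [FiniteDimensional ℝ E]
  [MeasurableSpace E] [BorelSpace E]

variable (E) in
/-- a fixed bump function -/
noncomputable def b0 : ContDiffBump (0 : E) := ⟨1, 2, one_pos, by norm_num⟩

/-- a smooth cutoff at scale `R` -/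
noncomputable def chiR (R : ℝ) (x : E) : ℝ := b0 E (R⁻¹ • x)

lemma chiR_nonneg (R : ℝ) (x : E) : 0 ≤ chiR R x := (b0 E).nonneg

lemma chiR_le_one (R : ℝ) (x : E) : chiR R x ≤ 1 := (b0 E).le_one

lemma chiR_eq_one {R : ℝ} (hR : 0 < R) {x : E} (hx : ‖x‖ ≤ R) : chiR R x = 1 := by
  apply (b0 E).one_of_mem_closedBall
  rw [mem_closedBall, dist_zero_right, norm_smul, Real.norm_eq_abs, abs_of_pos (inv_pos.mpr hR)]
  change R⁻¹ * ‖x‖ ≤ 1
  rw [inv_mul_le_iff₀ hR]
  linarith

lemma chiR_eq_zero {R : ℝ} (hR : 0 < R) {x : E} (hx : 2 * R ≤ ‖x‖) : chiR R x = 0 := by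
  apply (b0 E).zero_of_le_dist
  rw [dist_zero_right, norm_smul, Real.norm_eq_abs, abs_of_pos (inv_pos.mpr hR)]
  change 2 ≤ R⁻¹ * ‖x‖
  rw [le_inv_mul_iff₀ hR]
  linarith

lemma chiR_contDiff (R : ℝ) : ContDiff ℝ 1 (chiR R : E → ℝ) :=
  (b0 E).contDiff.comp (contDiff_const_smul _)

lemma chiR_fderiv (R : ℝ) (x : E) : fderiv ℝ (chiR R) x = R⁻¹ • fderiv ℝ (b0 E) (R⁻¹ • x) := by
  have h1 : HasFDerivAt (b0 E) (fderiv ℝ (b0 E) (R⁻¹ • x)) (R⁻¹ • x) :=
    ((b0 E).contDiff (n := 1).differentiable (by norm_num) _).hasFDerivAt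
  have h2 : HasFDerivAt (fun y : E => R⁻¹ • y) (R⁻¹ • ContinuousLinearMap.id ℝ E) x :=
    (hasFDerivAt_id x).const_smul R⁻¹
  have h3 := h1.comp x h2
  have h4 : fderiv ℝ (chiR R) x = (fderiv ℝ (b0 E) (R⁻¹ • x)).comp (R⁻¹ • ContinuousLinearMap.id ℝ E) :=
    h3.fderiv
  rw [h4]
  ext v
  simp

/-- a bound for the gradient of the fixed bump -/
lemma exists_bound_b0 : ∃ C : ℝ, 0 ≤ C ∧ ∀ x : E, ‖fderiv ℝ (b0 E) x‖ ≤ C := by
  have h1 : Continuous (fderiv ℝ (b0 E)) := (b0 E).contDiff (n := 1).continuous_fderiv (by norm_num)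
  have h2 : HasCompactSupport (fderiv ℝ (b0 E)) := (b0 E).hasCompactSupport.fderiv (𝕜 := ℝ)
  obtain ⟨C, hC⟩ := h2.exists_bound_of_continuous h1
  exact ⟨C, (norm_nonneg _).trans (hC 0), hC⟩

/-- the tail of an integrable function -/
lemma tendsto_tail {a : E → ℝ} (ha : Integrable a) (ha0 : ∀ y, 0 ≤ a y) :
    Tendsto (fun R : ℝ => ∫ x, (1 - chiR R x) * a x) atTop (𝓝 0) := by
  have h0 : (0 : ℝ) = ∫ _x : E, (0 : ℝ) := by simp
  rw [h0]
  apply tendsto_integral_filter_of_dominated_convergence a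
  · refine Eventually.of_forall fun R => ?_
    have hc : Continuous (chiR R : E → ℝ) := (chiR_contDiff R).continuous
    exact (continuous_const.sub hc).aestronglyMeasurable.mul ha.aestronglyMeasurable
  · refine Eventually.of_forall fun R => Eventually.of_forall fun y => ?_
    rw [Real.norm_eq_abs, abs_of_nonneg (mul_nonneg (sub_nonneg.mpr (chiR_le_one R y)) (ha0 y))]
    have h1 := chiR_nonneg R y
    have h2 := ha0 y
    nlinarith
  · exact ha
  · refine Eventually.of_forall fun y => ?_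
    apply tendsto_const_nhds.congr'
    filter_upwards [eventually_ge_atTop (‖y‖ + 1)] with R hR
    have hR0 : 0 < R := by
      have := norm_nonneg y
      linarith
    rw [chiR_eq_one hR0 (by linarith)]
    simp

section

variable {f : E → ℝ} {G : E → E}

/-- approximation of a Sobolev function by smooth compactly supported functions -/
lemma exists_approx (hf : Integrable f) (hG : Integrable G) (hW : IsWeakGradient f G) {η : ℝ} (hη : 0 < η) :
    ∃ φ : E → ℝ, ContDiff ℝ 1 φ ∧ HasCompactSupport φ ∧ (∫ y, ‖f y - φ y‖ ≤ η) ∧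
      ∫ y, ‖fderiv ℝ φ y - innerSL ℝ (G y)‖ ≤ η := by
  obtain ⟨δ, hδ⟩ : ∃ δ, δ = η / 3 := ⟨_, rfl⟩
  have hδ0 : 0 < δ := by rw [hδ]; positivity
  obtain ⟨ε1, hε1, h1⟩ := conv_close hf hδ0
  obtain ⟨ε2, hε2, h2⟩ := conv_close hG hδ0
  have hε : 0 < min ε1 ε2 := lt_min hε1 hε2
  let b : ContDiffBump (0 : E) := ⟨min ε1 ε2 / 4, min ε1 ε2 / 2, by positivity, by linarith⟩
  have hb1 : b.rOut < ε1 := by
    change min ε1 ε2 / 2 < ε1
    have := min_le_left ε1 ε2
    linarith
  have hb2 : b.rOut < ε2 := by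
    change min ε1 ε2 / 2 < ε2
    have := min_le_right ε1 ε2
    linarith
  obtain ⟨F, hF⟩ : ∃ F, F = b.normed volume ⋆[lsmul ℝ ℝ, volume] f := ⟨_, rfl⟩
  obtain ⟨Gm, hGm⟩ : ∃ Gm, Gm = b.normed volume ⋆[lsmul ℝ ℝ, volume] G := ⟨_, rfl⟩
  have hFf : ∫ y, ‖F y - f y‖ ≤ δ := by rw [hF]; exact h1 b hb1
  have hGG : ∫ y, ‖Gm y - G y‖ ≤ δ := by rw [hGm]; exact h2 b hb2
  have hFc : ContDiff ℝ 1 F := by rw [hF]; exact conv_contDiff hf b
  have hFd : ∀ y, fderiv ℝ F y = innerSL ℝ (Gm y) := by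
    intro y
    rw [hF, hGm]
    exact fderiv_conv hf hG hW b y
  have hFi : Integrable F := by
    rw [hF]
    exact b.integrable_normed.integrable_convolution (lsmul ℝ ℝ) hf
  have hGi : Integrable Gm := by
    rw [hGm]
    exact b.integrable_normed.integrable_convolution (lsmul ℝ ℝ) hG
  have hFn : ∫ y, ‖F y‖ ≤ ∫ y, ‖f y‖ := by rw [hF]; exact norm_conv_le b hf
  obtain ⟨C0, hC0, hC⟩ := exists_bound_b0 (E := E)
  have hGn : Integrable (fun y => ‖G y‖) := hG.norm
  have hfn : Integrable (fun y => ‖f y‖) := hf.norm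
  have t1 := tendsto_tail hfn (fun y => norm_nonneg _)
  have t2 := tendsto_tail hGn (fun y => norm_nonneg _)
  have t3 : Tendsto (fun R : ℝ => C0 * (∫ y, ‖f y‖) / R) atTop (𝓝 0) :=
    tendsto_const_nhds.div_atTop tendsto_id
  obtain ⟨R, hR1, hR2, hR3, hR0⟩ := ((t1.eventually (gt_mem_nhds hδ0)).and
    ((t2.eventually (gt_mem_nhds hδ0)).and ((t3.eventually (gt_mem_nhds hδ0)).and
      (eventually_gt_atTop 0)))).exists
  have hχc : ContDiff ℝ 1 (chiR R : E → ℝ) := chiR_contDiff R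
  have hφc : ContDiff ℝ 1 (fun y => chiR R y * F y) := hχc.mul hFc
  have hφs : HasCompactSupport (fun y => chiR R y * F y) := by
    apply HasCompactSupport.intro (isCompact_closedBall (0 : E) (2 * R))
    intro y hy
    have hy2 : 2 * R < ‖y‖ := by simpa using hy
    rw [chiR_eq_zero hR0 hy2.le, zero_mul]
  refine ⟨fun y => chiR R y * F y, hφc, hφs, ?_, ?_⟩
  · have i1 : Integrable (fun y => ‖F y - f y‖) := (hFi.sub hf).norm
    have i2 : Integrable (fun y => (1 - chiR R y) * ‖f y‖) := by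
      refine hfn.mono' ((continuous_const.sub (chiR_contDiff R).continuous).aestronglyMeasurable.mul hfn.aestronglyMeasurable) ?_
      refine Eventually.of_forall fun y => ?_
      rw [Real.norm_eq_abs, abs_of_nonneg (mul_nonneg (sub_nonneg.mpr (chiR_le_one R y)) (norm_nonneg _))]
      have h3 := chiR_nonneg R y
      have h4 := norm_nonneg (f y)
      nlinarith
    have i3 : Integrable (fun y => ‖F y - f y‖ + (1 - chiR R y) * ‖f y‖) := i1.add i2
    have h5 : ∫ y, ‖f y - chiR R y * F y‖ ≤ ∫ y, (‖F y - f y‖ + (1 - chiR R y) * ‖f y‖) := by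
      apply integral_mono_of_nonneg (Eventually.of_forall fun y => norm_nonneg _) i3
      refine Eventually.of_forall fun y => ?_
      have e1 : f y - chiR R y * F y = (1 - chiR R y) * f y - chiR R y * (F y - f y) := by ring
      change ‖f y - chiR R y * F y‖ ≤ _
      rw [e1]
      refine (norm_sub_le _ _).trans ?_
      rw [norm_mul, norm_mul, Real.norm_eq_abs (1 - chiR R y), Real.norm_eq_abs (chiR R y),
        abs_of_nonneg (sub_nonneg.mpr (chiR_le_one R y)), abs_of_nonneg (chiR_nonneg R y)]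
      have h3 := chiR_le_one R y
      have h4 := norm_nonneg (F y - f y)
      have h6 := chiR_nonneg R y
      nlinarith
    rw [integral_add i1 i2] at h5
    rw [hδ] at hFf hR1
    linarith
  · have hder : ∀ y, fderiv ℝ (fun y => chiR R y * F y) y =
        chiR R y • innerSL ℝ (Gm y) + F y • fderiv ℝ (chiR R) y := by
      intro y
      have h3 : HasFDerivAt (chiR R : E → ℝ) (fderiv ℝ (chiR R) y) y :=
        (hχc.differentiable (by norm_num) y).hasFDerivAt
      have h4 : HasFDerivAt F (fderiv ℝ F y) y := (hFc.differentiable (by norm_num) y).hasFDerivAt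
      have h5 : HasFDerivAt (fun y => chiR R y * F y)
          (chiR R y • fderiv ℝ F y + F y • fderiv ℝ (chiR R) y) y := h3.mul h4
      rw [h5.fderiv, hFd y]
    have i1 : Integrable (fun y => ‖Gm y - G y‖) := (hGi.sub hG).norm
    have i2 : Integrable (fun y => (1 - chiR R y) * ‖G y‖) := by
      refine hGn.mono' ((continuous_const.sub (chiR_contDiff R).continuous).aestronglyMeasurable.mul hGn.aestronglyMeasurable) ?_
      refine Eventually.of_forall fun y => ?_
      rw [Real.norm_eq_abs, abs_of_nonneg (mul_nonneg (sub_nonneg.mpr (chiR_le_one R y)) (norm_nonneg _))]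
      have h3 := chiR_nonneg R y
      have h4 := norm_nonneg (G y)
      nlinarith
    have i3 : Integrable (fun y => (C0 / R) * ‖F y‖) := hFi.norm.const_mul _
    have i4 : Integrable (fun y => ‖Gm y - G y‖ + (1 - chiR R y) * ‖G y‖) := i1.add i2
    have i5 : Integrable (fun y => ‖Gm y - G y‖ + (1 - chiR R y) * ‖G y‖ + (C0 / R) * ‖F y‖) := i4.add i3
    have h5 : ∫ y, ‖fderiv ℝ (fun y => chiR R y * F y) y - innerSL ℝ (G y)‖ ≤
        ∫ y, (‖Gm y - G y‖ + (1 - chiR R y) * ‖G y‖ + (C0 / R) * ‖F y‖) := by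
      apply integral_mono_of_nonneg (Eventually.of_forall fun y => norm_nonneg _) i5
      refine Eventually.of_forall fun y => ?_
      change ‖fderiv ℝ (fun y => chiR R y * F y) y - innerSL ℝ (G y)‖ ≤ _
      rw [hder y]
      have e1 : chiR R y • innerSL ℝ (Gm y) + F y • fderiv ℝ (chiR R) y - innerSL ℝ (G y) =
          chiR R y • (innerSL ℝ (Gm y) - innerSL ℝ (G y)) - (1 - chiR R y) • innerSL ℝ (G y) +
            F y • fderiv ℝ (chiR R) y := by
        rw [smul_sub, sub_smul, one_smul]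
        abel
      rw [e1]
      have e2 : innerSL ℝ (Gm y) - innerSL ℝ (G y) = innerSL ℝ (Gm y - G y) := (map_sub _ _ _).symm
      rw [e2]
      refine (norm_add_le _ _).trans ?_
      apply add_le_add
      · refine (norm_sub_le _ _).trans ?_
        rw [norm_smul, norm_smul, innerSL_apply_norm, innerSL_apply_norm, Real.norm_eq_abs (chiR R y),
          Real.norm_eq_abs (1 - chiR R y), abs_of_nonneg (chiR_nonneg R y),
          abs_of_nonneg (sub_nonneg.mpr (chiR_le_one R y))]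
        have h3 := chiR_le_one R y
        have h4 := norm_nonneg (Gm y - G y)
        have h6 := chiR_nonneg R y
        have h7 := norm_nonneg (G y)
        nlinarith
      · rw [norm_smul, chiR_fderiv, norm_smul, Real.norm_eq_abs R⁻¹, abs_of_pos (inv_pos.mpr hR0)]
        have h3 := hC (R⁻¹ • y)
        have h4 : R⁻¹ * ‖fderiv ℝ (b0 E) (R⁻¹ • y)‖ ≤ C0 / R := by
          rw [div_eq_inv_mul]
          exact mul_le_mul_of_nonneg_left h3 (inv_nonneg.mpr hR0.le)
        calc ‖F y‖ * (R⁻¹ * ‖fderiv ℝ (b0 E) (R⁻¹ • y)‖) ≤ ‖F y‖ * (C0 / R) :=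
              mul_le_mul_of_nonneg_left h4 (norm_nonneg _)
          _ = _ := mul_comm _ _
    rw [integral_add i4 i3, integral_add i1 i2, integral_const_mul] at h5
    have h6 : (C0 / R) * ∫ y, ‖F y‖ ≤ C0 * (∫ y, ‖f y‖) / R := by
      have h7 : (C0 / R) * ∫ y, ‖F y‖ ≤ (C0 / R) * ∫ y, ‖f y‖ :=
        mul_le_mul_of_nonneg_left hFn (by positivity)
      refine h7.trans (le_of_eq ?_)
      ring
    rw [hδ] at hGG hR2 hR3
    linarith

/-- a fast approximating sequence for a Sobolev function -/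
theorem exists_fastSeq (hf : Integrable f) (hG : Integrable G) (hW : IsWeakGradient f G) :
    ∃ fk : ℕ → E → ℝ, FastSeq f fk ∧
      ∀ η > 0, ∃ k, ∫ y, ‖f y - fk k y‖ ≤ η ∧ ∫ y, ‖fderiv ℝ (fk k) y‖ ≤ (∫ y, ‖G y‖) + η := by
  have hη : ∀ k : ℕ, (0 : ℝ) < (1 / 16 : ℝ) ^ k / 2 := fun k => by positivity
  choose fk h1 h2 h3 h4 using fun k : ℕ => exists_approx hf hG hW (hη k)
  have hdi : ∀ k, Integrable (fderiv ℝ (fk k)) := fun k =>
    ((h1 k).continuous_fderiv (by norm_num)).integrable_of_hasCompactSupport ((h2 k).fderiv (𝕜 := ℝ))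
  have hGf : Integrable (fun y => innerSL ℝ (G y)) := (innerSL ℝ).integrable_comp hG
  have hlim0 : Tendsto (fun k : ℕ => (1 / 16 : ℝ) ^ k / 2) atTop (𝓝 0) := by
    have : Tendsto (fun k : ℕ => (1 / 16 : ℝ) ^ k) atTop (𝓝 0) :=
      tendsto_pow_atTop_nhds_zero_of_lt_one (by norm_num) (by norm_num)
    simpa using this.div_const 2
  refine ⟨fk, ⟨h1, h2, hf, ?_, ?_⟩, ?_⟩
  · refine squeeze_zero (fun k => integral_nonneg fun y => norm_nonneg _) h3 hlim0
  · intro k
    have i1 : Integrable (fun y => ‖fderiv ℝ (fk (k + 1)) y - innerSL ℝ (G y)‖) := ((hdi _).sub hGf).norm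
    have i2 : Integrable (fun y => ‖fderiv ℝ (fk k) y - innerSL ℝ (G y)‖) := ((hdi _).sub hGf).norm
    have i3 : Integrable (fun y => ‖fderiv ℝ (fk (k + 1)) y - innerSL ℝ (G y)‖ +
        ‖fderiv ℝ (fk k) y - innerSL ℝ (G y)‖) := i1.add i2
    have h5 : ∫ y, ‖fderiv ℝ (fk (k + 1)) y - fderiv ℝ (fk k) y‖ ≤
        ∫ y, (‖fderiv ℝ (fk (k + 1)) y - innerSL ℝ (G y)‖ + ‖fderiv ℝ (fk k) y - innerSL ℝ (G y)‖) := by
      apply integral_mono_of_nonneg (Eventually.of_forall fun y => norm_nonneg _) i3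
      refine Eventually.of_forall fun y => ?_
      exact norm_sub_le_norm_sub_add_norm_sub _ _ _ |>.trans (by rw [norm_sub_rev (innerSL ℝ (G y))])
    rw [integral_add i1 i2] at h5
    have h6 := h4 (k + 1)
    have h7 := h4 k
    have h8 : (1 / 16 : ℝ) ^ (k + 1) ≤ (1 / 16 : ℝ) ^ k := pow_le_pow_of_le_one (by norm_num) (by norm_num) (Nat.le_succ k)
    have h9 : (1 / 16 : ℝ) ^ k ≤ (1 / 8 : ℝ) ^ k := pow_le_pow_left₀ (by norm_num) (by norm_num) k
    linarith
  · intro η hη0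
    obtain ⟨k, hk⟩ := (hlim0.eventually (gt_mem_nhds hη0)).exists
    refine ⟨k, (h3 k).trans hk.le, ?_⟩
    have i2 : Integrable (fun y => ‖fderiv ℝ (fk k) y - innerSL ℝ (G y)‖) := ((hdi _).sub hGf).norm
    have i3 : Integrable (fun y => ‖fderiv ℝ (fk k) y - innerSL ℝ (G y)‖ + ‖G y‖) := i2.add hG.norm
    have h5 : ∫ y, ‖fderiv ℝ (fk k) y‖ ≤ ∫ y, (‖fderiv ℝ (fk k) y - innerSL ℝ (G y)‖ + ‖G y‖) := by
      apply integral_mono_of_nonneg (Eventually.of_forall fun y => norm_nonneg _) i3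
      refine Eventually.of_forall fun y => ?_
      have e1 : ‖fderiv ℝ (fk k) y‖ ≤ ‖fderiv ℝ (fk k) y - innerSL ℝ (G y)‖ + ‖innerSL ℝ (G y)‖ :=
        norm_le_norm_sub_add _ _
      rwa [innerSL_apply_norm] at e1
    rw [integral_add i2 hG.norm] at h5
    have h7 := h4 k
    linarith

end

end Vale.Agent.Lib.P137
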