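import Vale.Agent.Lib.P137.Dual
import Vale.Agent.Lib.P137.Geom2

namespace Vale.Agent.Lib.P137

open MeasureTheory Metric Set Filter Topology
open scoped ENNReal

set_option linter.unusedSectionVars false

variable {E : Type*} [NormedAddCommGroup E] [InnerProductSpace ℝ E] [FiniteDimensional ℝ E]
  [MeasurableSpace E] [BorelSpace E]

/-- the dilation sending `ball c ρ` to `ball (c + a e) (4 ρ)` -/
def Tmap (c e : E) (a : ℝ) (y : E) : E := c + a • e + (4 : ℝ) • (y - c)

lemma Tmap_add_smul (c e : E) (a : ℝ) (y ζ : E) (s : ℝ) :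
    Tmap c e a (y + s • ζ) = Tmap c e a y + (4 * s) • ζ := by
  unfold Tmap
  module

lemma Tmap_add (c e : E) (a : ℝ) (y ξ : E) :
    Tmap c e a y + ξ = y + ((a • e + ξ) + (3 : ℝ) • (y - c)) := by
  unfold Tmap
  module

lemma continuous_Tmap (c e : E) (a : ℝ) : Continuous (Tmap c e a) := by
  unfold Tmap
  fun_prop

/-- integrability of a continuous kernel on a product of balls -/
lemma integrable_continuous_prod {k : E × E → ℝ} (hk : Continuous k) (c1 c2 : E) (R1 R2 : ℝ) :
    Integrable k ((volume.restrict (ball c1 R1)).prod (volume.restrict (ball c2 R2))) := by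
  rw [Measure.prod_restrict]
  have h : IntegrableOn k (closedBall c1 R1 ×ˢ closedBall c2 R2) (volume.prod volume) :=
    hk.continuousOn.integrableOn_compact ((isCompact_closedBall _ _).prod (isCompact_closedBall _ _))
  exact h.mono_set (prod_mono ball_subset_closedBall ball_subset_closedBall)

/-- scaling of the ball average under the dilation -/
lemma av_scale (Φ : E → ℝ) (c e : E) (a : ℝ) {s : ℝ} (hs : 0 < s) (y : E) :
    av (4 * s) Φ (Tmap c e a y) = av s (fun z => Φ (Tmap c e a z)) y := by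
  have h4 : (0 : ℝ) < 4 * s := by positivity
  have hv1 := vb_pos (E := E) (s := 1) one_pos
  simp only [av]
  rw [setIntegral_ball_scale Φ _ h4, setIntegral_ball_scale _ y hs, vb_scale h4, vb_scale hs]
  simp only [Tmap_add_smul]
  simp only [smul_eq_mul]
  have hs' : s ^ Module.finrank ℝ E ≠ 0 := by positivity
  have h4' : (4 * s) ^ Module.finrank ℝ E ≠ 0 := by positivity
  field_simp

lemma av_sub {Φ1 Φ2 : E → ℝ} (h1 : Continuous Φ1) (h2 : Continuous Φ2) (s : ℝ) (y : E) :
    av s (fun z => Φ1 z - Φ2 z) y = av s Φ1 y - av s Φ2 y := by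
  simp only [av, smul_eq_mul]
  rw [integral_sub (integrableOn_ball_of_continuous h1 y s) (integrableOn_ball_of_continuous h2 y s)]
  ring

/-- difference between a level function and the next level at the dilated point -/
noncomputable def Wf (f : E → ℝ) (δ : ℝ) (c e : E) (a : ℝ) (j : ℕ) (y : E) : ℝ :=
  lev f δ j y - lev f δ (j + 1) (Tmap c e a y)

section

variable {f : E → ℝ} {δ : ℝ}

lemma lev_continuous (hf : ContDiff ℝ 1 f) (hc : HasCompactSupport f) (j : ℕ) :
    Continuous (lev f δ j) := (lev_contDiff hf hc j).1.continuous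

lemma Wf_continuous (hf : ContDiff ℝ 1 f) (hc : HasCompactSupport f) (c e : E) (a : ℝ) (j : ℕ) :
    Continuous (Wf f δ c e a j) :=
  (lev_continuous hf hc j).sub ((lev_continuous hf hc (j + 1)).comp (continuous_Tmap c e a))

lemma Wf_succ (hf : ContDiff ℝ 1 f) (hc : HasCompactSupport f) (hδ : 0 < δ) (c e : E) (a : ℝ)
    (j : ℕ) (y : E) :
    Wf f δ c e a (j + 1) y = av (δ * 4 ^ j) (Wf f δ c e a j) y := by
  have hs : 0 < δ * 4 ^ j := by positivity
  have h1 : lev f δ (j + 2) (Tmap c e a y) =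
      av (δ * 4 ^ j) (fun z => lev f δ (j + 1) (Tmap c e a z)) y := by
    rw [← av_scale _ c e a hs y, lev_succ f δ (j + 1)]
    congr 1
    rw [pow_succ]; ring
  unfold Wf
  rw [h1]
  have hcT : Continuous (fun z => lev f δ (j + 1) (Tmap c e a z)) :=
    (lev_continuous (δ := δ) hf hc (j + 1)).comp (continuous_Tmap c e a)
  have h2 := av_sub (lev_continuous (δ := δ) hf hc j) hcT (δ * 4 ^ j) y
  have h3 : lev f δ (j + 1) y = av (δ * 4 ^ j) (lev f δ j) y := rfl
  rw [h2, h3]

/-- the segment integral of `Ψ` -/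
noncomputable def Yf (Ψ : E → ℝ) (c : E) (w y : E) : ℝ :=
  ∫ t in (0 : ℝ)..1, Ψ (y + t • (w + (3 : ℝ) • (y - c)))

lemma Yf_nonneg {Ψ : E → ℝ} (hΨ0 : ∀ y, 0 ≤ Ψ y) (c w y : E) : 0 ≤ Yf Ψ c w y :=
  intervalIntegral.integral_nonneg (by norm_num) (fun _ _ => hΨ0 _)

lemma Yf_continuous2 {Ψ : E → ℝ} (hΨ : Continuous Ψ) (c e : E) (a : ℝ) :
    Continuous (fun p : E × E => Yf Ψ c (a • e + p.1) p.2) := by
  unfold Yf
  apply intervalIntegral.continuous_parametric_intervalIntegral_of_continuous'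
  exact hΨ.comp (by fun_prop)

/-- the upper bound for the difference `Wf` -/
noncomputable def Qf (Ψ : E → ℝ) (c e : E) (a s : ℝ) (y : E) : ℝ :=
  a * ((vb E s)⁻¹ * ∫ ξ in ball (0 : E) s, Yf Ψ c (a • e + ξ) y)

lemma Qf_nonneg {Ψ : E → ℝ} (hΨ0 : ∀ y, 0 ≤ Ψ y) (c e : E) {a s : ℝ} (ha : 0 ≤ a) (y : E) :
    0 ≤ Qf Ψ c e a s y := by
  unfold Qf
  apply mul_nonneg ha
  apply mul_nonneg (inv_nonneg.mpr (vb_nonneg s))
  exact integral_nonneg (fun ξ => Yf_nonneg hΨ0 c _ y)

lemma Qf_continuous {Ψ : E → ℝ} (hΨ : Continuous Ψ) (hc : HasCompactSupport Ψ) (c e : E) (a s : ℝ) :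
    Continuous (Qf Ψ c e a s) := by
  obtain ⟨C, hC⟩ := hc.exists_bound_of_continuous hΨ
  unfold Qf
  apply Continuous.const_mul
  apply Continuous.const_mul
  have hk := Yf_continuous2 hΨ c e a
  apply continuous_of_dominated (bound := fun _ => C)
  · intro y
    have : Continuous (fun ξ : E => Yf Ψ c (a • e + ξ) y) :=
      hk.comp (by fun_prop : Continuous (fun ξ : E => (ξ, y)))
    exact this.aestronglyMeasurable
  · intro y
    refine Eventually.of_forall fun ξ => ?_
    unfold Yf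
    have := intervalIntegral.norm_integral_le_of_norm_le_const (a := 0) (b := 1) (C := C)
      (f := fun t : ℝ => Ψ (y + t • ((a • e + ξ) + (3 : ℝ) • (y - c))))
      (fun t _ => by simpa using hC _)
    simpa using this
  · exact integrableOn_const (volume_ball_ne_top _ _)
  · refine Eventually.of_forall fun ξ => ?_
    exact hk.comp (by fun_prop : Continuous (fun y : E => (ξ, y)))

/-- integrating `Qf`: it suffices to bound each slice -/
lemma integral_Qf_le {Ψ : E → ℝ} (hΨ : Continuous Ψ)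
    (c e : E) {a s : ℝ} (ha : 0 ≤ a) (hs : 0 < s) {S : Set E}
    {c0 : E} {R0 X : ℝ} (hSb : S ⊆ ball c0 R0)
    (hX : ∀ ξ ∈ ball (0 : E) s, ∫ y in S, Yf Ψ c (a • e + ξ) y ≤ X) :
    ∫ y in S, Qf Ψ c e a s y ≤ a * X := by
  have hv := vb_pos (E := E) hs
  have hk := Yf_continuous2 hΨ c e a
  have e1 : ∫ y in S, (∫ ξ in ball (0 : E) s, Yf Ψ c (a • e + ξ) y) =
      ∫ ξ in ball (0 : E) s, ∫ y in S, Yf Ψ c (a • e + ξ) y := by
    have hi : Integrable (fun p : E × E => Yf Ψ c (a • e + p.1) p.2)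
        ((volume.restrict (ball (0 : E) s)).prod (volume.restrict (ball c0 R0))) :=
      integrable_continuous_prod hk _ _ _ _
    have hi2 : Integrable (fun p : E × E => Yf Ψ c (a • e + p.1) p.2)
        ((volume.restrict (ball (0 : E) s)).prod (volume.restrict S)) := by
      apply hi.mono_measure
      exact Measure.prod_mono le_rfl (Measure.restrict_mono hSb le_rfl)
    exact (integral_integral_swap hi2).symm
  unfold Qf
  rw [integral_const_mul, integral_const_mul, e1]
  apply mul_le_mul_of_nonneg_left _ ha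
  have e2 : ∫ ξ in ball (0 : E) s, ∫ y in S, Yf Ψ c (a • e + ξ) y ≤ ∫ ξ in ball (0 : E) s, X := by
    apply setIntegral_mono_on
    · have hi : Integrable (fun p : E × E => Yf Ψ c (a • e + p.1) p.2)
          ((volume.restrict (ball (0 : E) s)).prod (volume.restrict (ball c0 R0))) :=
        integrable_continuous_prod hk _ _ _ _
      have hi2 : Integrable (fun p : E × E => Yf Ψ c (a • e + p.1) p.2)
          ((volume.restrict (ball (0 : E) s)).prod (volume.restrict S)) := by
        apply hi.mono_measure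
        exact Measure.prod_mono le_rfl (Measure.restrict_mono hSb le_rfl)
      exact hi2.integral_prod_left
    · exact integrableOn_const (volume_ball_ne_top _ _)
    · exact measurableSet_ball
    · exact hX
  rw [setIntegral_const, smul_eq_mul] at e2
  have e3 : (volume : Measure E).real (ball (0 : E) s) = vb E s := rfl
  rw [e3] at e2
  calc (vb E s)⁻¹ * ∫ ξ in ball (0 : E) s, ∫ y in S, Yf Ψ c (a • e + ξ) y
      ≤ (vb E s)⁻¹ * (vb E s * X) := mul_le_mul_of_nonneg_left e2 (inv_nonneg.mpr hv.le)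
    _ = X := by field_simp

/-- `Wf` is bounded by `Qf` -/
lemma Wf_le_Qf (hf : ContDiff ℝ 1 f) (hc : HasCompactSupport f) (hδ : 0 < δ) {c e : E} {a : ℝ}
    (j : ℕ) {y : E} {ρj : ℝ} (hy : y ∈ ball c ρj)
    (ha : 3 * ρj + δ * 4 ^ j ≤ a) :
    Wf f δ c e a j y ≤ Qf (Psi f δ e j) c e a (δ * 4 ^ j) y := by
  have hs : 0 < δ * 4 ^ j := by positivity
  have hv := vb_pos (E := E) hs
  have hcl := lev_contDiff (δ := δ) hf hc j
  set s := δ * 4 ^ j with hsdef
  have hy' : ‖y - c‖ < ρj := by simpa [dist_eq_norm] using hy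
  have e1 : lev f δ (j + 1) (Tmap c e a y) =
      (vb E s)⁻¹ * ∫ ξ in ball (0 : E) s, lev f δ j (Tmap c e a y + ξ) := by
    rw [lev_succ, av_eq, smul_eq_mul]
  have hbound : ∀ ξ ∈ ball (0 : E) s,
      lev f δ j y - lev f δ j (Tmap c e a y + ξ) ≤ a * Yf (Psi f δ e j) c (a • e + ξ) y := by
    intro ξ hξ
    have hξ' : ‖ξ‖ < s := by simpa using hξ
    have hv' : ‖((a • e + ξ) + (3 : ℝ) • (y - c)) - a • e‖ ≤ a := by
      have e2 : ((a • e + ξ) + (3 : ℝ) • (y - c)) - a • e = ξ + (3 : ℝ) • (y - c) := by abel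
      rw [e2]
      have := norm_add_le ξ ((3 : ℝ) • (y - c))
      rw [norm_smul] at this
      simp only [Real.norm_eq_abs, abs_of_pos (by norm_num : (0 : ℝ) < 3)] at this
      linarith
    have h := ftc_tangent hcl.1 (y := y) (e := e) hv'
    rw [Tmap_add]
    exact h
  have hi1 : IntegrableOn (fun ξ : E => lev f δ j (Tmap c e a y + ξ)) (ball (0 : E) s) :=
    integrableOn_ball_of_continuous ((lev_continuous hf hc j).comp (by fun_prop)) _ _
  have hi2 : IntegrableOn (fun ξ : E => Yf (Psi f δ e j) c (a • e + ξ) y) (ball (0 : E) s) := by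
    have hk := Yf_continuous2 (Psi_continuous (δ := δ) hf hc e j) c e a
    exact integrableOn_ball_of_continuous (hk.comp (by fun_prop : Continuous (fun ξ : E => (ξ, y)))) _ _
  have hi0 : IntegrableOn (fun _ : E => lev f δ j y) (ball (0 : E) s) :=
    integrableOn_const (volume_ball_ne_top _ _)
  have e3 : ∫ ξ in ball (0 : E) s, (lev f δ j y - lev f δ j (Tmap c e a y + ξ)) =
      vb E s * lev f δ j y - ∫ ξ in ball (0 : E) s, lev f δ j (Tmap c e a y + ξ) := by
    rw [integral_sub hi0 hi1, setIntegral_const, smul_eq_mul]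
    rfl
  have h4 : ∫ ξ in ball (0 : E) s, (lev f δ j y - lev f δ j (Tmap c e a y + ξ)) ≤
      ∫ ξ in ball (0 : E) s, a * Yf (Psi f δ e j) c (a • e + ξ) y :=
    setIntegral_mono_on (hi0.sub hi1) (hi2.const_mul a)
      measurableSet_ball hbound
  rw [e3, integral_const_mul] at h4
  unfold Wf Qf
  rw [e1]
  have h5 := mul_le_mul_of_nonneg_left h4 (inv_nonneg.mpr hv.le)
  have e4 : (vb E s)⁻¹ * (vb E s * lev f δ j y - ∫ ξ in ball (0 : E) s, lev f δ j (Tmap c e a y + ξ)) =
      lev f δ j y - (vb E s)⁻¹ * ∫ ξ in ball (0 : E) s, lev f δ j (Tmap c e a y + ξ) := by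
    field_simp
  rw [← e4]
  refine h5.trans (le_of_eq ?_)
  ring

end

end Vale.Agent.Lib.P137
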