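import Vale.Agent.Lib.P137.Point1

namespace Vale.Agent.Lib.P137

open MeasureTheory Metric Set Filter Topology
open scoped ENNReal

set_option linter.unusedSectionVars false

variable {E : Type*} [NormedAddCommGroup E] [InnerProductSpace ℝ E] [FiniteDimensional ℝ E]
  [MeasurableSpace E] [BorelSpace E]

/-- the geometric data of a ball containing `x` -/
structure BallData (δ r ρ : ℝ) (x c e : E) : Prop where
  hδ : 0 < δ
  hδr : 4 * δ ≤ r
  hρ1 : r ≤ ρ
  hρ2 : ρ < 4 * r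
  hx : ‖x - c‖ < ρ
  he : ‖e‖ = 1

/-- the tilt parameter -/
noncomputable def aPar (δ ρ : ℝ) (x c e : E) : ℝ :=
  3 * (ρ + 7 / 3 * δ) + (inner ℝ (x - c) e + ρ) / 2

section

variable {δ r ρ : ℝ} {x c e : E}

lemma BallData.inner_bound (D : BallData δ r ρ x c e) : |inner ℝ (x - c) e| < ρ := by
  have := abs_real_inner_le_norm (x - c) e
  rw [D.he, mul_one] at this
  exact this.trans_lt D.hx

lemma BallData.aPar_ge (D : BallData δ r ρ x c e) : 3 * (ρ + 7 / 3 * δ) ≤ aPar δ ρ x c e := by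
  have := (abs_lt.mp D.inner_bound).1
  unfold aPar
  linarith

lemma BallData.aPar_le (D : BallData δ r ρ x c e) : aPar δ ρ x c e ≤ 3 * (ρ + 7 / 3 * δ) + ρ := by
  have := (abs_lt.mp D.inner_bound).2
  unfold aPar
  linarith

lemma BallData.rpos (D : BallData δ r ρ x c e) : 0 < r := by
  have := D.hδ; have := D.hδr; linarith

lemma BallData.ρpos (D : BallData δ r ρ x c e) : 0 < ρ := D.rpos.trans_le D.hρ1

lemma BallData.aPar_pos (D : BallData δ r ρ x c e) : 0 < aPar δ ρ x c e := by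
  have := D.aPar_ge; have := D.ρpos; have := D.hδ; linarith

lemma BallData.aPar_le_20 (D : BallData δ r ρ x c e) : aPar δ ρ x c e ≤ 20 * r := by
  have := D.aPar_le; have := D.hρ2; have := D.hδr; have := D.hδ
  linarith

lemma LamInv_rel (c w : E) {t : ℝ} (ht : 0 ≤ t) (z : E) :
    z = c + t • w + (1 + 3 * t) • (LamInv c w t z - c) := by
  have h0 : (1 + 3 * t) ≠ 0 := by positivity
  unfold LamInv
  rw [add_sub_cancel_left, smul_smul, mul_inv_cancel₀ h0, one_smul]
  abel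

lemma LamInv_norm (c w : E) {t : ℝ} (ht : 0 ≤ t) (z : E) :
    ‖z - c - t • w‖ = (1 + 3 * t) * ‖LamInv c w t z - c‖ := by
  have h0 : 0 < (1 + 3 * t) := by positivity
  have e : z - c - t • w = (1 + 3 * t) • (LamInv c w t z - c) := by
    conv_lhs => rw [LamInv_rel c w ht z]
    abel
  rw [e, norm_smul, Real.norm_eq_abs, abs_of_pos h0]

/-- a point of the image of a ball lies in a fixed ball around `x` -/
lemma BallData.near (D : BallData δ r ρ x c e) {ξ z : E} {s t Rj : ℝ}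
    (hs : 4 * s ≤ r) (hξ : ‖ξ‖ < s) (ht : t ∈ Ioc (0 : ℝ) 1) (hRj : Rj ≤ ρ + 7 / 3 * δ)
    (hy : LamInv c (aPar δ ρ x c e • e + ξ) t z ∈ ball c Rj) :
    z ∈ ball x (50 * r) := by
  set a := aPar δ ρ x c e with ha
  have ht0 : 0 ≤ t := ht.1.le
  have hy' : ‖LamInv c (a • e + ξ) t z - c‖ < Rj := by simpa [dist_eq_norm] using hy
  have hrel := LamInv_rel c (a • e + ξ) ht0 z
  have hw : ‖a • e + ξ‖ ≤ a + s := by
    have := norm_add_le (a • e) ξ
    rw [norm_smul, D.he, mul_one, Real.norm_eq_abs, abs_of_pos D.aPar_pos] at this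
    linarith
  have h1 : ‖z - c‖ ≤ (a + s) + 4 * Rj := by
    have e1 : z - c = t • (a • e + ξ) + (1 + 3 * t) • (LamInv c (a • e + ξ) t z - c) := by
      conv_lhs => rw [hrel]
      abel
    rw [e1]
    refine (norm_add_le _ _).trans ?_
    rw [norm_smul, norm_smul, Real.norm_eq_abs, Real.norm_eq_abs, abs_of_nonneg ht0,
      abs_of_nonneg (by positivity : 0 ≤ 1 + 3 * t)]
    have h2 : t * ‖a • e + ξ‖ ≤ 1 * (a + s) := mul_le_mul ht.2 hw (norm_nonneg _) zero_le_one
    have h3 : (1 + 3 * t) * ‖LamInv c (a • e + ξ) t z - c‖ ≤ 4 * Rj :=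
      mul_le_mul (by linarith [ht.2]) hy'.le (norm_nonneg _) (by norm_num)
    linarith
  rw [mem_ball, dist_eq_norm]
  have h4 : ‖z - x‖ ≤ ‖z - c‖ + ‖x - c‖ := by
    have := norm_sub_le (z - c) (x - c)
    simpa using this
  have := D.aPar_le; have := D.hρ2; have := D.hδr; have := D.hδ; have := D.hx
  have := D.rpos
  rw [← ha] at *
  linarith

/-- multiplicity bound for the annulus -/
lemma BallData.mult_annulus (D : BallData δ r ρ x c e) {ξ : E} {s lam R : ℝ}
    (hs0 : δ ≤ s) (hs : 16 * s ≤ ρ) (hs4 : 4 * s ≤ r) (hξ : ‖ξ‖ < s) (hlam : 0 < lam) (hR0 : 0 ≤ R)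
    (hR : 1400 * s * ρ < R ^ 2 * (lam / 4) ^ 2) (z : E) :
    volume (Ioc (0 : ℝ) 1 ∩ {t | LamInv c (aPar δ ρ x c e • e + ξ) t z ∈
        ball c (ρ + 7 / 3 * δ - 4 / 3 * s + s) \ ball c (ρ + 7 / 3 * δ - 4 / 3 * s - s)}) ≤
      ENNReal.ofReal lam * (ball x (50 * r)).indicator (fun _ => 1) z +
        (ball x R).indicator (fun _ => 1) z := by
  set a := aPar δ ρ x c e with ha
  set ρ' := ρ + 7 / 3 * δ - 4 / 3 * s with hρ'
  set S := Ioc (0 : ℝ) 1 ∩ {t | LamInv c (a • e + ξ) t z ∈ ball c (ρ' + s) \ ball c (ρ' - s)} with hS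
  by_cases hzR : z ∈ ball x R
  · rw [indicator_of_mem hzR]
    calc volume S ≤ volume (Ioc (0 : ℝ) 1) := measure_mono inter_subset_left
      _ = 1 := by simp
      _ ≤ _ := le_add_self
  by_cases hz50 : z ∈ ball x (50 * r)
  · rw [indicator_of_mem hz50, indicator_of_notMem hzR, mul_one, add_zero]
    have hzx : R ≤ ‖z - x‖ := by simpa [dist_eq_norm] using hzR
    have hg : 0 < lam / 4 := by positivity
    have hsub : S ⊆ Icc 0 1 := fun t ht => Ioc_subset_Icc_self ht.1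
    have key := volume_le_of_no_three hsub hg ?_
    · have e4 : 4 * (lam / 4) = lam := by ring
      rwa [e4] at key
    intro t1 ht1 t2 ht2 t3 ht3 h12 h23
    have hcond : ∀ t ∈ S, |‖z - c - t • (a • e + ξ)‖ - (1 + 3 * t) * ρ'| ≤ (1 + 3 * t) * s := by
      intro t ht
      have ht0 : 0 ≤ t := ht.1.1.le
      have hm := ht.2
      have hm1 : ‖LamInv c (a • e + ξ) t z - c‖ < ρ' + s := by
        simpa [dist_eq_norm] using hm.1
      have hm2 : ρ' - s ≤ ‖LamInv c (a • e + ξ) t z - c‖ := by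
        have := hm.2
        simpa [dist_eq_norm] using this
      rw [LamInv_norm c _ ht0 z, ← mul_sub, abs_mul, abs_of_pos (by positivity : 0 < 1 + 3 * t)]
      apply mul_le_mul_of_nonneg_left _ (by positivity)
      rw [abs_le]
      constructor <;> linarith
    have hthree := three_point (x := x) (c := c) (z := z) (e := e) (ξ := ξ) (ρ := ρ) (δ := δ) (s := s)
      (g := lam / 4) (t1 := t1) (t2 := t2) (t3 := t3) (a := a) (ρ' := ρ')
      D.he D.hx D.hδ hs0 hs hξ.le hg ht1.1.1.le h12 h23 ht3.1.2 rfl rfl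
      (hcond t1 ht1) (hcond t2 ht2) (hcond t3 ht3)
    have h5 : R ^ 2 ≤ ‖z - x‖ ^ 2 := pow_le_pow_left₀ hR0 hzx 2
    have h6 : R ^ 2 * (lam / 4) ^ 2 ≤ ‖z - x‖ ^ 2 * (lam / 4) ^ 2 :=
      mul_le_mul_of_nonneg_right h5 (by positivity)
    linarith
  · have hemp : S = ∅ := by
      apply eq_empty_of_forall_notMem
      intro t ht
      apply hz50
      refine D.near hs4 hξ ht.1 (Rj := ρ' + s) (by rw [hρ']; linarith [(norm_nonneg ξ).trans_lt hξ]) ht.2.1
    rw [hemp]
    simp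

/-- multiplicity bound for the full ball -/
lemma BallData.mult_ball (D : BallData δ r ρ x c e) {ξ : E} {s Rj : ℝ}
    (hs4 : 4 * s ≤ r) (hξ : ‖ξ‖ < s) (hRj : Rj ≤ ρ + 7 / 3 * δ) (z : E) :
    volume (Ioc (0 : ℝ) 1 ∩ {t | LamInv c (aPar δ ρ x c e • e + ξ) t z ∈ ball c Rj}) ≤
      ENNReal.ofReal 0 * (univ : Set E).indicator (fun _ => 1) z +
        (ball x (50 * r)).indicator (fun _ => 1) z := by
  simp only [ENNReal.ofReal_zero, zero_mul, zero_add]
  by_cases hz50 : z ∈ ball x (50 * r)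
  · rw [indicator_of_mem hz50]
    calc _ ≤ volume (Ioc (0 : ℝ) 1) := measure_mono inter_subset_left
      _ = 1 := by simp
  · have hemp : Ioc (0 : ℝ) 1 ∩ {t | LamInv c (aPar δ ρ x c e • e + ξ) t z ∈ ball c Rj} = ∅ := by
      apply eq_empty_of_forall_notMem
      intro t ht
      exact hz50 (D.near hs4 hξ ht.1 hRj ht.2)
    rw [hemp]
    simp

end

end Vale.Agent.Lib.P137
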