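import Vale.Agent.Lib.P137.Point2

namespace Vale.Agent.Lib.P137

open MeasureTheory Metric Set Filter Topology
open scoped ENNReal

set_option linter.unusedSectionVars false

variable {E : Type*} [NormedAddCommGroup E] [InnerProductSpace ℝ E] [FiniteDimensional ℝ E]
  [MeasurableSpace E] [BorelSpace E]

section

variable {f : E → ℝ} {δ r ρ : ℝ} {x c e : E}

/-- one level of the telescoping -/
lemma level_step (hf : ContDiff ℝ 1 f) (hc : HasCompactSupport f) (D : BallData δ r ρ x c e) (j : ℕ)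
    (hs : 16 * (δ * 4 ^ j) ≤ ρ) (hs4 : 4 * (δ * 4 ^ j) ≤ r) {lam R : ℝ} (hlam : 0 < lam) (hR0 : 0 ≤ R)
    (hR : 1400 * (δ * 4 ^ j) * ρ < R ^ 2 * (lam / 4) ^ 2) :
    (∫ y in ball c (ρ + 7 / 3 * δ - δ * 4 ^ j / 3), Wf f δ c e (aPar δ ρ x c e) j y) -
      ∫ y in ball c (ρ + 7 / 3 * δ - δ * 4 ^ (j + 1) / 3), Wf f δ c e (aPar δ ρ x c e) (j + 1) y ≤
    aPar δ ρ x c e * (lam * (∫ z in ball x (50 * r), Psi f δ e j z) +
      ∫ z in ball x R, Psi f δ e j z) := by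
  have hδ := D.hδ
  set s := δ * 4 ^ j with hsdef
  have hs0 : 0 < s := by positivity
  have hδs : δ ≤ s := by
    have : (1 : ℝ) ≤ 4 ^ j := one_le_pow₀ (by norm_num)
    rw [hsdef]; nlinarith
  set a := aPar δ ρ x c e with ha
  have ha0 : 0 ≤ a := D.aPar_pos.le
  set ρ' := ρ + 7 / 3 * δ - 4 / 3 * s with hρ'
  have hsucc : δ * 4 ^ (j + 1) = 4 * s := by rw [hsdef, pow_succ]; ring
  have e1 : ρ + 7 / 3 * δ - s / 3 = ρ' + s := by rw [hρ']; ring
  have e2 : ρ + 7 / 3 * δ - δ * 4 ^ (j + 1) / 3 = ρ' := by rw [hsucc, hρ']; ring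
  rw [e1, e2]
  have hΨ := Psi_continuous (δ := δ) hf hc e j
  have hΨc := Psi_compact (δ := δ) hf hc e j
  have hΨ0 : ∀ y, 0 ≤ Psi f δ e j y := Psi_nonneg (le_of_eq D.he) j
  have hW := Wf_continuous (δ := δ) hf hc c e a j
  have hQ := Qf_continuous hΨ hΨc c e a s
  have hWQ : ∀ y ∈ ball c (ρ' + s), Wf f δ c e a j y ≤ Qf (Psi f δ e j) c e a s y := by
    intro y hy
    apply Wf_le_Qf hf hc hδ j hy
    have := D.aPar_ge
    rw [hρ']
    rw [← ha] at this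
    linarith
  have h1 := ball_avg_step hW hQ c ρ' hs0 hWQ (fun y _ => Qf_nonneg hΨ0 c e ha0 y)
  have e3 : ∫ z in ball c ρ', av s (Wf f δ c e a j) z = ∫ y in ball c ρ', Wf f δ c e a (j + 1) y := by
    apply setIntegral_congr_fun measurableSet_ball
    intro y _
    exact (Wf_succ hf hc hδ c e a j y).symm
  rw [e3] at h1
  refine h1.trans ?_
  apply integral_Qf_le hΨ c e ha0 hs0 (c0 := c) (R0 := ρ' + s) sdiff_subset
  intro ξ hξ
  have hξ' : ‖ξ‖ < s := by simpa using hξ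
  apply integral_Y_le hΨ hΨc hΨ0 (measurableSet_ball.diff measurableSet_ball) (c0 := c)
    (R0 := ρ' + s) sdiff_subset c (a • e + ξ) hlam.le measurableSet_ball measurableSet_ball
  intro z
  exact D.mult_annulus hδs hs hs4 hξ' hlam hR0 hR z

/-- the top level -/
lemma level_top (hf : ContDiff ℝ 1 f) (hc : HasCompactSupport f) (D : BallData δ r ρ x c e) (j : ℕ)
    (hs4 : 4 * (δ * 4 ^ j) ≤ r) :
    ∫ y in ball c (ρ + 7 / 3 * δ - δ * 4 ^ j / 3), Wf f δ c e (aPar δ ρ x c e) j y ≤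
    aPar δ ρ x c e * ∫ z in ball x (50 * r), Psi f δ e j z := by
  have hδ := D.hδ
  set s := δ * 4 ^ j with hsdef
  have hs0 : 0 < s := by positivity
  set a := aPar δ ρ x c e with ha
  have ha0 : 0 ≤ a := D.aPar_pos.le
  set Rj := ρ + 7 / 3 * δ - s / 3 with hRj
  have hΨ := Psi_continuous (δ := δ) hf hc e j
  have hΨc := Psi_compact (δ := δ) hf hc e j
  have hΨ0 : ∀ y, 0 ≤ Psi f δ e j y := Psi_nonneg (le_of_eq D.he) j
  have hW := Wf_continuous (δ := δ) hf hc c e a j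
  have hQ := Qf_continuous hΨ hΨc c e a s
  have hWQ : ∀ y ∈ ball c Rj, Wf f δ c e a j y ≤ Qf (Psi f δ e j) c e a s y := by
    intro y hy
    apply Wf_le_Qf hf hc hδ j hy
    have := D.aPar_ge
    rw [hRj]
    rw [← ha] at this
    linarith
  have h1 : ∫ y in ball c Rj, Wf f δ c e a j y ≤ ∫ y in ball c Rj, Qf (Psi f δ e j) c e a s y :=
    setIntegral_mono_on (integrableOn_ball_of_continuous hW _ _)
      (integrableOn_ball_of_continuous hQ _ _) measurableSet_ball hWQ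
  refine h1.trans ?_
  apply integral_Qf_le hΨ c e ha0 hs0 (c0 := c) (R0 := Rj) (Subset.refl _)
  intro ξ hξ
  have hξ' : ‖ξ‖ < s := by simpa using hξ
  have h2 := integral_Y_le hΨ hΨc hΨ0 (measurableSet_ball (x := c) (ε := Rj)) (c0 := c)
    (R0 := Rj) (Subset.refl _) c (a • e + ξ) (lam := 0) le_rfl (B1 := univ)
    (B2 := ball x (50 * r)) MeasurableSet.univ measurableSet_ball
    (fun z => D.mult_ball hs4 hξ' (by rw [hRj]; linarith) z)
  rw [zero_mul, zero_add] at h2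
  exact h2

/-- the sum appearing in the pointwise bound -/
noncomputable def Zf (f : E → ℝ) (δ : ℝ) (e : E) (m : ℕ) (x : E) : ℝ :=
  (∑ j ∈ Finset.range m, ((3 / 4 : ℝ) ^ (m + 1 - j) *
      (∫ z in ball x (50 * (δ * 4 ^ (m + 1))), Psi f δ e j z) +
      ∫ z in ball x (300 * (δ * 4 ^ (m + 1)) * (2 / 3 : ℝ) ^ (m + 1 - j)), Psi f δ e j z)) +
    ∫ z in ball x (50 * (δ * 4 ^ (m + 1))), Psi f δ e m z

lemma Zf_nonneg {e : E} (he : ‖e‖ ≤ 1) (m : ℕ) (x : E) : 0 ≤ Zf f δ e m x := by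
  unfold Zf
  have h0 : ∀ (j : ℕ) (b : E) (R : ℝ), 0 ≤ ∫ z in ball b R, Psi f δ e j z :=
    fun j b R => integral_nonneg (Psi_nonneg he j)
  apply add_nonneg _ (h0 _ _ _)
  apply Finset.sum_nonneg
  intro j _
  exact add_nonneg (mul_nonneg (by positivity) (h0 _ _ _)) (h0 _ _ _)

/-- the real inequality for the radii -/
lemma radius_ineq {s r ρ : ℝ} {q : ℕ} (hs : s = r * (1 / 4 : ℝ) ^ q) (hr : 0 < r) (hρ : ρ < 4 * r) :
    1400 * s * ρ < (300 * r * (2 / 3 : ℝ) ^ q) ^ 2 * ((3 / 4 : ℝ) ^ q / 4) ^ 2 := by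
  have hu : 0 < (1 / 4 : ℝ) ^ q := by positivity
  have e : (300 * r * (2 / 3 : ℝ) ^ q) ^ 2 * ((3 / 4 : ℝ) ^ q / 4) ^ 2 =
      5625 * r ^ 2 * (1 / 4 : ℝ) ^ q := by
    have h1 : ((2 / 3 : ℝ) ^ q * (3 / 4 : ℝ) ^ q) ^ 2 = (1 / 4 : ℝ) ^ q := by
      rw [← mul_pow, ← pow_mul, mul_comm q 2, pow_mul]
      norm_num
    calc (300 * r * (2 / 3 : ℝ) ^ q) ^ 2 * ((3 / 4 : ℝ) ^ q / 4) ^ 2
        = 5625 * r ^ 2 * ((2 / 3 : ℝ) ^ q * (3 / 4 : ℝ) ^ q) ^ 2 := by ring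
      _ = _ := by rw [h1]
  rw [e, hs]
  have h2 : r * (1 / 4 : ℝ) ^ q * ρ < r * (1 / 4 : ℝ) ^ q * (4 * r) :=
    mul_lt_mul_of_pos_left hρ (by positivity)
  have h3 : 0 < r ^ 2 * (1 / 4 : ℝ) ^ q := by positivity
  nlinarith

/-- the telescoped bound -/
lemma telescoped (hf : ContDiff ℝ 1 f) (hc : HasCompactSupport f) {m : ℕ}
    (D : BallData δ (δ * 4 ^ (m + 1)) ρ x c e) :
    ∫ y in ball c (ρ + 7 / 3 * δ - δ * 4 ^ 0 / 3), Wf f δ c e (aPar δ ρ x c e) 0 y ≤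
      aPar δ ρ x c e * Zf f δ e m x := by
  have hδ := D.hδ
  set r := δ * 4 ^ (m + 1) with hr
  have hr0 : 0 < r := by positivity
  set a := aPar δ ρ x c e with ha
  have key : ∀ k, k ≤ m →
      ∫ y in ball c (ρ + 7 / 3 * δ - δ * 4 ^ 0 / 3), Wf f δ c e a 0 y ≤
        (∫ y in ball c (ρ + 7 / 3 * δ - δ * 4 ^ k / 3), Wf f δ c e a k y) +
        a * ∑ j ∈ Finset.range k, ((3 / 4 : ℝ) ^ (m + 1 - j) *
          (∫ z in ball x (50 * r), Psi f δ e j z) +
          ∫ z in ball x (300 * r * (2 / 3 : ℝ) ^ (m + 1 - j)), Psi f δ e j z) := by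
    intro k
    induction k with
    | zero => intro _; simp
    | succ k ih =>
      intro hk
      have hk' : k ≤ m := by omega
      have h1 := ih hk'
      have hq : k + 2 ≤ m + 1 := by omega
      have hpow : (δ * 4 ^ k) * 4 ^ 2 ≤ r := by
        rw [hr, mul_assoc, ← pow_add]
        apply mul_le_mul_of_nonneg_left _ hδ.le
        exact pow_le_pow_right₀ (by norm_num) hq
      have hs : 16 * (δ * 4 ^ k) ≤ ρ := by
        have := D.hρ1
        nlinarith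
      have hs4 : 4 * (δ * 4 ^ k) ≤ r := by
        have : 0 < δ * 4 ^ k := by positivity
        nlinarith
      have hsr : δ * 4 ^ k = r * (1 / 4 : ℝ) ^ (m + 1 - k) := by
        have h4 : (4 : ℝ) ^ (m + 1 - k) * (1 / 4 : ℝ) ^ (m + 1 - k) = 1 := by
          rw [← mul_pow]; norm_num
        have h5 : r = δ * 4 ^ k * 4 ^ (m + 1 - k) := by
          rw [hr, mul_assoc, ← pow_add]
          congr 2
          omega
        rw [h5, mul_assoc (δ * 4 ^ k), h4, mul_one]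
      have h2 := level_step hf hc D k hs hs4 (lam := (3 / 4 : ℝ) ^ (m + 1 - k))
        (R := 300 * r * (2 / 3 : ℝ) ^ (m + 1 - k)) (by positivity) (by positivity)
        (radius_ineq hsr hr0 D.hρ2)
      rw [Finset.sum_range_succ, mul_add]
      linarith
  have h1 := key m le_rfl
  have h2 := level_top hf hc D m (by rw [hr, pow_succ]; apply le_of_eq; ring)
  unfold Zf
  rw [mul_add]
  linarith

end

end Vale.Agent.Lib.P137
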