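import Vale.Agent.Lib.P137.Shrink2

namespace Vale.Agent.Lib.P137

open MeasureTheory Metric Set Filter Topology
open scoped ENNReal

set_option linter.unusedSectionVars false

variable {E : Type*} [NormedAddCommGroup E] [InnerProductSpace ℝ E] [FiniteDimensional ℝ E]
  [MeasurableSpace E] [BorelSpace E]

/-- supremum over balls containing `x` with radius in `[lo,hi)` -/
noncomputable def aSup (V : E → ℝ → ℝ) (lo hi : ℝ) (x : E) : ℝ :=
  ⨆ p : {p : E × ℝ // lo ≤ p.2 ∧ p.2 < hi ∧ x ∈ ball p.1 p.2}, V p.1.1 p.1.2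

/-- value functions on balls -/
structure ValFn (V : E → ℝ → ℝ) (M R1 U : ℝ) : Prop where
  nonneg : ∀ c ρ, 0 < ρ → 0 ≤ V c ρ
  le : ∀ c ρ, 0 < ρ → V c ρ ≤ M
  cont : ContinuousOn (fun p : E × ℝ => V p.1 p.2) {p | 0 < p.2}
  far : ∀ c ρ x, 0 < ρ → ρ < U → x ∈ ball c ρ → R1 ≤ ‖x‖ → V c ρ = 0

variable {V : E → ℝ → ℝ} {M R1 U : ℝ}

lemma aSup_nonneg (hV : ValFn V M R1 U) {lo : ℝ} (hlo : 0 < lo) (hi : ℝ) (x : E) :
    0 ≤ aSup V lo hi x :=
  Real.iSup_nonneg (fun p => hV.nonneg _ _ (hlo.trans_le p.2.1))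

lemma M_nonneg (hV : ValFn V M R1 U) : 0 ≤ M :=
  (hV.nonneg 0 1 one_pos).trans (hV.le 0 1 one_pos)

lemma le_aSup (hV : ValFn V M R1 U) {lo hi : ℝ} (hlo : 0 < lo) {x c : E} {ρ : ℝ}
    (h1 : lo ≤ ρ) (h2 : ρ < hi) (hx : x ∈ ball c ρ) : V c ρ ≤ aSup V lo hi x := by
  have hb : BddAbove (range (fun p : {p : E × ℝ // lo ≤ p.2 ∧ p.2 < hi ∧ x ∈ ball p.1 p.2} =>
      V p.1.1 p.1.2)) :=
    ⟨M, by rintro _ ⟨p, rfl⟩; exact hV.le _ _ (hlo.trans_le p.2.1)⟩
  exact le_ciSup hb (⟨(c, ρ), h1, h2, hx⟩ : {p : E × ℝ // lo ≤ p.2 ∧ p.2 < hi ∧ x ∈ ball p.1 p.2})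

lemma aSup_le (_hV : ValFn V M R1 U) {lo hi : ℝ} {x : E} {a : ℝ} (ha : 0 ≤ a)
    (h : ∀ c ρ, lo ≤ ρ → ρ < hi → x ∈ ball c ρ → V c ρ ≤ a) : aSup V lo hi x ≤ a :=
  Real.iSup_le (fun p => h _ _ p.2.1 p.2.2.1 p.2.2.2) ha

/-- the dominating function -/
noncomputable def bdFn (M R1 : ℝ) : E → ℝ := (ball (0 : E) R1).indicator (fun _ => M)

lemma integrable_bdFn (M R1 : ℝ) : Integrable (bdFn M R1 : E → ℝ) :=
  (integrableOn_const (volume_ball_ne_top _ _)).integrable_indicator measurableSet_ball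

lemma bdFn_nonneg (hM : 0 ≤ M) (x : E) : 0 ≤ bdFn M R1 x :=
  indicator_nonneg (fun _ _ => hM) x

lemma val_le_bd (hV : ValFn V M R1 U) {c x : E} {ρ : ℝ} (h0 : 0 < ρ) (h1 : ρ < U)
    (hx : x ∈ ball c ρ) : V c ρ ≤ bdFn M R1 x := by
  unfold bdFn
  by_cases hx0 : x ∈ ball (0 : E) R1
  · simp only [indicator_of_mem hx0]; exact hV.le _ _ h0
  · simp only [indicator_of_notMem hx0]
    have : R1 ≤ ‖x‖ := by simpa using hx0
    exact (hV.far c ρ x h0 h1 hx this).le

lemma aSup_le_bd (hV : ValFn V M R1 U) {lo hi : ℝ} (hlo : 0 < lo) (hhi : hi ≤ U) (x : E) :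
    aSup V lo hi x ≤ bdFn M R1 x :=
  aSup_le hV (bdFn_nonneg (M_nonneg hV) x)
    (fun _ _ h1 h2 hx => val_le_bd hV (hlo.trans_le h1) (h2.trans_le hhi) hx)

lemma SPair.addClass [Nontrivial E] {ε lo hi : ℝ} {g h : E → ℝ} (hV : ValFn V M R1 U) (P : SPair ε g h)
    (hε : 0 < ε) (hlo : 0 < lo) (hlohi : lo < hi) (hhi : hi ≤ U)
    (hgB : ∀ x, g x ≤ bdFn M R1 x) (hhB : ∀ x, h x ≤ bdFn M R1 x) :
    ∃ H : E → ℝ, SPair ε (fun x => max (g x) (aSup V lo hi x)) H ∧ (∀ x, H x ≤ bdFn M R1 x) ∧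
    (∫ x, (max (g x) (aSup V lo hi x) - H x)) ≤
      (∫ x, (g x - h x)) +
        (Module.finrank ℝ E * ε / lo) * ∫ x, (max (g x) (aSup V lo hi x) - g x) := by
  have hlo0 : 0 < lo := hlo
  let S := {p : E × ℝ // lo ≤ p.2 ∧ p.2 < hi}
  have : Nonempty S := ⟨⟨((0 : E), lo), le_rfl, hlohi⟩⟩
  let q : ℕ → S := TopologicalSpace.denseSeq S
  let A : ℕ → ℝ := fun n => V (q n).1.1 (q n).1.2
  let c : ℕ → E := fun n => (q n).1.1
  let ρ : ℕ → ℝ := fun n => (q n).1.2
  have hρ : ∀ n, lo ≤ ρ n := fun n => (q n).2.1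
  have hρ2 : ∀ n, ρ n < hi := fun n => (q n).2.2
  obtain ⟨H, hH1, hH2, hH3⟩ := P.limit hε hlo A c ρ hρ (integrable_bdFn M R1) hgB hhB
    (fun n x hx => val_le_bd hV (hlo0.trans_le (hρ n)) ((hρ2 n).trans_le hhi) hx)
  have key : ∀ x, (⨆ n, addSeq A c ρ g n x) = max (g x) (aSup V lo hi x) := by
    intro x
    have hS0 : 0 ≤ aSup V lo hi x := aSup_nonneg hV hlo0 hi x
    have hbd : ∀ n, addSeq A c ρ g n x ≤ max (g x) (aSup V lo hi x) := by
      intro n
      induction n with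
      | zero => exact le_max_left _ _
      | succ n ih =>
        apply max_le ih
        by_cases hx : x ∈ ball (c n) (ρ n)
        · simp only [indicator_of_mem hx]
          exact le_max_of_le_right (le_aSup hV hlo0 (hρ n) (hρ2 n) hx)
        · simp only [indicator_of_notMem hx]
          exact le_max_of_le_right hS0
    have bdd : BddAbove (range (fun n => addSeq A c ρ g n x)) :=
      ⟨_, by rintro _ ⟨n, rfl⟩; exact hbd n⟩
    apply le_antisymm (ciSup_le hbd)
    have hG0 : g x ≤ ⨆ n, addSeq A c ρ g n x := le_ciSup (f := fun n => addSeq A c ρ g n x) bdd 0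
    apply max_le hG0
    apply aSup_le hV ((P.g0 x).trans hG0)
    intro c0 ρ0 h1 h2 hx
    apply le_of_forall_pos_le_add
    intro η hη
    let O : Set S := {p | x ∈ ball p.1.1 p.1.2 ∧ V c0 ρ0 - η < V p.1.1 p.1.2}
    have hO : IsOpen O := by
      have hO1 : IsOpen {p : S | x ∈ ball p.1.1 p.1.2} := by
        have : Continuous (fun p : S => p.1.2 - dist x p.1.1) := by fun_prop
        have h3 := isOpen_lt (continuous_const (y := (0 : ℝ))) this
        have e : {p : S | x ∈ ball p.1.1 p.1.2} = {b : S | 0 < b.1.2 - dist x b.1.1} := by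
          ext p
          simp [mem_ball]
        rw [e]
        exact h3
      have hc : Continuous (fun p : S => V p.1.1 p.1.2) :=
        hV.cont.comp_continuous continuous_subtype_val (fun p => hlo0.trans_le p.2.1)
      have hO2 : IsOpen {p : S | V c0 ρ0 - η < V p.1.1 p.1.2} := isOpen_lt continuous_const hc
      exact hO1.inter hO2
    have hne : O.Nonempty := ⟨⟨(c0, ρ0), h1, h2⟩, hx, by simp only; linarith⟩
    obtain ⟨n, hn⟩ := (TopologicalSpace.denseRange_denseSeq S).exists_mem_open hO hne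
    have hxn : x ∈ ball (c n) (ρ n) := hn.1
    have h5 : A n ≤ addSeq A c ρ g (n + 1) x := by
      change A n ≤ max _ _
      simp only [indicator_of_mem hxn]
      exact le_max_right _ _
    have h6 : addSeq A c ρ g (n + 1) x ≤ ⨆ n, addSeq A c ρ g n x :=
      le_ciSup (f := fun n => addSeq A c ρ g n x) bdd (n + 1)
    have h7 : V c0 ρ0 - η < A n := hn.2
    linarith
  simp_rw [key] at hH1 hH3
  exact ⟨H, hH1, hH2, hH3⟩

/-- splitting a radius range -/
lemma aSup_split (hV : ValFn V M R1 U) {lo mid hi : ℝ} (hlo : 0 < lo) (h1 : lo ≤ mid)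
    (h2 : mid ≤ hi) (x : E) :
    max (aSup V mid hi x) (aSup V lo mid x) = aSup V lo hi x := by
  have hmid : 0 < mid := hlo.trans_le h1
  apply le_antisymm
  · apply max_le
    · apply aSup_le hV (aSup_nonneg hV hlo hi x)
      intro c ρ h3 h4 hx
      exact le_aSup hV hlo (h1.trans h3) h4 hx
    · apply aSup_le hV (aSup_nonneg hV hlo hi x)
      intro c ρ h3 h4 hx
      exact le_aSup hV hlo h3 (h4.trans_le h2) hx
  · apply aSup_le hV (le_max_of_le_left (aSup_nonneg hV hmid hi x))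
    intro c ρ h3 h4 hx
    by_cases h : mid ≤ ρ
    · exact le_max_of_le_left (le_aSup hV hmid h h4 hx)
    · exact le_max_of_le_right (le_aSup hV hlo h3 (not_le.mp h) hx)

/-- translation estimate from a shrink pair -/
lemma SPair.translate {ε : ℝ} {g h : E → ℝ} (P : SPair ε g h) (hε : 0 < ε) {v : E} (hv : ‖v‖ < ε) :
    ∫ x, ‖g (x + v) - g x‖ ≤ 2 * ∫ x, (g x - h x) := by
  have hself : ∀ x, h x ≤ g x := fun x => P.prop x x (by simpa using hε)
  have h1 : ∀ x, h (x + v) ≤ g x := fun x => P.prop x (x + v) (by simpa using hv)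
  have h2 : ∀ x, h x ≤ g (x + v) := fun x => P.prop (x + v) x (by simpa using hv)
  have i0 : Integrable (fun x => g x - h x) := P.ig.sub P.ih
  have i1 : Integrable (fun x => g (x + v) - h (x + v)) := i0.comp_add_right v
  have i2 : Integrable (fun x => g (x + v) - g x) := (P.ig.comp_add_right v).sub P.ig
  have hint : ∫ x, (g (x + v) - h (x + v)) = ∫ x, (g x - h x) :=
    integral_add_right_eq_self (fun x => g x - h x) v
  calc ∫ x, ‖g (x + v) - g x‖ ≤ ∫ x, ((g (x + v) - h (x + v)) + (g x - h x)) := by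
        have i3 : Integrable (fun x => (g (x + v) - h (x + v)) + (g x - h x)) := i1.add i0
        apply integral_mono i2.norm i3
        intro x
        have := hself x
        have := hself (x + v)
        have := h1 x
        have := h2 x
        simp only [Real.norm_eq_abs, abs_le]
        constructor <;> linarith
    _ = 2 * ∫ x, (g x - h x) := by
        rw [integral_add i1 i0, hint]; ring

/-- the shrink estimate over a finite range of scales -/
lemma shrink_classes [Nontrivial E] (hV : ValFn V M R1 U) {ε r : ℝ} (hε : 0 < ε) (hr : 0 < r) {K : ℕ}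
    (hU : U = r * 4 ^ (K + 2)) (i : ℕ) (hi : i ≤ K) :
    ∃ h : E → ℝ, SPair ε (aSup V (r * 4 ^ i) U) h ∧ (∀ x, h x ≤ bdFn M R1 x) ∧
      (∫ x, (aSup V (r * 4 ^ i) U x - h x)) ≤
        (Module.finrank ℝ E * ε / (r * 4 ^ K)) * (∫ x, aSup V (r * 4 ^ K) U x) +
        ∑ l ∈ Finset.Ico i K, (Module.finrank ℝ E * ε / (r * 4 ^ l)) *
          ∫ x, (aSup V (r * 4 ^ l) U x - aSup V (r * 4 ^ (l + 1)) U x) := by
  have hr0 : 0 < r := hr
  have hRpos : ∀ l : ℕ, 0 < r * 4 ^ l := fun l => by positivity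
  have hMono : ∀ l : ℕ, r * 4 ^ l < r * 4 ^ (l + 1) := by
    intro l
    have : (0 : ℝ) < 4 ^ l := by positivity
    rw [pow_succ]
    nlinarith
  have hKU : r * 4 ^ K < U := by
    rw [hU]
    have : (0 : ℝ) < 4 ^ K := by positivity
    rw [pow_add]
    nlinarith
  have hM := M_nonneg hV
  induction hi using Nat.decreasingInduction with
  | self =>
    have P0 : SPair ε (fun _ : E => (0 : ℝ)) (fun _ : E => (0 : ℝ)) :=
      ⟨integrable_zero _ _ _, integrable_zero _ _ _, fun _ => le_rfl, fun _ => le_rfl,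
        fun _ _ _ => le_rfl⟩
    obtain ⟨H, h1, h2, h3⟩ := P0.addClass hV hε (hRpos K) hKU le_rfl
      (fun x => bdFn_nonneg hM x) (fun x => bdFn_nonneg hM x)
    have e : (fun x => max (0 : ℝ) (aSup V (r * 4 ^ K) U x)) = aSup V (r * 4 ^ K) U := by
      ext x
      exact max_eq_right (aSup_nonneg hV (hRpos K) U x)
    simp only [e] at h1 h3
    refine ⟨H, h1, h2, ?_⟩
    have e2 : (fun x => max (0 : ℝ) (aSup V (r * 4 ^ K) U x) - 0) = aSup V (r * 4 ^ K) U := by
      ext x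
      rw [sub_zero]
      exact max_eq_right (aSup_nonneg hV (hRpos K) U x)
    simp only [Finset.Ico_self, Finset.sum_empty, add_zero]
    simpa [e, max_eq_right, aSup_nonneg hV (hRpos K) U] using h3
  | of_succ k hk ih =>
    obtain ⟨h, h1, h2, h3⟩ := ih
    have hle : r * 4 ^ (k + 1) ≤ U := by
      have : r * 4 ^ (k + 1) ≤ r * 4 ^ K := by
        apply mul_le_mul_of_nonneg_left _ hr0.le
        exact pow_le_pow_right₀ (by norm_num) hk
      exact this.trans hKU.le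
    obtain ⟨H, h4, h5, h6⟩ := h1.addClass hV hε (hRpos k) (hMono k) hle
      (fun x => aSup_le_bd hV (hRpos (k + 1)) le_rfl x) h2
    have e : ∀ x, max (aSup V (r * 4 ^ (k + 1)) U x) (aSup V (r * 4 ^ k) (r * 4 ^ (k + 1)) x) =
        aSup V (r * 4 ^ k) U x := fun x => aSup_split hV (hRpos k) (hMono k).le hle x
    simp only [e] at h4 h6
    refine ⟨H, h4, h5, ?_⟩
    rw [Finset.sum_eq_sum_Ico_succ_bot hk]
    linarith

/-- translation estimate over a finite range of scales -/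
lemma shrink_translate [Nontrivial E] (hV : ValFn V M R1 U) {ε r : ℝ} (hε : 0 < ε) (hr : 0 < r) {K : ℕ}
    (hU : U = r * 4 ^ (K + 2)) {v : E} (hv : ‖v‖ < ε) :
    ∫ x, ‖aSup V r U (x + v) - aSup V r U x‖ ≤
      2 * Module.finrank ℝ E * ε * ((1 / (r * 4 ^ K)) * (∫ x, aSup V (r * 4 ^ K) U x) +
        ∑ l ∈ Finset.range K, (1 / (r * 4 ^ l)) *
          ∫ x, (aSup V (r * 4 ^ l) U x - aSup V (r * 4 ^ (l + 1)) U x)) := by
  obtain ⟨h, h1, -, h3⟩ := shrink_classes hV hε hr hU 0 (Nat.zero_le K)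
  simp only [pow_zero, mul_one] at h1 h3
  have h4 := h1.translate hε hv
  refine h4.trans ?_
  rw [mul_assoc 2, mul_assoc 2]
  apply mul_le_mul_of_nonneg_left _ (by norm_num)
  refine h3.trans (le_of_eq ?_)
  rw [mul_add, Finset.mul_sum, ← Finset.range_eq_Ico]
  congr 1
  · ring
  · apply Finset.sum_congr rfl
    intro l _
    ring

end Vale.Agent.Lib.P137
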