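import Vale.Agent.Lib.P137.Point3
import Vale.Agent.Lib.P137.Shrink3

namespace Vale.Agent.Lib.P137

open MeasureTheory Metric Set Filter Topology
open scoped ENNReal

set_option linter.unusedSectionVars false

variable {E : Type*} [NormedAddCommGroup E] [InnerProductSpace ℝ E] [FiniteDimensional ℝ E]
  [MeasurableSpace E] [BorelSpace E]

/-- average over a ball -/
noncomputable def ballAv (f : E → ℝ) (c : E) (ρ : ℝ) : ℝ :=
  (vb E ρ)⁻¹ * ∫ y in ball c ρ, f y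

section

variable {f : E → ℝ} {δ r ρ : ℝ} {x c e : E}

lemma ballAv_eq_unit (f : E → ℝ) (c : E) {ρ : ℝ} (hρ : 0 < ρ) :
    ballAv f c ρ = (vb E 1)⁻¹ * ∫ ζ in ball (0 : E) 1, f (c + ρ • ζ) := by
  unfold ballAv
  rw [setIntegral_ball_scale f c hρ, vb_scale hρ, smul_eq_mul]
  have h1 := vb_pos (E := E) (s := 1) one_pos
  have h2 : ρ ^ Module.finrank ℝ E ≠ 0 := by positivity
  field_simp

lemma ballAv_nonneg (hf0 : ∀ y, 0 ≤ f y) (c : E) (ρ : ℝ) : 0 ≤ ballAv f c ρ :=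
  mul_nonneg (inv_nonneg.mpr (vb_nonneg ρ)) (integral_nonneg hf0)

lemma ballAv_le {M : ℝ} (hfc : Continuous f) (hM : ∀ y, f y ≤ M) (c : E) {ρ : ℝ} (hρ : 0 < ρ) :
    ballAv f c ρ ≤ M := by
  have hv := vb_pos (E := E) hρ
  unfold ballAv
  have h1 : ∫ y in ball c ρ, f y ≤ ∫ _y in ball c ρ, M :=
    setIntegral_mono_on (integrableOn_ball_of_continuous hfc _ _)
      (integrableOn_const (volume_ball_ne_top _ _)) measurableSet_ball (fun y _ => hM y)
  rw [setIntegral_const, smul_eq_mul, real_ball_eq] at h1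
  calc (vb E ρ)⁻¹ * ∫ y in ball c ρ, f y ≤ (vb E ρ)⁻¹ * (vb E ρ * M) :=
        mul_le_mul_of_nonneg_left h1 (inv_nonneg.mpr hv.le)
    _ = M := by field_simp

lemma ballAv_continuousOn (hfc : Continuous f) (hc : HasCompactSupport f) :
    ContinuousOn (fun p : E × ℝ => ballAv f p.1 p.2) {p | 0 < p.2} := by
  obtain ⟨C, hC⟩ := hc.exists_bound_of_continuous hfc
  have h1 : Continuous (fun p : E × ℝ => ∫ ζ in ball (0 : E) 1, f (p.1 + p.2 • ζ)) := by
    apply continuous_of_dominated (bound := fun _ => C)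
    · intro p
      have : Continuous (fun ζ : E => f (p.1 + p.2 • ζ)) := hfc.comp (by fun_prop)
      exact this.aestronglyMeasurable
    · intro p
      exact Eventually.of_forall (fun ζ => hC _)
    · exact integrableOn_const (volume_ball_ne_top _ _)
    · exact Eventually.of_forall (fun ζ => hfc.comp (by fun_prop))
  have h2 : Continuous (fun p : E × ℝ => (vb E 1)⁻¹ * ∫ ζ in ball (0 : E) 1, f (p.1 + p.2 • ζ)) :=
    h1.const_mul _
  refine h2.continuousOn.congr ?_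
  intro p hp
  exact ballAv_eq_unit f p.1 hp

/-- the value function is admissible -/
lemma valFn_ballAv (hfc : Continuous f) (hc : HasCompactSupport f) (hf0 : ∀ y, 0 ≤ f y) {M R0 U : ℝ}
    (hM : ∀ y, f y ≤ M) (hR0 : ∀ y, R0 ≤ ‖y‖ → f y = 0) :
    ValFn (ballAv f) M (R0 + 2 * U) U where
  nonneg := fun c ρ _ => ballAv_nonneg hf0 c ρ
  le := fun c ρ hρ => ballAv_le hfc hM c hρ
  cont := ballAv_continuousOn hfc hc
  far := by
    intro c ρ y hρ hρU hy hfar
    unfold ballAv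
    have : ∀ z ∈ ball c ρ, f z = 0 := by
      intro z hz
      apply hR0
      rw [mem_ball, dist_eq_norm] at hz hy
      have h1 : ‖y - z‖ ≤ ‖y - c‖ + ‖z - c‖ := by
        have := norm_sub_le (y - c) (z - c)
        simpa using this
      have h2 : ‖y‖ ≤ ‖z‖ + ‖y - z‖ := by
        have := norm_add_le z (y - z)
        simpa using this
      linarith
    rw [setIntegral_congr_fun measurableSet_ball this]
    simp

/-- the competitor balls contain `x` -/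
lemma BallData.mem_competitor (D : BallData δ r ρ x c e) {ξ : E} (hξ : ‖ξ‖ < δ) :
    x ∈ ball (c + aPar δ ρ x c e • e + ξ) (4 * (ρ + 2 * δ)) := by
  obtain ⟨η, hη⟩ : ∃ η, η = (inner ℝ (x - c) e + ρ) / 2 := ⟨_, rfl⟩
  obtain ⟨a, ha⟩ : ∃ a, a = aPar δ ρ x c e := ⟨_, rfl⟩
  rw [← ha]
  have ha' : a = 3 * (ρ + 7 / 3 * δ) + η := by rw [ha, hη]; rfl
  have hδ := D.hδ
  have hρ := D.ρpos
  have hη0 : 0 < η := by
    have := (abs_lt.mp D.inner_bound).1
    rw [hη]; linarith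
  have e1 : ‖x - c - a • e‖ ^ 2 = ‖x - c‖ ^ 2 - 2 * a * inner ℝ (x - c) e + a ^ 2 := by
    rw [norm_sub_sq_real, inner_smul_right, norm_smul, D.he, mul_one, Real.norm_eq_abs, sq_abs]
    ring
  have e2 : inner ℝ (x - c) e = 2 * η - ρ := by rw [hη]; ring
  have h1 : ‖x - c‖ ^ 2 ≤ ρ ^ 2 := pow_le_pow_left₀ (norm_nonneg _) D.hx.le 2
  have h2 : ‖x - c - a • e‖ ^ 2 ≤ (4 * ρ + 7 * δ) ^ 2 := by
    rw [e1, e2, ha']
    nlinarith only [h1, hη0, hδ, hρ, mul_pos hη0 hδ, mul_pos hη0 hρ, mul_pos hη0 hη0]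
  have h3 : ‖x - c - a • e‖ ≤ 4 * ρ + 7 * δ :=
    abs_le_of_sq_le_sq' h2 (by positivity) |>.2
  rw [mem_ball, dist_eq_norm]
  have e3 : x - (c + a • e + ξ) = (x - c - a • e) - ξ := by abel
  rw [e3]
  have := norm_sub_le (x - c - a • e) ξ
  linarith

/-- integrating the next level along the dilation -/
lemma integral_lev_one_le (hf : Continuous f) (hcs : HasCompactSupport f) {a' : ℝ} {ρ0 : ℝ} (hρ0 : 0 < ρ0) (hδ : 0 < δ) (c e : E) (a : ℝ)
    (h : ∀ ξ ∈ ball (0 : E) δ, ballAv f (c + a • e + ξ) (4 * ρ0) ≤ a') :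
    ∫ y in ball c ρ0, lev f δ 1 (Tmap c e a y) ≤ vb E ρ0 * a' := by
  have hv := vb_pos (E := E) hδ
  have hv0 := vb_pos (E := E) hρ0
  have hv1 := vb_pos (E := E) (s := 1) one_pos
  have h4 : (0 : ℝ) < 4 * ρ0 := by positivity
  have e0 : ∀ y, lev f δ 1 (Tmap c e a y) = (vb E δ)⁻¹ * ∫ ξ in ball (0 : E) δ, f (Tmap c e a y + ξ) := by
    intro y
    have : lev f δ 1 = av δ f := by
      rw [lev_succ, lev_zero]
      congr 1
      simp
    rw [this, av_eq, smul_eq_mul]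
  simp_rw [e0]
  rw [integral_const_mul]
  have hk : Continuous (fun p : E × E => f (Tmap c e a p.1 + p.2)) :=
    hf.comp ((continuous_Tmap c e a).comp continuous_fst |>.add continuous_snd)
  have e1 : ∫ y in ball c ρ0, ∫ ξ in ball (0 : E) δ, f (Tmap c e a y + ξ) =
      ∫ ξ in ball (0 : E) δ, ∫ y in ball c ρ0, f (Tmap c e a y + ξ) :=
    integral_integral_swap (integrable_continuous_prod hk _ _ _ _)
  rw [e1]
  have e2 : ∀ ξ, ∫ y in ball c ρ0, f (Tmap c e a y + ξ) =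
      vb E ρ0 * ballAv f (c + a • e + ξ) (4 * ρ0) := by
    intro ξ
    rw [ballAv_eq_unit f _ h4, setIntegral_ball_scale _ c hρ0, vb_scale hρ0, smul_eq_mul]
    have e3 : ∀ ζ : E, Tmap c e a (c + ρ0 • ζ) + ξ = c + a • e + ξ + (4 * ρ0) • ζ := by
      intro ζ
      rw [Tmap_add_smul]
      unfold Tmap
      simp only [sub_self, smul_zero, add_zero]
      abel
    simp_rw [e3]
    field_simp
  simp_rw [e2]
  have h5 : ∫ ξ in ball (0 : E) δ, vb E ρ0 * ballAv f (c + a • e + ξ) (4 * ρ0) ≤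
      ∫ _ξ in ball (0 : E) δ, vb E ρ0 * a' := by
    apply setIntegral_mono_on
    · have hk2 : Continuous (fun ξ : E => vb E ρ0 * ballAv f (c + a • e + ξ) (4 * ρ0)) := by
        apply Continuous.const_mul
        have hc3 : Continuous (fun ξ : E => ((c + a • e + ξ, 4 * ρ0) : E × ℝ)) := by fun_prop
        exact (ballAv_continuousOn hf hcs).comp_continuous hc3 (fun ξ => h4)
      exact integrableOn_ball_of_continuous hk2 _ _
    · exact integrableOn_const (volume_ball_ne_top _ _)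
    · exact measurableSet_ball
    · intro ξ hξ
      exact mul_le_mul_of_nonneg_left (h ξ hξ) hv0.le
  rw [setIntegral_const, smul_eq_mul] at h5
  have e4 : (volume : Measure E).real (ball (0 : E) δ) = vb E δ := rfl
  rw [e4] at h5
  calc (vb E δ)⁻¹ * ∫ ξ in ball (0 : E) δ, vb E ρ0 * ballAv f (c + a • e + ξ) (4 * ρ0)
      ≤ (vb E δ)⁻¹ * (vb E δ * (vb E ρ0 * a')) := mul_le_mul_of_nonneg_left h5 (inv_nonneg.mpr hv.le)
    _ = vb E ρ0 * a' := by field_simp

/-- volume comparison -/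
lemma vb_ratio {ρ ρ0 : ℝ} (hρ : 0 < ρ) (hρ0 : 0 < ρ0) :
    (vb E ρ)⁻¹ * vb E ρ0 = (ρ0 / ρ) ^ Module.finrank ℝ E := by
  rw [vb_scale hρ, vb_scale hρ0, div_pow]
  have h1 := vb_pos (E := E) (s := 1) one_pos
  have h2 : ρ ^ Module.finrank ℝ E ≠ 0 := by positivity
  field_simp

lemma vb_mono {r ρ : ℝ} (hr : 0 < r) (h : r ≤ ρ) : vb E r ≤ vb E ρ := by
  rw [vb_scale hr, vb_scale (hr.trans_le h)]
  have h1 := vb_pos (E := E) (s := 1) one_pos
  exact mul_le_mul_of_nonneg_right (pow_le_pow_left₀ hr.le h _) h1.le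

/-- the main pointwise inequality for one ball of the class -/
lemma ball_bound (hf : ContDiff ℝ 1 f) (hc : HasCompactSupport f) (hf0 : ∀ y, 0 ≤ f y) {m : ℕ}
    (D : BallData δ (δ * 4 ^ (m + 1)) ρ x c e) {a' : ℝ} (ha'0 : 0 ≤ a')
    (ha' : ∀ ξ, ‖ξ‖ < δ → ballAv f (c + aPar δ ρ x c e • e + ξ) (4 * (ρ + 2 * δ)) ≤ a') :
    ballAv f c ρ ≤ a' +
      ((1 + 2 * δ / (δ * 4 ^ (m + 1))) ^ Module.finrank ℝ E - 1) * a' +
      (20 * (δ * 4 ^ (m + 1)) / vb E (δ * 4 ^ (m + 1))) * Zf f δ e m x := by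
  have hδ := D.hδ
  have hρ := D.ρpos
  obtain ⟨r, hr⟩ : ∃ r, r = δ * 4 ^ (m + 1) := ⟨_, rfl⟩
  rw [← hr] at D ⊢
  have hr0 : 0 < r := D.rpos
  obtain ⟨a, ha⟩ : ∃ a, a = aPar δ ρ x c e := ⟨_, rfl⟩
  rw [← ha] at ha'
  have hfc : Continuous f := hf.continuous
  have hρ0 : 0 < ρ + 2 * δ := by linarith
  have e0 : ρ + 7 / 3 * δ - δ * 4 ^ 0 / 3 = ρ + 2 * δ := by ring
  have D' := D
  rw [hr] at D'
  have h1 := telescoped hf hc D'
  rw [e0, ← ha] at h1
  have h2 := integral_lev_one_le hfc hc hρ0 hδ c e a (a' := a')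
    (fun ξ hξ => ha' ξ (by simpa using hξ))
  have hW : ∫ y in ball c (ρ + 2 * δ), Wf f δ c e a 0 y =
      (∫ y in ball c (ρ + 2 * δ), f y) - ∫ y in ball c (ρ + 2 * δ), lev f δ 1 (Tmap c e a y) := by
    have hT : Continuous (fun y => lev f δ 1 (Tmap c e a y)) :=
      (lev_continuous hf hc 1).comp (continuous_Tmap c e a)
    unfold Wf
    rw [integral_sub (integrableOn_ball_of_continuous (lev_continuous hf hc 0) _ _)
      (integrableOn_ball_of_continuous hT _ _)]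
    rfl
  rw [hW] at h1
  have h3 : ∫ y in ball c ρ, f y ≤ ∫ y in ball c (ρ + 2 * δ), f y :=
    mass_mono hfc hf0 c (by linarith)
  have hZ : 0 ≤ Zf f δ e m x := Zf_nonneg (le_of_eq D.he) m x
  have hv := vb_pos (E := E) hρ
  have hvr := vb_pos (E := E) hr0
  have h4 : ∫ y in ball c ρ, f y ≤ a * Zf f δ e m x + vb E (ρ + 2 * δ) * a' := by linarith
  have h5 : (vb E ρ)⁻¹ * (vb E (ρ + 2 * δ) * a') ≤
      (1 + 2 * δ / r) ^ Module.finrank ℝ E * a' := by
    rw [← mul_assoc, vb_ratio hρ hρ0]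
    apply mul_le_mul_of_nonneg_right _ ha'0
    apply pow_le_pow_left₀ (by positivity)
    have e1 : (ρ + 2 * δ) / ρ = 1 + 2 * δ / ρ := by field_simp
    rw [e1]
    have : 2 * δ / ρ ≤ 2 * δ / r := div_le_div_of_nonneg_left (by positivity) hr0 D.hρ1
    linarith
  have ha20 : a ≤ 20 * r := by rw [ha]; exact D.aPar_le_20
  have ha0 : 0 ≤ a := by rw [ha]; exact D.aPar_pos.le
  have h6 : (vb E ρ)⁻¹ * (a * Zf f δ e m x) ≤ (20 * r / vb E r) * Zf f δ e m x := by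
    have h7 : (vb E ρ)⁻¹ ≤ (vb E r)⁻¹ := inv_anti₀ hvr (vb_mono hr0 D.hρ1)
    calc (vb E ρ)⁻¹ * (a * Zf f δ e m x) ≤ (vb E r)⁻¹ * (20 * r * Zf f δ e m x) :=
          mul_le_mul h7 (mul_le_mul_of_nonneg_right ha20 hZ) (by positivity) (by positivity)
      _ = _ := by ring
  unfold ballAv
  have h8 := mul_le_mul_of_nonneg_left h4 (inv_nonneg.mpr hv.le)
  rw [mul_add] at h8
  linarith

end

end Vale.Agent.Lib.P137
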