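import Vale.Agent.Lib.P137.Basic

namespace Vale.Agent.Lib.P137

open MeasureTheory Metric Set Filter Topology
open scoped ENNReal

set_option linter.unusedSectionVars false

variable {E : Type*} [NormedAddCommGroup E] [InnerProductSpace ℝ E] [FiniteDimensional ℝ E]
  [MeasurableSpace E] [BorelSpace E]

/-- add one ball to a function -/
noncomputable def addBall (g : E → ℝ) (A : ℝ) (c : E) (ρ : ℝ) (x : E) : ℝ :=
  max (g x) ((ball c ρ).indicator (fun _ => A) x)

/-- a function paired with a shrunk version -/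
structure SPair (ε : ℝ) (g h : E → ℝ) : Prop where
  ig : Integrable g
  ih : Integrable h
  g0 : ∀ x, 0 ≤ g x
  h0 : ∀ x, 0 ≤ h x
  prop : ∀ s y, ‖s - y‖ < ε → h y ≤ g s

lemma integrable_addBall {g : E → ℝ} (hg : Integrable g) (A : ℝ) (c : E) (ρ : ℝ) :
    Integrable (addBall g A c ρ) := by
  have hi : Integrable ((ball c ρ).indicator (fun _ => A) : E → ℝ) :=
    (integrableOn_const (volume_ball_ne_top c ρ)).integrable_indicator measurableSet_ball
  exact hg.sup hi

lemma addBall_sub_self {g : E → ℝ} (g0 : ∀ x, 0 ≤ g x) (A : ℝ) (c : E) (ρ : ℝ) (x : E) :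
    addBall g A c ρ x - g x = (ball c ρ).indicator (fun y => max (A - g y) 0) x := by
  unfold addBall
  by_cases hx : x ∈ ball c ρ
  · simp only [indicator_of_mem hx]
    rcases le_total (g x) A with h | h
    · rw [max_eq_right h, max_eq_left (by linarith)]
    · rw [max_eq_left h, max_eq_right (by linarith)]; simp
  · simp only [indicator_of_notMem hx]
    rw [max_eq_left (g0 x)]; simp

lemma integrableOn_max_comp {g : E → ℝ} (hg : Integrable g) (A : ℝ) (c : E) {ρ : ℝ} (hρ : 0 < ρ) :
    IntegrableOn (fun ζ : E => max (A - g (c + ρ • ζ)) 0) (ball (0 : E) 1) := by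
  have h1 : Integrable (fun ζ : E => g (c + ρ • ζ)) := by
    have h2 : Integrable (fun ζ : E => g (c + ζ)) := hg.comp_add_left c
    exact h2.comp_smul hρ.ne'
  have h3 : IntegrableOn (fun ζ : E => A - g (c + ρ • ζ)) (ball (0 : E) 1) :=
    (integrableOn_const (volume_ball_ne_top _ _)).sub h1.integrableOn
  have h4 : IntegrableOn (fun _ : E => (0 : ℝ)) (ball (0 : E) 1) :=
    integrableOn_const (volume_ball_ne_top _ _)
  exact h3.sup h4

/-- one step of the shrink lemma, for a ball larger than the shrinking parameter -/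
lemma SPair.step_aux {ε ρ A : ℝ} {g h : E → ℝ} (P : SPair ε g h) (hε : 0 < ε) (hερ : ε < ρ)
    (c : E) :
    SPair ε (addBall g A c ρ) (addBall h A c (ρ - ε)) ∧
    (∫ x, (addBall g A c ρ x - addBall h A c (ρ - ε) x)) ≤
      (∫ x, (g x - h x)) +
        (Module.finrank ℝ E * ε / ρ) * ∫ x, (addBall g A c ρ x - g x) := by
  have hρ : 0 < ρ := hε.trans hερ
  have hρ' : 0 < ρ - ε := by linarith
  have ig' := integrable_addBall P.ig A c ρ
  have ih' := integrable_addBall P.ih A c (ρ - ε)
  refine ⟨⟨ig', ih', fun x => le_max_of_le_left (P.g0 x), fun x => le_max_of_le_left (P.h0 x), ?_⟩, ?_⟩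
  · intro s y hsy
    unfold addBall
    apply max_le
    · exact le_max_of_le_left (P.prop s y hsy)
    · by_cases hy : y ∈ ball c (ρ - ε)
      · have hs : s ∈ ball c ρ := by
          rw [mem_ball, dist_eq_norm] at hy ⊢
          have : ‖s - c‖ ≤ ‖s - y‖ + ‖y - c‖ := by
            have := norm_add_le (s - y) (y - c)
            simpa using this
          linarith
        simp only [indicator_of_mem hy, indicator_of_mem hs]
        exact le_max_right _ _
      · simp only [indicator_of_notMem hy]
        exact le_max_of_le_left (P.g0 s)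
  · -- main inequality
    set d := Module.finrank ℝ E with hd
    set X := ∫ x, (addBall g A c ρ x - g x) with hX
    set Y := ∫ x, (addBall h A c (ρ - ε) x - h x) with hY
    have i1 : Integrable (fun x => addBall g A c ρ x - g x) := ig'.sub P.ig
    have i2 : Integrable (fun x => addBall h A c (ρ - ε) x - h x) := ih'.sub P.ih
    have i3 : Integrable (fun x => g x - h x) := P.ig.sub P.ih
    have hsplit : (∫ x, (addBall g A c ρ x - addBall h A c (ρ - ε) x)) =
        (∫ x, (g x - h x)) + X - Y := by
      have i4 : Integrable (fun x => (g x - h x) + (addBall g A c ρ x - g x)) := i3.add i1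
      rw [hX, hY, ← integral_add i3 i1, ← integral_sub i4 i2]
      congr 1
      ext x
      ring
    -- express X and Y through the unit ball
    have hXe : X = ρ ^ d * ∫ ζ in ball (0 : E) 1, max (A - g (c + ρ • ζ)) 0 := by
      rw [hX]
      simp_rw [addBall_sub_self P.g0]
      rw [integral_indicator measurableSet_ball, setIntegral_ball_scale _ c hρ, smul_eq_mul]
    have hYe : Y = (ρ - ε) ^ d * ∫ ζ in ball (0 : E) 1, max (A - h (c + (ρ - ε) • ζ)) 0 := by
      rw [hY]
      simp_rw [addBall_sub_self P.h0]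
      rw [integral_indicator measurableSet_ball, setIntegral_ball_scale _ c hρ', smul_eq_mul]
    set I := ∫ ζ in ball (0 : E) 1, max (A - g (c + ρ • ζ)) 0 with hI
    set J := ∫ ζ in ball (0 : E) 1, max (A - h (c + (ρ - ε) • ζ)) 0 with hJ
    have hI0 : 0 ≤ I := setIntegral_nonneg measurableSet_ball (fun ζ _ => le_max_right _ _)
    have hIJ : I ≤ J := by
      apply setIntegral_mono_on (integrableOn_max_comp P.ig A c hρ)
        (integrableOn_max_comp P.ih A c hρ') measurableSet_ball
      intro ζ hζ
      have hζ' : ‖ζ‖ < 1 := by simpa using hζ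
      have hn : ‖(c + ρ • ζ) - (c + (ρ - ε) • ζ)‖ < ε := by
        have : (c + ρ • ζ) - (c + (ρ - ε) • ζ) = ε • ζ := by
          rw [sub_smul]; abel
        rw [this, norm_smul, Real.norm_eq_abs, abs_of_pos hε]
        nlinarith [norm_nonneg ζ]
      have := P.prop _ _ hn
      apply max_le_max _ le_rfl
      linarith
    have hκ : (ρ - ε) ^ d ≥ ρ ^ d * (1 - d * ε / ρ) := by
      have hb : 1 + (d : ℝ) * (-(ε / ρ)) ≤ (1 + (-(ε / ρ))) ^ d := by
        apply one_add_mul_le_pow
        have : ε / ρ < 1 := (div_lt_one hρ).mpr hερ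
        have : 0 < ε / ρ := div_pos hε hρ
        linarith
      have e1 : (ρ - ε) = ρ * (1 + (-(ε / ρ))) := by
        field_simp
        ring
      rw [e1, mul_pow]
      apply mul_le_mul_of_nonneg_left _ (by positivity)
      have e2 : (1 : ℝ) - d * ε / ρ = 1 + (d : ℝ) * (-(ε / ρ)) := by ring
      rw [e2]
      exact hb
    rw [hsplit]
    have hYlow : Y ≥ ρ ^ d * (1 - d * ε / ρ) * I := by
      rw [hYe]
      calc ρ ^ d * (1 - d * ε / ρ) * I ≤ (ρ - ε) ^ d * I := mul_le_mul_of_nonneg_right hκ hI0
        _ ≤ (ρ - ε) ^ d * J := mul_le_mul_of_nonneg_left hIJ (by positivity)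
    have : X - Y ≤ (d * ε / ρ) * X := by
      rw [hXe] at *
      nlinarith
    linarith

/-- one step of the shrink lemma -/
lemma SPair.step [Nontrivial E] {ε ρ A : ℝ} {g h : E → ℝ} (P : SPair ε g h) (hε : 0 < ε) (hρ : 0 < ρ)
    (c : E) :
    SPair ε (addBall g A c ρ) (addBall h A c (ρ - ε)) ∧
    (∫ x, (addBall g A c ρ x - addBall h A c (ρ - ε) x)) ≤
      (∫ x, (g x - h x)) +
        (Module.finrank ℝ E * ε / ρ) * ∫ x, (addBall g A c ρ x - g x) := by
  by_cases hερ : ε < ρ
  · exact P.step_aux hε hερ c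
  push Not at hερ
  have hemp : ball c (ρ - ε) = ∅ := ball_eq_empty.mpr (by linarith)
  have hh : addBall h A c (ρ - ε) = h := by
    ext x
    unfold addBall
    rw [hemp]
    simp [P.h0 x]
  rw [hh]
  have ig' := integrable_addBall P.ig A c ρ
  refine ⟨⟨ig', P.ih, fun x => le_max_of_le_left (P.g0 x), P.h0, ?_⟩, ?_⟩
  · intro s y hsy
    exact (P.prop s y hsy).trans (le_max_left _ _)
  · have i1 : Integrable (fun x => addBall g A c ρ x - g x) := ig'.sub P.ig
    have i3 : Integrable (fun x => g x - h x) := P.ig.sub P.ih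
    have e : (∫ x, (addBall g A c ρ x - h x)) =
        (∫ x, (g x - h x)) + ∫ x, (addBall g A c ρ x - g x) := by
      rw [← integral_add i3 i1]
      congr 1
      ext x
      ring
    rw [e]
    have hX : 0 ≤ ∫ x, (addBall g A c ρ x - g x) :=
      integral_nonneg (fun x => sub_nonneg.mpr (le_max_left _ _))
    have hd : (1 : ℝ) ≤ Module.finrank ℝ E := by
      have : 0 < Module.finrank ℝ E := Module.finrank_pos
      exact_mod_cast this
    have hc : 1 ≤ (Module.finrank ℝ E : ℝ) * ε / ρ := by
      rw [one_le_div hρ]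
      nlinarith
    nlinarith

end Vale.Agent.Lib.P137
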