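import Vale.Agent.Lib.P137.Shrink1

namespace Vale.Agent.Lib.P137

open MeasureTheory Metric Set Filter Topology
open scoped ENNReal

set_option linter.unusedSectionVars false

variable {E : Type*} [NormedAddCommGroup E] [InnerProductSpace ℝ E] [FiniteDimensional ℝ E]
  [MeasurableSpace E] [BorelSpace E]

/-- add a sequence of balls to a function -/
noncomputable def addSeq (A : ℕ → ℝ) (c : ℕ → E) (ρ : ℕ → ℝ) (g : E → ℝ) : ℕ → E → ℝ
  | 0 => g
  | n + 1 => addBall (addSeq A c ρ g n) (A n) (c n) (ρ n)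

lemma addSeq_le_succ (A : ℕ → ℝ) (c : ℕ → E) (ρ : ℕ → ℝ) (g : E → ℝ) (n : ℕ) (x : E) :
    addSeq A c ρ g n x ≤ addSeq A c ρ g (n + 1) x := le_max_left _ _

lemma addSeq_mono (A : ℕ → ℝ) (c : ℕ → E) (ρ : ℕ → ℝ) (g : E → ℝ) (x : E) :
    Monotone (fun n => addSeq A c ρ g n x) :=
  monotone_nat_of_le_succ (fun n => addSeq_le_succ A c ρ g n x)

lemma SPair.iter [Nontrivial E] {ε lo : ℝ} {g h : E → ℝ} (P : SPair ε g h) (hε : 0 < ε) (hlo0 : 0 < lo)
    (A : ℕ → ℝ) (c : ℕ → E) (ρ : ℕ → ℝ) (hρ : ∀ n, lo ≤ ρ n) (n : ℕ) :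
    SPair ε (addSeq A c ρ g n) (addSeq A c (fun m => ρ m - ε) h n) ∧
    (∫ x, (addSeq A c ρ g n x - addSeq A c (fun m => ρ m - ε) h n x)) ≤
      (∫ x, (g x - h x)) + (Module.finrank ℝ E * ε / lo) * ∫ x, (addSeq A c ρ g n x - g x) := by
  induction n with
  | zero =>
    refine ⟨P, ?_⟩
    simp [addSeq]
  | succ n ih =>
    obtain ⟨Pn, hn⟩ := ih
    have hρ0 : 0 < ρ n := hlo0.trans_le (hρ n)
    have hstep := Pn.step (A := A n) hε hρ0 (c n)
    refine ⟨hstep.1, ?_⟩
    have i1 : Integrable (addSeq A c ρ g n) := Pn.ig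
    have i2 : Integrable (addSeq A c ρ g (n + 1)) := hstep.1.ig
    have hX0 : 0 ≤ ∫ x, (addSeq A c ρ g (n + 1) x - addSeq A c ρ g n x) :=
      integral_nonneg (fun x => sub_nonneg.mpr (addSeq_le_succ A c ρ g n x))
    have hadd : (∫ x, (addSeq A c ρ g (n + 1) x - g x)) =
        (∫ x, (addSeq A c ρ g n x - g x)) +
          ∫ x, (addSeq A c ρ g (n + 1) x - addSeq A c ρ g n x) := by
      have i3 : Integrable (fun x => addSeq A c ρ g n x - g x) := i1.sub P.ig
      have i4 : Integrable (fun x => addSeq A c ρ g (n + 1) x - addSeq A c ρ g n x) := i2.sub i1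
      rw [← integral_add i3 i4]
      congr 1
      ext x
      ring
    have hcoef : (Module.finrank ℝ E * ε / ρ n) ≤ (Module.finrank ℝ E * ε / lo) := by
      apply div_le_div_of_nonneg_left (by positivity) hlo0 (hρ n)
    have h2 := hstep.2
    change (∫ x, (addSeq A c ρ g (n + 1) x - addSeq A c (fun m => ρ m - ε) h (n + 1) x)) ≤
      (∫ x, (addSeq A c ρ g n x - addSeq A c (fun m => ρ m - ε) h n x)) +
        (Module.finrank ℝ E * ε / ρ n) * ∫ x, (addSeq A c ρ g (n + 1) x - addSeq A c ρ g n x) at h2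
    rw [hadd, mul_add]
    have := mul_le_mul_of_nonneg_right hcoef hX0
    linarith

/-- passing to the limit along a sequence of balls -/
lemma SPair.limit [Nontrivial E] {ε lo : ℝ} {g h Bd : E → ℝ} (P : SPair ε g h) (hε : 0 < ε) (hlo : 0 < lo)
    (A : ℕ → ℝ) (c : ℕ → E) (ρ : ℕ → ℝ) (hρ : ∀ n, lo ≤ ρ n)
    (iBd : Integrable Bd) (hgB : ∀ x, g x ≤ Bd x) (hhB : ∀ x, h x ≤ Bd x)
    (hAB : ∀ n x, x ∈ ball (c n) (ρ n) → A n ≤ Bd x) :
    ∃ H : E → ℝ, SPair ε (fun x => ⨆ n, addSeq A c ρ g n x) H ∧ (∀ x, H x ≤ Bd x) ∧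
    (∫ x, ((⨆ n, addSeq A c ρ g n x) - H x)) ≤
      (∫ x, (g x - h x)) + (Module.finrank ℝ E * ε / lo) * ∫ x, ((⨆ n, addSeq A c ρ g n x) - g x) := by
  have hBd0 : ∀ x, 0 ≤ Bd x := fun x => (P.g0 x).trans (hgB x)
  -- bounds for the sequences
  have hgn : ∀ n x, addSeq A c ρ g n x ≤ Bd x := by
    intro n
    induction n with
    | zero => exact hgB
    | succ n ih =>
      intro x
      apply max_le (ih x)
      by_cases hx : x ∈ ball (c n) (ρ n)
      · simp only [indicator_of_mem hx]; exact hAB n x hx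
      · simp only [indicator_of_notMem hx]; exact hBd0 x
  have hhn : ∀ n x, addSeq A c (fun m => ρ m - ε) h n x ≤ Bd x := by
    intro n
    induction n with
    | zero => exact hhB
    | succ n ih =>
      intro x
      apply max_le (ih x)
      by_cases hx : x ∈ ball (c n) (ρ n - ε)
      · simp only [indicator_of_mem hx]
        exact hAB n x (ball_subset_ball (by linarith) hx)
      · simp only [indicator_of_notMem hx]; exact hBd0 x
  have Pn := fun n => P.iter hε hlo A c ρ hρ n
  set gn := fun n => addSeq A c ρ g n with hgn_def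
  set hn := fun n => addSeq A c (fun m => ρ m - ε) h n with hhn_def
  have bddg : ∀ x, BddAbove (range (fun n => gn n x)) := fun x =>
    ⟨Bd x, by rintro _ ⟨n, rfl⟩; exact hgn n x⟩
  have bddh : ∀ x, BddAbove (range (fun n => hn n x)) := fun x =>
    ⟨Bd x, by rintro _ ⟨n, rfl⟩; exact hhn n x⟩
  have tg : ∀ x, Tendsto (fun n => gn n x) atTop (𝓝 (⨆ n, gn n x)) := fun x =>
    tendsto_atTop_ciSup (addSeq_mono A c ρ g x) (bddg x)
  have th : ∀ x, Tendsto (fun n => hn n x) atTop (𝓝 (⨆ n, hn n x)) := fun x =>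
    tendsto_atTop_ciSup (addSeq_mono A c _ h x) (bddh x)
  have mg : AEStronglyMeasurable (fun x => ⨆ n, gn n x) :=
    aestronglyMeasurable_of_tendsto_ae atTop (fun n => (Pn n).1.ig.aestronglyMeasurable)
      (Eventually.of_forall tg)
  have mh : AEStronglyMeasurable (fun x => ⨆ n, hn n x) :=
    aestronglyMeasurable_of_tendsto_ae atTop (fun n => (Pn n).1.ih.aestronglyMeasurable)
      (Eventually.of_forall th)
  have G0 : ∀ x, 0 ≤ ⨆ n, gn n x := fun x =>
    (P.g0 x).trans (le_ciSup (f := fun n => gn n x) (bddg x) 0)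
  have H0 : ∀ x, 0 ≤ ⨆ n, hn n x := fun x =>
    (P.h0 x).trans (le_ciSup (f := fun n => hn n x) (bddh x) 0)
  have GB : ∀ x, (⨆ n, gn n x) ≤ Bd x := fun x => ciSup_le (fun n => hgn n x)
  have HB : ∀ x, (⨆ n, hn n x) ≤ Bd x := fun x => ciSup_le (fun n => hhn n x)
  have iG : Integrable (fun x => ⨆ n, gn n x) := by
    refine iBd.mono' mg (Eventually.of_forall fun x => ?_)
    rw [Real.norm_eq_abs, abs_of_nonneg (G0 x)]
    exact GB x
  have iH : Integrable (fun x => ⨆ n, hn n x) := by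
    refine iBd.mono' mh (Eventually.of_forall fun x => ?_)
    rw [Real.norm_eq_abs, abs_of_nonneg (H0 x)]
    exact HB x
  refine ⟨fun x => ⨆ n, hn n x, ⟨iG, iH, G0, H0, ?_⟩, HB, ?_⟩
  · intro s y hsy
    apply ciSup_le
    intro n
    exact ((Pn n).1.prop s y hsy).trans (le_ciSup (f := fun n => gn n s) (bddg s) n)
  · -- limit of the inequality
    have lim1 : Tendsto (fun n => ∫ x, (gn n x - hn n x)) atTop
        (𝓝 (∫ x, ((⨆ n, gn n x) - ⨆ n, hn n x))) := by
      apply tendsto_integral_of_dominated_convergence Bd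
      · exact fun n => ((Pn n).1.ig.sub (Pn n).1.ih).aestronglyMeasurable
      · exact iBd
      · intro n
        refine Eventually.of_forall fun x => ?_
        have h1 := (Pn n).1.g0 x
        have h2 := (Pn n).1.h0 x
        have h3 := hgn n x
        have h4 := hhn n x
        rw [Real.norm_eq_abs, abs_le]
        constructor <;> linarith
      · exact Eventually.of_forall fun x => (tg x).sub (th x)
    have lim2 : Tendsto (fun n => ∫ x, (gn n x - g x)) atTop
        (𝓝 (∫ x, ((⨆ n, gn n x) - g x))) := by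
      apply tendsto_integral_of_dominated_convergence Bd
      · exact fun n => ((Pn n).1.ig.sub P.ig).aestronglyMeasurable
      · exact iBd
      · intro n
        refine Eventually.of_forall fun x => ?_
        have h1 := (Pn n).1.g0 x
        have h2 := P.g0 x
        have h3 := hgn n x
        have h4 := hgB x
        rw [Real.norm_eq_abs, abs_le]
        constructor <;> linarith
      · exact Eventually.of_forall fun x => (tg x).sub tendsto_const_nhds
    refine le_of_tendsto_of_tendsto' lim1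
      (tendsto_const_nhds.add (lim2.const_mul _)) (fun n => (Pn n).2)

end Vale.Agent.Lib.P137
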