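import Vale.Agent.Lib.P137.Point4

namespace Vale.Agent.Lib.P137

open MeasureTheory Metric Set Filter Topology
open scoped ENNReal

set_option linter.unusedSectionVars false

variable {E : Type*} [NormedAddCommGroup E] [InnerProductSpace ℝ E] [FiniteDimensional ℝ E]
  [MeasurableSpace E] [BorelSpace E]

section

variable {V : E → ℝ → ℝ} {M R1 U : ℝ}

lemma aSup_bdd (hV : ValFn V M R1 U) {lo hi : ℝ} (hlo : 0 < lo) (x : E) :
    BddAbove (range (fun p : {p : E × ℝ // lo ≤ p.2 ∧ p.2 < hi ∧ x ∈ ball p.1 p.2} =>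
      V p.1.1 p.1.2)) :=
  ⟨M, by rintro _ ⟨p, rfl⟩; exact hV.le _ _ (hlo.trans_le p.2.1)⟩

lemma measurable_aSup (hV : ValFn V M R1 U) {lo hi : ℝ} (hlo : 0 < lo) (hlohi : lo < hi) :
    Measurable (aSup V lo hi) := by
  apply measurable_of_Ioi
  intro t
  have e : aSup V lo hi ⁻¹' Ioi t = ⋃ p : {p : E × ℝ // lo ≤ p.2 ∧ p.2 < hi ∧ t < V p.1 p.2},
      ball p.1.1 p.1.2 := by
    ext x
    simp only [mem_preimage, mem_Ioi, mem_iUnion]
    constructor
    · intro h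
      haveI : Nonempty {p : E × ℝ // lo ≤ p.2 ∧ p.2 < hi ∧ x ∈ ball p.1 p.2} :=
        ⟨⟨(x, lo), le_rfl, hlohi, mem_ball_self hlo⟩⟩
      obtain ⟨p, hp⟩ := exists_lt_of_lt_ciSup h
      exact ⟨⟨p.1, p.2.1, p.2.2.1, hp⟩, p.2.2.2⟩
    · rintro ⟨p, hx⟩
      exact lt_of_lt_of_le p.2.2.2 (le_aSup hV hlo p.2.1 p.2.2.1 hx)
  rw [e]
  exact (isOpen_iUnion (fun p => isOpen_ball)).measurableSet

lemma integrable_aSup (hV : ValFn V M R1 U) {lo hi : ℝ} (hlo : 0 < lo) (hlohi : lo < hi) (hhi : hi ≤ U) :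
    Integrable (aSup V lo hi) := by
  refine (integrable_bdFn M R1).mono' (measurable_aSup hV hlo hlohi).aestronglyMeasurable
    (Eventually.of_forall fun x => ?_)
  rw [Real.norm_eq_abs, abs_of_nonneg (aSup_nonneg hV hlo hi x)]
  exact aSup_le_bd hV hlo hhi x

end

section

variable {f : E → ℝ} {δ : ℝ} {m : ℕ} {M R1 U : ℝ}

/-- the increment of the maximal function at one scale -/
lemma inc_bound (hf : ContDiff ℝ 1 f) (hc : HasCompactSupport f) (hf0 : ∀ y, 0 ≤ f y) (hδ : 0 < δ)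
    (hV : ValFn (ballAv f) M R1 U) (hU : 18 * (δ * 4 ^ (m + 1)) ≤ U) {e : E} (he : ‖e‖ = 1) (x : E) :
    aSup (ballAv f) (δ * 4 ^ (m + 1)) U x ≤ aSup (ballAv f) (4 * (δ * 4 ^ (m + 1))) U x +
      ((1 + 2 * δ / (δ * 4 ^ (m + 1))) ^ Module.finrank ℝ E - 1) *
        aSup (ballAv f) (4 * (δ * 4 ^ (m + 1))) U x +
      (20 * (δ * 4 ^ (m + 1)) / vb E (δ * 4 ^ (m + 1))) * Zf f δ e m x := by
  obtain ⟨r, hr⟩ : ∃ r, r = δ * 4 ^ (m + 1) := ⟨_, rfl⟩
  have hr0 : 0 < r := by rw [hr]; positivity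
  have hδr : 4 * δ ≤ r := by
    rw [hr, pow_succ]
    have : (1 : ℝ) ≤ 4 ^ m := one_le_pow₀ (by norm_num)
    nlinarith
  rw [← hr] at hU ⊢
  have hZ : 0 ≤ Zf f δ e m x := Zf_nonneg (le_of_eq he) m x
  have h4r : 0 < 4 * r := by positivity
  have ha4 : 0 ≤ aSup (ballAv f) (4 * r) U x := aSup_nonneg hV h4r U x
  have hκ : 0 ≤ (1 + 2 * δ / r) ^ Module.finrank ℝ E - 1 := by
    have : 1 ≤ (1 + 2 * δ / r) ^ Module.finrank ℝ E := by
      apply one_le_pow₀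
      have : 0 ≤ 2 * δ / r := by positivity
      linarith
    linarith
  have hv := vb_pos (E := E) hr0
  have hcoef : 0 ≤ 20 * r / vb E r := by positivity
  rw [← aSup_split hV hr0 (by linarith : r ≤ 4 * r) (by linarith : 4 * r ≤ U) x]
  have hrhs : aSup (ballAv f) (4 * r) U x ≤ aSup (ballAv f) (4 * r) U x +
      ((1 + 2 * δ / r) ^ Module.finrank ℝ E - 1) * aSup (ballAv f) (4 * r) U x +
      (20 * r / vb E r) * Zf f δ e m x := by
    have h1 := mul_nonneg hκ ha4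
    have h2 := mul_nonneg hcoef hZ
    linarith
  apply max_le hrhs
  apply aSup_le hV (ha4.trans hrhs)
  intro c ρ h1 h2 hx
  have hx' : ‖x - c‖ < ρ := by simpa [dist_eq_norm] using hx
  have D : BallData δ (δ * 4 ^ (m + 1)) ρ x c e := by
    rw [← hr]
    exact ⟨hδ, hδr, h1, h2, hx', he⟩
  have D' : BallData δ r ρ x c e := by rw [hr]; exact D
  have hb := ball_bound hf hc hf0 D (a' := aSup (ballAv f) (4 * r) U x) ha4 ?_
  · rw [← hr] at hb
    exact hb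
  · intro ξ hξ
    have hρ := D'.ρpos
    apply le_aSup hV h4r (by linarith) ?_ (D'.mem_competitor hξ)
    linarith

end

end Vale.Agent.Lib.P137
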