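import Vale.Agent.Lib.P137.Sum1

namespace Vale.Agent.Lib.P137

open MeasureTheory Metric Set Filter Topology
open scoped ENNReal

set_option linter.unusedSectionVars false

variable {E : Type*} [NormedAddCommGroup E] [InnerProductSpace ℝ E] [FiniteDimensional ℝ E]
  [MeasurableSpace E] [BorelSpace E]

lemma vb_mul {k r : ℝ} (hk : 0 < k) (hr : 0 < r) :
    vb E (k * r) = k ^ Module.finrank ℝ E * vb E r := by
  rw [vb_scale (mul_pos hk hr), vb_scale hr, mul_pow, mul_assoc]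

lemma vb_Rq_le [Nontrivial E] {r : ℝ} (hr : 0 < r) (q : ℕ) :
    vb E (300 * r * (2 / 3 : ℝ) ^ q) ≤
      (3 / 4 : ℝ) ^ q * ((300 : ℝ) ^ Module.finrank ℝ E * vb E r) := by
  have hv := vb_pos (E := E) hr
  have h1 : vb E (300 * r * (2 / 3 : ℝ) ^ q) =
      ((2 / 3 : ℝ) ^ q) ^ Module.finrank ℝ E * ((300 : ℝ) ^ Module.finrank ℝ E * vb E r) := by
    have e : 300 * r * (2 / 3 : ℝ) ^ q = (2 / 3 : ℝ) ^ q * (300 * r) := by ring
    rw [e, vb_mul (by positivity) (by positivity), vb_mul (by norm_num) hr]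
  rw [h1]
  apply mul_le_mul_of_nonneg_right _ (by positivity)
  have hd : Module.finrank ℝ E ≠ 0 := (Module.finrank_pos (R := ℝ) (M := E)).ne'
  have h2 : ((2 / 3 : ℝ) ^ q) ^ Module.finrank ℝ E ≤ (2 / 3 : ℝ) ^ q :=
    pow_le_of_le_one (by positivity) (pow_le_one₀ (by norm_num) (by norm_num)) hd
  have h3 : (2 / 3 : ℝ) ^ q ≤ (3 / 4 : ℝ) ^ q := pow_le_pow_left₀ (by norm_num) (by norm_num) q
  exact h2.trans h3

/-- the dimensional constant in the average of `Zf` -/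
noncomputable def K1 (E : Type*) [NormedAddCommGroup E] [InnerProductSpace ℝ E]
    [FiniteDimensional ℝ E] : ℝ :=
  (50 : ℝ) ^ Module.finrank ℝ E + (300 : ℝ) ^ Module.finrank ℝ E

lemma K1_nonneg : 0 ≤ K1 E := by unfold K1; positivity

section

variable {f : E → ℝ} {δ : ℝ} {m : ℕ}

/-- averaging `Zf` over a ball -/
lemma integral_Zf_le [Nontrivial E] (hf : ContDiff ℝ 1 f) (hc : HasCompactSupport f) (hδ : 0 < δ) {e : E}
    (he : ‖e‖ ≤ 1) (z0 : E) :
    ∫ x in ball z0 (δ * 4 ^ (m + 1)), Zf f δ e m x ≤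
      vb E (δ * 4 ^ (m + 1)) * K1 E * (4 / 3) *
        ∑ j ∈ Finset.range (m + 1), (3 / 4 : ℝ) ^ (m + 1 - j) *
          ∫ z in ball z0 (301 * (δ * 4 ^ (m + 1))), Psi f δ e j z := by
  obtain ⟨r, hr⟩ : ∃ r, r = δ * 4 ^ (m + 1) := ⟨_, rfl⟩
  have hr0 : 0 < r := by rw [hr]; positivity
  have hv := vb_pos (E := E) hr0
  unfold Zf
  rw [← hr]
  have iΨ : ∀ j, Integrable (Psi f δ e j) := fun j => Psi_integrable hf hc e j
  have hΨ0 : ∀ j y, 0 ≤ Psi f δ e j y := fun j y => Psi_nonneg he j y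
  have iM : ∀ (j : ℕ) (R : ℝ), IntegrableOn (fun x => ∫ z in ball x R, Psi f δ e j z)
      (ball z0 r) := fun j R => (integrable_mass (iΨ j) R).integrableOn
  set P : ℕ → ℝ := fun j => ∫ z in ball z0 (301 * r), Psi f δ e j z with hP
  have hP0 : ∀ j, 0 ≤ P j := fun j => integral_nonneg (hΨ0 j)
  have hterm : ∀ (j : ℕ) (R : ℝ), r + R ≤ 301 * r →
      ∫ x in ball z0 r, (∫ z in ball x R, Psi f δ e j z) ≤ vb E R * P j := by
    intro j R hR
    have h1 := integral_ball_mass_le (iΨ j) (hΨ0 j) z0 r R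
    refine h1.trans (mul_le_mul_of_nonneg_left ?_ (vb_nonneg R))
    exact mass_mono (Psi_continuous hf hc e j) (hΨ0 j) z0 hR
  rw [integral_add]
  rotate_left
  · apply integrable_finsetSum
    intro j _
    exact ((iM j _).const_mul _).add (iM j _)
  · exact iM m _
  rw [integral_finsetSum]
  swap
  · intro j _
    exact ((iM j _).const_mul _).add (iM j _)
  have h50 : vb E (50 * r) = (50 : ℝ) ^ Module.finrank ℝ E * vb E r := vb_mul (by norm_num) hr0
  have hsum : ∑ j ∈ Finset.range m, ∫ x in ball z0 r,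
      ((3 / 4 : ℝ) ^ (m + 1 - j) * (∫ z in ball x (50 * r), Psi f δ e j z) +
        ∫ z in ball x (300 * r * (2 / 3 : ℝ) ^ (m + 1 - j)), Psi f δ e j z) ≤
      ∑ j ∈ Finset.range m, vb E r * K1 E * ((3 / 4 : ℝ) ^ (m + 1 - j) * P j) := by
    apply Finset.sum_le_sum
    intro j _
    rw [integral_add ((iM j _).const_mul _) (iM j _), integral_const_mul]
    have h1 := hterm j (50 * r) (by linarith)
    have hq : (2 / 3 : ℝ) ^ (m + 1 - j) ≤ 1 := pow_le_one₀ (by norm_num) (by norm_num)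
    have h2 := hterm j (300 * r * (2 / 3 : ℝ) ^ (m + 1 - j)) (by nlinarith)
    have h3 := vb_Rq_le (E := E) hr0 (m + 1 - j)
    have hθ : 0 ≤ (3 / 4 : ℝ) ^ (m + 1 - j) := by positivity
    have h4 : (3 / 4 : ℝ) ^ (m + 1 - j) * (∫ x in ball z0 r, ∫ z in ball x (50 * r), Psi f δ e j z) ≤
        (3 / 4 : ℝ) ^ (m + 1 - j) * (vb E (50 * r) * P j) := mul_le_mul_of_nonneg_left h1 hθ
    have h5 : vb E (300 * r * (2 / 3 : ℝ) ^ (m + 1 - j)) * P j ≤
        (3 / 4 : ℝ) ^ (m + 1 - j) * ((300 : ℝ) ^ Module.finrank ℝ E * vb E r) * P j :=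
      mul_le_mul_of_nonneg_right h3 (hP0 j)
    rw [h50] at h4
    have e1 : vb E r * K1 E * ((3 / 4 : ℝ) ^ (m + 1 - j) * P j) =
        (3 / 4 : ℝ) ^ (m + 1 - j) * ((50 : ℝ) ^ Module.finrank ℝ E * vb E r * P j) +
        (3 / 4 : ℝ) ^ (m + 1 - j) * ((300 : ℝ) ^ Module.finrank ℝ E * vb E r) * P j := by
      unfold K1; ring
    rw [e1]
    linarith
  have htop : ∫ x in ball z0 r, (∫ z in ball x (50 * r), Psi f δ e m z) ≤ vb E r * K1 E * P m := by
    refine (hterm m (50 * r) (by linarith)).trans ?_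
    rw [h50]
    apply mul_le_mul_of_nonneg_right _ (hP0 m)
    unfold K1
    have : 0 ≤ (300 : ℝ) ^ Module.finrank ℝ E * vb E r := by positivity
    nlinarith
  rw [Finset.sum_range_succ]
  have e2 : m + 1 - m = 1 := by omega
  rw [e2, mul_add, Finset.mul_sum]
  have hK : 0 ≤ vb E r * K1 E := mul_nonneg hv.le K1_nonneg
  have hfinal : ∑ j ∈ Finset.range m, vb E r * K1 E * ((3 / 4 : ℝ) ^ (m + 1 - j) * P j) ≤
      ∑ j ∈ Finset.range m, vb E r * K1 E * (4 / 3) * ((3 / 4 : ℝ) ^ (m + 1 - j) * P j) := by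
    apply Finset.sum_le_sum
    intro j _
    have : 0 ≤ vb E r * K1 E * ((3 / 4 : ℝ) ^ (m + 1 - j) * P j) :=
      mul_nonneg hK (mul_nonneg (by positivity) (hP0 j))
    nlinarith
  have e3 : vb E r * K1 E * (4 / 3) * ((3 / 4 : ℝ) ^ 1 * P m) = vb E r * K1 E * P m := by ring
  rw [e3]
  linarith

/-- the chain bound for a fixed centre -/
lemma chain_bound (hf : ContDiff ℝ 1 f) (hc : HasCompactSupport f) (hδ : 0 < δ) {e : E}
    (he : ‖e‖ ≤ 1) (z0 : E) {j : ℕ} (hj : j ≤ m)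
    (htop : grd f δ (m + 7) z0 e = ‖grd f δ (m + 7) z0‖) :
    ∫ z in ball z0 (301 * (δ * 4 ^ (m + 1))), Psi f δ e j z ≤
      (∑ l ∈ Finset.Ico j (m + 6), ∫ y in ball z0 (δ * 4 ^ (m + 6)), Tf f δ l y) +
        vb E (δ * 4 ^ (m + 6)) * Tf f δ (m + 6) z0 := by
  have hS : δ * 4 ^ (m + 6) = 1024 * (δ * 4 ^ (m + 1)) := by
    rw [show m + 6 = (m + 1) + 5 by omega, pow_add]; ring
  have hr : 0 < δ * 4 ^ (m + 1) := by positivity
  have h1 := sum_scales_le hδ j (m + 6)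
  have h2 := mass_Psi_chain hf hc hδ he z0 j (m + 6) (by omega)
    (301 * (δ * 4 ^ (m + 1))) (δ * 4 ^ (m + 6)) (by linarith)
  rw [mass_Psi_top hf hc hδ e z0 (m + 6) htop] at h2
  exact h2

end

end Vale.Agent.Lib.P137
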