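import Vale.Agent.Lib.P137.Sum2

namespace Vale.Agent.Lib.P137

open MeasureTheory Metric Set Filter Topology
open scoped ENNReal

set_option linter.unusedSectionVars false

variable {E : Type*} [NormedAddCommGroup E] [InnerProductSpace ℝ E] [FiniteDimensional ℝ E]
  [MeasurableSpace E] [BorelSpace E]

section

variable {f : E → ℝ} {δ : ℝ} {m : ℕ} {M R1 U : ℝ}

lemma Zf_integrableOn (hf : ContDiff ℝ 1 f) (hc : HasCompactSupport f) (e z0 : E) (r : ℝ) :
    IntegrableOn (Zf f δ e m) (ball z0 r) := by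
  have iM : ∀ (j : ℕ) (R : ℝ), IntegrableOn (fun x => ∫ z in ball x R, Psi f δ e j z)
      (ball z0 r) := fun j R => (integrable_mass (Psi_integrable hf hc e j) R).integrableOn
  unfold Zf
  apply Integrable.add
  · apply integrable_finsetSum
    intro j _
    exact ((iM j _).const_mul _).add (iM j _)
  · exact iM m _

/-- the function `F` of the chain -/
noncomputable def Ff (f : E → ℝ) (δ : ℝ) (m j : ℕ) (z0 : E) : ℝ :=
  (∑ l ∈ Finset.Ico j (m + 6), ∫ y in ball z0 (δ * 4 ^ (m + 6)), Tf f δ l y) +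
    vb E (δ * 4 ^ (m + 6)) * Tf f δ (m + 6) z0

lemma Ff_nonneg (hf : ContDiff ℝ 1 f) (hc : HasCompactSupport f) (hδ : 0 < δ) (j : ℕ) (z0 : E) :
    0 ≤ Ff f δ m j z0 := by
  unfold Ff
  apply add_nonneg
  · apply Finset.sum_nonneg
    intro l _
    exact integral_nonneg (Tf_nonneg hf hc hδ l)
  · exact mul_nonneg (vb_nonneg _) (Tf_nonneg hf hc hδ _ _)

/-- the local estimate around a centre -/
lemma J_bound [Nontrivial E] (hf : ContDiff ℝ 1 f) (hc : HasCompactSupport f) (hf0 : ∀ y, 0 ≤ f y) (hδ : 0 < δ)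
    (hV : ValFn (ballAv f) M R1 U) (hU : 18 * (δ * 4 ^ (m + 1)) ≤ U) (z0 : E) :
    ∫ x in ball z0 (δ * 4 ^ (m + 1)), (aSup (ballAv f) (δ * 4 ^ (m + 1)) U x -
        aSup (ballAv f) (4 * (δ * 4 ^ (m + 1))) U x) ≤
      ((1 + 2 * δ / (δ * 4 ^ (m + 1))) ^ Module.finrank ℝ E - 1) *
        (∫ x in ball z0 (δ * 4 ^ (m + 1)), aSup (ballAv f) (4 * (δ * 4 ^ (m + 1))) U x) +
      (80 / 3 * K1 E * (δ * 4 ^ (m + 1))) *
        ∑ j ∈ Finset.range (m + 1), (3 / 4 : ℝ) ^ (m + 1 - j) * Ff f δ m j z0 := by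
  obtain ⟨e, he, htop⟩ := exists_unit_norming (grd f δ (m + 7) z0)
  have hr0 : 0 < δ * 4 ^ (m + 1) := by positivity
  have h1 := integral_Zf_le (m := m) hf hc hδ (le_of_eq he) z0
  have hint := fun x => inc_bound hf hc hf0 hδ hV hU he x
  obtain ⟨r, hr⟩ : ∃ r, r = δ * 4 ^ (m + 1) := ⟨_, rfl⟩
  rw [← hr] at hU hr0 hint h1 ⊢
  have hv := vb_pos (E := E) hr0
  obtain ⟨κ, hκ⟩ : ∃ κ, κ = (1 + 2 * δ / r) ^ Module.finrank ℝ E - 1 := ⟨_, rfl⟩
  rw [← hκ] at hint ⊢
  have h4r : 0 < 4 * r := by positivity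
  have i1 : Integrable (aSup (ballAv f) r U) := integrable_aSup hV hr0 (by linarith) (by linarith)
  have i4 : Integrable (aSup (ballAv f) (4 * r) U) := integrable_aSup hV h4r (by linarith) (by linarith)
  have iZ := Zf_integrableOn (δ := δ) (m := m) hf hc e z0 r
  have h2 : ∫ x in ball z0 r, (aSup (ballAv f) r U x - aSup (ballAv f) (4 * r) U x) ≤
      ∫ x in ball z0 r, (κ * aSup (ballAv f) (4 * r) U x + (20 * r / vb E r) * Zf f δ e m x) := by
    have i14 : Integrable (fun x => aSup (ballAv f) r U x - aSup (ballAv f) (4 * r) U x) := i1.sub i4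
    apply setIntegral_mono_on i14.integrableOn
    · exact (i4.integrableOn.const_mul _).add (iZ.const_mul _)
    · exact measurableSet_ball
    · intro x _
      have := hint x
      linarith
  rw [integral_add (i4.integrableOn.const_mul _) (iZ.const_mul _), integral_const_mul,
    integral_const_mul] at h2
  refine h2.trans ?_
  apply add_le_add le_rfl
  have h5 : 0 ≤ 20 * r / vb E r := by positivity
  have hsum : ∑ j ∈ Finset.range (m + 1), (3 / 4 : ℝ) ^ (m + 1 - j) *
      (∫ z in ball z0 (301 * r), Psi f δ e j z) ≤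
      ∑ j ∈ Finset.range (m + 1), (3 / 4 : ℝ) ^ (m + 1 - j) * Ff f δ m j z0 := by
    apply Finset.sum_le_sum
    intro j hj
    apply mul_le_mul_of_nonneg_left _ (by positivity)
    have hj' : j ≤ m := by
      have := Finset.mem_range.mp hj
      omega
    have := chain_bound (m := m) hf hc hδ (le_of_eq he) z0 hj' htop
    rw [← hr] at this
    exact this
  have hK : 0 ≤ vb E r * K1 E * (4 / 3) := mul_nonneg (mul_nonneg hv.le K1_nonneg) (by norm_num)
  calc (20 * r / vb E r) * ∫ x in ball z0 r, Zf f δ e m x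
      ≤ (20 * r / vb E r) * (vb E r * K1 E * (4 / 3) *
          ∑ j ∈ Finset.range (m + 1), (3 / 4 : ℝ) ^ (m + 1 - j) * Ff f δ m j z0) :=
        mul_le_mul_of_nonneg_left (h1.trans (mul_le_mul_of_nonneg_left hsum hK)) h5
    _ = _ := by field_simp; ring

/-- the double sum of defects attached to a scale -/
noncomputable def Gf (f : E → ℝ) (δ : ℝ) (m : ℕ) : ℝ :=
  ∑ j ∈ Finset.range (m + 1), (3 / 4 : ℝ) ^ (m + 1 - j) *
    ∑ l ∈ Finset.Ico j (m + 7), ∫ y, Tf f δ l y

/-- the dimensional constant in the scale estimate -/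
noncomputable def K3 (E : Type*) [NormedAddCommGroup E] [InnerProductSpace ℝ E]
    [FiniteDimensional ℝ E] : ℝ :=
  80 / 3 * K1 E * (1024 : ℝ) ^ Module.finrank ℝ E

lemma K3_nonneg : 0 ≤ K3 E := by
  unfold K3
  have := K1_nonneg (E := E)
  positivity

lemma Ff_integrable (hf : ContDiff ℝ 1 f) (hc : HasCompactSupport f) (j : ℕ) :
    Integrable (Ff f δ m j) := by
  unfold Ff
  apply Integrable.add
  · apply integrable_finsetSum
    intro l _
    exact integrable_mass (Tf_integrable hf hc l) _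
  · exact (Tf_integrable hf hc _).const_mul _

lemma integral_Ff (hf : ContDiff ℝ 1 f) (hc : HasCompactSupport f) (j : ℕ) (hj : j ≤ m) :
    ∫ z0, Ff f δ m j z0 = vb E (δ * 4 ^ (m + 6)) * ∑ l ∈ Finset.Ico j (m + 7), ∫ y, Tf f δ l y := by
  unfold Ff
  rw [integral_add, integral_finsetSum, integral_const_mul, Finset.sum_Ico_succ_top (by omega : j ≤ m + 6),
    mul_add, Finset.mul_sum]
  · congr 1
    apply Finset.sum_congr rfl
    intro l _
    exact integral_mass (Tf_integrable hf hc l) _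
  · intro l _
    exact integrable_mass (Tf_integrable hf hc l) _
  · apply integrable_finsetSum
    intro l _
    exact integrable_mass (Tf_integrable hf hc l) _
  · exact (Tf_integrable hf hc _).const_mul _

/-- the integrated estimate at one scale -/
lemma inc_integral [Nontrivial E] (hf : ContDiff ℝ 1 f) (hc : HasCompactSupport f) (hf0 : ∀ y, 0 ≤ f y)
    (hδ : 0 < δ) (hV : ValFn (ballAv f) M R1 U) (hU : 18 * (δ * 4 ^ (m + 1)) ≤ U) :
    ∫ x, (aSup (ballAv f) (δ * 4 ^ (m + 1)) U x - aSup (ballAv f) (4 * (δ * 4 ^ (m + 1))) U x) ≤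
      ((1 + 2 * δ / (δ * 4 ^ (m + 1))) ^ Module.finrank ℝ E - 1) *
        (∫ x, aSup (ballAv f) (4 * (δ * 4 ^ (m + 1))) U x) +
      K3 E * (δ * 4 ^ (m + 1)) * Gf f δ m := by
  have hJ := J_bound (m := m) hf hc hf0 hδ hV hU
  have hS : δ * 4 ^ (m + 6) = 1024 * (δ * 4 ^ (m + 1)) := by
    rw [show m + 6 = (m + 1) + 5 by omega, pow_add]; ring
  have hint : ∫ z0, (∑ j ∈ Finset.range (m + 1), (3 / 4 : ℝ) ^ (m + 1 - j) * Ff f δ m j z0) =
      vb E (δ * 4 ^ (m + 6)) * Gf f δ m := by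
    rw [integral_finsetSum]
    · unfold Gf
      rw [Finset.mul_sum]
      apply Finset.sum_congr rfl
      intro j hj
      rw [integral_const_mul, integral_Ff hf hc j (by have := Finset.mem_range.mp hj; omega)]
      ring
    · intro j _
      exact (Ff_integrable hf hc j).const_mul _
  obtain ⟨r, hr⟩ : ∃ r, r = δ * 4 ^ (m + 1) := ⟨_, rfl⟩
  rw [← hr] at hU hJ hS ⊢
  have hr0 : 0 < r := by rw [hr]; positivity
  have hv := vb_pos (E := E) hr0
  obtain ⟨κ, hκ⟩ : ∃ κ, κ = (1 + 2 * δ / r) ^ Module.finrank ℝ E - 1 := ⟨_, rfl⟩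
  rw [← hκ] at hJ ⊢
  have h4r : 0 < 4 * r := by positivity
  have i1 : Integrable (aSup (ballAv f) r U) := integrable_aSup hV hr0 (by linarith) (by linarith)
  have i4 : Integrable (aSup (ballAv f) (4 * r) U) := integrable_aSup hV h4r (by linarith) (by linarith)
  have iD : Integrable (fun x => aSup (ballAv f) r U x - aSup (ballAv f) (4 * r) U x) := i1.sub i4
  have iH : Integrable (fun z0 => ∑ j ∈ Finset.range (m + 1), (3 / 4 : ℝ) ^ (m + 1 - j) * Ff f δ m j z0) := by
    apply integrable_finsetSum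
    intro j _
    exact (Ff_integrable hf hc j).const_mul _
  have h1 : ∫ z0, (∫ x in ball z0 r, (aSup (ballAv f) r U x - aSup (ballAv f) (4 * r) U x)) ≤
      ∫ z0, (κ * (∫ x in ball z0 r, aSup (ballAv f) (4 * r) U x) + (80 / 3 * K1 E * r) *
        ∑ j ∈ Finset.range (m + 1), (3 / 4 : ℝ) ^ (m + 1 - j) * Ff f δ m j z0) := by
    apply integral_mono (integrable_mass iD r)
    · exact ((integrable_mass i4 r).const_mul _).add (iH.const_mul _)
    · exact hJ
  rw [integral_mass iD r, integral_add ((integrable_mass i4 r).const_mul _) (iH.const_mul _),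
    integral_const_mul, integral_const_mul, integral_mass i4 r, hint, hS,
    vb_mul (by norm_num) hr0] at h1
  have h2 : vb E r * (∫ x, (aSup (ballAv f) r U x - aSup (ballAv f) (4 * r) U x)) ≤
      vb E r * (κ * (∫ x, aSup (ballAv f) (4 * r) U x) + K3 E * r * Gf f δ m) := by
    refine h1.trans (le_of_eq ?_)
    unfold K3
    ring
  exact le_of_mul_le_mul_left h2 hv

end

end Vale.Agent.Lib.P137
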