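import Mathlib

namespace Vale.Agent.Lib.P137

open Finset

/-- the geometric sum -/
lemma geo_le (k : ℕ) : ∑ j ∈ range (k + 1), (3 / 4 : ℝ) ^ (k + 1 - j) ≤ 3 := by
  induction k with
  | zero => simp; norm_num
  | succ k ih =>
    rw [sum_range_succ]
    have e : ∑ j ∈ range (k + 1), (3 / 4 : ℝ) ^ (k + 1 + 1 - j) =
        (3 / 4 : ℝ) * ∑ j ∈ range (k + 1), (3 / 4 : ℝ) ^ (k + 1 - j) := by
      rw [mul_sum]
      apply sum_congr rfl
      intro j hj
      have : k + 1 + 1 - j = (k + 1 - j) + 1 := by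
        have := mem_range.mp hj
        omega
      rw [this, pow_succ]
      ring
    rw [e]
    have e2 : k + 1 + 1 - (k + 1) = 1 := by omega
    rw [e2]
    norm_num
    linarith

variable {τ : ℕ → ℝ}

/-- the part of the double sum below the scale -/
noncomputable def Pq (τ : ℕ → ℝ) (m : ℕ) : ℝ :=
  ∑ j ∈ range (m + 1), (3 / 4 : ℝ) ^ (m + 1 - j) * ∑ l ∈ Ico j (m + 1), τ l

lemma Pq_nonneg (hτ : ∀ l, 0 ≤ τ l) (m : ℕ) : 0 ≤ Pq τ m :=
  sum_nonneg (fun _ _ => mul_nonneg (by positivity) (sum_nonneg (fun _ _ => hτ _)))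

lemma Pq_succ_le (hτ : ∀ l, 0 ≤ τ l) (m : ℕ) :
    Pq τ (m + 1) ≤ (3 / 4 : ℝ) * Pq τ m + 3 * τ (m + 1) := by
  unfold Pq
  rw [sum_range_succ]
  have e2 : m + 1 + 1 - (m + 1) = 1 := by omega
  rw [e2]
  have e3 : ∑ l ∈ Ico (m + 1) (m + 1 + 1), τ l = τ (m + 1) := by simp
  rw [e3]
  have e4 : ∑ j ∈ range (m + 1), (3 / 4 : ℝ) ^ (m + 1 + 1 - j) * ∑ l ∈ Ico j (m + 1 + 1), τ l =
      (3 / 4 : ℝ) * (∑ j ∈ range (m + 1), (3 / 4 : ℝ) ^ (m + 1 - j) * ∑ l ∈ Ico j (m + 1), τ l) +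
        τ (m + 1) * ∑ j ∈ range (m + 1), (3 / 4 : ℝ) ^ (m + 1 + 1 - j) := by
    rw [mul_sum, mul_sum, ← sum_add_distrib]
    apply sum_congr rfl
    intro j hj
    have hj' := mem_range.mp hj
    have h1 : m + 1 + 1 - j = (m + 1 - j) + 1 := by omega
    rw [sum_Ico_succ_top (by omega : j ≤ m + 1), h1, pow_succ]
    ring
  rw [e4]
  have h5 := geo_le (m + 1)
  rw [sum_range_succ, e2] at h5
  have h6 := hτ (m + 1)
  have h7 : τ (m + 1) * (∑ j ∈ range (m + 1), (3 / 4 : ℝ) ^ (m + 1 + 1 - j) + (3 / 4) ^ 1) ≤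
      τ (m + 1) * 3 := mul_le_mul_of_nonneg_left h5 h6
  nlinarith

lemma Pq_sum_le (hτ : ∀ l, 0 ≤ τ l) (M : ℕ) :
    ∑ m ∈ range (M + 1), Pq τ m + 3 * Pq τ M ≤ 12 * ∑ l ∈ range (M + 1), τ l := by
  induction M with
  | zero =>
    have : Pq τ 0 = (3 / 4 : ℝ) * τ 0 := by simp [Pq]
    simp only [zero_add, sum_range_one]
    rw [this]
    have := hτ 0
    nlinarith
  | succ M ih =>
    rw [sum_range_succ, sum_range_succ _ (M + 1)]
    have := Pq_succ_le hτ M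
    have := hτ (M + 1)
    nlinarith

lemma Pq_sum_le' (hτ : ∀ l, 0 ≤ τ l) (M : ℕ) :
    ∑ m ∈ range M, Pq τ m ≤ 12 * ∑ l ∈ range M, τ l := by
  cases M with
  | zero => simp
  | succ M =>
    have := Pq_sum_le hτ M
    have := Pq_nonneg hτ M
    linarith

/-- the window sum -/
lemma window_sum_le (hτ : ∀ l, 0 ≤ τ l) (M : ℕ) :
    ∑ m ∈ range M, ∑ l ∈ Ico (m + 1) (m + 7), τ l ≤ 6 * ∑ l ∈ range (M + 7), τ l := by
  have e : ∀ m, ∑ l ∈ Ico (m + 1) (m + 7), τ l = ∑ i ∈ range 6, τ (m + 1 + i) := by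
    intro m
    rw [sum_Ico_eq_sum_range]
    congr 2
    omega
  simp_rw [e]
  rw [sum_comm]
  have h1 : ∀ i ∈ range 6, ∑ m ∈ range M, τ (m + 1 + i) ≤ ∑ l ∈ range (M + 7), τ l := by
    intro i hi
    have hi' := mem_range.mp hi
    have e2 : ∑ m ∈ range M, τ (m + 1 + i) = ∑ l ∈ Ico (1 + i) (M + (1 + i)), τ l := by
      rw [sum_Ico_eq_sum_range]
      have : M + (1 + i) - (1 + i) = M := by omega
      rw [this]
      apply sum_congr rfl
      intro m _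
      congr 1
      omega
    rw [e2]
    apply sum_le_sum_of_subset_of_nonneg
    · intro l hl
      have := mem_Ico.mp hl
      exact mem_range.mpr (by omega)
    · intro l _ _
      exact hτ l
  have h2 := sum_le_sum h1
  simp only [sum_const, card_range, nsmul_eq_mul] at h2
  exact_mod_cast h2

/-- the whole double sum -/
lemma double_sum_le (hτ : ∀ l, 0 ≤ τ l) (M : ℕ) :
    ∑ m ∈ range M, ∑ j ∈ range (m + 1), (3 / 4 : ℝ) ^ (m + 1 - j) * ∑ l ∈ Ico j (m + 7), τ l ≤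
      30 * ∑ l ∈ range (M + 7), τ l := by
  have h1 : ∀ m ∈ range M, ∑ j ∈ range (m + 1), (3 / 4 : ℝ) ^ (m + 1 - j) * ∑ l ∈ Ico j (m + 7), τ l ≤
      Pq τ m + 3 * ∑ l ∈ Ico (m + 1) (m + 7), τ l := by
    intro m _
    have e : ∑ j ∈ range (m + 1), (3 / 4 : ℝ) ^ (m + 1 - j) * ∑ l ∈ Ico j (m + 7), τ l =
        Pq τ m + (∑ j ∈ range (m + 1), (3 / 4 : ℝ) ^ (m + 1 - j)) * ∑ l ∈ Ico (m + 1) (m + 7), τ l := by
      unfold Pq
      rw [sum_mul, ← sum_add_distrib]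
      apply sum_congr rfl
      intro j hj
      have hj' := mem_range.mp hj
      rw [← sum_Ico_consecutive τ (by omega : j ≤ m + 1) (by omega : m + 1 ≤ m + 7)]
      ring
    rw [e]
    have h2 := geo_le m
    have h3 : 0 ≤ ∑ l ∈ Ico (m + 1) (m + 7), τ l := sum_nonneg (fun _ _ => hτ _)
    have := mul_le_mul_of_nonneg_right h2 h3
    linarith
  have h2 := sum_le_sum h1
  rw [sum_add_distrib, ← mul_sum] at h2
  have h3 := Pq_sum_le' hτ M
  have h4 := window_sum_le hτ M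
  have h5 : ∑ l ∈ range M, τ l ≤ ∑ l ∈ range (M + 7), τ l := by
    apply sum_le_sum_of_subset_of_nonneg
    · intro l hl
      have := mem_range.mp hl
      exact mem_range.mpr (by omega)
    · intro l _ _
      exact hτ l
  linarith

end Vale.Agent.Lib.P137
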