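import Vale.Agent.Lib.P137.Sum3
import Vale.Agent.Lib.P137.Sum4

namespace Vale.Agent.Lib.P137

open MeasureTheory Metric Set Filter Topology
open scoped ENNReal

set_option linter.unusedSectionVars false

variable {E : Type*} [NormedAddCommGroup E] [InnerProductSpace ℝ E] [FiniteDimensional ℝ E]
  [MeasurableSpace E] [BorelSpace E]

section

variable {f : E → ℝ} {δ : ℝ} {M R1 U : ℝ}

lemma Gf_nonneg (hf : ContDiff ℝ 1 f) (hc : HasCompactSupport f) (hδ : 0 < δ) (m : ℕ) :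
    0 ≤ Gf f δ m := by
  unfold Gf
  apply Finset.sum_nonneg
  intro j _
  apply mul_nonneg (by positivity)
  apply Finset.sum_nonneg
  intro l _
  exact integral_nonneg (Tf_nonneg hf hc hδ l)

/-- the sum of the defects over all scales -/
lemma sum_Gf_le (hf : ContDiff ℝ 1 f) (hc : HasCompactSupport f) (hδ : 0 < δ) (N K : ℕ) :
    ∑ l ∈ Finset.range K, Gf f δ (N + l) ≤ 30 * ∫ y, ‖fderiv ℝ f y‖ := by
  have hτ : ∀ l, 0 ≤ ∫ y, Tf f δ l y := fun l => integral_nonneg (Tf_nonneg hf hc hδ l)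
  have h1 := double_sum_le hτ (N + K)
  have h2 : ∑ l ∈ Finset.range K, Gf f δ (N + l) ≤ ∑ m ∈ Finset.range (N + K), Gf f δ m := by
    have e : ∑ l ∈ Finset.range K, Gf f δ (N + l) = ∑ m ∈ Finset.Ico N (N + K), Gf f δ m := by
      rw [Finset.sum_Ico_eq_sum_range]
      simp
    rw [e]
    apply Finset.sum_le_sum_of_subset_of_nonneg
    · intro l hl
      have := Finset.mem_Ico.mp hl
      exact Finset.mem_range.mpr this.2
    · intro l _ _
      exact Gf_nonneg hf hc hδ l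
  have h3 := sum_integral_Tf_le hf hc hδ (N + K + 7)
  have h4 : ∑ m ∈ Finset.range (N + K), Gf f δ m ≤
      30 * ∑ l ∈ Finset.range (N + K + 7), ∫ y, Tf f δ l y := h1
  linarith

/-- the scale sum for a fixed lowest level -/
lemma scale_sum_level [Nontrivial E] (hf : ContDiff ℝ 1 f) (hc : HasCompactSupport f) (hf0 : ∀ y, 0 ≤ f y)
    {r0 : ℝ} (hr0 : 0 < r0) {K : ℕ} (hU : U = r0 * 4 ^ (K + 2))
    (hV : ValFn (ballAv f) M R1 U) (N : ℕ) :
    ∑ l ∈ Finset.range K, (1 / (r0 * 4 ^ l)) *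
        ∫ x, (aSup (ballAv f) (r0 * 4 ^ l) U x - aSup (ballAv f) (r0 * 4 ^ (l + 1)) U x) ≤
      ((1 + 2 * (1 / 4 : ℝ) ^ (N + 1)) ^ Module.finrank ℝ E - 1) *
        (∑ l ∈ Finset.range K, (1 / (r0 * 4 ^ l)) * ∫ x, aSup (ballAv f) (r0 * 4 ^ (l + 1)) U x) +
      K3 E * (30 * ∫ y, ‖fderiv ℝ f y‖) := by
  set δ := r0 * (1 / 4 : ℝ) ^ (N + 1) with hδdef
  have hδ : 0 < δ := by positivity
  have hscale : ∀ l, δ * 4 ^ (N + l + 1) = r0 * 4 ^ l := by
    intro l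
    have e : (4 : ℝ) ^ (N + l + 1) = 4 ^ (N + 1) * 4 ^ l := by
      rw [← pow_add]; congr 1; omega
    have h4 : (1 / 4 : ℝ) ^ (N + 1) * 4 ^ (N + 1) = 1 := by
      rw [← mul_pow]; norm_num
    rw [hδdef, e]
    calc r0 * (1 / 4 : ℝ) ^ (N + 1) * (4 ^ (N + 1) * 4 ^ l)
        = r0 * ((1 / 4 : ℝ) ^ (N + 1) * 4 ^ (N + 1)) * 4 ^ l := by ring
      _ = _ := by rw [h4, mul_one]
  have hterm : ∀ l ∈ Finset.range K, (1 / (r0 * 4 ^ l)) *
        ∫ x, (aSup (ballAv f) (r0 * 4 ^ l) U x - aSup (ballAv f) (r0 * 4 ^ (l + 1)) U x) ≤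
      ((1 + 2 * (1 / 4 : ℝ) ^ (N + 1)) ^ Module.finrank ℝ E - 1) *
        ((1 / (r0 * 4 ^ l)) * ∫ x, aSup (ballAv f) (r0 * 4 ^ (l + 1)) U x) +
      K3 E * Gf f δ (N + l) := by
    intro l hl
    have hl' := Finset.mem_range.mp hl
    have hR : 0 < r0 * 4 ^ l := by positivity
    have hUl : 18 * (δ * 4 ^ (N + l + 1)) ≤ U := by
      rw [hscale, hU]
      have h1 : (4 : ℝ) ^ (l + 3) ≤ 4 ^ (K + 2) := pow_le_pow_right₀ (by norm_num) (by omega)
      have h2 : (4 : ℝ) ^ (l + 3) = 64 * 4 ^ l := by rw [pow_add]; norm_num; ring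
      have h3 : 0 < (4 : ℝ) ^ l := by positivity
      have h4 : r0 * 4 ^ (l + 3) ≤ r0 * 4 ^ (K + 2) := mul_le_mul_of_nonneg_left h1 hr0.le
      rw [h2] at h4
      nlinarith [mul_pos hr0 h3]
    have h1 := inc_integral (m := N + l) hf hc hf0 hδ hV hUl
    rw [hscale] at h1
    have e4 : 4 * (r0 * 4 ^ l) = r0 * 4 ^ (l + 1) := by rw [pow_succ]; ring
    rw [e4] at h1
    have hκ : (1 + 2 * δ / (r0 * 4 ^ l)) ^ Module.finrank ℝ E ≤
        (1 + 2 * (1 / 4 : ℝ) ^ (N + 1)) ^ Module.finrank ℝ E := by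
      apply pow_le_pow_left₀ (by positivity)
      have e5 : 2 * δ / (r0 * 4 ^ l) = 2 * (1 / 4 : ℝ) ^ (N + 1) * (1 / 4 ^ l) := by
        rw [hδdef]
        field_simp
      rw [e5]
      have h6 : (1 : ℝ) / 4 ^ l ≤ 1 := by
        rw [div_le_one (by positivity)]
        exact one_le_pow₀ (by norm_num)
      have h7 : 0 < 2 * (1 / 4 : ℝ) ^ (N + 1) := by positivity
      nlinarith
    have hI : 0 ≤ ∫ x, aSup (ballAv f) (r0 * 4 ^ (l + 1)) U x :=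
      integral_nonneg (fun x => aSup_nonneg hV (by positivity) U x)
    have h2 := mul_le_mul_of_nonneg_left h1 (by positivity : 0 ≤ 1 / (r0 * 4 ^ l))
    refine h2.trans ?_
    have e6 : 1 / (r0 * 4 ^ l) * (K3 E * (r0 * 4 ^ l) * Gf f δ (N + l)) = K3 E * Gf f δ (N + l) := by
      field_simp
    rw [mul_add, e6]
    apply add_le_add _ le_rfl
    have e7 : 1 / (r0 * 4 ^ l) * (((1 + 2 * δ / (r0 * 4 ^ l)) ^ Module.finrank ℝ E - 1) *
        ∫ x, aSup (ballAv f) (r0 * 4 ^ (l + 1)) U x) =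
        ((1 + 2 * δ / (r0 * 4 ^ l)) ^ Module.finrank ℝ E - 1) *
        (1 / (r0 * 4 ^ l) * ∫ x, aSup (ballAv f) (r0 * 4 ^ (l + 1)) U x) := by ring
    rw [e7]
    apply mul_le_mul_of_nonneg_right (by linarith) (by positivity)
  refine (Finset.sum_le_sum hterm).trans ?_
  rw [Finset.sum_add_distrib, ← Finset.mul_sum, ← Finset.mul_sum]
  apply add_le_add le_rfl
  exact mul_le_mul_of_nonneg_left (sum_Gf_le hf hc hδ N K) K3_nonneg

/-- the scale sum, after letting the lowest level tend to infinity -/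
lemma scale_sum [Nontrivial E] (hf : ContDiff ℝ 1 f) (hc : HasCompactSupport f) (hf0 : ∀ y, 0 ≤ f y)
    {r0 : ℝ} (hr0 : 0 < r0) {K : ℕ} (hU : U = r0 * 4 ^ (K + 2))
    (hV : ValFn (ballAv f) M R1 U) :
    ∑ l ∈ Finset.range K, (1 / (r0 * 4 ^ l)) *
        ∫ x, (aSup (ballAv f) (r0 * 4 ^ l) U x - aSup (ballAv f) (r0 * 4 ^ (l + 1)) U x) ≤
      K3 E * (30 * ∫ y, ‖fderiv ℝ f y‖) := by
  have hlim : Tendsto (fun N : ℕ => ((1 + 2 * (1 / 4 : ℝ) ^ (N + 1)) ^ Module.finrank ℝ E - 1) *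
        (∑ l ∈ Finset.range K, (1 / (r0 * 4 ^ l)) * ∫ x, aSup (ballAv f) (r0 * 4 ^ (l + 1)) U x) +
      K3 E * (30 * ∫ y, ‖fderiv ℝ f y‖)) atTop (𝓝 (K3 E * (30 * ∫ y, ‖fderiv ℝ f y‖))) := by
    have h0 : Tendsto (fun N : ℕ => (1 / 4 : ℝ) ^ (N + 1)) atTop (𝓝 0) :=
      (tendsto_pow_atTop_nhds_zero_of_lt_one (by norm_num) (by norm_num)).comp (tendsto_add_atTop_nat 1)
    have h1 : Tendsto (fun N : ℕ => (1 + 2 * (1 / 4 : ℝ) ^ (N + 1)) ^ Module.finrank ℝ E - 1) atTop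
        (𝓝 ((1 + 2 * 0) ^ Module.finrank ℝ E - 1)) :=
      (((h0.const_mul 2).const_add 1).pow _).sub_const 1
    have h2 := (h1.mul_const (∑ l ∈ Finset.range K, (1 / (r0 * 4 ^ l)) *
      ∫ x, aSup (ballAv f) (r0 * 4 ^ (l + 1)) U x)).add_const (K3 E * (30 * ∫ y, ‖fderiv ℝ f y‖))
    simpa using h2
  exact ge_of_tendsto' hlim (fun N => scale_sum_level hf hc hf0 hr0 hU hV N)

end

end Vale.Agent.Lib.P137
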