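import Vale.Agent.Lib.P137.Good4

namespace Vale.Agent.Lib.P137

open MeasureTheory Metric Set Filter Topology
open scoped ENNReal

set_option linter.unusedSectionVars false

variable {E : Type*} [NormedAddCommGroup E] [InnerProductSpace ℝ E] [FiniteDimensional ℝ E]
  [MeasurableSpace E] [BorelSpace E]

section

variable {h g : E → ℝ}

lemma gn_meas (hf : ContDiff ℝ 1 h) (hc : HasCompactSupport h) (h0 : ∀ y, 0 ≤ h y) (n : ℕ) :
    Measurable (gn h n) := by
  have hfc : Continuous h := hf.continuous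
  obtain ⟨C, hC'⟩ := hc.exists_bound_of_continuous hfc
  have hC : ∀ y, h y ≤ C := fun y => (le_abs_self _).trans (hC' y)
  obtain ⟨R0, hR0'⟩ := hc.isCompact.isBounded.subset_closedBall (0 : E)
  have hR0 : ∀ y, R0 + 1 ≤ ‖y‖ → h y = 0 := by
    intro y hy
    by_contra hne
    have := hR0' (subset_tsupport _ hne)
    rw [mem_closedBall, dist_zero_right] at this
    linarith
  exact gn_measurable hfc h0 hC hR0 hc n

lemma gn_int (hf : ContDiff ℝ 1 h) (hc : HasCompactSupport h) (h0 : ∀ y, 0 ≤ h y) (n : ℕ) :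
    Integrable (gn h n) := by
  have hfc : Continuous h := hf.continuous
  obtain ⟨C, hC'⟩ := hc.exists_bound_of_continuous hfc
  have hC : ∀ y, h y ≤ C := fun y => (le_abs_self _).trans (hC' y)
  obtain ⟨R0, hR0'⟩ := hc.isCompact.isBounded.subset_closedBall (0 : E)
  have hR0 : ∀ y, R0 + 1 ≤ ‖y‖ → h y = 0 := by
    intro y hy
    by_contra hne
    have := hR0' (subset_tsupport _ hne)
    rw [mem_closedBall, dist_zero_right] at this
    linarith
  exact gn_integrable hfc h0 hC hR0 hc n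

/-- averages of two close functions are close on large balls -/
lemma abs_ballAv_sub_le (hhi : Integrable h) (hgi : Integrable g) {r ρ : ℝ} (hr : 0 < r) (hρ : r ≤ ρ) (c : E) :
    |ballAv h c ρ - ballAv g c ρ| ≤ (vb E r)⁻¹ * ∫ y, ‖h y - g y‖ := by
  have hv := vb_pos (E := E) hr
  rw [← ballAv_sub hhi.integrableOn hgi.integrableOn]
  unfold ballAv
  have hv' : 0 < vb E ρ := vb_pos (hr.trans_le hρ)
  rw [abs_mul, abs_of_pos (inv_pos.mpr hv')]
  have hi : Integrable (fun y => ‖h y - g y‖) := (hhi.sub hgi).norm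
  have h1 : |∫ y in ball c ρ, (h y - g y)| ≤ ∫ y, ‖h y - g y‖ := by
    have h2 : ‖∫ y in ball c ρ, (h y - g y)‖ ≤ ∫ y in ball c ρ, ‖h y - g y‖ :=
      norm_integral_le_integral_norm _
    rw [Real.norm_eq_abs] at h2
    refine h2.trans ?_
    exact setIntegral_le_integral hi (Eventually.of_forall fun y => norm_nonneg _)
  exact mul_le_mul (inv_anti₀ hv (vb_mono hr hρ)) h1 (abs_nonneg _) (inv_nonneg.mpr hv.le)

lemma gn_bdd (h0 : ∀ y, 0 ≤ h y) (hi : Integrable h) (n : ℕ) (x : E) :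
    BddAbove (range (fun p : {p : E × ℝ // (1 / 4 : ℝ) ^ n ≤ p.2 ∧ p.2 < (1 / 4 : ℝ) ^ n * 4 ^ (2 * n + 2) ∧
        x ∈ ball p.1 p.2} => ballAv h p.1.1 p.1.2)) :=
  ⟨(vb E ((1 / 4 : ℝ) ^ n))⁻¹ * ∫ y, h y, by
    rintro _ ⟨p, rfl⟩
    exact ballAv_le_total h0 hi (by positivity) p.2.1⟩

/-- convergence of the truncated maximal functions of an approximating sequence -/
lemma gn_tendsto_general (hg0 : ∀ y, 0 ≤ g y) (hgi : Integrable g) {hs : ℕ → E → ℝ}
    (hs0 : ∀ n y, 0 ≤ hs n y) (hsi : ∀ n, Integrable (hs n))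
    (hclose : ∀ n : ℕ, (vb E ((1 / 4 : ℝ) ^ n))⁻¹ * ∫ y, ‖hs n y - g y‖ ≤ 1 / ((n : ℝ) + 1)) {x : E}
    (hbd : BddAbove (range (fun p : {p : E × ℝ // 0 < p.2 ∧ x ∈ ball p.1 p.2} => ballAv g p.1.1 p.1.2))) :
    Tendsto (fun n => gn (hs n) n x) atTop (𝓝 (Mtil g x)) := by
  have hlim0 : Tendsto (fun n : ℕ => 1 / ((n : ℝ) + 1)) atTop (𝓝 0) := tendsto_one_div_add_atTop_nhds_zero_nat
  have hnn : 0 ≤ Mtil g x := Mtil_nonneg hg0 x
  rw [tendsto_order]
  constructor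
  · intro a ha
    have hne : Nonempty {p : E × ℝ // 0 < p.2 ∧ x ∈ ball p.1 p.2} :=
      ⟨⟨(x, 1), one_pos, mem_ball_self one_pos⟩⟩
    obtain ⟨⟨⟨c, ρ⟩, h1, h2⟩, h3⟩ := exists_lt_of_lt_ciSup ha
    simp only at h1 h2 h3
    -- for large n the ball is in the class
    have ht1 : Tendsto (fun n : ℕ => (1 / 4 : ℝ) ^ n) atTop (𝓝 0) :=
      tendsto_pow_atTop_nhds_zero_of_lt_one (by norm_num) (by norm_num)
    have ht2 : Tendsto (fun n : ℕ => (4 : ℝ) ^ n) atTop atTop :=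
      tendsto_pow_atTop_atTop_of_one_lt (by norm_num)
    have hε : 0 < ballAv g c ρ - a := sub_pos.mpr h3
    filter_upwards [ht1.eventually (gt_mem_nhds h1), ht2.eventually (eventually_gt_atTop ρ),
      hlim0.eventually (gt_mem_nhds hε)] with n hn1 hn2 hn3
    have hr : (0 : ℝ) < (1 / 4) ^ n := by positivity
    have hR : ρ < (1 / 4 : ℝ) ^ n * 4 ^ (2 * n + 2) := by
      rw [gn_top]
      have : 0 < (4 : ℝ) ^ n := by positivity
      linarith
    have h4 : ballAv (hs n) c ρ ≤ gn (hs n) n x :=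
      le_ciSup (gn_bdd (hs0 n) (hsi n) n x)
        (⟨(c, ρ), hn1.le, hR, h2⟩ : {p : E × ℝ // (1 / 4 : ℝ) ^ n ≤ p.2 ∧
          p.2 < (1 / 4 : ℝ) ^ n * 4 ^ (2 * n + 2) ∧ x ∈ ball p.1 p.2})
    have h5 := abs_ballAv_sub_le (hsi n) hgi hr hn1.le c
    have h6 := (h5.trans (hclose n))
    have h7 := (abs_le.mp h6).1
    linarith
  · intro a ha
    have hε : 0 < a - Mtil g x := sub_pos.mpr ha
    filter_upwards [hlim0.eventually (gt_mem_nhds hε)] with n hn
    have h1 : gn (hs n) n x ≤ Mtil g x + 1 / ((n : ℝ) + 1) := by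
      apply Real.iSup_le _ (by positivity)
      rintro ⟨⟨c, ρ⟩, h1, h2, h3⟩
      simp only at h1 h2 h3 ⊢
      have hr : (0 : ℝ) < (1 / 4) ^ n := by positivity
      have h5 := abs_ballAv_sub_le (hsi n) hgi hr h1 c
      have h6 := (h5.trans (hclose n))
      have h7 := (abs_le.mp h6).2
      have h8 : ballAv g c ρ ≤ Mtil g x :=
        le_ciSup hbd (⟨(c, ρ), hr.trans_le h1, h3⟩ : {p : E × ℝ // 0 < p.2 ∧ x ∈ ball p.1 p.2})
      linarith
    linarith

/-- the translation estimate for a function approximable by smooth nonnegative functions -/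
theorem Mtil_translate_general [Nontrivial E] (hg0 : ∀ y, 0 ≤ g y) (hgi : Integrable g) {A : ℝ}
    (happ : ∀ η > 0, ∃ h : E → ℝ, ContDiff ℝ 1 h ∧ HasCompactSupport h ∧ (∀ y, 0 ≤ h y) ∧
      ∫ y, ‖h y - g y‖ ≤ η ∧ ∫ y, ‖fderiv ℝ h y‖ ≤ A + η)
    (hfin : ∀ᵐ x : E, BddAbove (range (fun p : {p : E × ℝ // 0 < p.2 ∧ x ∈ ball p.1 p.2} =>
      ballAv g p.1.1 p.1.2)))
    (v : E) :
    ∫⁻ x, ENNReal.ofReal ‖Mtil g (x + v) - Mtil g x‖ ≤
      ENNReal.ofReal (4 * Module.finrank ℝ E * ‖v‖ * (K5 E * A)) := by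
  have hη : ∀ n : ℕ, 0 < min (vb E ((1 / 4 : ℝ) ^ n) / ((n : ℝ) + 1)) (1 / ((n : ℝ) + 1)) := by
    intro n
    have := vb_pos (E := E) (s := (1 / 4 : ℝ) ^ n) (by positivity)
    positivity
  choose hs hs1 hs2 hs3 hs4 hs5 using fun n : ℕ => happ _ (hη n)
  have hsc : ∀ n, Continuous (hs n) := fun n => (hs1 n).continuous
  have hsi : ∀ n, Integrable (hs n) := fun n => (hsc n).integrable_of_hasCompactSupport (hs2 n)
  have hclose : ∀ n : ℕ, (vb E ((1 / 4 : ℝ) ^ n))⁻¹ * ∫ y, ‖hs n y - g y‖ ≤ 1 / ((n : ℝ) + 1) := by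
    intro n
    have hv := vb_pos (E := E) (s := (1 / 4 : ℝ) ^ n) (by positivity)
    have h1 := (hs4 n).trans (min_le_left _ _)
    calc _ ≤ (vb E ((1 / 4 : ℝ) ^ n))⁻¹ * (vb E ((1 / 4 : ℝ) ^ n) / ((n : ℝ) + 1)) :=
          mul_le_mul_of_nonneg_left h1 (inv_nonneg.mpr hv.le)
      _ = _ := by field_simp
  have hmass : ∀ n : ℕ, ∫ y, hs n y ≤ (∫ y, g y) + 1 := by
    intro n
    have h1 := (hs4 n).trans (min_le_right _ _)
    have h2 : 1 / ((n : ℝ) + 1) ≤ 1 := by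
      rw [div_le_one (by positivity)]
      have : (0 : ℝ) ≤ n := by positivity
      linarith
    have h3 : ∫ y, (hs n y - g y) ≤ ∫ y, ‖hs n y - g y‖ :=
      integral_mono ((hsi n).sub hgi) ((hsi n).sub hgi).norm (fun y => le_abs_self _)
    rw [integral_sub (hsi n) hgi] at h3
    linarith
  have hgrad : ∀ n : ℕ, ∫ y, ‖fderiv ℝ (hs n) y‖ ≤ A + 1 / ((n : ℝ) + 1) := by
    intro n
    have h1 := min_le_right (vb E ((1 / 4 : ℝ) ^ n) / ((n : ℝ) + 1)) (1 / ((n : ℝ) + 1))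
    linarith [hs5 n]
  set F : ℕ → E → ℝ≥0∞ := fun n x => ENNReal.ofReal ‖gn (hs n) n (x + v) - gn (hs n) n x‖ with hF
  have hFm : ∀ n, Measurable (F n) := by
    intro n
    apply ENNReal.measurable_ofReal.comp
    apply Measurable.norm
    exact ((gn_meas (hs1 n) (hs2 n) (hs3 n) n).comp (measurable_add_const v)).sub
      (gn_meas (hs1 n) (hs2 n) (hs3 n) n)
  have hfin2 : ∀ᵐ x : E, BddAbove (range (fun p : {p : E × ℝ // 0 < p.2 ∧ x + v ∈ ball p.1 p.2} =>
      ballAv g p.1.1 p.1.2)) :=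
    (measurePreserving_add_right (volume : Measure E) v).quasiMeasurePreserving.ae hfin
  have hlim : ∀ᵐ x : E, Tendsto (fun n => F n x) atTop (𝓝 (ENNReal.ofReal ‖Mtil g (x + v) - Mtil g x‖)) := by
    filter_upwards [hfin, hfin2] with x hx1 hx2
    apply ENNReal.continuous_ofReal.continuousAt.tendsto.comp
    exact ((gn_tendsto_general hg0 hgi (fun n => hs3 n) hsi hclose hx2).sub
      (gn_tendsto_general hg0 hgi (fun n => hs3 n) hsi hclose hx1)).norm
  have hd : (0 : ℝ) ≤ 4 * Module.finrank ℝ E * ‖v‖ := by positivity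
  have hK5 := K5_nonneg (E := E)
  set c : ℕ → ℝ := fun n => 4 * Module.finrank ℝ E * ‖v‖ * ((1 / 4 : ℝ) ^ n *
      ((32 : ℝ) ^ Module.finrank ℝ E * ((∫ y, g y) + 1)) + K5 E * (A + 1 / ((n : ℝ) + 1))) with hc'
  have hcl : Tendsto c atTop (𝓝 (4 * Module.finrank ℝ E * ‖v‖ * (K5 E * A))) := by
    have h0 : Tendsto (fun n : ℕ => (1 / 4 : ℝ) ^ n) atTop (𝓝 0) :=
      tendsto_pow_atTop_nhds_zero_of_lt_one (by norm_num) (by norm_num)
    have hlim0 : Tendsto (fun n : ℕ => 1 / ((n : ℝ) + 1)) atTop (𝓝 0) := tendsto_one_div_add_atTop_nhds_zero_nat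
    have h1 := ((h0.mul_const ((32 : ℝ) ^ Module.finrank ℝ E * ((∫ y, g y) + 1))).add
      ((hlim0.const_add A).const_mul (K5 E))).const_mul (4 * (Module.finrank ℝ E : ℝ) * ‖v‖)
    rw [zero_mul, zero_add, add_zero] at h1
    exact h1
  have hev : ∀ n : ℕ, ∫⁻ x, F n x ≤ ENNReal.ofReal (c n) := by
    intro n
    have hr0 : (0 : ℝ) < (1 / 4) ^ n := by positivity
    have h4 := trunc_translate' (K := 2 * n) (hs1 n) (hs2 n) (hs3 n) hr0 v
    have e5 : 1 / ((1 / 4 : ℝ) ^ n * 4 ^ (2 * n)) = (1 / 4 : ℝ) ^ n := by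
      have h6 : (4 : ℝ) ^ (2 * n) = 4 ^ n * 4 ^ n := by rw [two_mul, pow_add]
      have h7 : (1 / 4 : ℝ) ^ n * 4 ^ n = 1 := by
        rw [← mul_pow]; norm_num
      rw [h6]
      have h8 : (1 / 4 : ℝ) ^ n * (4 ^ n * 4 ^ n) = 4 ^ n := by
        rw [← mul_assoc, h7, one_mul]
      rw [h8, one_div, one_div, inv_pow]
    rw [e5] at h4
    have i1 : Integrable (fun x => ‖gn (hs n) n (x + v) - gn (hs n) n x‖) :=
      (((gn_int (hs1 n) (hs2 n) (hs3 n) n).comp_add_right v).sub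
        (gn_int (hs1 n) (hs2 n) (hs3 n) n)).norm
    calc ∫⁻ x, F n x = ENNReal.ofReal (∫ x, ‖gn (hs n) n (x + v) - gn (hs n) n x‖) :=
          (ofReal_integral_eq_lintegral_ofReal i1 (Eventually.of_forall fun x => norm_nonneg _)).symm
      _ ≤ ENNReal.ofReal (c n) := by
          apply ENNReal.ofReal_le_ofReal
          refine h4.trans ?_
          apply mul_le_mul_of_nonneg_left _ hd
          apply add_le_add
          · apply mul_le_mul_of_nonneg_left _ (by positivity)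
            exact mul_le_mul_of_nonneg_left (hmass n) (by positivity)
          · exact mul_le_mul_of_nonneg_left (hgrad n) hK5
  calc ∫⁻ x, ENNReal.ofReal ‖Mtil g (x + v) - Mtil g x‖
      = ∫⁻ x, liminf (fun n => F n x) atTop := by
        apply lintegral_congr_ae
        filter_upwards [hlim] with x hx
        exact hx.liminf_eq.symm
    _ ≤ liminf (fun n => ∫⁻ x, F n x) atTop := lintegral_liminf_le hFm
    _ ≤ liminf (fun n => ENNReal.ofReal (c n)) atTop :=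
        liminf_le_liminf (Eventually.of_forall hev)
    _ = ENNReal.ofReal (4 * Module.finrank ℝ E * ‖v‖ * (K5 E * A)) :=
        (ENNReal.tendsto_ofReal hcl).liminf_eq

end

end Vale.Agent.Lib.P137
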