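import Vale.Agent.Lib.P137.Trans1

namespace Vale.Agent.Lib.P137

open MeasureTheory Metric Set Filter Topology
open scoped ENNReal

set_option linter.unusedSectionVars false

variable {E : Type*} [NormedAddCommGroup E] [InnerProductSpace ℝ E] [FiniteDimensional ℝ E]
  [MeasurableSpace E] [BorelSpace E]

/-- the maximal function with values in the extended reals -/
noncomputable def uE (g : E → ℝ) (x : E) : ℝ≥0∞ :=
  ⨆ p : {p : E × ℝ // 0 < p.2 ∧ x ∈ ball p.1 p.2}, ENNReal.ofReal (ballAv g p.1.1 p.1.2)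

lemma uE_toReal {g : E → ℝ} (hg0 : ∀ y, 0 ≤ g y) (x : E) : (uE g x).toReal = Mtil g x := by
  unfold uE Mtil
  rw [ENNReal.toReal_iSup (fun _ => ENNReal.ofReal_ne_top)]
  congr 1
  ext p
  exact ENNReal.toReal_ofReal (ballAv_nonneg hg0 _ _)

lemma measurable_uE (g : E → ℝ) : Measurable (uE g) := by
  apply measurable_of_Ioi
  intro a
  apply IsOpen.measurableSet
  rw [isOpen_iff_mem_nhds]
  intro x hx
  have hx' : a < uE g x := hx
  obtain ⟨⟨⟨c, ρ⟩, h1, h2⟩, h3⟩ := lt_iSup_iff.mp hx'
  simp only at h1 h2 h3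
  filter_upwards [isOpen_ball.mem_nhds h2] with y hy
  have h4 : ENNReal.ofReal (ballAv g c ρ) ≤ uE g y :=
    le_iSup (fun p : {p : E × ℝ // 0 < p.2 ∧ y ∈ ball p.1 p.2} => ENNReal.ofReal (ballAv g p.1.1 p.1.2))
      ⟨(c, ρ), h1, hy⟩
  exact h3.trans_le h4

lemma measurable_Mtil {g : E → ℝ} (hg0 : ∀ y, 0 ≤ g y) : Measurable (Mtil g) := by
  have : Mtil g = fun x => (uE g x).toReal := by
    ext x
    exact (uE_toReal hg0 x).symm
  rw [this]
  exact (measurable_uE g).ennreal_toReal

section

variable {u : E → ℝ} {B : ℝ} {e : E}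

/-- bounded variation along almost every line -/
lemma ae_line_bv (hu : Measurable u)
    (hT : ∀ v : E, ∫⁻ x, ENNReal.ofReal ‖u (x + v) - u x‖ ≤ ENNReal.ofReal (B * ‖v‖)) (he : ‖e‖ = 1) :
    ∀ᵐ x : E, ∀ T : ℕ, Continuous (fun t : ℝ => u (x + t • e)) →
      eVariationOn (fun t : ℝ => u (x + t • e)) (Icc (-(T : ℝ)) T) ≠ ⊤ := by
  rw [ae_all_iff]
  intro T
  have hball : ∀ R : ℕ, ∀ᵐ x : E, x ∈ ball (0 : E) R → Continuous (fun t : ℝ => u (x + t • e)) →
      eVariationOn (fun t : ℝ => u (x + t • e)) (Icc (-(T : ℝ)) T) ≠ ⊤ := by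
    intro R
    let s : ℕ → ℝ := fun n => 1 / ((n : ℝ) + 1)
    have hs : ∀ n, 0 < s n := fun n => by positivity
    have hs0 : Tendsto s atTop (𝓝 0) := tendsto_one_div_add_atTop_nhds_zero_nat
    let Q : ℕ → E → ℝ≥0∞ := fun n y => ENNReal.ofReal ‖u (y + s n • e) - u y‖
    have hQ : ∀ n, Measurable (Q n) := by
      intro n
      apply ENNReal.measurable_ofReal.comp
      exact ((hu.comp (measurable_add_const _)).sub hu).norm
    let L : ℕ → E → ℝ≥0∞ := fun n x => ENNReal.ofReal (s n)⁻¹ *
      ∫⁻ t in Icc (-(T : ℝ)) T, Q n (x + t • e)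
    have hL : ∀ n, Measurable (L n) := by
      intro n
      apply Measurable.const_mul
      exact ((hQ n).comp (measurable_line e)).lintegral_prod_right'
    have hint : ∀ n, ∫⁻ x in ball (0 : E) R, L n x ≤ ENNReal.ofReal (((T : ℝ) - (-(T : ℝ))) * B) := by
      intro n
      have h1 := lintegral_set_Icc_le (hQ n) e (-(T : ℝ)) T (ball (0 : E) R)
      have h2 := hT (s n • e)
      have hn : ‖s n • e‖ = s n := by
        rw [norm_smul, he, mul_one, Real.norm_eq_abs, abs_of_pos (hs n)]
      rw [hn] at h2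
      calc ∫⁻ x in ball (0 : E) R, L n x
          = ENNReal.ofReal (s n)⁻¹ * ∫⁻ x in ball (0 : E) R, ∫⁻ t in Icc (-(T : ℝ)) T, Q n (x + t • e) :=
            lintegral_const_mul _ ((hQ n).comp (measurable_line e)).lintegral_prod_right'
        _ ≤ ENNReal.ofReal (s n)⁻¹ * (ENNReal.ofReal ((T : ℝ) - (-(T : ℝ))) * ENNReal.ofReal (B * s n)) := by
            gcongr
            exact h1.trans (mul_le_mul_right h2 _)
        _ = _ := by
            have hT0 : (0 : ℝ) ≤ (T : ℝ) - (-(T : ℝ)) := by
              have : (0 : ℝ) ≤ T := by positivity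
              linarith
            rw [← ENNReal.ofReal_mul hT0, ← ENNReal.ofReal_mul (inv_pos.mpr (hs n)).le]
            congr 1
            have := (hs n).ne'
            field_simp
    have hfatou : ∫⁻ x in ball (0 : E) R, liminf (fun n => L n x) atTop ≠ ⊤ := by
      apply ne_top_of_le_ne_top (ENNReal.ofReal_ne_top (r := ((T : ℝ) - (-(T : ℝ))) * B))
      refine (lintegral_liminf_le hL).trans ?_
      refine liminf_le_of_le (by isBoundedDefault) ?_
      intro b hb
      obtain ⟨n, hn⟩ := hb.exists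
      exact hn.trans (hint n)
    have hlim := ae_lt_top (Measurable.liminf hL) hfatou
    rw [ae_restrict_iff' measurableSet_ball] at hlim
    filter_upwards [hlim] with x hx hxb hcont
    have hlt := hx hxb
    obtain ⟨b, hb1, hb2⟩ := exists_between hlt
    have hfreq : ∃ᶠ n in atTop, L n x < b := frequently_lt_of_liminf_lt (by isBoundedDefault) hb1
    have hfreq2 : ∃ᶠ n in atTop, ENNReal.ofReal (s n)⁻¹ *
        ∫⁻ t in Icc (-(T : ℝ)) T, ENNReal.ofReal |u (x + (t + s n) • e) - u (x + t • e)| ≤ b := by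
      refine hfreq.mono fun n hn => ?_
      have : ∀ t : ℝ, ENNReal.ofReal |u (x + (t + s n) • e) - u (x + t • e)| = Q n (x + t • e) := by
        intro t
        simp only [Q]
        rw [Real.norm_eq_abs, add_smul, add_assoc]
      simp_rw [this]
      exact hn.le
    have hab : -(T : ℝ) ≤ T := by
      have : (0 : ℝ) ≤ T := by positivity
      linarith
    have := eVariationOn_le_of_quot hcont hs hs0 hab hfreq2
    exact ne_top_of_le_ne_top hb2.ne this
  filter_upwards [ae_all_iff.mpr hball] with x hx hc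
  obtain ⟨R, hR⟩ := exists_nat_gt ‖x‖
  exact hx R (by simpa using hR) hc

/-- local integrability from the translation estimate -/
lemma locInt_of_translate (hu : Measurable u) (hB : 0 ≤ B)
    (hT : ∀ v : E, ∫⁻ x, ENNReal.ofReal ‖u (x + v) - u x‖ ≤ ENNReal.ofReal (B * ‖v‖)) {R : ℝ} (hR : 0 < R) :
    ∫⁻ x in ball (0 : E) R, ENNReal.ofReal |u x| ≠ ⊤ := by
  -- a piece of the ball where the function is bounded
  let Y : ℕ → Set E := fun n => ball (0 : E) R ∩ {y | |u y| ≤ n}
  have hYm : ∀ n, MeasurableSet (Y n) := fun n =>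
    measurableSet_ball.inter (measurableSet_le hu.abs measurable_const)
  have hcov : (⋃ n, Y n) = ball (0 : E) R := by
    ext y
    simp only [mem_iUnion, Y, mem_inter_iff, mem_ofPred_eq]
    constructor
    · rintro ⟨n, h, _⟩
      exact h
    · intro h
      obtain ⟨n, hn⟩ := exists_nat_ge |u y|
      exact ⟨n, h, hn⟩
  obtain ⟨n, hn⟩ : ∃ n, volume (Y n) ≠ 0 := by
    by_contra hcon
    push Not at hcon
    have h1 : volume (⋃ n, Y n) = 0 := measure_iUnion_null hcon
    rw [hcov] at h1
    exact (measure_ball_pos _ _ hR).ne' h1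
  have hYfin : volume (Y n) ≠ ⊤ :=
    ne_top_of_le_ne_top (volume_ball_ne_top _ _) (measure_mono inter_subset_left)
  let D : E → E → ℝ≥0∞ := fun x y => ENNReal.ofReal |u x - u y|
  have hDm : Measurable (Function.uncurry D) := by
    apply ENNReal.measurable_ofReal.comp
    exact ((hu.comp measurable_fst).sub (hu.comp measurable_snd)).abs
  have hpt : ∀ x, volume (Y n) * ENNReal.ofReal |u x| ≤
      volume (Y n) * ENNReal.ofReal (n : ℝ) + ∫⁻ y in Y n, D x y := by
    intro x
    have h1 : ∀ y ∈ Y n, ENNReal.ofReal |u x| ≤ ENNReal.ofReal (n : ℝ) + D x y := by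
      intro y hy
      rw [← ENNReal.ofReal_add (by positivity) (abs_nonneg _)]
      apply ENNReal.ofReal_le_ofReal
      have h2 : |u y| ≤ n := hy.2
      have h3 := abs_sub_abs_le_abs_sub (u x) (u y)
      linarith
    have hmeas : Measurable (fun y => D x y) := hDm.comp (measurable_prodMk_left (x := x))
    calc volume (Y n) * ENNReal.ofReal |u x| = ∫⁻ _ in Y n, ENNReal.ofReal |u x| := by
          rw [setLIntegral_const, mul_comm]
      _ ≤ ∫⁻ y in Y n, (ENNReal.ofReal (n : ℝ) + D x y) := setLIntegral_mono' (hYm n) h1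
      _ = _ := by
          rw [lintegral_add_left measurable_const, setLIntegral_const, mul_comm]
  have hdouble : ∫⁻ x in ball (0 : E) R, ∫⁻ y in Y n, D x y ≠ ⊤ := by
    have hb : ∀ x ∈ ball (0 : E) R, ∫⁻ y in Y n, D x y ≤
        ∫⁻ v in ball (0 : E) (2 * R), ENNReal.ofReal ‖u (x + v) - u x‖ := by
      intro x hx
      have h1 : ∫⁻ y in Y n, D x y ≤ ∫⁻ y in ball x (2 * R), D x y := by
        apply lintegral_mono_set
        intro y hy
        have h2 : y ∈ ball (0 : E) R := hy.1
        rw [mem_ball_zero_iff] at h2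
        rw [mem_ball_zero_iff] at hx
        rw [mem_ball, dist_eq_norm]
        have := norm_sub_le y x
        linarith
      refine h1.trans (le_of_eq ?_)
      have hpre : (fun v => x + v) ⁻¹' ball x (2 * R) = ball (0 : E) (2 * R) := by
        ext v
        simp [mem_ball, dist_eq_norm]
      rw [← hpre, ← (measurePreserving_add_left (volume : Measure E) x).setLIntegral_comp_preimage_emb
        (measurableEmbedding_addLeft x) _ (ball x (2 * R))]
      apply lintegral_congr
      intro v
      simp only [D]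
      rw [Real.norm_eq_abs, abs_sub_comm]
    have hmm : Measurable (fun p : E × E => ENNReal.ofReal ‖u (p.1 + p.2) - u p.1‖) := by
      apply ENNReal.measurable_ofReal.comp
      apply Measurable.norm
      exact (hu.comp (measurable_fst.add measurable_snd)).sub (hu.comp measurable_fst)
    apply ne_top_of_le_ne_top _ (setLIntegral_mono' measurableSet_ball hb)
    apply ne_top_of_le_ne_top _ (setLIntegral_le_lintegral _ _)
    rw [lintegral_lintegral_swap (f := fun x v => ENNReal.ofReal ‖u (x + v) - u x‖) hmm.aemeasurable]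
    have hb2 : ∀ v ∈ ball (0 : E) (2 * R), ∫⁻ x, ENNReal.ofReal ‖u (x + v) - u x‖ ≤
        ENNReal.ofReal (B * (2 * R)) := by
      intro v hv
      refine (hT v).trans (ENNReal.ofReal_le_ofReal ?_)
      rw [mem_ball_zero_iff] at hv
      exact mul_le_mul_of_nonneg_left hv.le hB
    apply ne_top_of_le_ne_top _ (setLIntegral_mono' measurableSet_ball hb2)
    rw [setLIntegral_const]
    exact ENNReal.mul_ne_top ENNReal.ofReal_ne_top (volume_ball_ne_top _ _)
  have hmD : Measurable (fun x => ∫⁻ y in Y n, D x y) := hDm.lintegral_prod_right'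
  have hfinal : volume (Y n) * ∫⁻ x in ball (0 : E) R, ENNReal.ofReal |u x| ≠ ⊤ := by
    rw [← lintegral_const_mul' _ _ hYfin]
    apply ne_top_of_le_ne_top _ (lintegral_mono hpt)
    rw [lintegral_add_right _ hmD, setLIntegral_const]
    exact ENNReal.add_ne_top.mpr ⟨ENNReal.mul_ne_top (ENNReal.mul_ne_top hYfin ENNReal.ofReal_ne_top)
      (volume_ball_ne_top _ _), hdouble⟩
  intro hI
  rw [hI, ENNReal.mul_top hn] at hfinal
  exact hfinal rfl

/-- local integrability of the function, from the translation estimate -/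
lemma locallyIntegrable_of_translate (hu : Measurable u) (hB : 0 ≤ B)
    (hT : ∀ v : E, ∫⁻ x, ENNReal.ofReal ‖u (x + v) - u x‖ ≤ ENNReal.ofReal (B * ‖v‖)) :
    LocallyIntegrable u := by
  intro x
  have hR : 0 < ‖x‖ + 1 := by positivity
  refine ⟨ball (0 : E) (‖x‖ + 1), isOpen_ball.mem_nhds (by simp), ?_⟩
  refine ⟨hu.aestronglyMeasurable, ?_⟩
  have h1 := locInt_of_translate hu hB hT hR
  unfold HasFiniteIntegral
  simp_rw [← ofReal_norm, Real.norm_eq_abs]
  exact h1.lt_top

end

end Vale.Agent.Lib.P137
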